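import Vale.Agent.P157.Core2

namespace Vale.Agent.P157

open MeasureTheory ProbabilityTheory Real Finset Filter Topology
open scoped ENNReal

namespace Sys

variable {S Ω : Type*} [MeasurableSpace S] [MeasurableSpace Ω] {Y : Sys S Ω}
  {H0 H1 g : S → ℝ} {G : S × S → ℝ}

theorem dl_P_mono (hY : Y.OK) (h0 : Y.Lin H0) {g g' : S → ℝ} (hg : Y.Ex g) (hg' : Y.Ex g')
    (hle : ∀ s, g s ≤ g' s) (n j : ℕ) (s : S) : Y.P n j H0 g s ≤ Y.P n j H0 g' s :=
  integral_mono (hg.integrable_m hY h0 n j s) (hg'.integrable_m hY h0 n j s) hle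

theorem dl_abs_le (hY : Y.OK) (h0 : Y.Lin H0) (h1 : Y.Lin H1) {K : ℝ}
    (hK : ∀ s, |H1 s - H0 s| ≤ K) (n j : ℕ) (s : S) : |Y.X n j H1 s - Y.X n j H0 s| ≤ K := by
  have a1 := X_mono hY h1 (h0.add (Lin.const hY K))
    (fun s => by have := (abs_le.1 (hK s)).2; linarith) n j s
  have a2 := X_mono hY h0 (h1.add (Lin.const hY K))
    (fun s => by have := (abs_le.1 (hK s)).1; linarith) n j s
  rw [X_add_const hY h0] at a1
  rw [X_add_const hY h1] at a2
  simp only at a1 a2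
  rw [abs_le]
  constructor <;> linarith

theorem dl_step (hY : Y.OK) (h0 : Y.Lin H0) (h1 : Y.Lin H1) (hg : Y.Ex g) (n j : ℕ) (c : ℝ)
    (s : S) : exp (c * (Y.X (n + 1) j H1 s - Y.X (n + 1) j H0 s)) * Y.P (n + 1) j H1 g s =
      exp (-((Y.ζ j - c) * (Y.X (n + 1) j H1 s - Y.X (n + 1) j H0 s))) *
        ∫ s', exp (Y.ζ j * (Y.X n (j + 1) H1 s' - Y.X n (j + 1) H0 s')) * Y.P n (j + 1) H1 g s'
          ∂Y.stepM j (Y.X n (j + 1) H0) s := by
  rw [P_succ hY h1 hg, integral_stepM_change hY (lin_X hY h0 n (j + 1)) (lin_X hY h1 n (j + 1)) j s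
    (ex_P hY h1 hg n (j + 1)).1, ← mul_assoc, ← exp_add, X, X]
  ring_nf

theorem dl_step_ex (hY : Y.OK) (h0 : Y.Lin H0) (h1 : Y.Lin H1) (hg : Y.Ex g) (n j : ℕ) (c : ℝ) :
    Y.Ex fun s' => exp (c * (Y.X n j H1 s' - Y.X n j H0 s')) * Y.P n j H1 g s' :=
  ((((lin_X hY h1 n j).sub (lin_X hY h0 n j)).const_mul c).ex_exp hY).mul hY (ex_P hY h1 hg n j)

theorem dl1_aux (hY : Y.OK) (hM : Y.Mono) (h0 : Y.Lin H0) (h1 : Y.Lin H1) {K : ℝ}
    (hK : ∀ s, |H1 s - H0 s| ≤ K) (hg : Y.Ex g) (hg0 : ∀ s, 0 ≤ g s) (n j : ℕ) (c : ℝ)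
    (hc0 : 0 ≤ c) (hc : c ≤ Y.ζ j) (s : S) :
    exp (c * (Y.X n j H1 s - Y.X n j H0 s)) * Y.P n j H1 g s ≤
      exp ((2 - c) * K) * Y.P n j H0 g s := by
  induction n generalizing j c s with
  | zero =>
    rw [P_zero hg.1, P_zero hg.1]
    refine mul_le_mul_of_nonneg_right (exp_le_exp.2 ?_) (hg0 s)
    have a1 : H1 s - H0 s ≤ K := (abs_le.1 (hK s)).2
    have a2 : 0 ≤ K := (abs_nonneg _).trans (hK s)
    have a3 := hc.trans (hM.2 j)
    have a4 := mul_le_mul_of_nonneg_left a1 hc0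
    have a5 := mul_nonneg (sub_nonneg.2 a3) a2
    simp only [X]
    linarith
  | succ n ih =>
    have hX := lin_X hY h0 n (j + 1)
    rw [dl_step hY h0 h1 hg, P_succ hY h0 hg]
    have a1 := (abs_le.1 (dl_abs_le hY h0 h1 hK (n + 1) j s)).1
    have a2 : ∫ s', exp (Y.ζ j * (Y.X n (j + 1) H1 s' - Y.X n (j + 1) H0 s')) *
        Y.P n (j + 1) H1 g s' ∂Y.stepM j (Y.X n (j + 1) H0) s ≤
        ∫ s', exp ((2 - Y.ζ j) * K) * Y.P n (j + 1) H0 g s' ∂Y.stepM j (Y.X n (j + 1) H0) s :=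
      integral_mono ((dl_step_ex hY h0 h1 hg _ _ _).integrable_stepM hY hX j s)
        (((ex_P hY h0 hg _ _).integrable_stepM hY hX j s).const_mul _)
        fun s' => ih (j + 1) (Y.ζ j) (hY.ζ_pos j).le (hM.1 (Nat.le_succ j)) s'
    rw [integral_const_mul] at a2
    refine (mul_le_mul_of_nonneg_left a2 (exp_pos _).le).trans ?_
    rw [← mul_assoc, ← exp_add]
    refine mul_le_mul_of_nonneg_right (exp_le_exp.2 ?_)
      (integral_nonneg fun s' => integral_nonneg hg0)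
    have := mul_le_mul_of_nonneg_left a1 (sub_nonneg.2 hc)
    linarith

theorem DL1 (hY : Y.OK) (hM : Y.Mono) (h0 : Y.Lin H0) (h1 : Y.Lin H1) {K : ℝ}
    (hK : ∀ s, |H1 s - H0 s| ≤ K) (hg : Y.Ex g) (hg0 : ∀ s, 0 ≤ g s) (n j : ℕ) (s : S) :
    Y.P n j H1 g s ≤ exp (2 * K) * Y.P n j H0 g s := by
  simpa using dl1_aux hY hM h0 h1 hK hg hg0 n j 0 le_rfl (hY.ζ_pos j).le s

theorem dl_e_ex (hY : Y.OK) (h0 : Y.Lin H0) (h1 : Y.Lin H1) :
    Y.Ex fun s => exp (4 * |H1 s - H0 s|) := ((h1.sub h0).abs.const_mul 4).ex_exp hY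

theorem dl_W_ge (hY : Y.OK) (h0 : Y.Lin H0) (h1 : Y.Lin H1) (n j : ℕ) (s : S) :
    1 ≤ Y.P n j H0 (fun s => exp (4 * |H1 s - H0 s|)) s := by
  have := m_prob hY h0 n j s
  have h := dl_P_mono hY h0 (Ex.const hY 1) (dl_e_ex hY h0 h1)
    (fun s => one_le_exp (by positivity)) n j s
  simpa [P] using h

theorem dl_abs_le_log (hY : Y.OK) (hM : Y.Mono) (h0 : Y.Lin H0) (h1 : Y.Lin H1) (n j : ℕ) (s : S) :
    4 * |Y.X n j H1 s - Y.X n j H0 s| ≤ log (Y.P n j H0 (fun s => exp (4 * |H1 s - H0 s|)) s) := by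
  have := m_prob hY h0 n j s
  have hd := h1.sub h0
  have ie := (dl_e_ex hY h0 h1).integrable_m hY h0 n j s
  have a1 := X_sub_le hY hM.2 h0 h1 n j s
  have a2 := c2_conc ie ((hd.ex_exp hY).integrable_m hY h0 n j s) (θ := 1 / 4) (by norm_num)
    (by norm_num) le_rfl (fun _ => exp_pos _) fun s' => exp_le_exp.2 (by
      rw [log_exp]
      have := le_abs_self (H1 s' - H0 s')
      linarith)
  have a3 := (log_le_iff_le_exp (P_exp_pos hY h0 hd n j s)).2 a2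
  have a4 := le_X_sub hY h0 h1 n j s
  have a5 := c2_jensen (((hd.abs.const_mul 4).ex hY).integrable_m hY h0 n j s) ie
  have a6 := (le_log_iff_exp_le (lt_of_lt_of_le one_pos (dl_W_ge hY h0 h1 n j s))).2 a5
  rw [integral_const_mul] at a6
  have a7 : |Y.P n j H0 (fun s => H1 s - H0 s) s| ≤ ∫ s', |H1 s' - H0 s'| ∂Y.m n j H0 s :=
    abs_integral_le_integral_abs
  have a8 := (abs_le.1 a7).1
  have a9 : |Y.X n j H1 s - Y.X n j H0 s| ≤
      log (Y.P n j H0 (fun s => exp (4 * |H1 s - H0 s|)) s) / 4 := by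
    rw [abs_le]
    constructor
    · linarith
    · simp only [P] at a1 a3 ⊢
      linarith
  linarith

theorem dl_exp_le (hY : Y.OK) (hM : Y.Mono) (h0 : Y.Lin H0) (h1 : Y.Lin H1) (n j : ℕ) (s : S) :
    exp (4 * |Y.X n j H1 s - Y.X n j H0 s|) ≤ Y.P n j H0 (fun s => exp (4 * |H1 s - H0 s|)) s :=
  (le_log_iff_exp_le (lt_of_lt_of_le one_pos (dl_W_ge hY h0 h1 n j s))).1
    (dl_abs_le_log hY hM h0 h1 n j s)

theorem dl2_aux (hY : Y.OK) (hM : Y.Mono) (h0 : Y.Lin H0) (h1 : Y.Lin H1) (hg : Y.Ex g) (n j : ℕ)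
    (c : ℝ) (hc0 : 0 ≤ c) (hc : c ≤ Y.ζ j) (s : S) :
    exp (c * (Y.X n j H1 s - Y.X n j H0 s)) * |Y.P n j H1 g s| ≤
      exp ((2 - c) / 4 * log (Y.P n j H0 (fun s => exp (4 * |H1 s - H0 s|)) s)) *
        √(Y.P n j H0 (fun s => g s ^ 2) s) := by
  have he := dl_e_ex hY h0 h1
  induction n generalizing j c s with
  | zero =>
    rw [P_zero hg.1, P_zero he.1, P_zero (hg.sq hY).1, log_exp, sqrt_sq_eq_abs]
    refine mul_le_mul_of_nonneg_right (exp_le_exp.2 ?_) (abs_nonneg _)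
    have a3 := hc.trans (hM.2 j)
    have a4 := mul_le_mul_of_nonneg_left (le_abs_self (H1 s - H0 s)) hc0
    have a5 := mul_nonneg (sub_nonneg.2 a3) (abs_nonneg (H1 s - H0 s))
    simp only [X]
    linarith
  | succ n ih =>
    have hX := lin_X hY h0 n (j + 1)
    have := stepM_prob hY hX j s
    have hz := hY.ζ_pos j
    have hz1 := hM.2 j
    have hW := ex_P hY h0 he n (j + 1)
    have hG := ex_P hY h0 (hg.sq hY) n (j + 1)
    have hW1 := dl_W_ge hY h0 h1 n (j + 1)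
    have hG0 : ∀ s', 0 ≤ Y.P n (j + 1) H0 (fun s => g s ^ 2) s' := fun s' =>
      integral_nonneg fun _ => sq_nonneg _
    set W := Y.P n (j + 1) H0 (fun s => exp (4 * |H1 s - H0 s|)) with hWdef
    set G := Y.P n (j + 1) H0 (fun s => g s ^ 2) with hGdef
    have hu : ∀ θ : ℝ, θ ≤ 1 → Y.Ex fun s' => exp (θ * log (W s')) := fun θ hθ =>
      Ex.of_le ((hW.1.log.const_mul θ).exp) hW fun s' => by
        have a1 := log_nonneg (hW1 s')
        rw [abs_exp, abs_of_pos (lt_of_lt_of_le one_pos (hW1 s'))]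
        refine (exp_le_exp.2 ?_).trans (exp_log (lt_of_lt_of_le one_pos (hW1 s'))).le
        exact mul_le_of_le_one_left a1 hθ
    have hv : Y.Ex fun s' => √(G s') :=
      Ex.of_le hG.1.sqrt ((Ex.const hY 1).add hY hG) fun s' => by
        rw [abs_of_nonneg (sqrt_nonneg _)]
        refine le_trans (sqrt_le_iff.2 ⟨by linarith [hG0 s'], ?_⟩) (le_abs_self _)
        nlinarith [hG0 s']
    have hu' := hu ((2 - Y.ζ j) / 4) (by linarith)
    have b1 := c2_cs ((hu'.sq hY).integrable_stepM hY hX j s) ((hv.sq hY).integrable_stepM hY hX j s)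
      ((hu'.mul hY hv).integrable_stepM hY hX j s)
    have b2 := c2_conc (hW.integrable_stepM hY hX j s) ((hu'.sq hY).integrable_stepM hY hX j s)
      (θ := (2 - Y.ζ j) / 2) (by linarith) (by linarith) (P_succ hY h0 he n j s).ge
      (fun s' => lt_of_lt_of_le one_pos (hW1 s')) fun s' => le_of_eq (by
        rw [pow_two, ← exp_add]; ring_nf)
    simp only [sq_sqrt (hG0 _)] at b1
    rw [hGdef, ← P_succ hY h0 (hg.sq hY)] at b1
    have hG' : 0 ≤ Y.P (n + 1) j H0 (fun s => g s ^ 2) s := integral_nonneg fun _ => sq_nonneg _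
    have b3 := b1.trans (mul_le_mul_of_nonneg_right b2 hG')
    have b4 := dl_abs_le_log hY hM h0 h1 (n + 1) j s
    set A := log (Y.P (n + 1) j H0 (fun s => exp (4 * |H1 s - H0 s|)) s) with hA
    have b5 : ∫ s', exp ((2 - Y.ζ j) / 4 * log (W s')) * √(G s') ∂Y.stepM j (Y.X n (j + 1) H0) s ≤
        exp ((2 - Y.ζ j) / 4 * A) * √(Y.P (n + 1) j H0 (fun s => g s ^ 2) s) := by
      refine (le_abs_self _).trans (abs_le_of_sq_le_sq' ?_ (by positivity)).2
      rw [sq_abs, mul_pow, sq_sqrt hG', pow_two (exp _), ← exp_add]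
      refine b3.trans (le_of_eq ?_)
      ring_nf
    have b6 : |∫ s', exp (Y.ζ j * (Y.X n (j + 1) H1 s' - Y.X n (j + 1) H0 s')) *
        Y.P n (j + 1) H1 g s' ∂Y.stepM j (Y.X n (j + 1) H0) s| ≤
        ∫ s', exp ((2 - Y.ζ j) / 4 * log (W s')) * √(G s') ∂Y.stepM j (Y.X n (j + 1) H0) s := by
      refine abs_integral_le_integral_abs.trans (integral_mono
        ((dl_step_ex hY h0 h1 hg _ _ _).integrable_stepM hY hX j s).abs
        ((hu'.mul hY hv).integrable_stepM hY hX j s) fun s' => ?_)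
      simp only [abs_mul, abs_exp]
      exact ih (j + 1) (Y.ζ j) hz.le (hM.1 (Nat.le_succ j)) s'
    have b7 := congrArg abs (dl_step hY h0 h1 hg n j c s)
    rw [abs_mul, abs_mul, abs_exp, abs_exp] at b7
    rw [b7]
    refine (mul_le_mul_of_nonneg_left (b6.trans b5) (exp_pos _).le).trans ?_
    rw [← mul_assoc, ← exp_add]
    refine mul_le_mul_of_nonneg_right (exp_le_exp.2 ?_) (sqrt_nonneg _)
    have b8 := mul_le_mul_of_nonneg_left (neg_abs_le (Y.X (n + 1) j H1 s - Y.X (n + 1) j H0 s))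
      (sub_nonneg.2 hc)
    have b9 := mul_le_mul_of_nonneg_left b4 (sub_nonneg.2 hc)
    linarith

theorem dl2_sq (hY : Y.OK) (hM : Y.Mono) (h0 : Y.Lin H0) (h1 : Y.Lin H1) (hg : Y.Ex g) (n j : ℕ)
    (s : S) : Y.P n j H1 g s ^ 2 ≤ Y.P n j H0 (fun s => exp (4 * |H1 s - H0 s|)) s *
      Y.P n j H0 (fun s => g s ^ 2) s := by
  have a1 := dl_W_ge hY h0 h1 n j s
  have a2 := dl2_aux hY hM h0 h1 hg n j 0 le_rfl (hY.ζ_pos j).le s
  rw [zero_mul, exp_zero, one_mul] at a2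
  have a3 := pow_le_pow_left₀ (abs_nonneg _) a2 2
  have hG : 0 ≤ Y.P n j H0 (fun s => g s ^ 2) s := integral_nonneg fun _ => sq_nonneg _
  rw [sq_abs, mul_pow, sq_sqrt hG, pow_two (exp _), ← exp_add] at a3
  refine a3.trans (le_of_eq (congrArg (· * _) ?_))
  rw [← exp_log (lt_of_lt_of_le one_pos a1), log_exp]
  ring_nf

theorem DL2 (hY : Y.OK) (hM : Y.Mono) (h0 : Y.Lin H0) (h1 : Y.Lin H1) (hg : Y.Ex g) (n j : ℕ)
    (s : S) : |Y.P n j H1 g s| ≤ Y.P n j H0 (fun s => exp (4 * |H1 s - H0 s|)) s *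
      √(Y.P n j H0 (fun s => g s ^ 2) s) := by
  have a1 := dl_W_ge hY h0 h1 n j s
  have a2 := dl2_aux hY hM h0 h1 hg n j 0 le_rfl (hY.ζ_pos j).le s
  rw [zero_mul, exp_zero, one_mul] at a2
  refine a2.trans (mul_le_mul_of_nonneg_right ?_ (sqrt_nonneg _))
  have a3 := log_nonneg a1
  refine (exp_le_exp.2 ?_).trans (exp_log (lt_of_lt_of_le one_pos a1)).le
  linarith

/-- the average of `G` over two independent branches -/
noncomputable def dlG (Y : Sys S Ω) (n j : ℕ) (H : S → ℝ) (G : S × S → ℝ) (s : S) : ℝ :=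
  ∫ s1, ∫ s2, G (s1, s2) ∂Y.m n j H s ∂Y.m n j H s

theorem dl_P_bd (hY : Y.OK) (h0 : Y.Lin H0) (hb : ∀ s, |g s| ≤ 1) (n j : ℕ) (s : S) :
    |∫ s', g s' ∂Y.m n j H0 s| ≤ 1 := by
  have := m_prob hY h0 n j s
  simpa using norm_integral_le_of_norm_le_const (μ := Y.m n j H0 s) (f := g) (C := 1)
    (Eventually.of_forall hb)

theorem dl_gg_bd (hY : Y.OK) (h0 : Y.Lin H0) (hb : ∀ p, |G p| ≤ 1) (n j : ℕ) (s : S) :
    |dlG Y n j H0 G s| ≤ 1 :=
  dl_P_bd hY h0 (fun _ => dl_P_bd hY h0 (fun _ => hb _) n j s) n j s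

theorem dl_gg_ex (hY : Y.OK) (h0 : Y.Lin H0) (hG : Measurable G) (hb : ∀ p, |G p| ≤ 1) (n j : ℕ) :
    Y.Ex (dlG Y n j H0 G) := by
  refine Ex.of_bdd hY ?_ 1 (dl_gg_bd hY h0 hb n j)
  have m1 := measurable_P_param hY h0 n j hG
  exact (measurable_P_param hY h0 n j (m1.comp measurable_swap)).comp
    (measurable_id.prodMk measurable_id)

theorem dl_in_ex (hY : Y.OK) (h0 : Y.Lin H0) (hG : Measurable G) (hb : ∀ p, |G p| ≤ 1) (n j : ℕ)
    (s : S) : Y.Ex fun s1 => ∫ s2, G (s1, s2) ∂Y.m n j H0 s :=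
  Ex.of_bdd hY ((measurable_P_param hY h0 n j hG).comp (measurable_id.prodMk measurable_const)) 1
    fun _ => dl_P_bd hY h0 (fun _ => hb _) n j s

theorem dl_gg_sq (hY : Y.OK) (hM : Y.Mono) (h0 : Y.Lin H0) (h1 : Y.Lin H1) (hG : Measurable G)
    (hG0 : ∀ p, 0 ≤ G p) (hG1 : ∀ p, G p ≤ 1) (n j : ℕ) (s : S) :
    dlG Y n j H1 G s ^ 2 ≤
      Y.P n j H0 (fun s => exp (4 * |H1 s - H0 s|)) s ^ 2 * dlG Y n j H0 G s := by
  have hb : ∀ p, |G p| ≤ 1 := fun p => by rw [abs_of_nonneg (hG0 p)]; exact hG1 p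
  have b1 := zero_le_one.trans (dl_W_ge hY h0 h1 n j s)
  have e1 := dl_in_ex hY h1 hG hb n j s
  have e0 := dl_in_ex hY h0 hG hb n j s
  refine (dl2_sq hY hM h0 h1 e1 n j s).trans ?_
  rw [pow_two, mul_assoc]
  refine mul_le_mul_of_nonneg_left ?_ b1
  rw [dlG, ← integral_const_mul]
  refine dl_P_mono hY h0 (e1.sq hY) (e0.const_mul hY _) (fun s1 => ?_) n j s
  have e2 : Y.Ex fun s2 => G (s1, s2) :=
    Ex.of_bdd hY (hG.comp measurable_prodMk_left) 1 fun _ => hb _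
  refine (dl2_sq hY hM h0 h1 e2 n j s).trans (mul_le_mul_of_nonneg_left ?_ b1)
  exact dl_P_mono hY h0 (e2.sq hY) e2 (fun s2 => by nlinarith [hG0 (s1, s2), hG1 (s1, s2)]) n j s

theorem dl_trunk (hY : Y.OK) (hM : Y.Mono) (h0 : Y.Lin H0) (h1 : Y.Lin H1) (l n j : ℕ) (s : S) :
    Y.P l j (Y.X n (j + l) H0) (fun s => exp (4 * |Y.X n (j + l) H1 s - Y.X n (j + l) H0 s|)) s ≤
      Y.P (l + n) j H0 (fun s => exp (4 * |H1 s - H0 s|)) s := by
  have hK0 := lin_X hY h0 n (j + l)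
  rw [P_add hY h0 (dl_e_ex hY h0 h1)]
  exact dl_P_mono hY hK0 (dl_e_ex hY hK0 (lin_X hY h1 n (j + l)))
    (ex_P hY h0 (dl_e_ex hY h0 h1) _ _) (dl_exp_le hY hM h0 h1 n (j + l)) l j s

theorem DLpr (hY : Y.OK) (hM : Y.Mono) (h0 : Y.Lin H0) (h1 : Y.Lin H1) (hG : Measurable G)
    (hG0 : ∀ p, 0 ≤ G p) (hG1 : ∀ p, G p ≤ 1) (l n j : ℕ) (s : S) {A L : ℝ} (hL : 1 ≤ L)
    (hA : Y.P (l + n) j H0 (fun s => exp (4 * |H1 s - H0 s|)) s ≤ A) :
    ∫ p, G p ∂Y.pr l n j H1 s ≤ A * √(L ^ 4 * (∫ p, G p ∂Y.pr l n j H0 s) + A / L) := by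
  have hb : ∀ p, |G p| ≤ 1 := fun p => by rw [abs_of_nonneg (hG0 p)]; exact hG1 p
  have he := dl_e_ex hY h0 h1
  have hK0 := lin_X hY h0 n (j + l)
  have hK1 := lin_X hY h1 n (j + l)
  have hW := ex_P hY h0 he n (j + l)
  have g0 := dl_gg_ex hY h0 hG hb n (j + l)
  have g1 := dl_gg_ex hY h1 hG hb n (j + l)
  have a1 := DL2 hY hM hK0 hK1 g1 l j s
  have a2 := (dl_trunk hY hM h0 h1 l n j s).trans hA
  have hL0 : 0 < L := lt_of_lt_of_le one_pos hL
  have a3 : Y.P l j (Y.X n (j + l) H0) (fun s' => dlG Y n (j + l) H1 G s' ^ 2) s ≤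
      Y.P l j (Y.X n (j + l) H0) (fun s' => L ^ 4 * dlG Y n (j + l) H0 G s' +
        L⁻¹ * Y.P n (j + l) H0 (fun s => exp (4 * |H1 s - H0 s|)) s') s := by
    refine dl_P_mono hY hK0 (g1.sq hY) ((g0.const_mul hY _).add hY (hW.const_mul hY _))
      (fun s' => ?_) l j s
    have b0 : 0 ≤ dlG Y n (j + l) H0 G s' := integral_nonneg fun _ => integral_nonneg fun _ => hG0 _
    have b1 := dl_W_ge hY h0 h1 n (j + l) s'
    set W := Y.P n (j + l) H0 (fun s => exp (4 * |H1 s - H0 s|)) s'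
    rcases le_total W L with hWL | hWL
    · have b2 := dl_gg_sq hY hM h0 h1 hG hG0 hG1 n (j + l) s'
      have b3 : W ^ 2 ≤ L ^ 4 :=
        (pow_le_pow_left₀ (by linarith) hWL 2).trans (pow_le_pow_right₀ hL (by norm_num))
      have b4 := mul_le_mul_of_nonneg_right b3 b0
      have b5 : 0 ≤ L⁻¹ * W := by positivity
      linarith
    · have b2 : dlG Y n (j + l) H1 G s' ^ 2 ≤ 1 :=
        (sq_le_one_iff_abs_le_one _).2 (dl_gg_bd hY h1 hb n (j + l) s')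
      have b3 : 1 ≤ L⁻¹ * W := by rw [inv_mul_eq_div, one_le_div hL0]; exact hWL
      have b4 : 0 ≤ L ^ 4 * dlG Y n (j + l) H0 G s' := by positivity
      linarith
  have a4 := P_add hY h0 he l n j s
  rw [P, P, integral_add ((g0.integrable_m hY hK0 l j s).const_mul _)
    ((hW.integrable_m hY hK0 l j s).const_mul _), integral_const_mul, integral_const_mul] at a3
  rw [integral_pr hY h1 (Ex2.of_bdd hY hG 1 hb), integral_pr hY h0 (Ex2.of_bdd hY hG 1 hb)]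
  refine (le_abs_self _).trans (a1.trans (mul_le_mul a2 (sqrt_le_sqrt (a3.trans ?_)) (sqrt_nonneg _)
    (zero_le_one.trans ((dl_W_ge hY hK0 hK1 l j s).trans a2))))
  refine add_le_add le_rfl ?_
  rw [div_eq_inv_mul]
  exact mul_le_mul_of_nonneg_left (a4.ge.trans hA) (by positivity)

theorem dl_close (hY : Y.OK) (hM : Y.Mono) (h0 : Y.Lin H0) (h1 : Y.Lin H1) (hg : Measurable g)
    (hb : ∀ s, |g s| ≤ 1) (n j : ℕ) (s : S) : |Y.P n j H1 g s - Y.P n j H0 g s| ≤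
      √(Y.P n j H0 (fun s => exp (4 * |H1 s - H0 s|)) s - 1) := by
  have := m_prob hY h0 n j s
  have := m_prob hY h1 n j s
  have he : Y.Ex g := Ex.of_bdd hY hg 1 hb
  set a := Y.P n j H0 g s with ha
  set d := Y.P n j H1 g s - a with hd
  have hu : Y.Ex fun s' => (1 - d * a) + d * g s' := (Ex.const hY _).add hY (he.const_mul hY d)
  have a1 := dl2_sq hY hM h0 h1 hu n j s
  have a2 : Y.P n j H1 (fun s' => (1 - d * a) + d * g s') s = 1 + d ^ 2 := by
    rw [P, integral_add (integrable_const _) ((he.integrable_m hY h1 n j s).const_mul _),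
      integral_const_mul d]
    simp only [integral_const, probReal_univ, smul_eq_mul, one_mul]
    have : ∫ s', g s' ∂Y.m n j H1 s = d + a := by rw [hd]; exact (sub_add_cancel _ _).symm
    rw [this]; ring
  have a3 : Y.P n j H0 (fun s' => ((1 - d * a) + d * g s') ^ 2) s ≤
      Y.P n j H0 (fun s' => ((1 - d * a) ^ 2 + d ^ 2) + 2 * (1 - d * a) * d * g s') s :=
    dl_P_mono hY h0 (hu.sq hY) ((Ex.const hY _).add hY (he.const_mul hY _)) (fun s' => by
      have b1 := mul_le_mul_of_nonneg_left ((sq_le_one_iff_abs_le_one _).2 (hb s')) (sq_nonneg d)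
      nlinarith) n j s
  have a4 : Y.P n j H0 (fun s' => ((1 - d * a) ^ 2 + d ^ 2) + 2 * (1 - d * a) * d * g s') s =
      1 + d ^ 2 - (d * a) ^ 2 := by
    rw [P, integral_add (integrable_const _) ((he.integrable_m hY h0 n j s).const_mul _),
      integral_const_mul (2 * (1 - d * a) * d)]
    simp only [integral_const, probReal_univ, smul_eq_mul, one_mul]
    have : ∫ s', g s' ∂Y.m n j H0 s = a := rfl
    rw [this]; ring
  have a5 := zero_le_one.trans (dl_W_ge hY h0 h1 n j s)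
  rw [a4] at a3
  have a6 := a1.trans (mul_le_mul_of_nonneg_left (a3.trans (sub_le_self _ (sq_nonneg _))) a5)
  rw [a2, pow_two] at a6
  have a7 := le_of_mul_le_mul_right a6 (by positivity)
  exact abs_le_sqrt (by linarith)

theorem dl_gg_close (hY : Y.OK) (hM : Y.Mono) (h0 : Y.Lin H0) (h1 : Y.Lin H1) (hG : Measurable G)
    (hb : ∀ p, |G p| ≤ 1) (n j : ℕ) (s : S) : |dlG Y n j H1 G s - dlG Y n j H0 G s| ≤
      2 * √(Y.P n j H0 (fun s => exp (4 * |H1 s - H0 s|)) s - 1) := by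
  have := m_prob hY h1 n j s
  have e1 := dl_in_ex hY h1 hG hb n j s
  have e0 := dl_in_ex hY h0 hG hb n j s
  have a1 := dl_close hY hM h0 h1 e0.1 (fun _ => dl_P_bd hY h0 (fun _ => hb _) n j s) n j s
  have a2 := norm_integral_le_of_norm_le_const (μ := Y.m n j H1 s)
    (f := fun s1 => (∫ s2, G (s1, s2) ∂Y.m n j H1 s) - ∫ s2, G (s1, s2) ∂Y.m n j H0 s)
    (Eventually.of_forall fun s1 => dl_close hY hM h0 h1 (g := fun s2 => G (s1, s2))
      (hG.comp measurable_prodMk_left) (fun _ => hb _) n j s)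
  rw [integral_sub (e1.integrable_m hY h1 n j s) (e0.integrable_m hY h1 n j s), probReal_univ,
    mul_one, Real.norm_eq_abs] at a2
  rw [two_mul]
  exact (abs_sub_le _ _ _).trans (add_le_add a2 a1)

theorem CLpr (hY : Y.OK) (hM : Y.Mono) (h0 : Y.Lin H0) (h1 : Y.Lin H1) (hG : Measurable G)
    (hG1 : ∀ p, |G p| ≤ 1) (l n j : ℕ) (s : S) {A : ℝ}
    (hA : Y.P (l + n) j H0 (fun s => exp (4 * |H1 s - H0 s|)) s ≤ A) :
    |(∫ p, G p ∂Y.pr l n j H1 s) - ∫ p, G p ∂Y.pr l n j H0 s| ≤ 6 * A * √(A - 1) := by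
  have he := dl_e_ex hY h0 h1
  have hK0 := lin_X hY h0 n (j + l)
  have hK1 := lin_X hY h1 n (j + l)
  have hW := ex_P hY h0 he n (j + l)
  have g0 := dl_gg_ex hY h0 hG hG1 n (j + l)
  have g1 := dl_gg_ex hY h1 hG hG1 n (j + l)
  have a1 := DL2 hY hM hK0 hK1 (g1.sub hY g0) l j s
  have a2 := (dl_trunk hY hM h0 h1 l n j s).trans hA
  have hA1 := (dl_W_ge hY hK0 hK1 l j s).trans a2
  have a3 : Y.P l j (Y.X n (j + l) H0)
      (fun s' => (dlG Y n (j + l) H1 G s' - dlG Y n (j + l) H0 G s') ^ 2) s ≤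
      Y.P l j (Y.X n (j + l) H0) (fun s' =>
        4 * Y.P n (j + l) H0 (fun s => exp (4 * |H1 s - H0 s|)) s' - 4) s := by
    refine dl_P_mono hY hK0 ((g1.sub hY g0).sq hY) ((hW.const_mul hY _).sub hY (Ex.const hY 4))
      (fun s' => ?_) l j s
    have b1 := dl_W_ge hY h0 h1 n (j + l) s'
    have b2 := pow_le_pow_left₀ (abs_nonneg _) (dl_gg_close hY hM h0 h1 hG hG1 n (j + l) s') 2
    rw [sq_abs, mul_pow, sq_sqrt (by linarith)] at b2
    linarith
  have a4 := P_add hY h0 he l n j s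
  have := m_prob hY hK0 l j s
  rw [P, P, integral_sub ((hW.integrable_m hY hK0 l j s).const_mul _) (integrable_const _),
    integral_const_mul] at a3
  simp only [integral_const, probReal_univ, smul_eq_mul, one_mul] at a3
  have a5 : √(Y.P l j (Y.X n (j + l) H0)
      (fun s' => (dlG Y n (j + l) H1 G s' - dlG Y n (j + l) H0 G s') ^ 2) s) ≤ 2 * √(A - 1) := by
    refine sqrt_le_iff.2 ⟨by positivity, a3.trans ?_⟩
    rw [mul_pow, sq_sqrt (by linarith)]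
    have := a4.ge.trans hA
    rw [P] at this
    linarith
  have a6 := a1.trans (mul_le_mul a2 a5 (sqrt_nonneg _) (by linarith))
  rw [P, integral_sub (g1.integrable_m hY hK1 l j s) (g0.integrable_m hY hK1 l j s)] at a6
  have a7 := (dl_close hY hM hK0 hK1 g0.1 (dl_gg_bd hY h0 hG1 n (j + l)) l j s).trans
    (sqrt_le_sqrt (sub_le_sub_right a2 1))
  rw [integral_pr hY h1 (Ex2.of_bdd hY hG 1 hG1), integral_pr hY h0 (Ex2.of_bdd hY hG 1 hG1)]
  refine (abs_sub_le _ (∫ s', dlG Y n (j + l) H0 G s' ∂Y.m l j (Y.X n (j + l) H1) s) _).trans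
    ((add_le_add a6 a7).trans ?_)
  have a8 := sqrt_nonneg (A - 1)
  nlinarith

end Sys

end Vale.Agent.P157
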