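import Vale.Agent.P157.GSB

/-! Resampling the unused coordinates of one level. -/

namespace Vale.Agent.P157

open MeasureTheory ProbabilityTheory Real Finset Filter Topology
open scoped ENNReal NNReal

theorem ra_mp_sum {J J1 J2 : Type} [Fintype J] [Fintype J1] [Fintype J2] {e : J → J1 ⊕ J2}
    (he : Function.Injective e) :
    MeasurePreserving (fun (z : (J1 → ℝ) × (J2 → ℝ)) j => Sum.elim z.1 z.2 (e j))
      ((γ J1).prod (γ J2)) (γ J) := by
  have h := (measurePreserving_coord he).comp
    (measurePreserving_sumPiEquivProdPi_symm (fun _ : J1 ⊕ J2 => gaussianReal 0 1))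
  have e1 : (fun (z : (J1 → ℝ) × (J2 → ℝ)) j => Sum.elim z.1 z.2 (e j)) =
      (fun (v : J1 ⊕ J2 → ℝ) i => v (e i)) ∘
        (MeasurableEquiv.sumPiEquivProdPi (fun _ : J1 ⊕ J2 => ℝ)).symm := by
    funext z j
    simp only [Function.comp_apply]
    cases e j <;> rfl
  rw [e1]
  exact h

variable {I Cf : Type} [Fintype I] [MeasurableSpace Cf] {k : ℕ} {ν : Measure Cf}
  [IsProbabilityMeasure ν] (p : I → Prop) [DecidablePred p] {H : St I Cf → ℝ}

/-- mixing two vectors -/
def raPw (v x : I → ℝ) : I → ℝ := fun i => if p i then v i else x i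

theorem ra_mp_pw : MeasurePreserving (fun z : (I → ℝ) × (I → ℝ) => raPw p z.1 z.2)
    ((γ I).prod (γ I)) (γ I) := by
  have h := ra_mp_sum (J := I) (e := fun i => if p i then Sum.inl i else Sum.inr i)
    (fun a b hab => by
      beta_reduce at hab
      split_ifs at hab <;> simp_all)
  have e1 : (fun z : (I → ℝ) × (I → ℝ) => raPw p z.1 z.2) = fun z j =>
      Sum.elim z.1 z.2 (if p j then Sum.inl j else Sum.inr j) := by
    funext z j
    unfold raPw
    split_ifs <;> rfl
  rw [e1]
  exact h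

theorem ra_lint {F : (I → ℝ) → ℝ≥0∞} (hF : Measurable F) :
    ∫⁻ v, ∫⁻ w : Cf × (I → ℝ), F (raPw p v w.2) ∂ν.prod (γ I) ∂γ I =
      ∫⁻ w : Cf × (I → ℝ), F w.2 ∂ν.prod (γ I) := by
  have hm := hF.comp (ra_mp_pw p).measurable
  have h1 : ∀ v, ∫⁻ w : Cf × (I → ℝ), F (raPw p v w.2) ∂ν.prod (γ I) =
      ∫⁻ x, F (raPw p v x) ∂γ I := fun v =>
    measurePreserving_snd.lintegral_comp (f := fun x => F (raPw p v x))
      (hm.comp (measurable_const.prodMk measurable_id))
  simp only [h1]
  rw [measurePreserving_snd.lintegral_comp hF, ← (ra_mp_pw p).lintegral_comp hF,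
    lintegral_prod (fun z : (I → ℝ) × (I → ℝ) => F (raPw p z.1 z.2)) hm.aemeasurable]

/-- overwrite the level `j` -/
def raUp (j : ℕ) (s : St I Cf) (x : I → ℝ) : St I Cf := (s.1, Function.update s.2 j x)

/-- resample the marked coordinates of the level `j` -/
def raR (j : ℕ) (v : I → ℝ) (s : St I Cf) : St I Cf := raUp j s (raPw p v (s.2 j))

omit [Fintype I] in
theorem ra_meas_up (j : ℕ) : Measurable (fun z : St I Cf × (I → ℝ) => raUp j z.1 z.2) :=
  measurable_fst.fst.prodMk (measurable_update'.comp (measurable_fst.snd.prodMk measurable_snd))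

theorem ra_meas_R (j : ℕ) : Measurable (fun z : St I Cf × (I → ℝ) => raR p j z.2 z.1) :=
  (ra_meas_up j).comp (measurable_fst.prodMk ((ra_mp_pw p).measurable.comp
    (measurable_snd.prodMk ((measurable_pi_apply j).comp measurable_fst.snd))))

omit [IsProbabilityMeasure ν] in
theorem ra_a {j : ℕ} (hj : j < k) (s : St I Cf) (w : Cf × (I → ℝ)) :
    (GS k I ν).a j s w = raUp j s w.2 := if_pos hj

omit [Fintype I] [MeasurableSpace Cf] in
theorem ra_R_up (j : ℕ) (v x : I → ℝ) (s : St I Cf) :
    raR p j v (raUp j s x) = raUp j s (raPw p v x) := by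
  simp [raR, raUp]

omit [Fintype I] [MeasurableSpace Cf] in
theorem ra_H (hp : ∀ s u, H (mrg k p s u) = H s) {j : ℕ} (hj : j < k) (v : I → ℝ)
    (s : St I Cf) : H (raR p j v s) = H s := by
  rw [← hp s (fun z => if (z.1 : ℕ) = j then v z.2 else s.2 z.1 z.2)]
  congr 1
  unfold raR raUp mrg raPw
  congr 1
  funext j' i
  by_cases h : j' = j
  · subst h
    by_cases h2 : p i <;> simp [h2, hj]
  · simp [h]

theorem ra_hom (hk : 0 < k) {j : ℕ} (hj : j < k) (v : I → ℝ) (n : ℕ) :
    Sys.Hom (GS k I ν) (GS k I ν) (fun _ => raR p j v) (fun _ => id) n (j + 1) := by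
  have hY : (GS k I ν).OK := gs_ok hk
  refine ⟨fun _ => (ra_meas_R p j).comp (measurable_id.prodMk measurable_const),
    fun _ _ _ => MeasurePreserving.id _, fun _ _ _ => rfl, fun i hi _ s w => ?_,
    1 + ∑ i, |v i|, fun _ _ _ s => ?_⟩
  · have hne : j ≠ i := by omega
    simp only [GS, raR, raUp, id]
    split_ifs
    · dsimp only
      rw [Function.update_of_ne hne, Function.update_comm hne]
    · rfl
    · rfl
  · have h0 : 0 ≤ ∑ i, |v i| := by positivity
    have h1 := hY.ν_nonneg s
    have h2 : (GS k I ν).ν (raR p j v s) ≤ (GS k I ν).ν s + ∑ i, |v i| := by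
      simp only [GS, raR, raUp]
      have : ∀ j' ∈ range k, ∑ i, |Function.update s.2 j (raPw p v (s.2 j)) j' i| ≤
          ∑ i, |s.2 j' i| + if j' = j then ∑ i, |v i| else 0 := by
        intro j' _
        by_cases h : j' = j
        · subst h
          simp only [Function.update_self, if_true, ← sum_add_distrib]
          refine sum_le_sum (fun i _ => ?_)
          unfold raPw
          split_ifs
          · linarith [abs_nonneg (s.2 j' i)]
          · linarith [abs_nonneg (v i)]
        · simp [h]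
      refine (sum_le_sum this).trans ?_
      rw [sum_add_distrib, sum_ite_eq', if_pos (mem_range.2 hj)]
    nlinarith [mul_nonneg h0 h1]

theorem ra_step (hk : 0 < k) (hH : (GS k I ν).Lin H) (hp : ∀ s u, H (mrg k p s u) = H s)
    {j : ℕ} (hj : j < k) (n : ℕ) {g : St I Cf → ℝ≥0∞} (hg : Measurable g) (s : St I Cf) :
    ∫⁻ s', ∫⁻ v, g (raR p j v s') ∂γ I ∂(GS k I ν).m (n + 1) j H s =
      ∫⁻ s', g s' ∂(GS k I ν).m (n + 1) j H s := by
  have hY : (GS k I ν).OK := gs_ok hk
  have hX := Sys.lin_X hY hH n (j + 1)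
  have hm := Sys.measurable_m hY hH n (j + 1)
  have := Sys.m_prob hY hH (n + 1) j s
  have hR : ∀ v, Measurable (raR p j v : St I Cf → St I Cf) := fun v =>
    (ra_meas_R p j).comp (measurable_id.prodMk measurable_const)
  have hG : Measurable (fun s1 => ∫⁻ s', g s' ∂(GS k I ν).m n (j + 1) H s1) :=
    (Measure.measurable_lintegral hg).comp hm
  have e1 : ∀ v s1, (GS k I ν).X n (j + 1) H s1 = (GS k I ν).X n (j + 1) H (raR p j v s1) := by
    intro v s1
    have := (ra_hom p hk hj v n).X_eq hY hH s1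
    simpa only [ra_H p hp hj] using this
  have e2 : ∀ v s1, ∫⁻ s', g (raR p j v s') ∂(GS k I ν).m n (j + 1) H s1 =
      ∫⁻ s', g s' ∂(GS k I ν).m n (j + 1) H (raR p j v s1) := by
    intro v s1
    have := (ra_hom p hk hj v n).m_map hY hY hH s1
    simp only [ra_H p hp hj] at this
    rw [← this, lintegral_map hg (hR v)]
  let F : (I → ℝ) → ℝ≥0∞ := fun x => ENNReal.ofReal (exp ((GS k I ν).ζ j *
    ((GS k I ν).X n (j + 1) H (raUp j s x) - (GS k I ν).T j ((GS k I ν).X n (j + 1) H) s))) *
      ∫⁻ s', g s' ∂(GS k I ν).m n (j + 1) H (raUp j s x)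
  have hU : Measurable (raUp j s) := (ra_meas_up j).comp (measurable_const.prodMk measurable_id)
  have hF : Measurable F :=
    (((hX.1.comp hU).sub_const _).const_mul _).exp.ennreal_ofReal.mul (hG.comp hU)
  have e3 : ∀ v, ∫⁻ s', g (raR p j v s') ∂(GS k I ν).m (n + 1) j H s =
      ∫⁻ w : Cf × (I → ℝ), F (raPw p v w.2) ∂ν.prod (γ I) := by
    intro v
    rw [Sys.m, Measure.lintegral_bind hm.aemeasurable
      (f := fun s' => g (raR p j v s')) (hg.comp (hR v)).aemeasurable]
    simp only [e2]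
    rw [Sys.lintegral_stepM hY hX j s
      (g := fun s1 => ∫⁻ s', g s' ∂(GS k I ν).m n (j + 1) H (raR p j v s1)) (hG.comp (hR v))]
    refine lintegral_congr (fun w => ?_)
    rw [e1 v, ra_a hj, ra_R_up]
  have e4 : ∫⁻ s', g s' ∂(GS k I ν).m (n + 1) j H s =
      ∫⁻ w : Cf × (I → ℝ), F w.2 ∂ν.prod (γ I) := by
    rw [Sys.m, Measure.lintegral_bind hm.aemeasurable hg.aemeasurable,
      Sys.lintegral_stepM hY hX j s hG]
    refine lintegral_congr (fun w => ?_)
    rw [ra_a hj]
  rw [lintegral_lintegral_swap (f := fun s' v => g (raR p j v s'))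
    (hg.comp (ra_meas_R p j)).aemeasurable, e4, ← ra_lint p hF]
  exact lintegral_congr e3

theorem ra_level [Nonempty Cf] (hk : 0 < k) (hH : (GS k I ν).Lin H)
    (hp : ∀ s u, H (mrg k p s u) = H s) {j : ℕ} (hj : j < k) {g : St I Cf → ℝ≥0∞}
    (hg : Measurable g) :
    ∫⁻ s', ∫⁻ v, g (raR p j v s') ∂γ I ∂mm k ν H = ∫⁻ s', g s' ∂mm k ν H := by
  have hY : (GS k I ν).OK := gs_ok hk
  have hm := Sys.measurable_m hY hH (k - j + 1) j
  have hg' : Measurable (fun s' => ∫⁻ v, g (raR p j v s') ∂γ I) :=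
    (hg.comp (ra_meas_R p j)).lintegral_prod_right'
  unfold mm
  rw [show k + 1 = j + (k - j + 1) by omega, Sys.m_add hY hH, Nat.zero_add,
    Measure.lintegral_bind hm.aemeasurable hg'.aemeasurable,
    Measure.lintegral_bind hm.aemeasurable hg.aemeasurable]
  exact lintegral_congr (fun s => ra_step p hk hH hp hj _ hg s)

/-- replace the marked coordinates of the levels below `j` -/
def raM (k j : ℕ) (s : St I Cf) (u : Fin k × I → ℝ) : St I Cf :=
  (s.1, fun j' i => if h : j' < k ∧ p i ∧ j' < j then u (⟨j', h.1⟩, i) else s.2 j' i)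

omit [Fintype I] in
theorem ra_meas_M (j : ℕ) :
    Measurable (fun z : St I Cf × (Fin k × I → ℝ) => raM p k j z.1 z.2) := by
  refine measurable_fst.fst.prodMk (measurable_pi_lambda _ (fun j' =>
    measurable_pi_lambda _ (fun i => ?_)))
  by_cases h : j' < k ∧ p i ∧ j' < j
  · simp only [dif_pos h]
    fun_prop
  · simp only [dif_neg h]
    fun_prop

theorem ra_all [Nonempty Cf] (hk : 0 < k) (hH : (GS k I ν).Lin H)
    (hp : ∀ s u, H (mrg k p s u) = H s) {j : ℕ} (hj : j ≤ k) {g : St I Cf → ℝ≥0∞}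
    (hg : Measurable g) :
    ∫⁻ s, ∫⁻ u, g (raM p k j s u) ∂γ (Fin k × I) ∂mm k ν H = ∫⁻ s, g s ∂mm k ν H := by
  induction j generalizing g with
  | zero =>
    refine lintegral_congr (fun s => ?_)
    simp [raM]
  | succ j ih =>
    have hg' : Measurable (fun s' => ∫⁻ v, g (raR p j v s') ∂γ I) :=
      (hg.comp (ra_meas_R p j)).lintegral_prod_right'
    rw [← ra_level p hk hH hp (show j < k by omega) hg, ← ih (by omega) hg']
    refine lintegral_congr (fun s => ?_)
    have h1 := ra_mp_sum (J := Fin k × I) (J1 := Fin k × I) (J2 := I)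
      (e := fun z => if (z.1 : ℕ) = j then Sum.inr z.2 else Sum.inl z) (fun a b hab => by
        beta_reduce at hab
        split_ifs at hab with h1 h2
        · exact Prod.ext (Fin.ext (h1.trans h2.symm)) (Sum.inr.inj hab)
        · exact Sum.inl.inj hab)
    have h2 : Measurable (fun u => g (raM p k (j + 1) s u)) :=
      hg.comp ((ra_meas_M p (j + 1)).comp (measurable_const.prodMk measurable_id))
    refine (h1.lintegral_comp h2).symm.trans
      ((lintegral_prod _ (h2.comp h1.measurable).aemeasurable).trans ?_)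
    refine lintegral_congr (fun u => lintegral_congr (fun v => ?_))
    refine congrArg g ?_
    unfold raR raUp raM raPw
    congr 1
    funext j' i
    by_cases h : j' = j
    · subst h
      by_cases h2 : p i <;> simp [h2, show j' < k by omega]
    · have h3 : j' < j + 1 ↔ j' < j := by omega
      simp [h, h3]

end Vale.Agent.P157
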