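import Vale.Agent.P157.Defs

/-! Linear forms of Gaussian vectors and exponential moments. -/

namespace Vale.Agent.P157

open MeasureTheory ProbabilityTheory Real Finset Filter Topology
open scoped ENNReal NNReal

theorem rb_char {J : Type} [Fintype J] (c : J → ℝ) :
    ∫ u, Complex.exp ((∑ j, c j * u j : ℝ) * Complex.I) ∂γ J =
      Complex.exp (-((∑ j, c j ^ 2 : ℝ) : ℂ) / 2) := by
  have h1 : ∀ u : J → ℝ, Complex.exp ((∑ j, c j * u j : ℝ) * Complex.I) =
      ∏ j, Complex.exp (c j * u j * Complex.I) := by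
    intro u
    rw [← Complex.exp_sum]
    push_cast
    rw [Finset.sum_mul]
  simp only [h1]
  rw [integral_fintype_prod_eq_prod (fun j (x : ℝ) => Complex.exp (c j * x * Complex.I))]
  simp only [← charFun_apply_real, charFun_gaussianReal, ← Complex.exp_sum]
  congr 1
  push_cast
  rw [neg_div, Finset.sum_div, ← Finset.sum_neg_distrib]
  refine sum_congr rfl (fun j _ => ?_)
  ring

theorem rb_gprod {J α : Type} [Fintype J] [Fintype α] [DecidableEq α] (grp : J → α) (c : J → ℝ) :
    (γ J).map (fun u a => ∑ j ∈ univ.filter (fun j => grp j = a), c j * u j) =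
      Measure.pi fun a => gaussianReal 0
        (Real.toNNReal (∑ j ∈ univ.filter (fun j => grp j = a), c j ^ 2)) := by
  have hm : Measurable (fun (u : J → ℝ) a => ∑ j ∈ univ.filter (fun j => grp j = a), c j * u j) := by
    fun_prop
  refine charFun_eq_pi_iff.1 (fun t => ?_)
  rw [charFun_apply, Measure.map_map (by fun_prop) hm,
    integral_map (Measurable.aemeasurable (by fun_prop)) (by fun_prop)]
  have h1 : ∀ u : J → ℝ, (inner ℝ ((WithLp.toLp 2 ∘ fun (u : J → ℝ) a =>
      ∑ j ∈ univ.filter (fun j => grp j = a), c j * u j) u) t : ℝ) =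
      ∑ j, t (grp j) * c j * u j := by
    intro u
    rw [PiLp.inner_apply, ← sum_fiberwise univ grp (fun j => t (grp j) * c j * u j)]
    refine sum_congr rfl (fun a _ => ?_)
    simp only [Function.comp_apply, RCLike.inner_apply, conj_trivial, Finset.mul_sum]
    refine sum_congr rfl (fun j hj => ?_)
    rw [(mem_filter.1 hj).2]
    ring
  simp only [h1]
  rw [rb_char (fun j => t (grp j) * c j)]
  simp only [charFun_gaussianReal, ← Complex.exp_sum]
  congr 1
  rw [← sum_fiberwise univ grp (fun j => (t (grp j) * c j) ^ 2), Complex.ofReal_sum, neg_div,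
    Finset.sum_div, ← Finset.sum_neg_distrib]
  refine sum_congr rfl (fun a _ => ?_)
  have h2 : ∑ j ∈ univ.filter (fun j => grp j = a), (t (grp j) * c j) ^ 2 =
      (∑ j ∈ univ.filter (fun j => grp j = a), c j ^ 2) * t a ^ 2 := by
    rw [Finset.sum_mul]
    refine sum_congr rfl (fun j hj => ?_)
    rw [(mem_filter.1 hj).2]
    ring
  rw [h2, Real.coe_toNNReal _ (by positivity)]
  push_cast
  ring

theorem rb_glin {J : Type} [Fintype J] (c : J → ℝ) :
    (γ J).map (fun u => ∑ j, c j * u j) = gaussianReal 0 (Real.toNNReal (∑ j, c j ^ 2)) := by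
  refine Measure.ext_of_charFun (funext fun t => ?_)
  rw [charFun_apply_real, integral_map (Measurable.aemeasurable (by fun_prop)) (by fun_prop),
    charFun_gaussianReal]
  have h1 : ∀ u : J → ℝ, (t : ℂ) * ((∑ j, c j * u j : ℝ) : ℂ) =
      ((∑ j, t * c j * u j : ℝ) : ℂ) := by
    intro u
    push_cast
    rw [Finset.mul_sum]
    exact sum_congr rfl (fun j _ => by ring)
  simp only [h1]
  rw [rb_char (fun j => t * c j), Real.coe_toNNReal _ (by positivity)]
  congr 1
  have h2 : ∑ j, (t * c j) ^ 2 = (∑ j, c j ^ 2) * t ^ 2 := by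
    rw [Finset.sum_mul]
    exact sum_congr rfl (fun j _ => by ring)
  rw [h2]
  push_cast
  ring

theorem rb_le (c z : ℝ) : exp (c * |z|) ≤ exp (c * z) + exp (-c * z) := by
  rcases abs_cases z with h | h <;> rw [h.1]
  · linarith [exp_pos (-c * z)]
  · rw [show c * -z = -c * z by ring]
    linarith [exp_pos (c * z)]

theorem rb_int (v : ℝ≥0) (c : ℝ) : Integrable (fun z => exp (c * |z|)) (gaussianReal 0 v) := by
  refine ((integrable_exp_mul_gaussianReal c).add (integrable_exp_mul_gaussianReal (-c))).mono'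
    (by fun_prop) (ae_of_all _ fun z => ?_)
  rw [Real.norm_of_nonneg (exp_pos _).le]
  exact rb_le c z

theorem rb_abs (v : ℝ≥0) (c : ℝ) :
    ∫ z, exp (c * |z|) ∂gaussianReal 0 v ≤ 2 * exp (c ^ 2 * v / 2) := by
  have h : ∀ t : ℝ, ∫ z, exp (t * z) ∂gaussianReal 0 v = exp (t ^ 2 * v / 2) := fun t => by
    have := congrFun (mgf_fun_id_gaussianReal (μ := 0) (v := v)) t
    rw [mgf] at this
    rw [this]
    congr 1
    ring
  refine (integral_mono (rb_int v c) ((integrable_exp_mul_gaussianReal c).add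
    (integrable_exp_mul_gaussianReal (-c))) (rb_le c)).trans ?_
  simp only [Pi.add_apply]
  rw [integral_add (integrable_exp_mul_gaussianReal c) (integrable_exp_mul_gaussianReal (-c)),
    h, h, neg_sq]
  linarith

theorem rb_small (ε : ℝ) (hε : 0 < ε) : ∃ τ > 0, ∀ v : ℝ≥0, (v : ℝ) ≤ τ →
    ∫ z, exp (4 * |z|) ∂gaussianReal 0 v ≤ 1 + ε := by
  set δ := log (1 + ε / 2) / 4 with hδ
  have hδ0 : 0 < δ := div_pos (log_pos (by linarith)) (by norm_num)
  have e1 : exp (4 * δ) = 1 + ε / 2 := by
    rw [hδ, mul_div_cancel₀ _ (by norm_num), exp_log (by linarith)]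
  set L := max 0 ((1 + log (4 / ε)) / δ) with hL
  have hL0 : 0 ≤ L := le_max_left _ _
  have hL1 : 1 + log (4 / ε) ≤ L * δ := (div_le_iff₀ hδ0).1 (le_max_right _ _)
  refine ⟨2 / (4 + L) ^ 2, by positivity, fun v hv => ?_⟩
  have h1 : ∀ z : ℝ, exp (4 * |z|) ≤ exp (4 * δ) + exp (-(L * δ)) * exp ((4 + L) * |z|) := by
    intro z
    have h0 : 0 < exp (-(L * δ)) * exp ((4 + L) * |z|) := by positivity
    rcases le_total |z| δ with h | h
    · linarith [exp_le_exp.2 (show 4 * |z| ≤ 4 * δ by linarith)]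
    · rw [← exp_add]
      have : 4 * |z| ≤ -(L * δ) + (4 + L) * |z| := by nlinarith
      linarith [exp_le_exp.2 this, exp_pos (4 * δ)]
  have h2 := rb_abs v (4 + L)
  have h3 : (4 + L) ^ 2 * v / 2 ≤ 1 := by
    rw [le_div_iff₀ (by positivity)] at hv
    linarith
  have h4 : exp (-(L * δ)) * exp 1 ≤ ε / 4 := by
    rw [← exp_add]
    refine (exp_le_exp.2 (show -(L * δ) + 1 ≤ -log (4 / ε) by linarith)).trans ?_
    rw [exp_neg, exp_log (by positivity), inv_div]
  refine (integral_mono (rb_int v 4) ((integrable_const _).add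
    ((rb_int v (4 + L)).const_mul _)) h1).trans ?_
  simp only [Pi.add_apply]
  rw [integral_add (integrable_const _) ((rb_int v (4 + L)).const_mul _), integral_const_mul, e1]
  simp only [integral_const, probReal_univ, one_smul]
  have h5 := mul_le_mul_of_nonneg_left (h2.trans (mul_le_mul_of_nonneg_left (exp_le_exp.2 h3)
    (by norm_num))) (exp_pos (-(L * δ))).le
  nlinarith

end Vale.Agent.P157
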