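import Vale.Agent.P157.GI
import Vale.Agent.P157.DL
import Vale.Agent.P157.RestA
import Vale.Agent.P157.RestB

namespace Vale.Agent.P157

open MeasureTheory ProbabilityTheory Real Finset Filter Topology
open scoped ENNReal NNReal

variable {I A Cf : Type} [Fintype I] [MeasurableSpace Cf] {k : ℕ} {ν : Measure Cf}
  [IsProbabilityMeasure ν]

omit [Fintype I] in
theorem measurable_mrg (p : I → Prop) [DecidablePred p] :
    Measurable fun z : St I Cf × (Fin k × I → ℝ) => mrg k p z.1 z.2 := by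
  refine measurable_fst.fst.prodMk (measurable_pi_lambda _ (fun j' =>
    measurable_pi_lambda _ (fun i => ?_)))
  by_cases h : j' < k ∧ p i
  · simp only [dif_pos h]
    fun_prop
  · simp only [dif_neg h]
    fun_prop

/-- coordinates that the Hamiltonian does not use stay independent standard Gaussians -/
theorem rest [Nonempty Cf] (hk : 0 < k) (p : I → Prop) [DecidablePred p] {H : St I Cf → ℝ}
    (hH : (GS k I ν).Lin H) (hp : ∀ s u, H (mrg k p s u) = H s) :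
    ((mm k ν H).prod (γ (Fin k × I))).map (fun z => mrg k p z.1 z.2) = mm k ν H := by
  have := mm_prob hk hH
  refine Measure.ext_of_lintegral _ (fun g hg => ?_)
  rw [lintegral_map hg (measurable_mrg p), lintegral_prod
    (fun z : St I Cf × (Fin k × I → ℝ) => g (mrg k p z.1 z.2))
    (hg.comp (measurable_mrg p)).aemeasurable, ← ra_all p hk hH hp le_rfl hg]
  refine lintegral_congr (fun s => lintegral_congr (fun u => congrArg g ?_))
  unfold mrg raM
  congr 1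
  funext j i
  by_cases h : j < k <;> simp [h]

theorem lintegral_rest [Nonempty Cf] (hk : 0 < k) (p : I → Prop) [DecidablePred p]
    {H : St I Cf → ℝ} (hH : (GS k I ν).Lin H) (hp : ∀ s u, H (mrg k p s u) = H s)
    {g : St I Cf → ℝ≥0∞} (hg : Measurable g) {C : ℝ≥0∞}
    (hC : ∀ s, ∫⁻ u, g (mrg k p s u) ∂γ (Fin k × I) ≤ C) : ∫⁻ s, g s ∂mm k ν H ≤ C := by
  have := mm_prob hk hH
  rw [← rest hk p hH hp, lintegral_map hg (measurable_mrg p), lintegral_prod
    (fun z : St I Cf × (Fin k × I → ℝ) => g (mrg k p z.1 z.2))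
    (hg.comp (measurable_mrg p)).aemeasurable]
  refine (lintegral_mono hC).trans ?_
  simp

theorem integral_rest_le [Nonempty Cf] (hk : 0 < k) (p : I → Prop) [DecidablePred p]
    {H : St I Cf → ℝ} (hH : (GS k I ν).Lin H) (hp : ∀ s u, H (mrg k p s u) = H s)
    {g : St I Cf → ℝ} (hg : (GS k I ν).Ex g) {C : ℝ}
    (hC : ∀ s, ∫ u, g (mrg k p s u) ∂γ (Fin k × I) ≤ C) : ∫ s, g s ∂mm k ν H ≤ C := by
  have := mm_prob hk hH
  have h1 := integrable_mm hk hH hg
  rw [← rest hk p hH hp] at h1 ⊢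
  have h2 : Integrable (fun z : St I Cf × (Fin k × I → ℝ) => g (mrg k p z.1 z.2))
      ((mm k ν H).prod (γ (Fin k × I))) :=
    (integrable_map_measure hg.1.aestronglyMeasurable (measurable_mrg p).aemeasurable).1 h1
  rw [integral_map (measurable_mrg p).aemeasurable hg.1.aestronglyMeasurable, integral_prod _ h2]
  refine (integral_mono h2.integral_prod_left (integrable_const C) hC).trans ?_
  simp

/-- linear forms in disjoint groups of independent Gaussians -/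
theorem gprod {J α : Type} [Fintype J] [Fintype α] [DecidableEq α] (grp : J → α) (c : J → ℝ) :
    (γ J).map (fun u a => ∑ j ∈ univ.filter (fun j => grp j = a), c j * u j) =
      Measure.pi fun a => gaussianReal 0
        (Real.toNNReal (∑ j ∈ univ.filter (fun j => grp j = a), c j ^ 2)) := 
  rb_gprod grp c

theorem glin {J : Type} [Fintype J] (c : J → ℝ) :
    (γ J).map (fun u => ∑ j, c j * u j) = gaussianReal 0 (Real.toNNReal (∑ j, c j ^ 2)) := 
  rb_glin c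

theorem integral_exp_abs_gauss (v : ℝ≥0) (c : ℝ) :
    ∫ z, exp (c * |z|) ∂gaussianReal 0 v ≤ 2 * exp (c ^ 2 * v / 2) := rb_abs v c

theorem integral_exp_abs_gauss_small (ε : ℝ) (hε : 0 < ε) : ∃ τ > 0, ∀ v : ℝ≥0, (v : ℝ) ≤ τ →
    ∫ z, exp (4 * |z|) ∂gaussianReal 0 v ≤ 1 + ε := rb_small ε hε

theorem ef_close [Nonempty Cf] (hk : 0 < k) {H0 H1 : St I Cf → ℝ} (h0 : (GS k I ν).Lin H0)
    (h1 : (GS k I ν).Lin H1) {ε B : ℝ} (hε : 0 < ε)
    (hA : ∫ s, exp (4 * |H1 s - H0 s|) ∂mm k ν H0 ≤ 1 + min 1 ((ε / 12) ^ 2))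
    {G : St I Cf × St I Cf → ℝ} (hG : Measurable G) (hB : ∀ z, |G z| ≤ B) {l : ℕ}
    (hl : l ≤ k + 1) :
    |(∫ z, G z ∂pp k ν H1 l) - ∫ z, G z ∂pp k ν H0 l| ≤ ε * B := by
  have hB0 : 0 ≤ B := (abs_nonneg _).trans (hB (s0 I Cf, s0 I Cf))
  rcases hB0.eq_or_lt with h | h
  · subst h
    have : G = fun _ => 0 := funext fun z => abs_nonpos_iff.1 (hB z)
    simp [this]
  have h2 := Sys.CLpr (gs_ok hk) gs_mono h0 h1 (G := fun z => G z / B) (hG.div_const B)
    (fun z => by rw [abs_div, abs_of_pos h, div_le_one h]; exact hB z) l (k + 1 - l) 0 (s0 I Cf)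
    (A := 1 + min 1 ((ε / 12) ^ 2)) (by rw [show l + (k + 1 - l) = k + 1 by omega]; exact hA)
  rw [integral_div, integral_div, ← sub_div, abs_div, abs_of_pos h, div_le_iff₀ h,
    add_sub_cancel_left] at h2
  refine h2.trans (mul_le_mul_of_nonneg_right ?_ hB0)
  have h3 : √(min 1 ((ε / 12) ^ 2)) ≤ ε / 12 :=
    (sqrt_le_sqrt (min_le_right _ _)).trans (sqrt_sq (by positivity)).le
  have h4 : min 1 ((ε / 12) ^ 2) ≤ 1 := min_le_left _ _
  have h5 := sqrt_nonneg (min 1 ((ε / 12) ^ 2))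
  nlinarith

section EFaux

variable [Fintype A] [DecidableEq A] {R : Rg I A Cf} {K : ℝ} {a0 : A} {p : I → Prop}

omit [IsProbabilityMeasure ν] in
theorem ef_form [Nonempty Cf] (hR : R.OK K) (hF : R.F a0 = id) (w : ℕ → I → ℝ)
    {θ : ℕ → I → ℝ} (hp : ∀ i, p i → R.own i = a0) (hθ : ∀ i, ¬p i → ∀ j < k, θ j i = 0) :
    R.GI k ν w θ = (1 / 2) * (∫ s, ∑ i, (∑ j ∈ range k, θ j i) * R.e i s.1 ^ 2
      ∂mm k ν (R.Hv k w)) - (1 / (2 * (k : ℝ))) * ∑ l ∈ range k,
        ∫ z, ∑ i, (∑ j ∈ range l, θ j i) * (R.e i z.1.1 * R.e i z.2.1) ∂pp k ν (R.Hv k w) l := by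
  have e1 : R.F1 a0 = fun _ => 1 := funext fun u => by
    have := hR.d1 a0 u
    rw [hF] at this
    exact this.unique (hasDerivAt_id u)
  have e2 : ∀ u, R.F2 a0 u = 0 := fun u => by
    have := hR.d2 a0 u
    rw [e1] at this
    exact this.unique (hasDerivAt_const u 1)
  have e3 : ∀ i, p i → ∀ s, R.ψ k w i s = R.e i s.1 := fun i hi s => by
    rw [Rg.ψ, hp i hi, e1, mul_one]
  have e4 : ∀ i, ¬p i → ∀ l ≤ k, ∑ j ∈ range l, θ j i = 0 := fun i hi l hl =>
    sum_eq_zero fun j hj => hθ i hi j ((mem_range.1 hj).trans_le hl)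
  unfold Rg.GI
  congr 2
  · refine integral_congr_ae (ae_of_all _ fun s => sum_congr rfl fun i _ => ?_)
    by_cases hi : p i
    · rw [Rg.dg, e3 i hi, hp i hi, e2, mul_zero, zero_add]
    · rw [e4 i hi k le_rfl, zero_mul, zero_mul]
  · refine sum_congr rfl fun l hl => integral_congr_ae (ae_of_all _ fun s =>
      sum_congr rfl fun i _ => ?_)
    by_cases hi : p i
    · rw [e3 i hi, e3 i hi]
    · rw [e4 i hi l (mem_range.1 hl).le, zero_mul, zero_mul]

omit [MeasurableSpace Cf] in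
theorem ef_diff (hF : R.F a0 = id) {lam lam' : ℕ → I → ℝ} (hp : ∀ i, p i → R.own i = a0)
    (h : ∀ i, ¬p i → ∀ j < k, lam' j i = lam j i) (s : St I Cf) :
    R.H k lam' s - R.H k lam s =
      ∑ j ∈ range k, ∑ i, (lam' j i - lam j i) * R.e i s.1 * s.2 j i := by
  unfold Rg.H
  rw [← sum_sub_distrib, sum_eq_single a0, hF]
  · simp only [id, Rg.U, ← sum_sub_distrib]
    refine sum_congr rfl fun j hj => ?_
    rw [sum_filter]
    refine sum_congr rfl fun i _ => ?_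
    split_ifs with hi
    · ring
    · rw [h i (fun h' => hi (hp i h')) j (mem_range.1 hj)]
      ring
  · intro a _ ha
    rw [sub_eq_zero]
    congr 1
    refine sum_congr rfl fun j hj => sum_congr rfl fun i hi => ?_
    rw [h i (fun h' => ha ((mem_filter.1 hi).2.symm.trans (hp i h'))) j (mem_range.1 hj)]
  · simp

omit [MeasurableSpace Cf] in
theorem ef_inv [DecidablePred p] {w : ℕ → I → ℝ} (hp : ∀ i, p i → ∀ j < k, w j i = 0)
    (s : St I Cf) (u : Fin k × I → ℝ) : R.Hv k w (mrg k p s u) = R.Hv k w s := by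
  unfold Rg.Hv Rg.H
  refine sum_congr rfl fun a _ => congrArg _ ?_
  refine sum_congr rfl fun j hj => sum_congr rfl fun i _ => ?_
  by_cases hi : p i
  · simp [hp i hi j (mem_range.1 hj)]
  · simp [mrg, hi]

theorem ef_A [Nonempty Cf] (hR : R.OK K) (hk : 0 < k) (hF : R.F a0 = id) {w w' θ : ℕ → I → ℝ}
    (hp : ∀ i, p i → R.own i = a0 ∧ ∀ j < k, w j i = 0)
    (h : ∀ i, ¬p i → ∀ j < k, w' j i = w j i)
    (hd : ∀ j < k, ∀ i, (√(w' j i) - √(w j i)) ^ 2 ≤ θ j i) {τ C : ℝ}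
    (hB : ∀ σ, ∑ i, (∑ j ∈ range k, θ j i) * R.e i σ ^ 2 ≤ τ)
    (hτ : ∀ v : ℝ≥0, (v : ℝ) ≤ τ → ∫ z, exp (4 * |z|) ∂gaussianReal 0 v ≤ C) :
    ∫ s, exp (4 * |R.Hv k w' s - R.Hv k w s|) ∂mm k ν (R.Hv k w) ≤ C := by
  classical
  refine integral_rest_le hk p (Rg.lin_Hv hR hk w) (ef_inv fun i hi => (hp i hi).2)
    (Sys.dl_e_ex (gs_ok hk) (Rg.lin_Hv hR hk w) (Rg.lin_Hv hR hk w')) (fun s => ?_)
  let c : Fin k × I → ℝ := fun z => (√(w' z.1 z.2) - √(w z.1 z.2)) * R.e z.2 s.1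
  have e1 : ∀ u, R.Hv k w' (mrg k p s u) - R.Hv k w (mrg k p s u) = ∑ z, c z * u z := by
    intro u
    unfold Rg.Hv
    rw [ef_diff hF (fun i hi => (hp i hi).1) (fun i hi j hj => by rw [h i hi j hj]),
      Fintype.sum_prod_type, sum_range]
    refine sum_congr rfl fun j _ => sum_congr rfl fun i _ => ?_
    by_cases hi : p i
    · simp [mrg, hi, c]
    · simp [c, h i hi j j.2]
  simp only [e1]
  have e2 := integral_map (μ := γ (Fin k × I)) (φ := fun u => ∑ z, c z * u z)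
    (Measurable.aemeasurable (by fun_prop)) (f := fun x : ℝ => exp (4 * |x|)) (by fun_prop)
  rw [← e2, glin]
  refine hτ _ ?_
  rw [Real.coe_toNNReal _ (by positivity)]
  refine le_trans ?_ (hB s.1)
  rw [Fintype.sum_prod_type_right]
  refine sum_le_sum fun i _ => ?_
  rw [sum_range, Finset.sum_mul]
  refine sum_le_sum fun j _ => ?_
  simp only [c, mul_pow]
  exact mul_le_mul_of_nonneg_right (hd j j.2 i) (sq_nonneg _)

end EFaux

/-- a small extra field on fresh coordinates of a linear term -/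
theorem EF (ε : ℝ) (hε : 0 < ε) : ∃ τ > 0, ∀ (I A Cf : Type) [Fintype I] [Fintype A]
    [DecidableEq A] [MeasurableSpace Cf] [Nonempty Cf] (R : Rg I A Cf) (K : ℝ) (_ : R.OK K)
    (k : ℕ) (_ : 0 < k) (ν : Measure Cf) [IsProbabilityMeasure ν] (a0 : A) (_ : R.F a0 = id)
    (p : I → Prop) (w θ : ℕ → I → ℝ) (η B : ℝ) (_ : ∀ j < k, ∀ i, 0 ≤ w j i)
    (_ : ∀ j < k, ∀ i, 0 ≤ θ j i) (_ : ∀ i, p i → R.own i = a0 ∧ ∀ j < k, w j i = 0)
    (_ : ∀ i, ¬p i → ∀ j < k, θ j i = 0)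
    (_ : ∀ σ, ∑ i, (∑ j ∈ range k, θ j i) * R.e i σ ^ 2 ≤ B) (_ : 0 ≤ η) (_ : η * B ≤ τ),
    |R.Yv k ν (fun j i => w j i + η * θ j i) - R.Yv k ν w - η * R.GI k ν w θ| ≤ ε * η * B := by
  obtain ⟨τ, hτ0, hτ⟩ := integral_exp_abs_gauss_small (min 1 ((ε / 12) ^ 2)) (by positivity)
  refine ⟨τ, hτ0, ?_⟩
  intro I A Cf _ _ _ _ _ R K hR k hk ν _ a0 hF p w θ η B hw hθ hp hnp hB hη hηB
  obtain ⟨t, ht, e⟩ := Rg.GI_mvt (ν := ν) hR hk (w1 := fun j i => w j i + η * θ j i) hw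
    (fun j hj i => add_nonneg (hw j hj i) (mul_nonneg hη (hθ j hj i)))
  simp only [add_sub_cancel_left] at e
  set w' : ℕ → I → ℝ := fun j i => w j i + t * (η * θ j i) with hw'
  have e1 : R.GI k ν w' (fun j i => η * θ j i) = η * R.GI k ν w' θ := by
    simp only [Rg.GI_eq hR hk, Finset.mul_sum (a := η)]
    exact sum_congr rfl fun j _ => sum_congr rfl fun i _ => by ring
  have hA := ef_A (ν := ν) hR hk hF (w' := w') (θ := fun j i => η * θ j i) hp
    (fun i hi j hj => by simp [hw', hnp i hi j hj]) (fun j hj i => by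
      have h0 := mul_nonneg hη (hθ j hj i)
      by_cases hi : p i
      · simp only [hw', (hp i hi).2 j hj, zero_add, sqrt_zero, sub_zero]
        rw [sq_sqrt (mul_nonneg ht.1.le h0)]
        nlinarith [ht.2]
      · simp [hw', hnp i hi j hj]) (fun σ => by
      refine le_trans ?_ ((mul_le_mul_of_nonneg_left (hB σ) hη).trans hηB)
      simp only [← Finset.mul_sum, mul_assoc]
      exact le_rfl) hτ
  have h0 := Rg.lin_Hv (ν := ν) hR hk w
  have h1 := Rg.lin_Hv (ν := ν) hR hk w'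
  have hme := hR.me
  have hΘ : ∀ l ≤ k, ∀ i, 0 ≤ ∑ j ∈ range l, θ j i := fun l hl i =>
    sum_nonneg fun j hj => hθ j ((mem_range.1 hj).trans_le hl) i
  have hm1 : Measurable fun s : St I Cf => ∑ i, (∑ j ∈ range k, θ j i) * R.e i s.1 ^ 2 := by
    fun_prop
  have c1 := ef_close hk h0 h1 hε hA
    (G := fun z => ∑ i, (∑ j ∈ range k, θ j i) * R.e i z.1.1 ^ 2) (hm1.comp measurable_fst)
    (fun z => by
      rw [abs_of_nonneg (sum_nonneg fun i _ => mul_nonneg (hΘ k le_rfl i) (sq_nonneg _))]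
      exact hB _) (Nat.zero_le _)
  have c2 : ∀ l ∈ range k, |(∫ z, ∑ i, (∑ j ∈ range l, θ j i) * (R.e i z.1.1 * R.e i z.2.1)
      ∂pp k ν (R.Hv k w') l) - ∫ z, ∑ i, (∑ j ∈ range l, θ j i) * (R.e i z.1.1 * R.e i z.2.1)
        ∂pp k ν (R.Hv k w) l| ≤ ε * B := by
    intro l hl
    have hl' := (mem_range.1 hl).le
    refine ef_close hk h0 h1 hε hA (by fun_prop) (fun z => ?_) (by omega)
    refine (abs_sum_le_sum_abs _ _).trans ?_
    have h2 : ∑ i, |(∑ j ∈ range l, θ j i) * (R.e i z.1.1 * R.e i z.2.1)| ≤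
        ∑ i, ((∑ j ∈ range k, θ j i) * R.e i z.1.1 ^ 2 +
          (∑ j ∈ range k, θ j i) * R.e i z.2.1 ^ 2) / 2 := by
      refine sum_le_sum fun i _ => ?_
      have h3 : ∑ j ∈ range l, θ j i ≤ ∑ j ∈ range k, θ j i :=
        sum_le_sum_of_subset_of_nonneg (range_mono hl') fun j hj _ => hθ j (mem_range.1 hj) i
      have h4 : |R.e i z.1.1 * R.e i z.2.1| ≤ (R.e i z.1.1 ^ 2 + R.e i z.2.1 ^ 2) / 2 :=
        abs_le.2 ⟨by nlinarith [sq_nonneg (R.e i z.1.1 + R.e i z.2.1)],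
          by nlinarith [sq_nonneg (R.e i z.1.1 - R.e i z.2.1)]⟩
      rw [abs_mul, abs_of_nonneg (hΘ l hl' i), ← mul_add, mul_div_assoc]
      exact mul_le_mul h3 h4 (abs_nonneg _) (hΘ k le_rfl i)
    rw [← Finset.sum_div, sum_add_distrib] at h2
    linarith [hB z.1.1, hB z.2.1]
  have c3 := (abs_sum_le_sum_abs _ _).trans (sum_le_sum c2)
  rw [sum_sub_distrib, sum_const, card_range, nsmul_eq_mul] at c3
  rw [← integral_map (φ := Prod.fst) measurable_fst.aemeasurable hm1.aestronglyMeasurable,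
    ← integral_map (φ := Prod.fst) measurable_fst.aemeasurable hm1.aestronglyMeasurable,
    pp_map_fst hk h0 (Nat.zero_le _), pp_map_fst hk h1 (Nat.zero_le _)] at c1
  rw [e, e1, ← mul_sub, abs_mul, abs_of_nonneg hη, show ε * η * B = η * (ε * B) by ring]
  refine mul_le_mul_of_nonneg_left ?_ hη
  rw [ef_form hR hF w' (fun i hi => (hp i hi).1) hnp, ef_form hR hF w (fun i hi => (hp i hi).1) hnp]
  have hk' : (0 : ℝ) < k := by exact_mod_cast hk
  have key : ∀ a b c d : ℝ, |a - b| ≤ ε * B → |c - d| ≤ k * (ε * B) →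
      |1 / 2 * a - 1 / (2 * (k : ℝ)) * c - (1 / 2 * b - 1 / (2 * (k : ℝ)) * d)| ≤ ε * B := by
    intro a b c d h2 h3
    have h4 : |(c - d) / k| ≤ ε * B := by
      rw [abs_div, abs_of_pos hk', div_le_iff₀ hk']
      linarith
    rw [show 1 / 2 * a - 1 / (2 * (k : ℝ)) * c - (1 / 2 * b - 1 / (2 * (k : ℝ)) * d) =
      (a - b) / 2 - (c - d) / k / 2 by field_simp; ring]
    rw [abs_le] at h2 h4 ⊢
    constructor <;> linarith [h2.1, h2.2, h4.1, h4.2]
  exact key _ _ _ _ c1 c3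

end Vale.Agent.P157
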