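import Vale.Agent.P157.TiltA

/-! The log partition function of the perceptron as a function of the patterns. -/

namespace Vale.Agent.P157

open MeasureTheory ProbabilityTheory Real Finset Filter Topology
open scoped ENNReal

section Gen

variable {Cf : Type*} [MeasurableSpace Cf] {ν : Measure Cf} [IsProbabilityMeasure ν]
  {H H' : Cf → ℝ}

theorem tl_int_exp1 (hH : Measurable H) {B : ℝ} (h : ∀ σ, |H σ| ≤ B) :
    Integrable (fun σ => exp (H σ)) ν := by
  simpa using tl_int_exp (ρ := ν) hH h 1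

theorem tl_log_le (hH : Measurable H) (hH' : Measurable H') {B B' c : ℝ} (h : ∀ σ, |H σ| ≤ B)
    (h' : ∀ σ, |H' σ| ≤ B') (hle : ∀ σ, H σ ≤ H' σ + c) :
    log (∫ σ, exp (H σ) ∂ν) ≤ log (∫ σ, exp (H' σ) ∂ν) + c := by
  have p1 := integral_exp_pos (tl_int_exp1 (ν := ν) hH h)
  have p2 := integral_exp_pos (tl_int_exp1 (ν := ν) hH' h')
  rw [← log_exp c, ← log_mul p2.ne' (exp_pos c).ne', ← integral_mul_const]
  refine log_le_log p1 (integral_mono (tl_int_exp1 hH h) ((tl_int_exp1 hH' h').mul_const _)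
    fun σ => ?_)
  simp only [← exp_add]
  exact exp_le_exp.2 (hle σ)

theorem tl_abs_log_sub (hH : Measurable H) (hH' : Measurable H') {B B' c : ℝ}
    (h : ∀ σ, |H σ| ≤ B) (h' : ∀ σ, |H' σ| ≤ B') (hle : ∀ σ, |H σ - H' σ| ≤ c) :
    |log (∫ σ, exp (H σ) ∂ν) - log (∫ σ, exp (H' σ) ∂ν)| ≤ c := by
  have a1 := tl_log_le (ν := ν) hH hH' h h' (c := c) fun σ => by
    linarith [(abs_le.1 (hle σ)).2]
  have a2 := tl_log_le (ν := ν) hH' hH h' h (c := c) fun σ => by
    linarith [(abs_le.1 (hle σ)).1]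
  exact abs_le.2 ⟨by linarith, by linarith⟩

theorem tl_abs_log_le (hH : Measurable H) {B : ℝ} (h : ∀ σ, |H σ| ≤ B) :
    |log (∫ σ, exp (H σ) ∂ν)| ≤ B := by
  simpa using tl_abs_log_sub (ν := ν) hH (H' := fun _ => 0) measurable_const h (B' := 0)
    (by simp) (c := B) (by simpa using h)

end Gen

variable {ι κ Cf : Type} [Fintype ι] [Fintype κ] [MeasurableSpace Cf] {ν : Measure Cf}
  {x : Cf → ι → ℝ} {f : ℝ → ℝ} {C : ℝ}

/-- the Hamiltonian of the perceptron -/
noncomputable def tlH (x : Cf → ι → ℝ) (f : ℝ → ℝ) (g : κ → ι → ℝ) (σ : Cf) : ℝ :=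
  ∑ a, f ((∑ i, g a i * x σ i) / √(Fintype.card ι : ℝ))

/-- the log partition function -/
noncomputable def tlL (ν : Measure Cf) (x : Cf → ι → ℝ) (f : ℝ → ℝ) (g : κ → ι → ℝ) : ℝ :=
  log (∫ σ, exp (tlH x f g σ) ∂ν)

theorem EL_eq_tlL : EL κ ν x f = ∫ g, tlL ν x f g ∂(Measure.pi fun _ : κ => γ ι) := rfl

theorem measurable_tlH2 (hx : Measurable x) (hf : Measurable f) :
    Measurable fun p : (κ → ι → ℝ) × Cf => tlH x f p.1 p.2 := by
  unfold tlH
  refine Finset.measurable_sum _ fun a _ => hf.comp (Measurable.div_const ?_ _)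
  refine Finset.measurable_sum _ fun i _ => Measurable.mul (by fun_prop) ?_
  exact (measurable_pi_apply i).comp (hx.comp measurable_snd)

theorem measurable_tlH (hx : Measurable x) (hf : Measurable f) (g : κ → ι → ℝ) :
    Measurable (tlH x f g) := by
  have h := (measurable_tlH2 (κ := κ) hx hf).comp (measurable_prodMk_left (x := g))
  exact h

omit [MeasurableSpace Cf] in
theorem abs_tlH_le (hC : ∀ u, |f u| ≤ C) (g : κ → ι → ℝ) (σ : Cf) :
    |tlH x f g σ| ≤ C * Fintype.card κ := by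
  refine (abs_sum_le_sum_abs _ _).trans ((sum_le_sum fun a _ => hC _).trans (le_of_eq ?_))
  simp [mul_comm]

theorem measurable_tlL [SFinite ν] (hx : Measurable x) (hf : Measurable f) :
    Measurable (tlL ν x f : (κ → ι → ℝ) → ℝ) :=
  (measurable_tlH2 hx hf).exp.stronglyMeasurable.integral_prod_right'.measurable.log

theorem abs_tlL_le [IsProbabilityMeasure ν] (hx : Measurable x) (hf : Measurable f)
    (hC : ∀ u, |f u| ≤ C) (g : κ → ι → ℝ) : |tlL ν x f g| ≤ C * Fintype.card κ :=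
  tl_abs_log_le (measurable_tlH hx hf g) (abs_tlH_le hC g)

theorem integrable_tlL [IsProbabilityMeasure ν] (hx : Measurable x) (hf : Measurable f)
    (hC : ∀ u, |f u| ≤ C) (ρ : Measure (κ → ι → ℝ)) [IsFiniteMeasure ρ] :
    Integrable (tlL ν x f) ρ :=
  tl_int_bdd (measurable_tlL hx hf) (abs_tlL_le hx hf hC)

omit [MeasurableSpace Cf] in
theorem tlH_update [DecidableEq κ] (g : κ → ι → ℝ) (a : κ) (e : ι → ℝ) (σ : Cf) :
    tlH x f (Function.update g a e) σ = f ((∑ i, e i * x σ i) / √(Fintype.card ι : ℝ)) +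
      ∑ b ∈ univ.erase a, f ((∑ i, g b i * x σ i) / √(Fintype.card ι : ℝ)) := by
  rw [tlH, ← add_sum_erase _ _ (mem_univ a), Function.update_self]
  congr 1
  exact sum_congr rfl fun b hb => by rw [Function.update_of_ne (ne_of_mem_erase hb)]

theorem tlL_update [DecidableEq κ] [IsProbabilityMeasure ν] (hx : Measurable x)
    (hf : Measurable f) (hC : ∀ u, |f u| ≤ C) (g : κ → ι → ℝ) (a : κ) (e : ι → ℝ) :
    |tlL ν x f (Function.update g a e) - tlL ν x f g| ≤ 2 * C := by
  refine tl_abs_log_sub (measurable_tlH hx hf _) (measurable_tlH hx hf _) (abs_tlH_le hC _)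
    (abs_tlH_le hC _) fun σ => ?_
  conv_lhs => enter [1, 2]; rw [← Function.update_eq_self a g]
  rw [tlH_update, tlH_update, add_sub_add_right_eq_sub]
  refine (abs_sub _ _).trans ?_
  linarith [hC ((∑ i, e i * x σ i) / √(Fintype.card ι : ℝ)),
    hC ((∑ i, g a i * x σ i) / √(Fintype.card ι : ℝ))]

theorem tl_nice_meas {f f1 f2 : ℝ → ℝ} {K : ℝ} (hf : Nice f f1 f2 K) : Measurable f :=
  (continuous_iff_continuousAt.2 fun u => (hf.d1 u).continuousAt).measurable

end Vale.Agent.P157
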