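import Vale.Agent.P157.Ident
import Vale.Agent.P157.Rest
import Vale.Agent.P157.TiltB

namespace Vale.Agent.P157

open MeasureTheory ProbabilityTheory Real Finset Filter Topology
open scoped ENNReal

theorem nice_approx {f : ℝ → ℝ} (hf : Measurable f) {C : ℝ} (hC : ∀ u, |f u| ≤ C) {η : ℝ}
    (hη : 0 < η) : ∃ (g g1 g2 : ℝ → ℝ) (K : ℝ), Nice g g1 g2 K ∧ (∀ u, |g u| ≤ C + 1) ∧
      ∫ u, |g u - f u| ∂gaussianReal 0 1 ≤ η := by
  have hC0 : 0 ≤ C := (abs_nonneg _).trans (hC 0)
  have hD : 0 < C + 1 := by linarith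
  set h : ℝ → ℝ := fun u => arcsin (f u / (C + 1)) with hh
  have mh : Measurable h := continuous_arcsin.measurable.comp (hf.div_const _)
  have ih : Integrable h (gaussianReal 0 1) := tl_int_bdd mh (B := π / 2) fun u =>
    abs_le.2 ⟨neg_pi_div_two_le_arcsin _, arcsin_le_pi_div_two _⟩
  obtain ⟨h', c1, c2, c3⟩ := (memLp_one_iff_integrable.2 ih).exist_eLpNorm_sub_le
    ENNReal.one_ne_top le_rfl (div_pos hη hD)
  set g : ℝ → ℝ := fun u => (C + 1) * sin (h' u) with hg
  have g2 : ContDiff ℝ 2 g := contDiff_const.mul (contDiff_sin.comp (c2.of_le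
    (WithTop.coe_le_coe.2 (le_top : (2 : ℕ∞) ≤ ⊤))))
  have s0 : HasCompactSupport g := c1.comp_left (g := fun t => (C + 1) * sin t) (by simp)
  have g1 : ContDiff ℝ 1 (deriv g) := g2.deriv'
  have g0 : Continuous (deriv (deriv g)) := g1.continuous_deriv le_rfl
  obtain ⟨K1, b1⟩ := g1.continuous.bounded_above_of_compact_support s0.deriv
  obtain ⟨K2, b2⟩ := g0.bounded_above_of_compact_support s0.deriv.deriv
  obtain ⟨K3, b3⟩ := (continuous_id.mul g1.continuous).bounded_above_of_compact_support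
    s0.deriv.mul_left
  obtain ⟨K4, b4⟩ := (continuous_id.mul g0).bounded_above_of_compact_support
    s0.deriv.deriv.mul_left
  have p1 := (norm_nonneg _).trans (b1 0)
  have p2 := (norm_nonneg _).trans (b2 0)
  have p3 := (norm_nonneg _).trans (b3 0)
  have p4 := (norm_nonneg _).trans (b4 0)
  have b0 : ∀ u, |g u| ≤ C + 1 := fun u => by
    rw [hg, abs_mul, abs_of_pos hD]
    exact mul_le_of_le_one_right hD.le (abs_sin_le_one _)
  refine ⟨g, deriv g, deriv (deriv g), C + 1 + K1 + K2 + K3 + K4, ⟨by linarith,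
    fun u => (g2.differentiable (by norm_num) u).hasDerivAt,
    fun u => (g1.differentiable (by norm_num) u).hasDerivAt, fun u => by linarith [b0 u],
    fun u => le_trans (b1 u) (by linarith), fun u => le_trans (b2 u) (by linarith),
    fun u => le_trans (b3 u) (by linarith), fun u => le_trans (b4 u) (by linarith)⟩, b0, ?_⟩
  have ih' : Integrable h' (gaussianReal 0 1) :=
    c2.continuous.integrable_of_hasCompactSupport c1
  have e1 : ∫ u, |h u - h' u| ∂gaussianReal 0 1 ≤ η / (C + 1) := by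
    rw [eLpNorm_one_eq_lintegral_enorm] at c3
    have := integral_norm_eq_lintegral_enorm (ih.sub ih').aestronglyMeasurable
    exact le_of_eq_of_le this (ENNReal.toReal_le_of_le_ofReal (div_pos hη hD).le c3)
  calc ∫ u, |g u - f u| ∂gaussianReal 0 1
      ≤ ∫ u, (C + 1) * |h u - h' u| ∂gaussianReal 0 1 := by
        refine integral_mono_of_nonneg (ae_of_all _ fun u => abs_nonneg _)
          ((ih.sub ih').abs.const_mul _) (ae_of_all _ fun u => ?_)
        have e2 : f u = (C + 1) * sin (h u) := by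
          have := abs_le.1 (hC u)
          rw [hh, sin_arcsin ((le_div_iff₀ hD).2 (by linarith)) ((div_le_iff₀ hD).2 (by linarith))]
          field_simp
        simp only [hg]
        rw [e2, ← mul_sub, abs_mul, abs_of_pos hD, abs_sub_comm]
        exact mul_le_mul_of_nonneg_left (abs_sin_sub_sin_le _ _) hD.le
    _ ≤ η := by
        rw [integral_const_mul, mul_comm]
        exact (le_div_iff₀ hD).1 e1

theorem ap_m_zero {k : ℕ} (hk : 0 < k) {q : ℕ → ℝ} (hq : Monotone q) (n j : ℕ) (h : ℝ) :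
    (RS k fun j => q (j + 1) - q j).m n j (fun _ => 0) h =
      gaussianReal h (Real.toNNReal (q (j + n) - q j)) := by
  have hY := rs_ok hk fun j => q (j + 1) - q j
  induction n generalizing j h with
  | zero => simp [Sys.m]
  | succ n ih =>
    have hm := Sys.measurable_m hY (Sys.Lin.const hY 0) n (j + 1)
    have hT : (RS k fun j => q (j + 1) - q j).T j (fun _ => 0) h = 0 :=
      congrFun (Sys.X_const hY 0 1 j) h
    have hv : 0 ≤ q (j + 1) - q j := sub_nonneg.2 (hq (Nat.le_succ j))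
    have hv' : 0 ≤ q (j + 1 + n) - q (j + 1) := sub_nonneg.2 (hq (Nat.le_add_right _ _))
    have hs : (RS k fun j => q (j + 1) - q j).stepM j (fun _ => 0) h =
        gaussianReal h (Real.toNNReal (q (j + 1) - q j)) := by
      rw [Sys.stepM, hT]
      simp only [sub_self, mul_zero, exp_zero, ENNReal.ofReal_one]
      rw [show (fun _ : ℝ => (1 : ℝ≥0∞)) = 1 from rfl, withDensity_one]
      change (gaussianReal 0 1).map ((fun z => h + z) ∘ fun w => √(q (j + 1) - q j) * w) = _
      rw [← Measure.map_map (by fun_prop) (by fun_prop), gaussianReal_map_const_mul,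
        gaussianReal_map_const_add]
      congr 1
      · simp
      · ext
        simp [sq_sqrt hv, hv]
    have e : Real.toNNReal (q (j + (n + 1)) - q j) =
        Real.toNNReal (q (j + 1) - q j) + Real.toNNReal (q (j + 1 + n) - q (j + 1)) := by
      rw [← Real.toNNReal_add hv hv', show j + (n + 1) = j + 1 + n by omega]
      congr 1
      ring
    rw [Sys.m, Sys.X_const hY, hs, e, ← add_zero h, ← gaussianReal_conv_gaussianReal, add_zero]
    refine Measure.ext_of_lintegral _ fun φ hφ => ?_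
    rw [Measure.lintegral_bind hm.aemeasurable hφ.aemeasurable, Measure.lintegral_conv hφ]
    refine lintegral_congr fun y => ?_
    rw [ih, ← lintegral_map hφ (measurable_const_add y), gaussianReal_map_const_add, zero_add]

theorem ap_Psi_le {f g : ℝ → ℝ} (hf : Measurable f) (hg : Measurable g) {C : ℝ}
    (hC : ∀ u, |f u| ≤ C) (hC' : ∀ u, |g u| ≤ C) {k : ℕ} (hk : 0 < k) {q : ℕ → ℝ}
    (hq : AdmQ k q) :
    Psi g k q - Psi f k q ≤ exp (2 * C) * ∫ u, |g u - f u| ∂gaussianReal 0 1 := by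
  have hY := rs_ok hk fun j => q (j + 1) - q j
  have lf := Sys.Lin.of_bdd hY hf C hC
  have lg := Sys.Lin.of_bdd hY hg C hC'
  rw [Psi, Psi, casc_eq q g (by omega), casc_eq q f (by omega)]
  have h1 := Sys.le_X_sub hY lg lf k 0 0
  have h2 := Sys.DL1 hY (rs_mono _ _) (Sys.Lin.const hY 0) lg (K := C) (by simpa using hC')
    ((lg.sub lf).abs.ex hY) (fun _ => abs_nonneg _) k 0 0
  have h3 := Sys.dl_P_mono hY lg (((lg.sub lf).abs.const_mul (-1)).ex hY) ((lf.sub lg).ex hY)
    (fun s => by linarith [le_abs_self (g s - f s)]) k 0 0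
  simp only [Sys.P] at h1 h2 h3
  rw [ap_m_zero hk hq.2.1, zero_add, hq.1, hq.2.2] at h2
  rw [integral_const_mul] at h3
  simp only [sub_zero, Real.toNNReal_one] at h2
  linarith

theorem Psi_lip {f g : ℝ → ℝ} (hf : Measurable f) (hg : Measurable g) {C : ℝ}
    (hC : ∀ u, |f u| ≤ C) (hC' : ∀ u, |g u| ≤ C) {k : ℕ} (hk : 0 < k) {q : ℕ → ℝ}
    (hq : AdmQ k q) :
    |Psi g k q - Psi f k q| ≤ exp (2 * C) * ∫ u, |g u - f u| ∂gaussianReal 0 1 := by
  have h1 := ap_Psi_le hf hg hC hC' hk hq
  have h2 := ap_Psi_le hg hf hC' hC hk hq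
  simp only [abs_sub_comm (f _)] at h2
  exact abs_le.2 ⟨by linarith, h1⟩

variable {ι κ Cf : Type} [Fintype ι] [Fintype κ] [MeasurableSpace Cf] {ν : Measure Cf}
  {x : Cf → ι → ℝ}

theorem abs_EL_le (hx : Spin ν x) {f : ℝ → ℝ} (hf : Measurable f) {C : ℝ}
    (hC : ∀ u, |f u| ≤ C) : |EL κ ν x f| ≤ C * Fintype.card κ := by
  have := hx.prob
  exact tl_abs_int_le (abs_tlL_le hx.meas hf hC)

theorem ap_int_mul {H φ : Cf → ℝ} [IsProbabilityMeasure ν] (hH : Measurable H)
    (hφ : Measurable φ) {B B' : ℝ} (h : ∀ σ, |H σ| ≤ B) (h' : ∀ σ, |φ σ| ≤ B') :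
    Integrable (fun σ => φ σ * exp (H σ)) ν :=
  (tl_int_exp1 hH h).bdd_mul hφ.aestronglyMeasurable (ae_of_all _ h')

theorem ap_jensen {H H' : Cf → ℝ} [IsProbabilityMeasure ν] (hH : Measurable H)
    (hH' : Measurable H') {B : ℝ} (h : ∀ σ, |H σ| ≤ B) (h' : ∀ σ, |H' σ| ≤ B) :
    log (∫ σ, exp (H' σ) ∂ν) - log (∫ σ, exp (H σ) ∂ν) ≤
      (∫ σ, (H' σ - H σ) * exp (H' σ) ∂ν) / ∫ σ, exp (H' σ) ∂ν := by
  have i1 := tl_int_exp1 (ν := ν) hH h
  have i2 := tl_int_exp1 (ν := ν) hH' h'
  have p1 := integral_exp_pos i1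
  have p2 := integral_exp_pos i2
  set c := log (∫ σ, exp (H' σ) ∂ν) - log (∫ σ, exp (H σ) ∂ν) with hc
  have e1 : exp c * ∫ σ, exp (H σ) ∂ν = ∫ σ, exp (H' σ) ∂ν := by
    rw [hc, exp_sub, exp_log p1, exp_log p2, div_mul_cancel₀ _ p1.ne']
  rw [le_div_iff₀ p2]
  have h1 : ∫ σ, ((c + 1) * exp (H' σ) - exp c * exp (H σ)) ∂ν ≤
      ∫ σ, (H' σ - H σ) * exp (H' σ) ∂ν := by
    refine integral_mono ((i2.const_mul _).sub (i1.const_mul _))
      (ap_int_mul hH' (hH'.sub hH) h' (B' := B + B) fun σ =>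
        (abs_sub _ _).trans (add_le_add (h' σ) (h σ))) fun σ => ?_
    have h2 := mul_le_mul_of_nonneg_right (add_one_le_exp (c + H σ - H' σ)) (exp_pos (H' σ)).le
    rw [← exp_add, sub_add_cancel, exp_add] at h2
    simp only
    linarith
  rw [integral_sub (i2.const_mul _) (i1.const_mul _), integral_const_mul, integral_const_mul,
    e1] at h1
  linarith

theorem ap_gauss [Nonempty ι] (hx : Spin ν x) {φ : ℝ → ℝ} (hφ : Measurable φ) (σ : Cf) :
    ∫ e, φ ((∑ i, e i * x σ i) / √(Fintype.card ι : ℝ)) ∂γ ι = ∫ u, φ u ∂gaussianReal 0 1 := by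
  have hN : (0 : ℝ) < Fintype.card ι := by exact_mod_cast Fintype.card_pos
  have h := glin fun i => x σ i / √(Fintype.card ι : ℝ)
  have e : ∑ i, (x σ i / √(Fintype.card ι : ℝ)) ^ 2 = 1 := by
    simp only [div_pow, ← sum_div, hx.norm, sq_sqrt hN.le, div_self hN.ne']
  rw [e, Real.toNNReal_one] at h
  rw [← h, integral_map (Measurable.aemeasurable (by fun_prop)) hφ.aestronglyMeasurable]
  refine integral_congr_ae (ae_of_all _ fun e => ?_)
  simp only [sum_div]
  congr 1
  exact sum_congr rfl fun i _ => by ring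

theorem ap_one [Nonempty ι] (hx : Spin ν x) {φ g : ℝ → ℝ} (hφ : Measurable φ) (hg : Measurable g)
    {C D B : ℝ} (h0 : ∀ u, 0 ≤ φ u) (hD : ∀ u, |φ u| ≤ D) (hC : ∀ u, |g u| ≤ C) {R : Cf → ℝ}
    (hR : Measurable R) (hB : ∀ σ, |R σ| ≤ B) :
    ∫ e, (∫ σ, φ ((∑ i, e i * x σ i) / √(Fintype.card ι : ℝ)) *
      exp (g ((∑ i, e i * x σ i) / √(Fintype.card ι : ℝ)) + R σ) ∂ν) /
      (∫ σ, exp (g ((∑ i, e i * x σ i) / √(Fintype.card ι : ℝ)) + R σ) ∂ν) ∂γ ι ≤
      exp (2 * C) * ∫ u, φ u ∂gaussianReal 0 1 := by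
  have := hx.prob
  have mu : Measurable fun p : (ι → ℝ) × Cf =>
      (∑ i, p.1 i * x p.2 i) / √(Fintype.card ι : ℝ) := by
    refine Measurable.div_const (Finset.measurable_sum _ fun i _ =>
      Measurable.mul (by fun_prop) ?_) _
    exact (measurable_pi_apply i).comp (hx.meas.comp measurable_snd)
  have mu' : ∀ e : ι → ℝ, Measurable fun σ => (∑ i, e i * x σ i) / √(Fintype.card ι : ℝ) :=
    fun e => by
      have h := mu.comp (measurable_prodMk_left (x := e))
      exact h
  have iR := tl_int_exp1 (ν := ν) hR hB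
  have pR := integral_exp_pos iR
  have iP : Integrable (Function.uncurry fun (e : ι → ℝ) σ =>
      φ ((∑ i, e i * x σ i) / √(Fintype.card ι : ℝ)) * exp (R σ)) ((γ ι).prod ν) :=
    ap_int_mul (hR.comp measurable_snd) (hφ.comp mu) (fun p => hB p.2) fun p => hD _
  calc _ ≤ ∫ e, exp (2 * C) / (∫ σ, exp (R σ) ∂ν) *
        ∫ σ, φ ((∑ i, e i * x σ i) / √(Fintype.card ι : ℝ)) * exp (R σ) ∂ν ∂γ ι := by
        refine integral_mono_of_nonneg (ae_of_all _ fun e => div_nonneg
          (integral_nonneg fun σ => mul_nonneg (h0 _) (exp_pos _).le)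
          (integral_nonneg fun σ => (exp_pos _).le)) (iP.integral_prod_left.const_mul _)
          (ae_of_all _ fun e => ?_)
        have hb : ∀ σ, |g ((∑ i, e i * x σ i) / √(Fintype.card ι : ℝ)) + R σ| ≤ C + B :=
          fun σ => (abs_add_le _ _).trans (add_le_add (hC _) (hB _))
        have mg := (hg.comp (mu' e)).add hR
        have a1 : ∫ σ, φ ((∑ i, e i * x σ i) / √(Fintype.card ι : ℝ)) *
            exp (g ((∑ i, e i * x σ i) / √(Fintype.card ι : ℝ)) + R σ) ∂ν ≤ exp C *
            ∫ σ, φ ((∑ i, e i * x σ i) / √(Fintype.card ι : ℝ)) * exp (R σ) ∂ν := by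
          rw [← integral_const_mul]
          refine integral_mono (ap_int_mul mg (hφ.comp (mu' e)) hb fun σ => hD _)
            ((ap_int_mul hR (hφ.comp (mu' e)) hB fun σ => hD _).const_mul _) fun σ => ?_
          simp only
          rw [mul_left_comm, ← exp_add]
          exact mul_le_mul_of_nonneg_left
            (exp_le_exp.2 (add_le_add (le_of_abs_le (hC _)) le_rfl)) (h0 _)
        have a2 : exp (-C) * ∫ σ, exp (R σ) ∂ν ≤
            ∫ σ, exp (g ((∑ i, e i * x σ i) / √(Fintype.card ι : ℝ)) + R σ) ∂ν := by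
          rw [← integral_const_mul]
          refine integral_mono (iR.const_mul _) (tl_int_exp1 mg hb) fun σ => ?_
          simp only
          rw [← exp_add]
          exact exp_le_exp.2 (add_le_add (neg_le_of_abs_le (hC _)) le_rfl)
        refine (div_le_div₀ (mul_nonneg (exp_pos _).le (integral_nonneg fun σ =>
          mul_nonneg (h0 _) (exp_pos _).le)) a1 (mul_pos (exp_pos _) pR) a2).trans (le_of_eq ?_)
        rw [two_mul, exp_add, exp_neg]
        field_simp
    _ = _ := by
        rw [integral_const_mul, integral_integral_swap iP]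
        simp only [integral_mul_const, ap_gauss hx hφ, integral_const_mul]
        field_simp

theorem ap_EL_le [Nonempty ι] (hx : Spin ν x) {f g : ℝ → ℝ} (hf : Measurable f)
    (hg : Measurable g) {C : ℝ} (hC : ∀ u, |f u| ≤ C) (hC' : ∀ u, |g u| ≤ C) :
    EL κ ν x g - EL κ ν x f ≤
      Fintype.card κ * (exp (2 * C) * ∫ u, |g u - f u| ∂gaussianReal 0 1) := by
  classical
  have := hx.prob
  set φ : ℝ → ℝ := fun u => |g u - f u| with hφ
  have mφ : Measurable φ := (hg.sub hf).abs
  have bφ : ∀ u, |φ u| ≤ C + C := fun u => by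
    rw [hφ, abs_abs]; exact (abs_sub _ _).trans (add_le_add (hC' _) (hC _))
  have mu : ∀ a, Measurable fun p : (κ → ι → ℝ) × Cf =>
      φ ((∑ i, p.1 a i * x p.2 i) / √(Fintype.card ι : ℝ)) := fun a => by
    refine mφ.comp (Measurable.div_const (Finset.measurable_sum _ fun i _ =>
      Measurable.mul (by fun_prop) ?_) _)
    exact (measurable_pi_apply i).comp (hx.meas.comp measurable_snd)
  have mu' : ∀ a (G : κ → ι → ℝ),
      Measurable fun σ => φ ((∑ i, G a i * x σ i) / √(Fintype.card ι : ℝ)) := fun a G => by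
    have h := (mu a).comp (measurable_prodMk_left (x := G))
    exact h
  set W : κ → (κ → ι → ℝ) → ℝ := fun a G =>
    (∫ σ, φ ((∑ i, G a i * x σ i) / √(Fintype.card ι : ℝ)) * exp (tlH x g G σ) ∂ν) /
      ∫ σ, exp (tlH x g G σ) ∂ν with hW
  have iE : ∀ G : κ → ι → ℝ, Integrable (fun σ => exp (tlH x g G σ)) ν := fun G =>
    tl_int_exp1 (measurable_tlH hx.meas hg G) (abs_tlH_le hC' G)
  have iF : ∀ a (G : κ → ι → ℝ), Integrable (fun σ =>
      φ ((∑ i, G a i * x σ i) / √(Fintype.card ι : ℝ)) * exp (tlH x g G σ)) ν := fun a G =>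
    ap_int_mul (measurable_tlH hx.meas hg G) (mu' a G) (abs_tlH_le hC' G) fun σ => bφ _
  have mW : ∀ a, Measurable (W a) := fun a =>
    ((mu a).mul (measurable_tlH2 hx.meas hg).exp).stronglyMeasurable.integral_prod_right'.measurable.div
      (measurable_tlH2 hx.meas hg).exp.stronglyMeasurable.integral_prod_right'.measurable
  have bW : ∀ a G, |W a G| ≤ C + C := fun a G => by
    have p := integral_exp_pos (iE G)
    rw [hW, abs_of_nonneg (div_nonneg (integral_nonneg fun σ =>
      mul_nonneg (abs_nonneg _) (exp_pos _).le) p.le), div_le_iff₀ p, ← integral_const_mul]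
    exact integral_mono (iF a G) ((iE G).const_mul _) fun σ =>
      mul_le_mul_of_nonneg_right (le_of_abs_le (bφ _)) (exp_pos _).le
  have hWa : ∀ a, ∫ G, W a G ∂(Measure.pi fun _ : κ => γ ι) ≤
      exp (2 * C) * ∫ u, φ u ∂gaussianReal 0 1 := fun a => by
    have hmp := tl_mp_update (γ ι) a
    rw [← hmp.map_eq, integral_map hmp.measurable.aemeasurable (mW a).aestronglyMeasurable,
      integral_prod (fun p : (κ → ι → ℝ) × (ι → ℝ) => W a (Function.update p.1 a p.2))
        (tl_int_bdd ((mW a).comp hmp.measurable) fun p => bW a _)]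
    refine le_of_abs_le (tl_abs_int_le fun G => ?_)
    rw [abs_of_nonneg (integral_nonneg fun e => div_nonneg (integral_nonneg fun σ =>
      mul_nonneg (abs_nonneg _) (exp_pos _).le) (integral_nonneg fun σ => (exp_pos _).le))]
    simp only [hW, tlH_update, Function.update_self]
    refine ap_one hx mφ hg (fun u => abs_nonneg _) bφ hC' (B := ∑ b ∈ univ.erase a, C) ?_
      fun σ => (abs_sum_le_sum_abs _ _).trans (sum_le_sum fun b _ => hC' _)
    refine Finset.measurable_sum _ fun b _ => hg.comp (Measurable.div_const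
      (Finset.measurable_sum _ fun i _ => Measurable.const_mul ?_ _) _)
    exact (measurable_pi_apply i).comp hx.meas
  rw [EL_eq_tlL, EL_eq_tlL, ← integral_sub (integrable_tlL hx.meas hg hC' _)
    (integrable_tlL hx.meas hf hC _)]
  calc _ ≤ ∫ G, ∑ a, W a G ∂(Measure.pi fun _ : κ => γ ι) := by
        refine integral_mono ((integrable_tlL hx.meas hg hC' _).sub
          (integrable_tlL hx.meas hf hC _))
          (integrable_finsetSum _ fun a _ => tl_int_bdd (mW a) (bW a)) fun G => ?_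
        refine (ap_jensen (measurable_tlH hx.meas hf G) (measurable_tlH hx.meas hg G)
          (abs_tlH_le hC G) (abs_tlH_le hC' G)).trans ?_
        simp only [hW, ← sum_div]
        refine div_le_div_of_nonneg_right ?_ (integral_exp_pos (iE G)).le
        rw [← integral_finsetSum _ fun a _ => iF a G]
        refine integral_mono (ap_int_mul (measurable_tlH hx.meas hg G)
          ((measurable_tlH hx.meas hg G).sub (measurable_tlH hx.meas hf G)) (abs_tlH_le hC' G)
          fun σ => (abs_sub _ _).trans (add_le_add (abs_tlH_le hC' G σ) (abs_tlH_le hC G σ)))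
          (integrable_finsetSum _ fun a _ => iF a G) fun σ => ?_
        simp only [← sum_mul]
        refine mul_le_mul_of_nonneg_right ?_ (exp_pos _).le
        rw [tlH, tlH, ← sum_sub_distrib]
        exact sum_le_sum fun a _ => le_abs_self _
    _ ≤ _ := by
        rw [integral_finsetSum _ fun a _ => tl_int_bdd (mW a) (bW a)]
        refine (sum_le_sum fun a _ => hWa a).trans (le_of_eq ?_)
        simp

theorem EL_lip [Nonempty ι] (hx : Spin ν x) {f g : ℝ → ℝ} (hf : Measurable f) (hg : Measurable g)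
    {C : ℝ} (hC : ∀ u, |f u| ≤ C) (hC' : ∀ u, |g u| ≤ C) : |EL κ ν x g - EL κ ν x f| ≤
      Fintype.card κ * (exp (2 * C) * ∫ u, |g u - f u| ∂gaussianReal 0 1) := by
  have h1 := ap_EL_le (κ := κ) hx hf hg hC hC'
  have h2 := ap_EL_le (κ := κ) hx hg hf hC' hC
  simp only [abs_sub_comm (f _)] at h2
  exact abs_le.2 ⟨by linarith, h1⟩

theorem ap_patterns {κ' : Type} [Fintype κ'] (hx : Spin ν x) {f : ℝ → ℝ} (hf : Measurable f)
    {C : ℝ} (hC : ∀ u, |f u| ≤ C) (e : κ ↪ κ') :
    |EL κ' ν x f - EL κ ν x f| ≤ C * ((Fintype.card κ' : ℝ) - Fintype.card κ) := by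
  classical
  have := hx.prob
  have hmp := tl_mp_comp (γ ι) e.injective
  have mL : Measurable fun G : κ' → ι → ℝ => tlL ν x f fun a => G (e a) :=
    (measurable_tlL (κ := κ) (ν := ν) hx.meas hf).comp hmp.measurable
  rw [EL_eq_tlL, EL_eq_tlL, ← hmp.map_eq, integral_map hmp.measurable.aemeasurable
    (measurable_tlL hx.meas hf).aestronglyMeasurable, ← integral_sub
      (integrable_tlL hx.meas hf hC _) (tl_int_bdd mL fun G => abs_tlL_le hx.meas hf hC _)]
  refine tl_abs_int_le fun G => tl_abs_log_sub (measurable_tlH hx.meas hf _)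
    (measurable_tlH hx.meas hf _) (abs_tlH_le hC _) (abs_tlH_le hC _) fun σ => ?_
  have h1 := sum_sdiff (f := fun a => f ((∑ i, G a i * x σ i) / √(Fintype.card ι : ℝ)))
    (subset_univ (univ.map e))
  rw [sum_map] at h1
  rw [tlH, tlH, ← h1, add_sub_cancel_right]
  refine (abs_sum_le_sum_abs _ _).trans ((sum_le_sum fun a _ => hC _).trans (le_of_eq ?_))
  rw [sum_const, card_univ_sdiff, card_map, card_univ, nsmul_eq_mul,
    Nat.cast_sub (Fintype.card_le_of_embedding e), mul_comm]

theorem EL_patterns (hx : Spin ν x) {f : ℝ → ℝ} (hf : Measurable f) {C : ℝ}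
    (hC : ∀ u, |f u| ≤ C) {M M' : ℕ} (h : M ≤ M') :
    |EL (Fin M') ν x f - EL (Fin M) ν x f| ≤ C * ((M' : ℝ) - M) := by
  simpa using ap_patterns hx hf hC (Fin.castLEEmb h)

/-- only the law of the spin matters -/
theorem EL_congr {ι' Cf' : Type} [Fintype ι'] [MeasurableSpace Cf'] {ν' : Measure Cf'}
    {x' : Cf' → ι' → ℝ} (hx : Measurable x) (hx' : Measurable x') (E : ι ≃ ι')
    (h : ν'.map (fun σ i => x' σ (E i)) = ν.map x) {f : ℝ → ℝ} (hf : Measurable f) :
    EL κ ν' x' f = EL κ ν x f := by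
  let Φ : (κ → ι' → ℝ) ≃ᵐ (κ → ι → ℝ) :=
    { toFun := fun G a i => G a (E i)
      invFun := fun G a i => G a (E.symm i)
      left_inv := fun G => by simp
      right_inv := fun G => by simp
      measurable_toFun := by
        change Measurable fun (G : κ → ι' → ℝ) a i => G a (E i)
        fun_prop
      measurable_invFun := by
        change Measurable fun (G : κ → ι → ℝ) a i => G a (E.symm i)
        fun_prop }
  have hmp : MeasurePreserving Φ (Measure.pi fun _ => γ ι') (Measure.pi fun _ => γ ι) :=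
    measurePreserving_pi _ _ fun _ => tl_mp_comp (gaussianReal 0 1) E.injective
  rw [EL_eq_tlL, EL_eq_tlL, ← hmp.integral_comp']
  refine integral_congr_ae (ae_of_all _ fun G => ?_)
  have m1 := (measurable_tlH (κ := κ) (x := id) measurable_id hf (Φ G)).exp.aestronglyMeasurable
    (μ := ν.map x)
  have e1 := integral_map hx.aemeasurable m1
  rw [← h] at m1
  have e2 := integral_map (Measurable.aemeasurable (by fun_prop)) m1
  rw [h, e1] at e2
  simp only [tlL]
  congr 1
  refine Eq.trans (integral_congr_ae (ae_of_all _ fun σ => ?_)) e2.symm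
  simp only [tlH, id, Fintype.card_congr E]
  congr 1
  refine sum_congr rfl fun a _ => ?_
  rw [← E.sum_comp]
  rfl

/-- restriction of the spin law to an event -/
theorem EL_cond (hx : Spin ν x) {f : ℝ → ℝ} (hf : Measurable f) {C : ℝ} (hC : ∀ u, |f u| ≤ C)
    {A : Set Cf} (hA : MeasurableSet A) (h0 : ν A ≠ 0) :
    EL κ (ν[|A]) x f + log (ν.real A) ≤ EL κ ν x f := by
  have := hx.prob
  have := cond_isProbabilityMeasure (μ := ν) h0
  have hp : 0 < ν.real A := ENNReal.toReal_pos h0 (measure_ne_top _ _)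
  have e : log (ν.real A) = ∫ _, log (ν.real A) ∂(Measure.pi fun _ : κ => γ ι) := by simp
  rw [EL_eq_tlL, EL_eq_tlL, e, ← integral_add (integrable_tlL hx.meas hf hC _)
    (integrable_const _)]
  refine integral_mono ((integrable_tlL hx.meas hf hC _).add (integrable_const _))
    (integrable_tlL hx.meas hf hC _) fun G => ?_
  have p1 := integral_exp_pos (tl_int_exp1 (ν := ν[|A]) (measurable_tlH hx.meas hf G)
    (abs_tlH_le hC G))
  simp only [tlL]
  rw [← log_mul p1.ne' hp.ne']
  refine log_le_log (mul_pos p1 hp) ?_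
  rw [ProbabilityTheory.cond, integral_smul_measure, ENNReal.toReal_inv, smul_eq_mul, mul_comm, ← mul_assoc,
    ← measureReal_def, mul_inv_cancel₀ hp.ne', one_mul]
  exact setIntegral_le_integral (tl_int_exp1 (measurable_tlH hx.meas hf G) (abs_tlH_le hC G))
    (ae_of_all _ fun σ => (exp_pos _).le)

theorem meanPressure_eq (α : ℝ) (μ : (N : ℕ) → Measure (Fin N → ℝ)) (f : ℝ → ℝ) (N : ℕ) :
    meanPressure α μ f N = EL (Fin ⌊α * N⌋₊) (μ N) id f / N := by
  simp only [meanPressure, pressure, EL, gaussMat, integral_const_mul, Fintype.card_fin, id]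
  ring

end Vale.Agent.P157
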