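import Vale.Agent.P157.Grad

namespace Vale.Agent.P157

open MeasureTheory ProbabilityTheory Real Finset Filter Topology
open scoped ENNReal

variable {ι ι' κ κ' Cf Cf' : Type} [Fintype ι] [Fintype ι'] [Fintype κ] [Fintype κ']
  [DecidableEq κ] [DecidableEq κ'] [MeasurableSpace Cf] [MeasurableSpace Cf'] {k : ℕ}
  {ν : Measure Cf} {ν' : Measure Cf'} {x : Cf → ι → ℝ} {x' : Cf' → ι' → ℝ} {f f1 f2 : ℝ → ℝ}
  {K : ℝ} {y b p Q θ : ℕ → ℝ}

omit [Fintype κ] [Fintype κ'] [DecidableEq κ] [DecidableEq κ'] in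
theorem cv_ok (hx : Spin ν x) (hx' : Spin ν' x') (hf : Nice f f1 f2 K) :
    (Cv κ κ' x x' f f1 f2).OK K := by
  have h := md_ok (κ := κ ⊕ κ') (hx.xx hx') hf
  obtain ⟨C, hC⟩ := h.be
  refine ⟨h.d1, h.d2, h.b1, h.b2, ?_, max C √(Fintype.card ι'), ?_⟩
  · rintro (i | i)
    · exact h.me i
    · exact ((measurable_pi_apply i).comp hx'.meas).comp measurable_snd
  · rintro (i | i) σ
    · exact le_max_of_le_left (hC i σ)
    · exact le_max_of_le_right (hx'.abs_le σ.2 i)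

omit [Fintype κ] [Fintype κ'] [DecidableEq κ] [DecidableEq κ'] in
theorem wC_nonneg (hy : ∀ j < k, 0 ≤ y j) (hb : ∀ j < k, 0 ≤ b j) (hp : Monotone p)
    (hQ : Monotone Q) (hθ : Monotone θ) {t η : ℝ} (h0 : 0 ≤ t) (h1 : t ≤ 1) (hη : 0 ≤ η) :
    ∀ j < k, ∀ i, 0 ≤ wC ι ι' κ κ' k y b p Q θ t η j i := by
  intro j hj i
  have a1 := hy j hj
  have a2 := hb j hj
  have a3 : 0 ≤ 1 - t := by linarith
  have a4 : 0 ≤ p (j + 1) - p j := sub_nonneg.2 (hp j.le_succ)
  rcases i with ((i | i) | ⟨a | a, i | i, c⟩) | i <;> simp only [wC]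
  · exact a1
  · exact add_nonneg a1 (mul_nonneg a3 (GradAux.wS_nonneg hQ j i))
  · split_ifs <;> positivity
  · split_ifs <;> positivity
  · split_ifs <;> positivity
  · split_ifs <;> positivity
  · exact mul_nonneg hη (GradAux.wS_nonneg hθ j i)

omit [Fintype κ] [Fintype κ'] [DecidableEq κ] [DecidableEq κ'] in
theorem wC_affine (t η : ℝ) (j : ℕ) (i : IC ι ι' κ κ') : wC ι ι' κ κ' k y b p Q θ t η j i =
    wC ι ι' κ κ' k y b p Q θ 0 η j i +
      t * (wC ι ι' κ κ' k y b p Q θ 1 η j i - wC ι ι' κ κ' k y b p Q θ 0 η j i) := by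
  rcases i with ((i | i) | ⟨a | a, i | i, c⟩) | i <;> simp only [wC] <;> (try split_ifs) <;> ring

theorem measurable_SC (hx : Spin ν x) (hx' : Spin ν' x') (hf : Nice f f1 f2 K) {α : Type}
    [Fintype α] (c : α → κ ⊕ κ') (w : ℕ → IC ι ι' κ κ' → ℝ) :
    Measurable (SC c k x x' f f1 f2 w) := by
  have hR := cv_ok (κ := κ) (κ' := κ') hx hx' hf
  have h1 : Measurable f1 := (pt_ok hf).mF1 ()
  exact Finset.measurable_sum _ fun a _ =>
    (h1.comp ((Rg.measurable_U hR _ _).comp measurable_fst)).mul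
      (h1.comp ((Rg.measurable_U hR _ _).comp measurable_snd))

omit [MeasurableSpace Cf] [MeasurableSpace Cf'] in
theorem abs_SC_le (hf : Nice f f1 f2 K) {α : Type} [Fintype α] (c : α → κ ⊕ κ')
    (w : ℕ → IC ι ι' κ κ' → ℝ)
    (z : St (IC ι ι' κ κ') (Cf × Cf') × St (IC ι ι' κ κ') (Cf × Cf')) :
    |SC c k x x' f f1 f2 w z| ≤ K ^ 2 * Fintype.card α := by
  refine (abs_sum_le_sum_abs _ _).trans ((sum_le_card_nsmul _ _ (K ^ 2) fun a _ => ?_).trans_eq ?_)
  · rw [abs_mul, sq]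
    exact mul_le_mul (hf.b1 _) (hf.b1 _) (abs_nonneg _) (by linarith [hf.one_le])
  · simp [mul_comm]

omit [MeasurableSpace Cf] [MeasurableSpace Cf'] in
theorem cav_Hv_one : (Cv κ κ' x x' f f1 f2).Hv k (wC ι ι' κ κ' k y b p Q θ 1 0) =
    fun s => HM (κ ⊕ κ') k (xx x x') f f1 f2 1 y b (pull id Sum.inl s) := by
  funext s
  refine sum_congr rfl fun a _ => congrArg _ (Rg.U_pull' (o := id) (φ := id) Sum.inl_injective
    Function.injective_id (fun _ => rfl) (fun _ _ => rfl) (fun j _ i => ?_) a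
    (fun j _ i _ h => ?_) s)
  · rcases i with (i | i) | ⟨a | a, i | i, c⟩ <;> simp [wC, wM] <;> split_ifs <;> ring
  · rcases i with i | i
    · exact absurd ⟨i, rfl⟩ h
    · simp [wC]

omit [Fintype ι] in
theorem cav_sum_wS (r : ℕ → ℝ) (i : ι) {l : ℕ} (hl : l ≤ k) :
    ∑ j ∈ range l, wS ι k r j i = r (min l (k - 1)) - r 0 := by
  induction l with
  | zero => simp
  | succ l ih =>
    rw [sum_range_succ, ih (by omega), wS]
    split_ifs with h
    · rw [min_eq_left (by omega), min_eq_left (by omega)]; ring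
    · rw [min_eq_right (by omega), min_eq_right (by omega)]; ring

theorem cav_sum_lin {α : Type} [Fintype α] (A B Φ : ℝ) (u v : α → ℝ) :
    ∑ i, (A + B * (u i * v i * Φ)) = Fintype.card α * A + B * (∑ i, u i * v i) * Φ := by
  simp only [sum_add_distrib, sum_const, card_univ, nsmul_eq_mul, mul_sum, sum_mul, mul_assoc]

variable [Nonempty Cf] [Nonempty Cf']

theorem cav_one (hx : Spin ν x) (hx' : Spin ν' x') (hf : Nice f f1 f2 K) (hk : 0 < k) :
    (Cv κ κ' x x' f f1 f2).Yv k (ν.prod ν') (wC ι ι' κ κ' k y b p Q θ 1 0) =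
      YM (κ ⊕ κ') k (ν.prod ν') (xx x x') f f1 f2 1 y b := by
  have := hx.prob
  have := hx'.prob
  rw [Rg.Yv, cav_Hv_one]
  exact YY_pull hk (MeasurePreserving.id _) Sum.inl_injective (lin_HM (hx.xx hx') hf hk 1 y b)

theorem cav_one_pp (hx : Spin ν x) (hx' : Spin ν' x') (hf : Nice f f1 f2 K) (hk : 0 < k)
    {u : (Cf × Cf') × (Cf × Cf') → ℝ} (hu : Measurable u) {l : ℕ} (hl : l ≤ k) :
    ∫ z, u (z.1.1, z.2.1)
        ∂pp k (ν.prod ν') ((Cv κ κ' x x' f f1 f2).Hv k (wC ι ι' κ κ' k y b p Q θ 1 0)) l =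
      ∫ z, u (z.1.1, z.2.1) ∂pp k (ν.prod ν') (HM (κ ⊕ κ') k (xx x x') f f1 f2 1 y b) l := by
  have := hx.prob
  have := hx'.prob
  have hm : Measurable (pull id Sum.inl : St (IC ι ι' κ κ') (Cf × Cf') → _) :=
    measurable_pull measurable_id
  rw [cav_Hv_one, ← pp_pull hk (MeasurePreserving.id _) (e := (Sum.inl : _ → IC ι ι' κ κ'))
    Sum.inl_injective (lin_HM (hx.xx hx') hf hk 1 y b) hl, integral_map (hm.prodMap hm).aemeasurable
      (Measurable.aestronglyMeasurable (by fun_prop))]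
  rfl

/-- the decoupled system -/
def cavR (κ κ' : Type) (x : Cf → ι → ℝ) (x' : Cf' → ι' → ℝ) (f f1 f2 : ℝ → ℝ) :
    Rg ((ι ⊕ κ × ι × Bool) ⊕ (ι' ⊕ κ')) (Option (κ ⊕ κ')) (Cf × Cf') where
  own := Sum.elim (Sum.elim (fun _ => none) fun p => some (.inl p.1))
    (Sum.elim (fun _ => none) fun a => some (.inr a))
  F := (Cv κ κ' x x' f f1 f2).F
  F1 := (Cv κ κ' x x' f f1 f2).F1
  F2 := (Cv κ κ' x x' f f1 f2).F2
  e := Sum.elim (fun i σ => (Md κ x f f1 f2).e i σ.1) (Sum.elim (fun i σ => x' σ.2 i) fun _ _ => 1)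

/-- merging of the cavity coordinates -/
def cavC : IC ι ι' κ κ' → (ι ⊕ κ × ι × Bool) ⊕ (ι' ⊕ κ')
  | .inl (.inl (.inl i)) => .inl (.inl i)
  | .inl (.inl (.inr i)) => .inr (.inl i)
  | .inl (.inr (.inl a, .inl i, c)) => .inl (.inr (a, i, c))
  | .inl (.inr (.inl _, .inr i, _)) => .inr (.inl i)
  | .inl (.inr (.inr a, _, _)) => .inr (.inr a)
  | .inr i => .inr (.inl i)

omit [Fintype κ] [Fintype κ'] [DecidableEq κ] [DecidableEq κ'] [Nonempty Cf] [Nonempty Cf'] in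
theorem cavR_ok (hx : Spin ν x) (hx' : Spin ν' x') (hf : Nice f f1 f2 K) :
    (cavR κ κ' x x' f f1 f2).OK K := by
  have h := cv_ok (κ := κ) (κ' := κ') hx hx' hf
  have h1 := md_ok (κ := κ) hx hf
  obtain ⟨C, hC⟩ := h1.be
  refine ⟨h.d1, h.d2, h.b1, h.b2, ?_, max C (max √(Fintype.card ι') 1), ?_⟩
  · rintro (i | i | i)
    · exact (h1.me i).comp measurable_fst
    · exact ((measurable_pi_apply i).comp hx'.meas).comp measurable_snd
    · exact measurable_const
  · rintro (i | i | i) σ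
    · exact le_max_of_le_left (hC i σ.1)
    · exact le_max_of_le_right (le_max_of_le_left (hx'.abs_le σ.2 i))
    · exact le_max_of_le_right (le_max_of_le_right abs_one.le)

theorem cavR_split (hx : Spin ν x) (hx' : Spin ν' x') (hf : Nice f f1 f2 K) (hk : 0 < k)
    (v b' : ℕ → ℝ) : (cavR κ κ' x x' f f1 f2).Yv k (ν.prod ν')
      (fun j => Sum.elim (wM ι κ 1 y b j) (Sum.elim (fun _ => v j) fun _ => b' j)) =
      YM κ k ν x f f1 f2 1 y b + ((Sp x').Yv k ν' (fun j _ => v j) +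
        Fintype.card κ' * (Pt f f1 f2).Yv k (Measure.dirac ()) fun j _ => b' j) := by
  have := hx.prob
  have := hx'.prob
  have hS := Rg.lin_Hv (ν := ν') (sp_ok hx' le_rfl) hk fun j _ => v j
  have hP := Rg.lin_Hv (ν := Measure.dirac ()) (pt_ok hf) hk fun j _ => b' j
  have h3 : (GS k κ' (Measure.dirac ())).Lin fun s =>
      ∑ a, (Pt f f1 f2).Hv k (fun j _ => b' j) (pull id (fun _ => a) s) :=
    Sys.Lin.sum (gs_ok hk) _ fun a _ =>
      lin_pull hk (MeasurePreserving.id _) (Function.injective_of_subsingleton _) hP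
  have e3 := YY_sum (ν' := Measure.dirac ()) hk (β := κ') (φ := fun _ => id) (e := fun a _ => a)
    ⟨Measurable.of_discrete, Measure.ext_of_singleton fun a => by
      rw [show ({a} : Set (κ' → Unit)) = Set.univ from Subsingleton.eq_univ_of_nonempty
        (Set.singleton_nonempty a), Measure.map_apply Measurable.of_discrete .univ]
      simp⟩ (fun p q h => Prod.ext h rfl) fun _ => hP
  have e2 := YY_add2 (ν' := ν') hk (φ := id) (φ2 := fun _ => ()) (e := Sum.inl) (e2 := Sum.inr)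
    ⟨by fun_prop, (Measure.prod_dirac ()).symm⟩ (by simpa using Function.injective_id) hS h3
  have h2 := (lin_pull (e := (Sum.inl : ι' → ι' ⊕ κ')) hk (MeasurePreserving.id ν')
    Sum.inl_injective hS).add (lin_pull (φ := fun _ => ()) (ν' := ν') hk
      ⟨measurable_const, by simp⟩ Sum.inr_injective h3)
  have e1 := YY_add2 (ν' := ν.prod ν') hk (φ := Prod.fst) (φ2 := Prod.snd) (e := Sum.inl)
    (e2 := Sum.inr) (MeasurePreserving.id _) (by simpa using Function.injective_id)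
    (lin_HM (κ := κ) hx hf hk 1 y b) h2
  rw [e2, e3, sum_const, card_univ, nsmul_eq_mul] at e1
  refine Eq.trans (congrArg (YY k (ν.prod ν')) (funext fun s => ?_)) e1
  simp only [HM, Rg.Hv, Rg.H, Rg.U, sum_filter, Fintype.sum_option, Fintype.sum_sum_type]
  simp [cavR, Cv, Md, Rg.ext, Sp, Pt, pull, sum_add_distrib]
  ring

variable [Nonempty ι] [Nonempty ι']

theorem cav_zero (hx : Spin ν x) (hx' : Spin ν' x') (hf : Nice f f1 f2 K) (hk : 0 < k)
    (hy : ∀ j < k, 0 ≤ y j) (hb : ∀ j < k, 0 ≤ b j) (hp : Monotone p) (hQ : AdmR Q)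
    (hθ : AdmR θ) {η : ℝ} (hη : 0 ≤ η) :
    (Cv κ κ' x x' f f1 f2).Yv k (ν.prod ν') (wC ι ι' κ κ' k y b p Q θ 0 η) =
      YM κ k ν x f f1 f2 1 y b + Fintype.card ι' *
        (XN k ν' x' (fun l => (Q l + ∑ j ∈ range l, y j) + η * θ l) +
          (Q (k - 1) + η * θ (k - 1) + ∑ j ∈ range k, y j) / 2) +
        Fintype.card κ' *
          (Pt f f1 f2).Yv k (Measure.dirac ()) fun j _ => b j + (p (j + 1) - p j) := by
  classical
  have := hx.prob
  have := hx'.prob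
  have hN : (0 : ℝ) < Fintype.card ι := by exact_mod_cast Fintype.card_pos
  have hn : (0 : ℝ) < Fintype.card ι' := by exact_mod_cast Fintype.card_pos
  obtain ⟨i0⟩ := ‹Nonempty ι'›
  have hs : ∀ l ≤ k, ∑ j ∈ range l, (y j + wS ι' k Q j i0 + η * wS ι' k θ j i0) =
      Q (min l (k - 1)) + ∑ j ∈ range l, y j + η * θ (min l (k - 1)) := fun l hl => by
    rw [sum_add_distrib, sum_add_distrib, ← mul_sum, cav_sum_wS _ _ hl, cav_sum_wS _ _ hl, hQ.1,
      hθ.1]
    ring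
  rw [Rg.Yv_merge (cv_ok hx hx' hf) hk (cavR_ok hx hx' hf) cavC rfl
    (wC_nonneg hy hb hp hQ.2 hθ.2 le_rfl zero_le_one hη)
    (w' := fun j => Sum.elim (wM ι κ 1 y b j) (Sum.elim
      (fun _ => y j + wS ι' k Q j i0 + η * wS ι' k θ j i0) fun _ => b j + (p (j + 1) - p j))),
    cavR_split hx hx' hf hk, Yv_Sp_eq hx' hk fun j hj => add_nonneg (add_nonneg (hy j hj)
      (GradAux.wS_nonneg hQ.2 _ _)) (mul_nonneg hη (GradAux.wS_nonneg hθ.2 _ _)), hs k le_rfl,
    min_eq_right (Nat.sub_le k 1), ← add_assoc]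
  · congr 3
    congr 1
    · simp only [XN, Rg.Yv]
      rw [hs _ (Nat.sub_le k 1), min_self, Rg.Hv_congr fun j hj i => ?_]
      rw [wS, wS]
      split_ifs with h
      · rw [hs _ h.le, hs _ hj.le, min_eq_left (by omega), min_eq_left (by omega)]
      · rfl
    · ring
  · rintro (((i | i) | ⟨a | a, i | i, c⟩) | i) ⟨j, -, h⟩
    · exact ⟨rfl, rfl⟩
    · exact ⟨rfl, rfl⟩
    · exact ⟨rfl, rfl⟩
    · simp [wC] at h
    · cases c
      · simp [wC] at h
      · exact ⟨rfl, rfl⟩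
    · cases c
      · simp [wC] at h
      · exact ⟨rfl, rfl⟩
    · exact ⟨rfl, rfl⟩
  · rintro j - ((i | ⟨a, i, c⟩) | i | a) <;>
      simp only [sum_filter, Fintype.sum_sum_type, Fintype.sum_prod_type] <;>
      simp [cavC, wC, wM, wS, ite_and]
    · simp only [div_eq_mul_inv]
    · simp [sum_add_distrib]
      field_simp

omit [DecidableEq κ] [DecidableEq κ'] in
theorem cav_key {l : ℕ} (h0 : 0 < l) (hl : l ≤ k) (η : ℝ) (σ τ : Cf × Cf')
    (Φ : Option (κ ⊕ κ') → ℝ) :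
    ∑ i, (∑ j ∈ range l, (wC ι ι' κ κ' k y b p Q θ 1 η j i - wC ι ι' κ κ' k y b p Q θ 0 η j i)) *
      ((Cv κ κ' x x' f f1 f2).e i σ * (Cv κ κ' x x' f f1 f2).e i τ *
        Φ ((Cv κ κ' x x' f f1 f2).own i)) =
      (Fintype.card ι' / (Fintype.card ι + Fintype.card ι')) *
          (∑ a, Φ (some (.inl a))) * (ov x' σ.2 τ.2 - ov x σ.1 τ.1) +
        (∑ a, Φ (some (.inr a))) *
          ((Fintype.card ι * ov x σ.1 τ.1 + Fintype.card ι' * ov x' σ.2 τ.2) /
            (Fintype.card ι + Fintype.card ι') - (p l - p 0)) -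
        Fintype.card ι' * (Q (min l (k - 1)) - Q 0) * ov x' σ.2 τ.2 * Φ none := by
  have hN : (0 : ℝ) < Fintype.card ι := by exact_mod_cast Fintype.card_pos
  have hn : (0 : ℝ) < Fintype.card ι' := by exact_mod_cast Fintype.card_pos
  set N : ℝ := (Fintype.card ι : ℝ) with hN'
  set n : ℝ := (Fintype.card ι' : ℝ) with hn'
  have hp : ∑ j ∈ range l, p j - ∑ j ∈ range l, p (j + 1) = p 0 - p l := by
    rw [← sum_sub_distrib, sum_range_sub']
  have hW : ∀ i, ∑ j ∈ range l,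
      (wC ι ι' κ κ' k y b p Q θ 1 η j i - wC ι ι' κ κ' k y b p Q θ 0 η j i) = match i with
      | .inl (.inl (.inl _)) => 0
      | .inl (.inl (.inr _)) => -(Q (min l (k - 1)) - Q 0)
      | .inl (.inr (.inl _, .inl _, c)) =>
          (if c then ∑ j ∈ range l, b j else 1) * (1 / (N + n) - 1 / N)
      | .inl (.inr (.inl _, .inr _, c)) => (if c then ∑ j ∈ range l, b j else 1) * (1 / (N + n))
      | .inl (.inr (.inr _, _, c)) => (if c then -(p l - p 0) else 1) * (1 / (N + n))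
      | .inr _ => 0 := by
    rintro (((i | i) | ⟨a | a, i | i, c⟩) | i)
    · simp [wC]
    · simp [wC, cav_sum_wS _ _ hl]
    · cases c <;> simp [wC, h0, sum_mul, mul_sub, hN', hn']
    · cases c <;> simp [wC, h0, sum_mul, hN', hn']
    · cases c <;> simp [wC, h0, hN', hn', div_eq_mul_inv, ← sum_mul, add_mul, ← neg_mul, hp]
    · cases c <;> simp [wC, h0, hN', hn', div_eq_mul_inv, ← sum_mul, add_mul, ← neg_mul, hp]
    · simp [wC]
  simp only [hW, Fintype.sum_sum_type, Fintype.sum_prod_type, Fintype.sum_bool, Cv, Md, Rg.ext,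
    xx, Sum.elim_inl, Sum.elim_inr, cav_sum_lin, GradAux.sum_ov, if_true, Bool.false_eq_true,
    if_false, zero_mul, sum_const_zero, ← hN', ← hn']
  generalize ∑ j ∈ range l, b j = B
  rw [← mul_sum, ← sum_mul, GradAux.sum_ov, ← hn', mul_sum _ _ (n / (N + n)),
    sum_mul _ fun a => n / (N + n) * Φ (some (.inl a)), sum_mul _ fun a => Φ (some (.inr a)),
    sum_congr rfl fun a _ => (by field_simp; ring : _ = n / (N + n) * Φ (some (.inl a)) *
      (ov x' σ.2 τ.2 - ov x σ.1 τ.1)),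
    sum_congr (s₂ := (univ : Finset κ')) rfl fun a _ => (by field_simp; ring : _ =
      Φ (some (.inr a)) * ((N * ov x σ.1 τ.1 + n * ov x' σ.2 τ.2) / (N + n) - (p l - p 0)))]
  ring

theorem cav_deriv (hx : Spin ν x) (hx' : Spin ν' x') (hf : Nice f f1 f2 K) (hk : 0 < k)
    (hp : AdmQ k p) (hQ : Q 0 = 0) (w : ℕ → IC ι ι' κ κ' → ℝ) (η : ℝ) :
    (Cv κ κ' x x' f f1 f2).GI k (ν.prod ν') w
        (fun j i => wC ι ι' κ κ' k y b p Q θ 1 η j i - wC ι ι' κ κ' k y b p Q θ 0 η j i) =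
      -(Fintype.card ι' * Q (k - 1) / 2) - (1 / (2 * (k : ℝ))) * ∑ l ∈ Ioo 0 k, ∫ z,
        (Fintype.card ι' / (Fintype.card ι + Fintype.card ι')) *
            SC Sum.inl k x x' f f1 f2 w z * (ov x' z.1.1.2 z.2.1.2 - ov x z.1.1.1 z.2.1.1) +
          SC Sum.inr k x x' f f1 f2 w z *
            ((Fintype.card ι * ov x z.1.1.1 z.2.1.1 + Fintype.card ι' * ov x' z.1.1.2 z.2.1.2) /
              (Fintype.card ι + Fintype.card ι') - p l) -
          Fintype.card ι' * Q l * ov x' z.1.1.2 z.2.1.2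
        ∂pp k (ν.prod ν') ((Cv κ κ' x x' f f1 f2).Hv k w) l := by
  have := hx.prob
  have := hx'.prob
  have hN : (0 : ℝ) < Fintype.card ι := by exact_mod_cast Fintype.card_pos
  have hn : (0 : ℝ) < Fintype.card ι' := by exact_mod_cast Fintype.card_pos
  have := mm_prob (ν := ν.prod ν') hk (Rg.lin_Hv (cv_ok (κ := κ) (κ' := κ') hx hx' hf) hk w)
  have o1 : ∀ σ, ov x σ σ = 1 := fun σ => by
    simp only [ov, ← sq, hx.norm, div_self hN.ne']
  have o2 : ∀ σ, ov x' σ σ = 1 := fun σ => by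
    simp only [ov, ← sq, hx'.norm, div_self hn.ne']
  set R := Cv κ κ' x x' f f1 f2 with hR
  have e1 : ∀ s, ∑ i, (∑ j ∈ range k, (wC ι ι' κ κ' k y b p Q θ 1 η j i -
      wC ι ι' κ κ' k y b p Q θ 0 η j i)) * R.dg k w i s = -(Fintype.card ι' * Q (k - 1)) := by
    intro s
    have h := cav_key (x := x) (x' := x') (f := f) (f1 := f1) (f2 := f2) (y := y) (b := b)
      (p := p) (Q := Q) (θ := θ) hk le_rfl η s.1 s.1 fun o =>
        R.F2 o (R.U k (fun j i => √(w j i)) o s) + R.F1 o (R.U k (fun j i => √(w j i)) o s) ^ 2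
    rw [o1, o2, hp.1, hp.2.2, hQ, min_eq_right (Nat.sub_le k 1), mul_one, mul_one,
      div_self (by positivity)] at h
    refine (sum_congr rfl fun i _ => ?_).trans (h.trans ?_)
    · simp only [Rg.dg, Rg.ψ, ← hR]
      ring
    · simp [hR, Cv, Md, Rg.ext]
  have e2 : range k = insert 0 (Ioo 0 k) := by
    ext l
    simp only [mem_range, mem_insert, mem_Ioo]
    omega
  unfold Rg.GI
  simp only [e1, integral_const, probReal_univ, one_smul]
  rw [e2, sum_insert (by simp)]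
  simp only [range_zero, sum_empty, zero_mul, sum_const_zero, integral_zero, zero_add]
  congr 1
  · ring
  · congr 1
    refine sum_congr rfl fun l hl => integral_congr_ae (ae_of_all _ fun z => ?_)
    obtain ⟨h0, h1⟩ := mem_Ioo.1 hl
    have h := cav_key (x := x) (x' := x') (f := f) (f1 := f1) (f2 := f2) (y := y) (b := b)
      (p := p) (Q := Q) (θ := θ) h0 h1.le η z.1.1 z.2.1 fun o =>
        R.F1 o (R.U k (fun j i => √(w j i)) o z.1) * R.F1 o (R.U k (fun j i => √(w j i)) o z.2)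
    rw [hp.1, hQ, min_eq_left (by omega), sub_zero, sub_zero] at h
    refine (sum_congr rfl fun i _ => ?_).trans (h.trans ?_)
    · simp only [Rg.ψ, ← hR]
      ring
    · simp only [SC, ← hR]
      simp [hR, Cv, Md, Rg.ext]

theorem cav_theta (hx : Spin ν x) (hx' : Spin ν' x') (hf : Nice f f1 f2 K) (hk : 0 < k)
    (hθ : θ 0 = 0) (w : ℕ → IC ι ι' κ κ' → ℝ) :
    (Cv κ κ' x x' f f1 f2).GI k (ν.prod ν') w
        (fun j => Sum.elim (fun _ => 0) (wS ι' k θ j)) = Fintype.card ι' * (θ (k - 1) / 2 -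
      pairing k (fun l => ∫ z, ov x' z.1.1.2 z.2.1.2
        ∂pp k (ν.prod ν') ((Cv κ κ' x x' f f1 f2).Hv k w) l) θ) := by
  have := hx.prob
  have := hx'.prob
  have := mm_prob (ν := ν.prod ν') hk (Rg.lin_Hv (cv_ok (κ := κ) (κ' := κ') hx hx' hf) hk w)
  have e1 : ∀ s, ∑ i, (∑ j ∈ range k, Sum.elim (fun _ => 0) (wS ι' k θ j) i) *
      (Cv κ κ' x x' f f1 f2).dg k w i s = θ (k - 1) * Fintype.card ι' := fun s => by
    rw [Fintype.sum_sum_type, ← hx'.norm s.1.2, mul_sum]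
    simp [cav_sum_wS, hθ, Rg.dg, Rg.ψ, Cv, Md, Rg.ext]
  have e2 : ∀ l ∈ range k, ∫ z, ∑ i, (∑ j ∈ range l, Sum.elim (fun _ => 0) (wS ι' k θ j) i) *
      ((Cv κ κ' x x' f f1 f2).ψ k w i z.1 * (Cv κ κ' x x' f f1 f2).ψ k w i z.2)
        ∂pp k (ν.prod ν') ((Cv κ κ' x x' f f1 f2).Hv k w) l = Fintype.card ι' *
      ((∫ z, ov x' z.1.1.2 z.2.1.2 ∂pp k (ν.prod ν') ((Cv κ κ' x x' f f1 f2).Hv k w) l) * θ l) := by
    intro l hl
    rw [← integral_mul_const, ← integral_const_mul]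
    refine integral_congr_ae (ae_of_all _ fun z => ?_)
    have h := mem_range.1 hl
    simp only
    rw [Fintype.sum_sum_type, ← mul_assoc, ← GradAux.sum_ov, sum_mul]
    simp [cav_sum_wS _ _ h.le, min_eq_left (show l ≤ k - 1 by omega), hθ, Rg.ψ, Cv, Md, Rg.ext,
      mul_comm]
  unfold Rg.GI pairing
  simp only [e1, integral_const, probReal_univ, one_smul]
  rw [sum_congr rfl e2, ← mul_sum]
  ring

end Vale.Agent.P157
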