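import Vale.Agent.P157.Cav2A

/-! The fresh coordinates of the cavity system. -/

namespace Vale.Agent.P157.Cav2A

open MeasureTheory ProbabilityTheory Real Finset Filter Topology
open scoped ENNReal NNReal

variable {ι ι' κ κ' Cf Cf' : Type}

/-- the coordinates that the small perceptron does not use -/
def isNew : IC ι ι' κ κ' → Bool
  | .inl (.inl (.inl _)) => false
  | .inl (.inl (.inr _)) => true
  | .inl (.inr (.inl _, .inl _, _)) => false
  | .inl (.inr (.inl _, .inr _, _)) => true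
  | .inl (.inr (.inr _, _, _)) => true
  | .inr _ => true

theorem eC_inj : Function.Injective (eC ι ι' κ κ') := by
  rintro (i | ⟨a, i, c⟩) (i' | ⟨a', i', c'⟩) h <;> simp_all [eC]

theorem isNew_eC (i : ι ⊕ κ × ι × Bool) : isNew (eC ι ι' κ κ' i) = false := by
  rcases i with i | ⟨a, i, c⟩ <;> rfl

theorem mem_range_eC {i : IC ι ι' κ κ'} (h : ¬isNew i = true) : i ∈ Set.range (eC ι ι' κ κ') := by
  rcases i with ((i | i) | ⟨a | a, i | i, c⟩) | i
  · exact ⟨.inl i, rfl⟩
  · exact absurd rfl h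
  · exact ⟨.inr (a, i, c), rfl⟩
  · exact absurd rfl h
  · exact absurd rfl h
  · exact absurd rfl h
  · exact absurd rfl h

theorem pull_mrg (k : ℕ) (s : St (IC ι ι' κ κ') (Cf × Cf')) (u : Fin k × IC ι ι' κ κ' → ℝ) :
    pull Prod.fst (eC ι ι' κ κ') (mrg k (fun i => isNew i = true) s u) =
      pull Prod.fst (eC ι ι' κ κ') s := by
  simp [pull, mrg, isNew_eC]

variable [Fintype ι] [Fintype ι'] [Fintype κ] [Fintype κ'] [DecidableEq κ] [DecidableEq κ']
  {k : ℕ} {x : Cf → ι → ℝ} {x' : Cf' → ι' → ℝ} {f f1 f2 : ℝ → ℝ} {y b p Q θ : ℕ → ℝ} {t η : ℝ}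

theorem U_old (a : Option κ) (s : St (IC ι ι' κ κ') (Cf × Cf')) :
    (Cv κ κ' x x' f f1 f2).U k
        (fun j i => if isNew i = true then 0 else √(wC ι ι' κ κ' k y b p Q θ t η j i))
        (a.map Sum.inl) s =
      (Md κ x f f1 f2).U k (fun j i => √(wC ι ι' κ κ' k y b p Q θ t η j (eC ι ι' κ κ' i))) a
        (pull Prod.fst (eC ι ι' κ κ') s) := by
  refine sum_congr rfl fun j _ => ?_
  rw [sum_filter, sum_filter]
  simp only [Fintype.sum_sum_type, Fintype.sum_prod_type]
  rcases a with _ | a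
  · simp [Cv, Rg.ext, Md, isNew, eC, pull, xx]
  · simp [Cv, Rg.ext, Md, isNew, eC, pull, xx]

theorem U_old_none (s : St (IC ι ι' κ κ') (Cf × Cf')) :
    (Cv κ κ' x x' f f1 f2).U k
        (fun j i => if isNew i = true then 0 else √(wC ι ι' κ κ' k y b p Q θ t η j i)) none s =
      (Md κ x f f1 f2).U k (fun j i => √(wM ι κ 1 y b j i)) none
        (pull Prod.fst (eC ι ι' κ κ') s) := by
  refine (U_old none s).trans ?_
  refine sum_congr rfl fun j _ => sum_congr rfl fun i hi => ?_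
  rcases i with i | q
  · rfl
  · exact absurd (mem_filter.1 hi).2 (by simp [Md])

theorem U_old_some [Nonempty ι] {L : ℝ} (hL0 : 0 ≤ L)
    (hL : L = 1 - t + t * Fintype.card ι / (Fintype.card ι + Fintype.card ι')) (a : κ)
    (s : St (IC ι ι' κ κ') (Cf × Cf')) :
    (Cv κ κ' x x' f f1 f2).U k
        (fun j i => if isNew i = true then 0 else √(wC ι ι' κ κ' k y b p Q θ t η j i))
        (some (.inl a)) s =
      √L * UM κ k x f f1 f2 1 y b a (pull Prod.fst (eC ι ι' κ κ') s) := by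
  refine (U_old (some a) s).trans ?_
  have hN : (Fintype.card ι : ℝ) ≠ 0 := Nat.cast_ne_zero.2 Fintype.card_ne_zero
  simp only [UM, Rg.U, mul_sum]
  refine sum_congr rfl fun j _ => sum_congr rfl fun i hi => ?_
  rcases i with i | ⟨a', i, c⟩
  · exact absurd (mem_filter.1 hi).2 (by simp [Md])
  · have h1 : wC ι ι' κ κ' k y b p Q θ t η j (eC ι ι' κ κ' (.inr (a', i, c))) =
        L * wM ι κ 1 y b j (.inr (a', i, c)) := by
      rw [hL]
      simp only [wC, eC, wM, Sum.elim_inr]
      split_ifs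
      · field_simp
      · field_simp
      · simp
    rw [h1, sqrt_mul hL0]
    ring

theorem sum_wS (k : ℕ) (r : ℕ → ℝ) :
    ∑ j ∈ range k, (if j + 1 < k then r (j + 1) - r j else 0) = r (k - 1) - r 0 := by
  rcases k with _ | k
  · simp
  · rw [sum_range_succ, if_neg (lt_irrefl _), add_zero, Nat.add_sub_cancel, ← sum_range_sub]
    exact sum_congr rfl fun j hj => if_pos (Nat.succ_lt_succ (mem_range.1 hj))

theorem vr_none (σ : Cf × Cf') (hx' : ∑ i, x' σ.2 i ^ 2 = Fintype.card ι') :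
    vr (Cv κ κ' x x' f f1 f2) k (fun i => isNew i = true) (wC ι ι' κ κ' k y b p Q θ t η) σ none =
      (∑ j ∈ range k, y j + (1 - t) * (Q (k - 1) - Q 0) + η * (θ (k - 1) - θ 0)) *
        Fintype.card ι' := by
  rw [vr, ← sum_wS, ← sum_wS, mul_sum, mul_sum, ← sum_add_distrib, ← sum_add_distrib, sum_mul]
  refine sum_congr rfl fun j _ => ?_
  simp only [Fintype.sum_sum_type, Cv, Rg.ext, Md, Sum.elim_inl, Sum.elim_inr, isNew, wC, wS, xx,
    if_true, Bool.false_eq_true, if_false, reduceCtorEq, sum_const_zero, zero_add, add_zero,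
    ← mul_sum, hx']
  ring

theorem vr_some (σ : Cf × Cf') (hx' : ∑ i, x' σ.2 i ^ 2 = Fintype.card ι') (hk : 0 < k) (a : κ) :
    vr (Cv κ κ' x x' f f1 f2) k (fun i => isNew i = true) (wC ι ι' κ κ' k y b p Q θ t η) σ
        (some (.inl a)) =
      (∑ j ∈ range k, b j + 1) * (t / (Fintype.card ι + Fintype.card ι') * Fintype.card ι') := by
  have h1 : ∑ j ∈ range k, (if j = 0 then (1 : ℝ) else 0) = 1 := by
    rw [sum_ite_eq', if_pos (mem_range.2 hk)]
  rw [vr, ← h1, ← sum_add_distrib, sum_mul]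
  refine sum_congr rfl fun j _ => ?_
  simp only [Fintype.sum_sum_type, Fintype.sum_prod_type, Cv, Rg.ext, Md, Sum.elim_inl,
    Sum.elim_inr, isNew, wC, xx, if_true, Bool.false_eq_true, if_false, reduceCtorEq,
    sum_const_zero, zero_add, add_zero, Option.some.injEq, Sum.inl.injEq, ite_self,
    Fintype.sum_bool, sum_add_distrib, sum_ite_irrel, sum_ite_eq', mem_univ, one_pow, mul_one,
    sum_const, card_univ, nsmul_eq_mul, ← mul_sum, hx']
  ring

end Vale.Agent.P157.Cav2A
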