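import Vale.Agent.P157.Cav1
import Vale.Agent.P157.Cav2B

namespace Vale.Agent.P157

open MeasureTheory ProbabilityTheory Real Finset Filter Topology
open scoped ENNReal

namespace Cav2A

theorem lam_bounds {N n' n t L : ℝ} (hN : 0 < N) (h0 : 0 ≤ n') (h1 : n' ≤ n) (h3 : 3 * n ≤ N)
    (ht : t ∈ Set.Icc (0 : ℝ) 1) (hL : L = 1 - t + t * N / (N + n')) :
    0 ≤ L ∧ 1 / 2 ≤ √L ∧ √L ≤ 1 ∧ 1 - √L ≤ n / N ∧ t / (N + n') * n' ≤ n / N := by
  have hS : 0 < N + n' := by linarith only [hN, h0]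
  have h4 : t / (N + n') * n' ≤ n / N := by
    rw [div_mul_eq_mul_div]
    refine div_le_div₀ (h0.trans h1) ?_ hN (by linarith only [h0])
    nlinarith only [ht.2, h0, h1]
  have h5 : L = 1 - t / (N + n') * n' := by
    rw [hL]
    field_simp
    ring
  have h6 : 0 ≤ t / (N + n') * n' := mul_nonneg (div_nonneg ht.1 hS.le) h0
  have h7 : n / N ≤ 1 / 3 := by
    rw [div_le_iff₀ hN]
    linarith only [h3]
  have h8 : 0 ≤ L := by linarith only [h4, h5, h7]
  have h9 : √L ≤ 1 := sqrt_le_one.2 (by linarith only [h5, h6])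
  have h10 : L ≤ √L := by nlinarith only [h9, sqrt_nonneg L, mul_self_sqrt h8]
  exact ⟨h8, by linarith only [h4, h5, h7, h10], h9, by linarith only [h4, h5, h10], h4⟩

variable {ι ι' κ κ' Cf Cf' : Type} [Fintype ι] [Fintype ι'] [Fintype κ] [Fintype κ']
  [DecidableEq κ] [DecidableEq κ'] {k : ℕ} {x : Cf → ι → ℝ} {x' : Cf' → ι' → ℝ}
  {f f1 f2 : ℝ → ℝ} {K : ℝ} {y b p Q θ : ℕ → ℝ} {t η : ℝ}

theorem moment_fix [Nonempty ι] (hf : Nice f f1 f2 K)
    (hw : ∀ j < k, ∀ i, 0 ≤ wC ι ι' κ κ' k y b p Q θ t η j i) {L : ℝ} (hL0 : 0 ≤ L)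
    (hL : L = 1 - t + t * Fintype.card ι / (Fintype.card ι + Fintype.card ι'))
    (h0 : 1 / 2 ≤ √L) (h1 : √L ≤ 1) (s : St (IC ι ι' κ κ') (Cf × Cf')) {V0 V1 : ℝ}
    (hV0 : 0 ≤ V0) (hV1 : 0 ≤ V1)
    (hv0 : vr (Cv κ κ' x x' f f1 f2) k (fun i => isNew i = true)
      (wC ι ι' κ κ' k y b p Q θ t η) s.1 none ≤ V0)
    (hv1 : ∀ a, vr (Cv κ κ' x x' f f1 f2) k (fun i => isNew i = true)
      (wC ι ι' κ κ' k y b p Q θ t η) s.1 (some (.inl a)) ≤ V1) :
    ∫ u, exp (4 * |(Cv κ κ' x x' f f1 f2).Hv k (wC ι ι' κ κ' k y b p Q θ t η)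
        (mrg k (fun i => isNew i = true) s u) - HM κ k x f f1 f2 1 y b
          (pull Prod.fst (eC ι ι' κ κ') (mrg k (fun i => isNew i = true) s u))|)
        ∂γ (Fin k × IC ι ι' κ κ') ≤
      2 * exp (8 * V0 + (Fintype.card κ * (8 * K * (1 - √L) +
        (4 * K + 16 * K ^ 2 * exp (8 * K)) * V1) + Fintype.card κ' * (4 * K))) := by
  have hK : 0 ≤ K := zero_le_one.trans hf.one_le
  have hmf := measurable_f hf
  have hF : ∀ a, Measurable ((Cv κ κ' x x' f f1 f2).F a) := by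
    rintro (_ | a)
    · exact measurable_id
    · exact hmf
  have h2 := integral_mrg (Cv κ κ' x x' f f1 f2) k (fun i => isNew i = true) hw s
    (G := fun V => exp (4 * |∑ a, (Cv κ κ' x x' f f1 f2).F a (V a) -
      HM κ k x f f1 f2 1 y b (pull Prod.fst (eC ι ι' κ κ') s)|))
    (((Finset.measurable_sum _ fun a _ => (hF a).comp (measurable_pi_apply a)).sub_const
      _).abs.const_mul 4).exp
  simp only [pull_mrg]
  refine le_trans (le_of_eq h2) ?_
  obtain ⟨U0, hU0⟩ : ∃ U0 : κ → ℝ, ∀ a,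
      UM κ k x f f1 f2 1 y b a (pull Prod.fst (eC ι ι' κ κ') s) = U0 a := ⟨_, fun _ => rfl⟩
  obtain ⟨U1, hU1⟩ : ∃ U1 : κ' → ℝ, ∀ a, (Cv κ κ' x x' f f1 f2).U k
      (fun j i => if isNew i = true then 0 else √(wC ι ι' κ κ' k y b p Q θ t η j i))
      (some (.inr a)) s = U1 a := ⟨_, fun _ => rfl⟩
  have h3 := integral_exp_abs_sum (fun a => Real.toNNReal (vr (Cv κ κ' x x' f f1 f2) k
    (fun i => isNew i = true) (wC ι ι' κ κ' k y b p Q θ t η) s.1 a))
    (fun a z => a.elim z (Sum.elim (fun a => f (√L * U0 a + z) - f (U0 a))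
      fun a => f (U1 a + z)))
    (fun a => a.elim (8 * V0) (Sum.elim (fun _ => 8 * K * (1 - √L) +
      (4 * K + 16 * K ^ 2 * exp (8 * K)) * V1) fun _ => 4 * K))
    (by
      rintro (_ | a | a) c
      · exact integrable_exp_mul_gaussianReal c
      · exact integrable_exp_bdd ((hmf.comp (measurable_const_add _)).sub_const _)
          (fun z => abs_diff_le hf _ _) c _
      · exact integrable_exp_bdd (hmf.comp (measurable_const_add _)) (fun z => hf.b0 _) c _)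
    (by
      rintro (_ | a | a) c hc
      · refine (integral_exp_lin hc _).trans (exp_le_exp.2 ?_)
        exact mul_le_mul_of_nonneg_left (max_le hv0 hV0) (by norm_num)
      · refine (integral_exp_old hf hc h0 h1 _ _).trans (exp_le_exp.2 ?_)
        exact add_le_add le_rfl
          (mul_le_mul_of_nonneg_left (max_le (hv1 a) hV1) (by positivity))
      · exact integral_exp_bdd (g := fun z => f (U1 a + z)) (fun z => hf.b0 _) hc _)
  simp only [Fintype.sum_option, Fintype.sum_sum_type, Option.elim_none, Option.elim_some,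
    Sum.elim_inl, Sum.elim_inr, sum_const, card_univ, nsmul_eq_mul] at h3
  refine le_trans (le_of_eq (integral_congr_ae (Eventually.of_forall fun W => ?_))) h3
  have h4 : HM κ k x f f1 f2 1 y b (pull Prod.fst (eC ι ι' κ κ') s) =
      (Md κ x f f1 f2).U k (fun j i => √(wM ι κ 1 y b j i)) none
        (pull Prod.fst (eC ι ι' κ κ') s) + ∑ a, f (U0 a) := by
    simp only [← hU0]
    exact Fintype.sum_option _
  simp only [Fintype.sum_option, Fintype.sum_sum_type, U_old_none, U_old_some hL0 hL, hU0, hU1,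
    h4, sum_sub_distrib]
  congr 3
  show _ + W none + (∑ a, f (√L * U0 a + W (some (.inl a))) +
    ∑ a, f (U1 a + W (some (.inr a)))) - _ = _
  ring

theorem sq_fix [Nonempty ι] (hf : Nice f f1 f2 K)
    (hw : ∀ j < k, ∀ i, 0 ≤ wC ι ι' κ κ' k y b p Q θ t η j i) {L : ℝ} (hL0 : 0 ≤ L)
    (hL : L = 1 - t + t * Fintype.card ι / (Fintype.card ι + Fintype.card ι'))
    (h0 : 1 / 2 ≤ √L) (h1 : √L ≤ 1) (s : St (IC ι ι' κ κ') (Cf × Cf')) {V1 : ℝ}
    (hV1 : 0 ≤ V1) (a : κ)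
    (hv1 : vr (Cv κ κ' x x' f f1 f2) k (fun i => isNew i = true)
      (wC ι ι' κ κ' k y b p Q θ t η) s.1 (some (.inl a)) ≤ V1) :
    ∫ u, (f1 ((Cv κ κ' x x' f f1 f2).U k (fun j i => √(wC ι ι' κ κ' k y b p Q θ t η j i))
        (some (.inl a)) (mrg k (fun i => isNew i = true) s u)) - f1 (UM κ k x f f1 f2 1 y b a
          (pull Prod.fst (eC ι ι' κ κ') (mrg k (fun i => isNew i = true) s u)))) ^ 2
        ∂γ (Fin k × IC ι ι' κ κ') ≤ 8 * K ^ 2 * (1 - √L) + 2 * K ^ 2 * V1 := by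
  have hm := measurable_f1 hf
  have h2 := integral_mrg (Cv κ κ' x x' f f1 f2) k (fun i => isNew i = true) hw s
    (G := fun V => (f1 (V (some (.inl a))) -
      f1 (UM κ k x f f1 f2 1 y b a (pull Prod.fst (eC ι ι' κ κ') s))) ^ 2)
    (((hm.comp (measurable_pi_apply _)).sub_const _).pow_const 2)
  simp only [pull_mrg]
  refine le_trans (le_of_eq h2) ?_
  simp only [U_old_some hL0 hL]
  generalize UM κ k x f f1 f2 1 y b a (pull Prod.fst (eC ι ι' κ κ') s) = u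
  have h3 : Measurable fun z => (f1 (√L * u + z) - f1 u) ^ 2 :=
    ((hm.comp (measurable_const_add _)).sub_const _).pow_const 2
  refine le_trans (le_of_eq (integral_comp_eval (X := fun _ : Option (κ ⊕ κ') => ℝ)
    (i := some (.inl a)) h3.aestronglyMeasurable)) ?_
  exact (integral_sq_old hf h0 h1 u _).trans (add_le_add le_rfl
    (mul_le_mul_of_nonneg_left (max_le hv1 hV1) (by positivity)))

omit [DecidableEq κ] in
theorem sq_overlap_le {K : ℝ} {g h g' h' : κ → ℝ} (hg : ∀ a, |g' a| ≤ K) (hh : ∀ a, |h a| ≤ K) :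
    (∑ a, g a * g' a - ∑ a, h a * h' a) ^ 2 ≤
      Fintype.card κ * (2 * K ^ 2) * ∑ a, ((g a - h a) ^ 2 + (g' a - h' a) ^ 2) := by
  rw [← sum_sub_distrib, mul_assoc, mul_sum]
  refine sq_sum_le_card_mul_sum_sq.trans
    (mul_le_mul_of_nonneg_left (sum_le_sum fun a _ => ?_) (Nat.cast_nonneg _))
  have h1 := pow_le_pow_left₀ (abs_nonneg _) (hg a) 2
  have h2 := pow_le_pow_left₀ (abs_nonneg _) (hh a) 2
  rw [sq_abs] at h1 h2
  have h3 := mul_le_mul_of_nonneg_right h1 (sq_nonneg (g a - h a))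
  have h4 := mul_le_mul_of_nonneg_right h2 (sq_nonneg (g' a - h' a))
  nlinarith only [h3, h4, sq_nonneg ((g a - h a) * g' a - h a * (g' a - h' a))]

omit [DecidableEq κ] in
theorem integral_overlap_le {I : Type} [Fintype I] [MeasurableSpace Cf] [Nonempty Cf]
    {ν : Measure Cf} [IsProbabilityMeasure ν] (hk : 0 < k) {H : St I Cf → ℝ}
    (hH : (GS k I ν).Lin H) {g h : κ → St I Cf → ℝ} (hgm : ∀ a, Measurable (g a))
    (hhm : ∀ a, Measurable (h a)) (hg : ∀ a s, |g a s| ≤ K) (hh : ∀ a s, |h a s| ≤ K) {B : ℝ}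
    (hB : ∀ a, ∫ s, (g a s - h a s) ^ 2 ∂mm k ν H ≤ B) {l : ℕ} (hl : l ≤ k) (N : ℝ) :
    ∫ z, ((∑ a, g a z.1 * g a z.2) / N - (∑ a, h a z.1 * h a z.2) / N) ^ 2 ∂pp k ν H l ≤
      4 * K ^ 2 * B * (Fintype.card κ / N) ^ 2 := by
  have := pp_prob hk hH l
  have hm : ∀ a, Measurable fun s => (g a s - h a s) ^ 2 := fun a =>
    ((hgm a).sub (hhm a)).pow_const 2
  have hb : ∀ a s, ‖(g a s - h a s) ^ 2‖ ≤ (2 * K) ^ 2 := fun a s => by
    rw [Real.norm_eq_abs, abs_pow]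
    refine pow_le_pow_left₀ (abs_nonneg _) ?_ 2
    linarith only [abs_sub (g a s) (h a s), hg a s, hh a s]
  have i1 : ∀ a, Integrable (fun z : St I Cf × St I Cf => (g a z.1 - h a z.1) ^ 2) (pp k ν H l) :=
    fun a => Integrable.of_bound ((hm a).comp measurable_fst).aestronglyMeasurable _
      (Eventually.of_forall fun z => hb a z.1)
  have i2 : ∀ a, Integrable (fun z : St I Cf × St I Cf => (g a z.2 - h a z.2) ^ 2) (pp k ν H l) :=
    fun a => Integrable.of_bound ((hm a).comp measurable_snd).aestronglyMeasurable _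
      (Eventually.of_forall fun z => hb a z.2)
  have e1 : ∀ a, ∫ z, (g a z.1 - h a z.1) ^ 2 ∂pp k ν H l ≤ B := fun a => by
    have h1 := hB a
    rw [← pp_map_fst hk hH (Nat.le_succ_of_le hl), integral_map measurable_fst.aemeasurable
      (hm a).aestronglyMeasurable] at h1
    exact h1
  have e2 : ∀ a, ∫ z, (g a z.2 - h a z.2) ^ 2 ∂pp k ν H l ≤ B := fun a => by
    have h1 := hB a
    rw [← pp_map_snd hk hH (Nat.le_succ_of_le hl), integral_map measurable_snd.aemeasurable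
      (hm a).aestronglyMeasurable] at h1
    exact h1
  have i3 : ∀ a, Integrable (fun z : St I Cf × St I Cf =>
      (g a z.1 - h a z.1) ^ 2 + (g a z.2 - h a z.2) ^ 2) (pp k ν H l) := fun a => (i1 a).add (i2 a)
  have h1 := integral_mono_of_nonneg (μ := pp k ν H l)
    (f := fun z => ((∑ a, g a z.1 * g a z.2) / N - (∑ a, h a z.1 * h a z.2) / N) ^ 2)
    (g := fun z => Fintype.card κ * (2 * K ^ 2) / N ^ 2 *
      ∑ a, ((g a z.1 - h a z.1) ^ 2 + (g a z.2 - h a z.2) ^ 2))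
    (Eventually.of_forall fun z => sq_nonneg _)
    ((integrable_finsetSum _ fun a _ => i3 a).const_mul _)
    (Eventually.of_forall fun z => by
      beta_reduce
      rw [← sub_div, div_pow, div_mul_eq_mul_div]
      exact div_le_div_of_nonneg_right (sq_overlap_le (fun a => hg a z.2) fun a => hh a z.1)
        (sq_nonneg _))
  refine h1.trans ?_
  rw [integral_const_mul, integral_finsetSum _ fun a _ => i3 a]
  have h2 : ∑ a, ∫ z, (g a z.1 - h a z.1) ^ 2 + (g a z.2 - h a z.2) ^ 2 ∂pp k ν H l ≤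
      Fintype.card κ * (2 * B) := by
    rw [← card_univ, ← nsmul_eq_mul]
    refine sum_le_card_nsmul _ _ _ fun a _ => ?_
    rw [integral_add (i1 a) (i2 a)]
    linarith only [e1 a, e2 a]
  refine (mul_le_mul_of_nonneg_left h2 (by positivity)).trans (le_of_eq ?_)
  ring

theorem measurable_ov_st {ι I Cf Cf' : Type} [Fintype ι] [MeasurableSpace Cf]
    [MeasurableSpace Cf'] {ν : Measure Cf} {x : Cf → ι → ℝ} (hx : Spin ν x) {φ : Cf' → Cf}
    (hφ : Measurable φ) :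
    Measurable fun z : St I Cf' × St I Cf' => ov x (φ z.1.1) (φ z.2.1) :=
  hx.measurable_ov.comp ((hφ.comp (measurable_fst.comp measurable_fst)).prodMk
    (hφ.comp (measurable_fst.comp measurable_snd)))

theorem integral_sq_sub_le {α : Type*} [MeasurableSpace α] {μ : Measure α}
    [IsProbabilityMeasure μ] {g h : α → ℝ} (hg : Measurable g) (hh : Measurable h) {C c : ℝ}
    (hgb : ∀ z, |g z| ≤ C) (hhb : ∀ z, |h z| ≤ C) (hc : |c| ≤ C) :
    ∫ z, (g z - c) ^ 2 ∂μ ≤ 2 * ∫ z, (g z - h z) ^ 2 ∂μ + 2 * ∫ z, (h z - c) ^ 2 ∂μ := by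
  have hi : ∀ {u v : α → ℝ}, Measurable u → Measurable v → (∀ z, |u z| ≤ C) → (∀ z, |v z| ≤ C) →
      Integrable (fun z => 2 * (u z - v z) ^ 2) μ := by
    intro u v hu hv hub hvb
    refine (Integrable.of_bound ((hu.sub hv).pow_const 2).aestronglyMeasurable ((2 * C) ^ 2)
      (Eventually.of_forall fun z => ?_)).const_mul 2
    rw [Real.norm_eq_abs, abs_pow]
    refine pow_le_pow_left₀ (abs_nonneg _) ((abs_sub (u z) (v z)).trans ?_) 2
    linarith only [hub z, hvb z]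
  have i1 := hi hg hh hgb hhb
  have i2 := hi hh measurable_const hhb fun _ => hc
  rw [← integral_const_mul, ← integral_const_mul, ← integral_add i1 i2]
  refine integral_mono_of_nonneg (Eventually.of_forall fun z => sq_nonneg _) (i1.add i2)
    (Eventually.of_forall fun z => ?_)
  beta_reduce
  nlinarith only [sq_nonneg (g z - h z - (h z - c))]

end Cav2A

open Cav2A

/-- the cavity Hamiltonian is an exponentially integrable perturbation of the small perceptron -/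
theorem cav_moment (K K' T : ℝ) (n : ℕ) : ∃ A ≥ (1 : ℝ), ∀ (ι ι' κ κ' Cf Cf' : Type) [Fintype ι]
    [Fintype ι'] [Fintype κ] [Fintype κ'] [DecidableEq κ] [DecidableEq κ'] [MeasurableSpace Cf]
    [MeasurableSpace Cf'] [Nonempty Cf] [Nonempty Cf'] [Nonempty ι] (k : ℕ) (_ : 0 < k)
    (ν : Measure Cf) (ν' : Measure Cf') (x : Cf → ι → ℝ) (x' : Cf' → ι' → ℝ) (_ : Spin ν x)
    (_ : Spin ν' x') (f f1 f2 : ℝ → ℝ) (_ : Nice f f1 f2 K) (_ : Fintype.card ι' ≤ n)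
    (_ : Fintype.card κ' ≤ n) (_ : 3 * n ≤ Fintype.card ι)
    (_ : (Fintype.card κ : ℝ) ≤ K' * Fintype.card ι) (y b p Q θ : ℕ → ℝ)
    (_ : ∀ j < k, 0 ≤ y j) (_ : ∀ j < k, 0 ≤ b j) (_ : ∑ j ∈ range k, y j ≤ 1)
    (_ : ∑ j ∈ range k, b j ≤ 1) (_ : Monotone p) (_ : AdmR Q) (_ : Q (k - 1) ≤ T) (_ : AdmR θ)
    (_ : θ (k - 1) ≤ T) (t η : ℝ) (_ : t ∈ Set.Icc (0 : ℝ) 1) (_ : η ∈ Set.Icc (0 : ℝ) 1),
    (∫ s, exp (4 * |(Cv κ κ' x x' f f1 f2).Hv k (wC ι ι' κ κ' k y b p Q θ t η) s -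
        HM κ k x f f1 f2 1 y b (pull Prod.fst (eC ι ι' κ κ') s)|)
      ∂mm k (ν.prod ν') (fun s => HM κ k x f f1 f2 1 y b (pull Prod.fst (eC ι ι' κ κ') s)) ≤ A) ∧
    ∀ l ≤ k, ∫ z, (SC Sum.inl k x x' f f1 f2 (wC ι ι' κ κ' k y b p Q θ t η) z / Fintype.card ι -
        QM κ k x f f1 f2 1 y b
          (pull Prod.fst (eC ι ι' κ κ') z.1, pull Prod.fst (eC ι ι' κ κ') z.2)) ^ 2
      ∂pp k (ν.prod ν') (fun s => HM κ k x f f1 f2 1 y b (pull Prod.fst (eC ι ι' κ κ') s)) l ≤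
        A / Fintype.card ι := by
  refine ⟨1 + (2 * exp (8 * ((1 + 2 * |T|) * n) + (|K'| * n * (8 * |K| +
    2 * (4 * |K| + 16 * K ^ 2 * exp (8 * K))) + n * (4 * |K|))) + 48 * K ^ 4 * n * K' ^ 2),
    le_add_of_nonneg_right (by positivity), ?_⟩
  intro ι ι' κ κ' Cf Cf' _ _ _ _ _ _ _ _ _ _ _ k hk ν ν' x x' hx hx' f f1 f2 hf hn hn' h3 hM
    y b p Q θ hy hb hy1 hb1 hp hQ hQT hθ hθT t η ht hη
  have := hx.prob
  have := hx'.prob
  have hK : 0 ≤ K := zero_le_one.trans hf.one_le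
  have hN : (0 : ℝ) < Fintype.card ι := Nat.cast_pos.2 Fintype.card_pos
  have hn1 : (Fintype.card ι' : ℝ) ≤ n := Nat.cast_le.2 hn
  have hn2 : (Fintype.card κ' : ℝ) ≤ n := Nat.cast_le.2 hn'
  have hn0 : (0 : ℝ) ≤ n := Nat.cast_nonneg n
  have hMN : (Fintype.card κ : ℝ) / Fintype.card ι ≤ |K'| :=
    ((div_le_iff₀ hN).2 hM).trans (le_abs_self _)
  obtain ⟨L, hL⟩ : ∃ L : ℝ,
      L = 1 - t + t * Fintype.card ι / (Fintype.card ι + Fintype.card ι') := ⟨_, rfl⟩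
  obtain ⟨hL0, h0, h1, h2, h4⟩ := lam_bounds hN (Nat.cast_nonneg _) hn1 (by exact_mod_cast h3)
    ht hL
  have hw := wC_nonneg (ι := ι) (ι' := ι') (κ := κ) (κ' := κ') hy hb hp hQ.2 hθ.2 ht.1 ht.2 hη.1
  have hok := cv_ok (κ := κ) (κ' := κ') hx hx' hf
  have hH0 := lin_pull hk (measurePreserving_fst (μ := ν) (ν := ν')) (eC_inj (ι' := ι') (κ' := κ'))
    (lin_HM (κ := κ) hx hf hk 1 y b)
  have hmrg : ∀ (s : St (IC ι ι' κ κ') (Cf × Cf')) u, HM κ k x f f1 f2 1 y b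
      (pull Prod.fst (eC ι ι' κ κ') (mrg k (fun i => isNew i = true) s u)) =
      HM κ k x f f1 f2 1 y b (pull Prod.fst (eC ι ι' κ κ') s) := fun s u => by rw [pull_mrg]
  have hV1 : 0 ≤ 2 * (n / (Fintype.card ι : ℝ)) := by positivity
  have hv0 : ∀ σ, vr (Cv κ κ' x x' f f1 f2) k (fun i => isNew i = true)
      (wC ι ι' κ κ' k y b p Q θ t η) σ none ≤ (1 + 2 * |T|) * n := by
    intro σ
    rw [vr_none σ (hx'.norm _), hQ.1, hθ.1, sub_zero, sub_zero]
    refine mul_le_mul ?_ hn1 (Nat.cast_nonneg _) (by positivity)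
    have a1 : 0 ≤ Q (k - 1) := hQ.1.ge.trans (hQ.2 (Nat.zero_le _))
    have a2 : 0 ≤ θ (k - 1) := hθ.1.ge.trans (hθ.2 (Nat.zero_le _))
    have a3 := mul_nonneg ht.1 a1
    have a4 := mul_le_mul_of_nonneg_right hη.2 a2
    linarith only [a3, a4, hy1, hQT, hθT, le_abs_self T]
  have hv1 : ∀ σ a, vr (Cv κ κ' x x' f f1 f2) k (fun i => isNew i = true)
      (wC ι ι' κ κ' k y b p Q θ t η) σ (some (.inl a)) ≤ 2 * (n / (Fintype.card ι : ℝ)) := by
    intro σ a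
    rw [vr_some σ (hx'.norm _) hk a]
    exact mul_le_mul (by linarith only [hb1]) h4
      (mul_nonneg (div_nonneg ht.1 (by positivity)) (Nat.cast_nonneg _)) zero_le_two
  rw [abs_of_nonneg hK]
  refine ⟨le_trans (integral_rest_le hk (fun i => isNew i = true) hH0 hmrg
    (Sys.dl_e_ex (gs_ok hk) hH0 (Rg.lin_Hv hok hk _)) fun s =>
      moment_fix hf hw hL0 hL h0 h1 s (by positivity) hV1 (hv0 _) (hv1 _)) ?_, fun l hl => ?_⟩
  · refine le_trans ?_ (le_add_of_nonneg_left zero_le_one)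
    refine le_trans ?_ (le_add_of_nonneg_right (by positivity))
    refine mul_le_mul_of_nonneg_left (exp_le_exp.2 (add_le_add le_rfl (add_le_add ?_
      (mul_le_mul_of_nonneg_right hn2 (by positivity))))) zero_le_two
    have a0 : 0 ≤ 4 * K + 16 * K ^ 2 * exp (8 * K) := by positivity
    generalize 4 * K + 16 * K ^ 2 * exp (8 * K) = C at a0 ⊢
    have a1 : 8 * K * (1 - √L) + C * (2 * (n / (Fintype.card ι : ℝ))) ≤
        n / (Fintype.card ι : ℝ) * (8 * K + 2 * C) := by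
      have a2 := mul_le_mul_of_nonneg_left h2 hK
      linarith only [a2]
    refine (mul_le_mul_of_nonneg_left a1 (Nat.cast_nonneg _)).trans ?_
    rw [← mul_assoc, mul_div_left_comm, mul_comm (n : ℝ)]
    exact mul_le_mul_of_nonneg_right (mul_le_mul_of_nonneg_right hMN hn0) (by positivity)
  · have hm := measurable_f1 hf
    have g1 : ∀ a : κ, Measurable fun s => f1 ((Cv κ κ' x x' f f1 f2).U k
        (fun j i => √(wC ι ι' κ κ' k y b p Q θ t η j i)) (some (.inl a)) s) := fun a =>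
      hm.comp (Rg.lin_U (ν := ν.prod ν') hok hk _ _).1
    have g2 : ∀ a : κ, Measurable fun s : St (IC ι ι' κ κ') (Cf × Cf') =>
        f1 (UM κ k x f f1 f2 1 y b a (pull Prod.fst (eC ι ι' κ κ') s)) := fun a =>
      hm.comp ((Rg.lin_U (ν := ν) (md_ok hx hf) hk _ _).1.comp (measurable_pull measurable_fst))
    have a1 := integral_overlap_le hk hH0 g1 g2 (fun _ _ => hf.b1 _) (fun _ _ => hf.b1 _)
      (B := 12 * K ^ 2 * (n / (Fintype.card ι : ℝ))) (fun a =>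
        integral_rest_le hk (fun i => isNew i = true) hH0 hmrg
          (((Sys.Ex.of_bdd (gs_ok hk) (g1 a) K fun _ => hf.b1 _).sub (gs_ok hk)
            (Sys.Ex.of_bdd (gs_ok hk) (g2 a) K fun _ => hf.b1 _)).sq (gs_ok hk)) fun s =>
          (sq_fix hf hw hL0 hL h0 h1 s hV1 a (hv1 _ a)).trans (by
            have a2 := mul_le_mul_of_nonneg_left h2 (sq_nonneg K)
            linarith only [a2])) hl (Fintype.card ι)
    refine le_trans a1 ?_
    have a2 := pow_le_pow_left₀ (by positivity) hMN 2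
    rw [sq_abs] at a2
    refine (mul_le_mul_of_nonneg_left a2 (by positivity)).trans ?_
    have a3 : 4 * K ^ 2 * (12 * K ^ 2 * (n / (Fintype.card ι : ℝ))) * K' ^ 2 =
        48 * K ^ 4 * n * K' ^ 2 / Fintype.card ι := by ring
    rw [a3]
    refine div_le_div_of_nonneg_right ?_ hN.le
    refine le_trans ?_ (le_add_of_nonneg_left zero_le_one)
    exact le_add_of_nonneg_left (by positivity)

/-- synchronisation is transferred to the cavity system -/
theorem cav_transfer (K K' T e : ℝ) (he : 0 < e) (n : ℕ) : ∃ a > (0 : ℝ), ∃ N0 : ℕ,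
    ∀ (ι ι' κ κ' Cf Cf' : Type) [Fintype ι]
    [Fintype ι'] [Fintype κ] [Fintype κ'] [DecidableEq κ] [DecidableEq κ'] [MeasurableSpace Cf]
    [MeasurableSpace Cf'] [Nonempty Cf] [Nonempty Cf'] [Nonempty ι] (k : ℕ) (_ : 0 < k)
    (ν : Measure Cf) (ν' : Measure Cf') (x : Cf → ι → ℝ) (x' : Cf' → ι' → ℝ) (_ : Spin ν x)
    (_ : Spin ν' x') (f f1 f2 : ℝ → ℝ) (_ : Nice f f1 f2 K) (_ : Fintype.card ι' ≤ n)
    (_ : Fintype.card κ' ≤ n) (_ : N0 ≤ Fintype.card ι)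
    (_ : (Fintype.card κ : ℝ) ≤ K' * Fintype.card ι) (y b p Q θ : ℕ → ℝ)
    (_ : ∀ j < k, 0 ≤ y j) (_ : ∀ j < k, 0 ≤ b j) (_ : ∑ j ∈ range k, y j ≤ 1)
    (_ : ∑ j ∈ range k, b j ≤ 1) (_ : Monotone p) (_ : AdmR Q) (_ : Q (k - 1) ≤ T) (_ : AdmR θ)
    (_ : θ (k - 1) ≤ T) (t η : ℝ) (_ : t ∈ Set.Icc (0 : ℝ) 1) (_ : η ∈ Set.Icc (0 : ℝ) 1)
    (_ : vR κ k ν x f f1 f2 1 y b ≤ a) (_ : vQ κ k ν x f f1 f2 1 y b ≤ a),
    (1 / (k : ℝ)) * ∑ l ∈ range k, ∫ z, |ov x z.1.1.1 z.2.1.1 - eR κ k ν x f f1 f2 1 y b l|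
      ∂pp k (ν.prod ν') ((Cv κ κ' x x' f f1 f2).Hv k (wC ι ι' κ κ' k y b p Q θ t η)) l ≤ e ∧
    (1 / (k : ℝ)) * ∑ l ∈ range k,
      ∫ z, |SC Sum.inl k x x' f f1 f2 (wC ι ι' κ κ' k y b p Q θ t η) z / Fintype.card ι -
        eQ κ k ν x f f1 f2 1 y b l|
      ∂pp k (ν.prod ν') ((Cv κ κ' x x' f f1 f2).Hv k (wC ι ι' κ κ' k y b p Q θ t η)) l ≤ e := by
  obtain ⟨A, hA1, hA⟩ := cav_moment K K' T n
  have hA0 : 0 < A := one_pos.trans_le hA1
  obtain ⟨τ, hτ, htr⟩ := transfer hA0 (c := 2 * (K ^ 2 * |K'|) + 2) (by positivity) he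
  obtain ⟨N1, hN1⟩ := exists_nat_ge (4 * A / τ)
  refine ⟨τ / 4, by positivity, max (3 * n) N1, ?_⟩
  intro ι ι' κ κ' Cf Cf' _ _ _ _ _ _ _ _ _ _ _ k hk ν ν' x x' hx hx' f f1 f2 hf hn hn' h3 hM
    y b p Q θ hy hb hy1 hb1 hp hQ hQT hθ hθT t η ht hη hR hQ'
  have := hx.prob
  have := hx'.prob
  obtain ⟨hm1, hm2⟩ := hA ι ι' κ κ' Cf Cf' k hk ν ν' x x' hx hx' f f1 f2 hf hn hn'
    ((le_max_left _ _).trans h3) hM y b p Q θ hy hb hy1 hb1 hp hQ hQT hθ hθT t η ht hη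
  have hN : (0 : ℝ) < Fintype.card ι := Nat.cast_pos.2 Fintype.card_pos
  have hk0 : (0 : ℝ) < k := Nat.cast_pos.2 hk
  have hAN : A / Fintype.card ι ≤ τ / 4 := by
    have a1 : (N1 : ℝ) ≤ Fintype.card ι := Nat.cast_le.2 ((le_max_right _ _).trans h3)
    have a2 := (div_le_iff₀ hτ).1 (hN1.trans a1)
    rw [div_le_iff₀ hN]
    linarith only [a2]
  have hMN : K ^ 2 * Fintype.card κ / Fintype.card ι ≤ K ^ 2 * |K'| := by
    rw [mul_div_assoc]
    exact mul_le_mul_of_nonneg_left (((div_le_iff₀ hN).2 hM).trans (le_abs_self _)) (sq_nonneg K)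
  have hKK : 0 ≤ K ^ 2 * |K'| := by positivity
  have hHM := lin_HM (κ := κ) hx hf hk 1 y b
  have hmp := measurePreserving_fst (μ := ν) (ν := ν')
  have hH0 := lin_pull hk hmp (eC_inj (ι' := ι') (κ' := κ')) hHM
  have hH1 := Rg.lin_Hv (ν := ν.prod ν') (cv_ok (κ := κ) (κ' := κ') hx hx' hf) hk
    (wC ι ι' κ κ' k y b p Q θ t η)
  have hpm : Measurable (Prod.map (pull Prod.fst (eC ι ι' κ κ'))
      (pull Prod.fst (eC ι ι' κ κ')) : St (IC ι ι' κ κ') (Cf × Cf') × St (IC ι ι' κ κ') (Cf × Cf') →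
        St (ι ⊕ κ × ι × Bool) Cf × St (ι ⊕ κ × ι × Bool) Cf) :=
    (measurable_pull measurable_fst).prodMap (measurable_pull measurable_fst)
  have hpull : ∀ l ∈ range k, ∀ {G : St (ι ⊕ κ × ι × Bool) Cf × St (ι ⊕ κ × ι × Bool) Cf → ℝ},
      Measurable G → ∫ z, G (pull Prod.fst (eC ι ι' κ κ') z.1, pull Prod.fst (eC ι ι' κ κ') z.2)
        ∂pp k (ν.prod ν') (fun s => HM κ k x f f1 f2 1 y b (pull Prod.fst (eC ι ι' κ κ') s)) l =
      ∫ z, G z ∂pp k ν (HM κ k x f f1 f2 1 y b) l := by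
    intro l hl G hG
    rw [← pp_pull hk hmp (eC_inj (ι' := ι') (κ' := κ')) hHM (mem_range.1 hl).le,
      integral_map hpm.aemeasurable hG.aestronglyMeasurable]
    rfl
  have hbd : ∀ l {G : St (ι ⊕ κ × ι × Bool) Cf × St (ι ⊕ κ × ι × Bool) Cf → ℝ} {C : ℝ},
      (∀ z, |G z| ≤ C) → |∫ z, G z ∂pp k ν (HM κ k x f f1 f2 1 y b) l| ≤ C := by
    intro l G C hG
    have := pp_prob hk hHM l
    have a1 := norm_integral_le_of_norm_le_const (μ := pp k ν (HM κ k x f f1 f2 1 y b) l)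
      (f := G) (C := C) (Eventually.of_forall hG)
    rwa [probReal_univ, mul_one] at a1
  have hQb : ∀ z, |QM κ k x f f1 f2 1 y b z| ≤ K ^ 2 * |K'| := fun z =>
    (abs_QM_le hf 1 y b z).trans hMN
  have heQ : ∀ l, |eQ κ k ν x f f1 f2 1 y b l| ≤ K ^ 2 * |K'| := fun l => hbd l hQb
  have hSb : ∀ z, |SC Sum.inl k x x' f f1 f2 (wC ι ι' κ κ' k y b p Q θ t η) z /
      Fintype.card ι| ≤ K ^ 2 * |K'| := fun z => by
    rw [abs_div, abs_of_pos hN]
    exact (div_le_div_of_nonneg_right (abs_SC_le hf _ _ z) hN.le).trans hMN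
  have hSm : Measurable fun z => SC Sum.inl k x x' f f1 f2 (wC ι ι' κ κ' k y b p Q θ t η) z /
      Fintype.card ι := (measurable_SC hx hx' hf _ _).div_const _
  constructor
  · refine htr _ _ k hk _ _ _ hH0 hH1 hm1
      (fun l z => ov x z.1.1.1 z.2.1.1 - eR κ k ν x f f1 f2 1 y b l)
      (fun l => (measurable_ov_st hx measurable_fst).sub_const _) (fun l z => ?_) ?_
    · have a1 : |eR κ k ν x f f1 f2 1 y b l| ≤ 1 := hbd l fun z => hx.abs_ov_le _ _
      linarith only [a1, hx.abs_ov_le z.1.1.1 z.2.1.1, hKK,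
        abs_sub (ov x z.1.1.1 z.2.1.1) (eR κ k ν x f f1 f2 1 y b l)]
    · refine le_trans (le_of_eq ?_) (hR.trans (by linarith only [hτ]))
      refine congrArg _ (sum_congr rfl fun l hl => ?_)
      exact hpull l hl (G := fun z => (RM x z - eR κ k ν x f f1 f2 1 y b l) ^ 2)
        (((measurable_ov_st hx measurable_id).sub_const _).pow_const 2)
  · refine htr _ _ k hk _ _ _ hH0 hH1 hm1
      (fun l z => SC Sum.inl k x x' f f1 f2 (wC ι ι' κ κ' k y b p Q θ t η) z / Fintype.card ι -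
        eQ κ k ν x f f1 f2 1 y b l) (fun l => hSm.sub_const _) (fun l z => ?_) ?_
    · linarith only [hSb z, heQ l, abs_sub (SC Sum.inl k x x' f f1 f2
        (wC ι ι' κ κ' k y b p Q θ t η) z / Fintype.card ι) (eQ κ k ν x f f1 f2 1 y b l)]
    · have hQm : Measurable fun z : St (IC ι ι' κ κ') (Cf × Cf') × St (IC ι ι' κ κ') (Cf × Cf') =>
          QM κ k x f f1 f2 1 y b
            (pull Prod.fst (eC ι ι' κ κ') z.1, pull Prod.fst (eC ι ι' κ κ') z.2) :=
        (measurable_QM hx hf 1 y b).comp hpm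
      have a1 : ∀ l ∈ range k, ∫ z, (SC Sum.inl k x x' f f1 f2 (wC ι ι' κ κ' k y b p Q θ t η) z /
          Fintype.card ι - eQ κ k ν x f f1 f2 1 y b l) ^ 2 ∂pp k (ν.prod ν')
            (fun s => HM κ k x f f1 f2 1 y b (pull Prod.fst (eC ι ι' κ κ') s)) l ≤
          τ / 2 + 2 * ∫ z, (QM κ k x f f1 f2 1 y b z - eQ κ k ν x f f1 f2 1 y b l) ^ 2
            ∂pp k ν (HM κ k x f f1 f2 1 y b) l := by
        intro l hl
        have := pp_prob hk hH0 l
        have a2 := integral_sq_sub_le (μ := pp k (ν.prod ν')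
          (fun s => HM κ k x f f1 f2 1 y b (pull Prod.fst (eC ι ι' κ κ') s)) l) hSm hQm hSb
          (fun z => hQb _) (heQ l)
        rw [hpull l hl (G := fun z => (QM κ k x f f1 f2 1 y b z -
          eQ κ k ν x f f1 f2 1 y b l) ^ 2)
          (((measurable_QM hx hf 1 y b).sub_const _).pow_const 2)] at a2
        linarith only [a2, hm2 l (mem_range.1 hl).le, hAN]
      have a2 := mul_le_mul_of_nonneg_left (sum_le_sum a1) (one_div_pos.2 hk0).le
      rw [sum_add_distrib, sum_const, card_range, nsmul_eq_mul, ← mul_sum, mul_add,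
        ← mul_assoc (1 / (k : ℝ)) k, one_div_mul_cancel hk0.ne', one_mul, mul_left_comm] at a2
      unfold vQ at hQ'
      linarith only [a2, hQ']

end Vale.Agent.P157
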