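import Vale.Agent.P157.Cav1

/-! One dimensional estimates and abstract lemmas for the cavity moment bounds. -/

namespace Vale.Agent.P157.Cav2A

open MeasureTheory ProbabilityTheory Real Finset Filter Topology
open scoped ENNReal NNReal

theorem exp_le_quad {x B : ℝ} (h : |x| ≤ B) : exp x ≤ 1 + x + x ^ 2 * exp B := by
  have h1 : exp x - 1 ≤ x * exp x := by
    have h2 := mul_le_mul_of_nonneg_right (add_one_le_exp (-x)) (exp_pos x).le
    rw [← exp_add, neg_add_cancel, exp_zero] at h2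
    linarith only [h2]
  rcases le_total 0 x with hx | hx
  · have h2 := mul_le_mul_of_nonneg_left h1 hx
    have h3 : exp x ≤ exp B := exp_le_exp.2 ((le_abs_self x).trans h)
    have h4 := mul_le_mul_of_nonneg_left h3 (sq_nonneg x)
    nlinarith only [h1, h2, h4]
  · have h2 := mul_le_mul_of_nonpos_left (add_one_le_exp x) hx
    have h3 : 1 ≤ exp B := one_le_exp ((abs_nonneg x).trans h)
    have h4 := mul_le_mul_of_nonneg_left h3 (sq_nonneg x)
    nlinarith only [h1, h2, h4]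

theorem lip_on {g g' : ℝ → ℝ} {a b C : ℝ} (hd : ∀ s, HasDerivAt g (g' s) s)
    (hb : ∀ s ∈ Set.uIcc a b, |g' s| ≤ C) : |g b - g a| ≤ C * |b - a| :=
  (convex_uIcc a b).norm_image_sub_le_of_norm_hasDerivWithin_le
    (fun s _ => (hd s).hasDerivWithinAt) hb Set.left_mem_uIcc Set.right_mem_uIcc

theorem lip {g g' : ℝ → ℝ} {C : ℝ} (hd : ∀ s, HasDerivAt g (g' s) s) (hb : ∀ s, |g' s| ≤ C)
    (u z : ℝ) : |g (u + z) - g u| ≤ C * |z| := by
  have h := lip_on (a := u) (b := u + z) hd fun s _ => hb s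
  rwa [add_sub_cancel_left] at h

theorem taylor {f f1 f2 : ℝ → ℝ} {K : ℝ} (hf : Nice f f1 f2 K) (u z : ℝ) :
    |f (u + z) - f u - f1 u * z| ≤ K * z ^ 2 := by
  have hK : 0 ≤ K := zero_le_one.trans hf.one_le
  have h := lip_on (g := fun s => f (u + s) - f1 u * s) (g' := fun s => f1 (u + s) - f1 u)
    (a := 0) (b := z) (C := K * |z|)
    (fun s => by
      have h1 := ((hf.d1 (u + s)).comp_const_add u s).sub ((hasDerivAt_id s).const_mul (f1 u))
      rw [mul_one] at h1
      exact h1)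
    (fun s hs => (lip hf.d2 hf.b2 u s).trans (mul_le_mul_of_nonneg_left
      (by simpa using Set.abs_sub_left_of_mem_uIcc hs) hK))
  rw [add_zero, mul_zero, sub_zero, sub_zero, mul_assoc, abs_mul_abs_self, ← sq] at h
  refine le_trans (le_of_eq ?_) h
  congr 1
  ring

theorem dilate {g g' : ℝ → ℝ} {K : ℝ} (hd : ∀ s, HasDerivAt g (g' s) s)
    (hu : ∀ s, |s * g' s| ≤ K) {l : ℝ} (h0 : 1 / 2 ≤ l) (h1 : l ≤ 1) (u : ℝ) :
    |g (l * u) - g u| ≤ 2 * K * (1 - l) := by
  have h := lip_on (g := fun s => g (s * u)) (g' := fun s => g' (s * u) * u) (a := 1) (b := l)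
    (C := 2 * K) (fun s => by
      have h2 := (hd (s * u)).comp s ((hasDerivAt_id s).mul_const u)
      rw [one_mul] at h2
      exact h2)
    (fun s hs => by
      rw [Set.uIcc_of_ge h1] at hs
      have h2 := hu (s * u)
      have h3 : s * u * g' (s * u) = s * (g' (s * u) * u) := by ring
      have h4 : 1 / 2 ≤ s := h0.trans hs.1
      rw [h3, abs_mul, abs_of_nonneg (by linarith only [h4])] at h2
      nlinarith only [h2, h4, abs_nonneg (g' (s * u) * u)])
  rw [one_mul, abs_sub_comm l 1, abs_of_nonneg (sub_nonneg.2 h1)] at h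
  exact h

theorem integrable_sq (v : ℝ≥0) : Integrable (fun z : ℝ => z ^ 2) (gaussianReal 0 v) :=
  (memLp_id_gaussianReal (μ := 0) (v := v) 2).integrable_sq

theorem integral_sq (v : ℝ≥0) : ∫ z, z ^ 2 ∂gaussianReal 0 v = v := by
  have h := variance_fun_id_gaussianReal (μ := 0) (v := v)
  rw [variance_eq_integral measurable_id'.aemeasurable] at h
  simpa using h

theorem integrable_id' (v : ℝ≥0) : Integrable (fun z : ℝ => z) (gaussianReal 0 v) :=
  (memLp_id_gaussianReal (μ := 0) (v := v) 1).integrable le_rfl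

theorem measurable_f {f f1 f2 : ℝ → ℝ} {K : ℝ} (hf : Nice f f1 f2 K) : Measurable f :=
  (continuous_iff_continuousAt.2 fun u => (hf.d1 u).continuousAt).measurable

theorem measurable_f1 {f f1 f2 : ℝ → ℝ} {K : ℝ} (hf : Nice f f1 f2 K) : Measurable f1 :=
  (continuous_iff_continuousAt.2 fun u => (hf.d2 u).continuousAt).measurable

theorem integrable_exp_bdd {g : ℝ → ℝ} (hg : Measurable g) {B : ℝ} (hB : ∀ z, |g z| ≤ B) (c : ℝ)
    (v : ℝ≥0) : Integrable (fun z => exp (c * g z)) (gaussianReal 0 v) := by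
  refine Integrable.of_bound (hg.const_mul c).exp.aestronglyMeasurable (exp (|c| * B))
    (Eventually.of_forall fun z => ?_)
  rw [Real.norm_eq_abs, abs_of_pos (exp_pos _)]
  refine exp_le_exp.2 ((le_abs_self _).trans ?_)
  rw [abs_mul]
  exact mul_le_mul_of_nonneg_left (hB z) (abs_nonneg c)

theorem integral_exp_bdd {g : ℝ → ℝ} {B c : ℝ} (hB : ∀ z, |g z| ≤ B) (hc : |c| ≤ 4) (v : ℝ≥0) :
    ∫ z, exp (c * g z) ∂gaussianReal 0 v ≤ exp (4 * B) := by
  have h := norm_integral_le_of_norm_le_const (μ := gaussianReal 0 v)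
    (f := fun z => exp (c * g z)) (C := exp (4 * B)) (Eventually.of_forall fun z => by
      rw [Real.norm_eq_abs, abs_of_pos (exp_pos _)]
      refine exp_le_exp.2 ((le_abs_self _).trans ?_)
      rw [abs_mul]
      exact mul_le_mul hc (hB z) (abs_nonneg _) (by norm_num))
  rw [probReal_univ, mul_one] at h
  exact (le_abs_self _).trans h

theorem integral_exp_lin {c : ℝ} (hc : |c| ≤ 4) (v : ℝ≥0) :
    ∫ z, exp (c * z) ∂gaussianReal 0 v ≤ exp (8 * v) := by
  have h := congrFun (mgf_fun_id_gaussianReal (μ := 0) (v := v)) c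
  rw [mgf] at h
  rw [h]
  refine exp_le_exp.2 ?_
  have h1 : c ^ 2 ≤ 16 := by nlinarith only [hc, abs_nonneg c, sq_abs c]
  nlinarith only [h1, v.coe_nonneg]

theorem abs_diff_le {f f1 f2 : ℝ → ℝ} {K : ℝ} (hf : Nice f f1 f2 K) (a b : ℝ) :
    |f a - f b| ≤ 2 * K := by
  have h := abs_sub (f a) (f b)
  linarith only [h, hf.b0 a, hf.b0 b]

theorem integral_exp_shift {f f1 f2 : ℝ → ℝ} {K : ℝ} (hf : Nice f f1 f2 K) {c : ℝ}
    (hc : |c| ≤ 4) (u : ℝ) (v : ℝ≥0) :
    ∫ z, exp (c * (f (u + z) - f u)) ∂gaussianReal 0 v ≤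
      exp ((4 * K + 16 * K ^ 2 * exp (8 * K)) * v) := by
  have hK : 0 ≤ K := zero_le_one.trans hf.one_le
  have hm : Measurable fun z => f (u + z) - f u :=
    ((measurable_f hf).comp (measurable_const_add u)).sub_const _
  have h1 : ∀ z, exp (c * (f (u + z) - f u)) ≤
      1 + c * f1 u * z + (4 * K + 16 * K ^ 2 * exp (8 * K)) * z ^ 2 := by
    intro z
    have h2 : |c * (f (u + z) - f u)| ≤ 8 * K := by
      rw [abs_mul]
      have h3 := mul_le_mul hc (abs_diff_le hf (u + z) u) (abs_nonneg _) (by norm_num)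
      linarith only [h3]
    have h3 : |c * (f (u + z) - f u - f1 u * z)| ≤ 4 * (K * z ^ 2) := by
      rw [abs_mul]
      exact mul_le_mul hc (taylor hf u z) (abs_nonneg _) (by norm_num)
    have h4 : |c * (f (u + z) - f u)| ≤ 4 * (K * |z|) := by
      rw [abs_mul]
      exact mul_le_mul hc (lip hf.d1 hf.b1 u z) (abs_nonneg _) (by norm_num)
    have h5 := pow_le_pow_left₀ (abs_nonneg _) h4 2
    rw [sq_abs, mul_pow 4, mul_pow K, sq_abs] at h5
    have h6 := mul_le_mul_of_nonneg_right h5 (exp_pos (8 * K)).le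
    have h7 := exp_le_quad h2
    have h8 := le_abs_self (c * (f (u + z) - f u - f1 u * z))
    nlinarith only [h3, h6, h7, h8]
  have hi : Integrable (fun z => 1 + c * f1 u * z) (gaussianReal 0 v) :=
    (integrable_const 1).add ((integrable_id' v).const_mul (c * f1 u))
  have h2 := integral_mono (integrable_exp_bdd hm (fun z => abs_diff_le hf (u + z) u) c v)
    (hi.add ((integrable_sq v).const_mul (4 * K + 16 * K ^ 2 * exp (8 * K)))) h1
  refine h2.trans ?_
  simp only [Pi.add_apply]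
  rw [integral_add hi ((integrable_sq v).const_mul _), integral_add (integrable_const 1)
    ((integrable_id' v).const_mul _), integral_const_mul, integral_const_mul, integral_sq,
    integral_id_gaussianReal, integral_const, probReal_univ, smul_eq_mul, mul_zero, add_zero,
    mul_one, add_comm]
  exact add_one_le_exp _

theorem integral_exp_old {f f1 f2 : ℝ → ℝ} {K : ℝ} (hf : Nice f f1 f2 K) {c l : ℝ}
    (hc : |c| ≤ 4) (h0 : 1 / 2 ≤ l) (h1 : l ≤ 1) (u : ℝ) (v : ℝ≥0) :
    ∫ z, exp (c * (f (l * u + z) - f u)) ∂gaussianReal 0 v ≤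
      exp (8 * K * (1 - l) + (4 * K + 16 * K ^ 2 * exp (8 * K)) * v) := by
  have h2 : ∀ z, exp (c * (f (l * u + z) - f u)) =
      exp (c * (f (l * u) - f u)) * exp (c * (f (l * u + z) - f (l * u))) := by
    intro z
    rw [← exp_add]
    congr 1
    ring
  simp only [h2]
  rw [integral_const_mul, exp_add]
  refine mul_le_mul (exp_le_exp.2 ((le_abs_self _).trans ?_)) (integral_exp_shift hf hc _ v)
    (integral_nonneg fun z => (exp_pos _).le) (exp_pos _).le
  rw [abs_mul]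
  have h3 := mul_le_mul hc (dilate hf.d1 hf.u1 h0 h1 u) (abs_nonneg _) (by norm_num)
  linarith only [h3]

theorem integral_sq_old {f f1 f2 : ℝ → ℝ} {K : ℝ} (hf : Nice f f1 f2 K) {l : ℝ}
    (h0 : 1 / 2 ≤ l) (h1 : l ≤ 1) (u : ℝ) (v : ℝ≥0) :
    ∫ z, (f1 (l * u + z) - f1 u) ^ 2 ∂gaussianReal 0 v ≤ 8 * K ^ 2 * (1 - l) + 2 * K ^ 2 * v := by
  have hK : 0 ≤ K := zero_le_one.trans hf.one_le
  have h2 : ∀ z, (f1 (l * u + z) - f1 u) ^ 2 ≤ 8 * K ^ 2 * (1 - l) + 2 * K ^ 2 * z ^ 2 := by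
    intro z
    have h3 := pow_le_pow_left₀ (abs_nonneg _) (lip hf.d2 hf.b2 (l * u) z) 2
    have h4 := pow_le_pow_left₀ (abs_nonneg _) (dilate hf.d2 hf.u2 h0 h1 u) 2
    rw [sq_abs, mul_pow, sq_abs] at h3
    rw [sq_abs] at h4
    have h5 : (2 * K * (1 - l)) ^ 2 ≤ 4 * K ^ 2 * (1 - l) := by
      have h6 := mul_nonneg (mul_nonneg (sq_nonneg K) (sub_nonneg.2 h1))
        (show 0 ≤ l by linarith only [h0])
      nlinarith only [h6]
    nlinarith only [h3, h4, h5, sq_nonneg (f1 (l * u + z) - f1 (l * u) - (f1 (l * u) - f1 u))]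
  have h3 := integral_mono_of_nonneg (Eventually.of_forall fun z => sq_nonneg _)
    ((integrable_const (8 * K ^ 2 * (1 - l))).add ((integrable_sq v).const_mul (2 * K ^ 2)))
    (Eventually.of_forall h2)
  refine h3.trans (le_of_eq ?_)
  simp only [Pi.add_apply]
  rw [integral_add (integrable_const _) ((integrable_sq v).const_mul _), integral_const,
    probReal_univ, one_smul, integral_const_mul, integral_sq]

/-- exponential moment of a sum of independent terms -/
theorem integral_exp_abs_sum {A : Type} [Fintype A] (v : A → ℝ≥0) (G : A → ℝ → ℝ) (β : A → ℝ)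
    (hi : ∀ a c, Integrable (fun z => exp (c * G a z)) (gaussianReal 0 (v a)))
    (hb : ∀ a c, |c| ≤ 4 → ∫ z, exp (c * G a z) ∂gaussianReal 0 (v a) ≤ exp (β a)) :
    ∫ W, exp (4 * |∑ a, G a (W a)|) ∂(Measure.pi fun a => gaussianReal 0 (v a)) ≤
      2 * exp (∑ a, β a) := by
  have h1 : ∀ c, Integrable (fun W : A → ℝ => ∏ a, exp (c * G a (W a)))
      (Measure.pi fun a => gaussianReal 0 (v a)) := fun c =>
    Integrable.fintype_prod (f := fun a z => exp (c * G a z)) fun a => hi a c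
  have h2 : ∀ c, |c| ≤ 4 → ∫ W : A → ℝ, ∏ a, exp (c * G a (W a))
      ∂(Measure.pi fun a => gaussianReal 0 (v a)) ≤ exp (∑ a, β a) := by
    intro c hc
    rw [integral_fintype_prod_eq_prod (fun a z => exp (c * G a z)), exp_sum]
    exact Finset.prod_le_prod (fun a _ => integral_nonneg fun z => (exp_pos _).le)
      fun a _ => hb a c hc
  have h3 : ∀ W : A → ℝ, exp (4 * |∑ a, G a (W a)|) ≤
      ∏ a, exp (4 * G a (W a)) + ∏ a, exp (-4 * G a (W a)) := by
    intro W
    rw [← exp_sum, ← exp_sum, ← mul_sum, ← mul_sum]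
    rcases abs_cases (∑ a, G a (W a)) with h | h
    · rw [h.1]
      exact le_add_of_nonneg_right (exp_pos _).le
    · rw [h.1, mul_neg, ← neg_mul]
      exact le_add_of_nonneg_left (exp_pos _).le
  have h4 := integral_mono_of_nonneg (Eventually.of_forall fun W => (exp_pos _).le)
    ((h1 4).add (h1 (-4))) (Eventually.of_forall h3)
  refine h4.trans ?_
  simp only [Pi.add_apply]
  rw [integral_add (h1 4) (h1 (-4))]
  have h5 := h2 4 (by norm_num)
  have h6 := h2 (-4) (by norm_num)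
  linarith only [h5, h6]

section Ridge

variable {I A Cf : Type} [Fintype I] [Fintype A] [DecidableEq A]

omit [Fintype A] in
theorem U_mrg (R : Rg I A Cf) (k : ℕ) (p : I → Prop) [DecidablePred p] (lam : ℕ → I → ℝ)
    (a : A) (s : St I Cf) (u : Fin k × I → ℝ) :
    R.U k lam a (mrg k p s u) = R.U k (fun j i => if p i then 0 else lam j i) a s +
      ∑ z ∈ univ.filter (fun z : Fin k × I => R.own z.2 = a),
        (if p z.2 then lam z.1 z.2 * R.e z.2 s.1 else 0) * u z := by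
  simp only [Rg.U, sum_range, sum_filter, Fintype.sum_prod_type, ← sum_add_distrib]
  refine sum_congr rfl fun j _ => sum_congr rfl fun i _ => ?_
  by_cases h1 : R.own i = a
  · by_cases h2 : p i
    · simp [mrg, h1, h2]
    · simp [mrg, h1, h2]
  · simp [h1]

/-- variance of the fresh part of the argument of the term `a` -/
noncomputable def vr (R : Rg I A Cf) (k : ℕ) (p : I → Prop) [DecidablePred p] (w : ℕ → I → ℝ)
    (σ : Cf) (a : A) : ℝ :=
  ∑ j ∈ range k, ∑ i, if R.own i = a then (if p i then w j i * R.e i σ ^ 2 else 0) else 0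

theorem integral_mrg (R : Rg I A Cf) (k : ℕ) (p : I → Prop) [DecidablePred p] {w : ℕ → I → ℝ}
    (hw : ∀ j < k, ∀ i, 0 ≤ w j i) (s : St I Cf) {G : (A → ℝ) → ℝ} (hG : Measurable G) :
    ∫ u, G (fun a => R.U k (fun j i => √(w j i)) a (mrg k p s u)) ∂γ (Fin k × I) =
      ∫ W, G (fun a => R.U k (fun j i => if p i then 0 else √(w j i)) a s + W a)
        ∂(Measure.pi fun a => gaussianReal 0 (Real.toNNReal (vr R k p w s.1 a))) := by
  have h1 := gprod (fun z : Fin k × I => R.own z.2)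
    (fun z => if p z.2 then √(w z.1 z.2) * R.e z.2 s.1 else 0)
  have h2 : ∀ a, ∑ z ∈ univ.filter (fun z : Fin k × I => R.own z.2 = a),
      (if p z.2 then √(w z.1 z.2) * R.e z.2 s.1 else 0) ^ 2 = vr R k p w s.1 a := by
    intro a
    simp only [vr, sum_range, sum_filter, Fintype.sum_prod_type]
    refine sum_congr rfl fun j _ => sum_congr rfl fun i _ => ?_
    by_cases h3 : p i
    · simp only [h3, if_true, mul_pow, sq_sqrt (hw j j.2 i)]
    · simp [h3]
  simp only [h2] at h1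
  have h3 : Measurable fun W : A → ℝ =>
      G (fun a => R.U k (fun j i => if p i then 0 else √(w j i)) a s + W a) :=
    hG.comp (by fun_prop)
  rw [← h1, integral_map (Measurable.aemeasurable (measurable_pi_lambda _ fun a =>
    Finset.measurable_sum _ fun z _ => (measurable_pi_apply z).const_mul _))
    h3.aestronglyMeasurable]
  simp only [U_mrg]

end Ridge

theorem le_add_sq_div {x ε : ℝ} (hε : 0 < ε) : |x| ≤ ε + x ^ 2 / ε := by
  have h1 : |x| * ε ≤ ε * ε + x ^ 2 := by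
    nlinarith only [sq_nonneg (|x| - ε), sq_abs x, mul_nonneg (abs_nonneg x) hε.le]
  have h2 : ε + x ^ 2 / ε = (ε * ε + x ^ 2) / ε := by field_simp
  rw [h2, le_div_iff₀ hε]
  exact h1

/-- transfer of small fluctuations along an exponentially integrable perturbation -/
theorem transfer {A c e : ℝ} (hA : 0 < A) (hc : 0 < c) (he : 0 < e) : ∃ τ > (0 : ℝ),
    ∀ (I Cf : Type) [Fintype I] [MeasurableSpace Cf] [Nonempty Cf] (k : ℕ) (_ : 0 < k)
    (ν : Measure Cf) [IsProbabilityMeasure ν] (H0 H1 : St I Cf → ℝ) (_ : (GS k I ν).Lin H0)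
    (_ : (GS k I ν).Lin H1) (_ : ∫ s, exp (4 * |H1 s - H0 s|) ∂mm k ν H0 ≤ A)
    (D : ℕ → St I Cf × St I Cf → ℝ) (_ : ∀ l, Measurable (D l)) (_ : ∀ l z, |D l z| ≤ c)
    (_ : (1 / (k : ℝ)) * ∑ l ∈ range k, ∫ z, D l z ^ 2 ∂pp k ν H0 l ≤ τ),
    (1 / (k : ℝ)) * ∑ l ∈ range k, ∫ z, |D l z| ∂pp k ν H1 l ≤ e := by
  obtain ⟨ε, hε, hε1⟩ : ∃ ε : ℝ, 0 < ε ∧ 4 * ε = e := ⟨e / 4, by positivity, by ring⟩
  obtain ⟨B, hB, hB1⟩ : ∃ B : ℝ, 0 < B ∧ B = c ^ 2 / ε * A := ⟨_, by positivity, rfl⟩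
  obtain ⟨δ, hδ, hδ1⟩ : ∃ δ : ℝ, 0 < δ ∧ B * δ = ε := ⟨ε / B, by positivity, by field_simp⟩
  obtain ⟨L, hL1, hL2⟩ := exists_ge_ge 1 (B * A / (δ * ε))
  have hL0 : 0 < L := one_pos.trans_le hL1
  have hL3 : B * (A / L / δ) ≤ ε := by
    rw [div_le_iff₀ (mul_pos hδ hε)] at hL2
    rw [div_div, ← mul_div_assoc, div_le_iff₀ (mul_pos hL0 hδ)]
    linarith only [hL2]
  obtain ⟨E, hE, hE1⟩ : ∃ E : ℝ, 0 < E ∧ E = B * (L ^ 4 / c ^ 2 / δ) := ⟨_, by positivity, rfl⟩
  refine ⟨ε / E, by positivity, fun I Cf _ _ _ k hk ν _ H0 H1 h0 h1 hm D hD hDc hτ => ?_⟩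
  have hc2 : 0 < c ^ 2 := by positivity
  have hsq : ∀ l z, D l z ^ 2 ≤ c ^ 2 := fun l z => by
    rw [← sq_abs]
    exact pow_le_pow_left₀ (abs_nonneg _) (hDc l z) 2
  have h2 : ∀ l ∈ range k, ∫ z, |D l z| ∂pp k ν H1 l ≤
      3 * ε + E * ∫ z, D l z ^ 2 ∂pp k ν H0 l := by
    intro l hl
    have hl' : l + (k + 1 - l) = k + 1 := by
      have := mem_range.1 hl
      omega
    have := pp_prob hk h1 l
    have h3 := Sys.DLpr (gs_ok hk) gs_mono h0 h1 (G := fun z => D l z ^ 2 / c ^ 2)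
      (((hD l).pow_const 2).div_const _) (fun z => div_nonneg (sq_nonneg _) hc2.le)
      (fun z => (div_le_one hc2).2 (hsq l z)) l (k + 1 - l) 0 (s0 I Cf) hL1
      (A := A) (by rw [hl']; exact hm)
    change ∫ z, D l z ^ 2 / c ^ 2 ∂pp k ν H1 l ≤
      A * √(L ^ 4 * (∫ z, D l z ^ 2 / c ^ 2 ∂pp k ν H0 l) + A / L) at h3
    rw [integral_div, integral_div] at h3
    have h4 : 0 ≤ ∫ z, D l z ^ 2 ∂pp k ν H0 l := integral_nonneg fun z => sq_nonneg _
    have hi : Integrable (fun z => D l z ^ 2) (pp k ν H1 l) :=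
      Integrable.of_bound ((hD l).pow_const 2).aestronglyMeasurable (c ^ 2)
        (Eventually.of_forall fun z => by
          rw [Real.norm_eq_abs, abs_of_nonneg (sq_nonneg _)]
          exact hsq l z)
    have h5 := integral_mono_of_nonneg (Eventually.of_forall fun z => abs_nonneg (D l z))
      ((integrable_const ε).add (hi.div_const ε))
      (Eventually.of_forall fun z => le_add_sq_div (x := D l z) hε)
    simp only [Pi.add_apply] at h5
    rw [integral_add (integrable_const ε) (hi.div_const ε), integral_div, integral_const,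
      probReal_univ, one_smul] at h5
    generalize ∫ z, D l z ^ 2 ∂pp k ν H0 l = g at h3 h4 ⊢
    generalize ∫ z, D l z ^ 2 ∂pp k ν H1 l = g1 at h3 h5
    have h6 : 0 ≤ L ^ 4 * (g / c ^ 2) + A / L := by positivity
    have h7 := le_add_sq_div (x := √(L ^ 4 * (g / c ^ 2) + A / L)) hδ
    rw [sq_sqrt h6, abs_of_nonneg (sqrt_nonneg _)] at h7
    have h8 : g1 / ε ≤ B * √(L ^ 4 * (g / c ^ 2) + A / L) := by
      have h9 := mul_le_mul_of_nonneg_left h3 (div_pos hc2 hε).le
      have h10 : c ^ 2 / ε * (g1 / c ^ 2) = g1 / ε := by field_simp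
      rw [h10, ← mul_assoc, ← hB1] at h9
      exact h9
    have h9 := mul_le_mul_of_nonneg_left h7 hB.le
    have h10 : B * (δ + (L ^ 4 * (g / c ^ 2) + A / L) / δ) =
        B * δ + E * g + B * (A / L / δ) := by
      rw [hE1]
      ring
    linarith only [h5, h8, h9, h10, hδ1, hL3]
  have hk0 : (0 : ℝ) < k := Nat.cast_pos.2 hk
  have h3 := mul_le_mul_of_nonneg_left (sum_le_sum h2) (one_div_pos.2 hk0).le
  rw [sum_add_distrib, sum_const, card_range, nsmul_eq_mul, ← mul_sum, mul_add,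
    ← mul_assoc (1 / (k : ℝ)) k, one_div_mul_cancel hk0.ne', one_mul, mul_left_comm] at h3
  have h4 := mul_le_mul_of_nonneg_left hτ hE.le
  rw [mul_div_cancel₀ _ hE.ne'] at h4
  linarith only [h3, h4, hε1]

end Vale.Agent.P157.Cav2A
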