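import Vale.Agent.P157.Cav3A

namespace Vale.Agent.P157

open MeasureTheory ProbabilityTheory Real Finset Filter Topology
open scoped ENNReal

theorem sum_wS' (ι : Type) {k : ℕ} (hk : 0 < k) (θ : ℕ → ℝ) (i : ι) :
    ∑ j ∈ range k, wS ι k θ j i = θ (k - 1) - θ 0 := by
  obtain ⟨m, rfl⟩ : ∃ m, k = m + 1 := ⟨k - 1, by omega⟩
  rw [Finset.sum_range_succ, ← Finset.sum_range_sub θ (m + 1 - 1)]
  simp only [wS, lt_irrefl, if_false, add_zero, Nat.add_sub_cancel]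
  exact Finset.sum_congr rfl fun j hj => by
    rw [if_pos (by simpa using Finset.mem_range.mp hj)]

section

variable {ι ι' κ κ' Cf Cf' : Type} [Fintype ι] [Fintype ι'] [Fintype κ] [Fintype κ']
  [DecidableEq κ] [DecidableEq κ'] [MeasurableSpace Cf] [MeasurableSpace Cf'] {k : ℕ}
  {ν : Measure Cf} {ν' : Measure Cf'} {x : Cf → ι → ℝ} {x' : Cf' → ι' → ℝ} {f f1 f2 : ℝ → ℝ}
  {K : ℝ} {y b p Q θ : ℕ → ℝ} [Nonempty Cf] [Nonempty Cf'] [Nonempty ι] [Nonempty ι']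

theorem cav_EF (ε : ℝ) (hε : 0 < ε) : ∃ τ > 0, ∀ (ι ι' κ κ' Cf Cf' : Type) [Fintype ι]
    [Fintype ι'] [Fintype κ] [Fintype κ'] [DecidableEq κ] [DecidableEq κ'] [MeasurableSpace Cf]
    [MeasurableSpace Cf'] [Nonempty Cf] [Nonempty Cf'] [Nonempty ι] [Nonempty ι'] (k : ℕ)
    (_ : 0 < k) (ν : Measure Cf) (ν' : Measure Cf') (x : Cf → ι → ℝ) (x' : Cf' → ι' → ℝ)
    (_ : Spin ν x) (_ : Spin ν' x') (f f1 f2 : ℝ → ℝ) (K : ℝ) (_ : Nice f f1 f2 K)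
    (y b p Q θ : ℕ → ℝ) (_ : ∀ j < k, 0 ≤ y j) (_ : ∀ j < k, 0 ≤ b j) (_ : Monotone p)
    (_ : Monotone Q) (_ : AdmR θ) (η : ℝ) (_ : 0 ≤ η)
    (_ : η * (Fintype.card ι' * θ (k - 1)) ≤ τ),
    |(Cv κ κ' x x' f f1 f2).Yv k (ν.prod ν') (wC ι ι' κ κ' k y b p Q θ 1 η) -
      (Cv κ κ' x x' f f1 f2).Yv k (ν.prod ν') (wC ι ι' κ κ' k y b p Q θ 1 0) -
      η * (Fintype.card ι' * (θ (k - 1) / 2 - pairing k (fun l => ∫ z, ov x' z.1.1.2 z.2.1.2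
        ∂pp k (ν.prod ν') ((Cv κ κ' x x' f f1 f2).Hv k (wC ι ι' κ κ' k y b p Q θ 1 0)) l) θ))| ≤
      ε * η * (Fintype.card ι' * θ (k - 1)) := by
  obtain ⟨τ, hτ, h⟩ := EF ε hε
  refine ⟨τ, hτ, ?_⟩
  intro ι ι' κ κ' Cf Cf' _ _ _ _ _ _ _ _ _ _ _ _ k hk ν ν' x x' hx hx' f f1 f2 K hf y b p Q θ hy hb
    hp hQ hθ η hη hτ'
  have := hx.prob
  have := hx'.prob
  have h1 := h _ _ _ (Cv κ κ' x x' f f1 f2) K (cv_ok hx hx' hf) k hk (ν.prod ν') none rfl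
    (fun i => i.isRight = true) (wC ι ι' κ κ' k y b p Q θ 1 0)
    (fun j => Sum.elim (fun _ => 0) (wS ι' k θ j)) η (Fintype.card ι' * θ (k - 1))
    (wC_nonneg hy hb hp hQ hθ.2 zero_le_one le_rfl le_rfl) ?_ ?_ ?_ ?_ hη hτ'
  · rw [cav_theta hx hx' hf hk hθ.1] at h1
    have e : (fun j i => wC ι ι' κ κ' k y b p Q θ 1 0 j i +
        η * Sum.elim (fun _ => (0 : ℝ)) (wS ι' k θ j) i) = wC ι ι' κ κ' k y b p Q θ 1 η := by
      funext j i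
      rcases i with ((i | i) | ⟨a | a, i | i, c⟩) | i <;> simp [wC]
    rwa [e] at h1
  · rintro j hj (i | i)
    · simp
    · simp only [Sum.elim_inr, wS]
      split_ifs
      · exact sub_nonneg.mpr (hθ.2 (Nat.le_succ j))
      · exact le_rfl
  · rintro (i | i) hi
    · simp at hi
    · exact ⟨rfl, fun j _ => by simp [wC]⟩
  · rintro (i | i) hi j _
    · simp
    · simp at hi
  · intro σ
    rw [Fintype.sum_sum_type]
    simp only [Sum.elim_inl, Finset.sum_const_zero, zero_mul, zero_add, Sum.elim_inr,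
      sum_wS' ι' hk, hθ.1, sub_zero]
    rw [← Finset.mul_sum, mul_comm]
    exact le_of_eq (congrArg (· * θ (k - 1)) (hx'.norm σ.2))

theorem cav_step1 (hx : Spin ν x) (hx' : Spin ν' x') (hf : Nice f f1 f2 K) (hk : 0 < k)
    (hy : ∀ j < k, 0 ≤ y j) (hb : ∀ j < k, 0 ≤ b j) (hp : AdmQ k p) (hQ : AdmR Q) (hθ : AdmR θ)
    {T K' e η : ℝ} (hT : Q (k - 1) ≤ T) (hη : 0 ≤ η)
    (hκ : (Fintype.card κ : ℝ) ≤ K' * Fintype.card ι)
    (hκ' : (Fintype.card κ' : ℝ) ≤ K' * Fintype.card ι')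
    {u v : ℕ → ℝ} (hu : ∀ l, 0 < l → l < k → p l = u l) (hv : ∀ l, 0 < l → l < k → Q l = v l)
    (h : ∀ t ∈ Set.Icc (0 : ℝ) 1,
      (1 / (k : ℝ)) * ∑ l ∈ range k, ∫ z, |ov x z.1.1.1 z.2.1.1 - u l|
      ∂pp k (ν.prod ν') ((Cv κ κ' x x' f f1 f2).Hv k (wC ι ι' κ κ' k y b p Q θ t η)) l ≤ e ∧
      (1 / (k : ℝ)) * ∑ l ∈ range k,
      ∫ z, |SC Sum.inl k x x' f f1 f2 (wC ι ι' κ κ' k y b p Q θ t η) z / Fintype.card ι - v l|
      ∂pp k (ν.prod ν') ((Cv κ κ' x x' f f1 f2).Hv k (wC ι ι' κ κ' k y b p Q θ t η)) l ≤ e) :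
    |(Cv κ κ' x x' f f1 f2).Yv k (ν.prod ν') (wC ι ι' κ κ' k y b p Q θ 1 η) -
      (Cv κ κ' x x' f f1 f2).Yv k (ν.prod ν') (wC ι ι' κ κ' k y b p Q θ 0 η) -
      Fintype.card ι' * (pairing k p Q - Q (k - 1) / 2)| ≤ Fintype.card ι' *
        ((1 + T + K ^ 2 * K') * e + 2 * (K ^ 2 * K') * Fintype.card ι' / Fintype.card ι) := by
  have := hx.prob
  have := hx'.prob
  obtain ⟨t, ht, h'⟩ := Rg.GI_mvt (ν := ν.prod ν') (cv_ok (κ := κ) (κ' := κ') hx hx' hf) hk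
    (wC_nonneg (ι := ι) (ι' := ι') hy hb hp.2.1 hQ.2 hθ.2 le_rfl zero_le_one hη)
    (wC_nonneg hy hb hp.2.1 hQ.2 hθ.2 zero_le_one le_rfl hη)
  have e : (fun j i => wC ι ι' κ κ' k y b p Q θ 0 η j i +
      t * (wC ι ι' κ κ' k y b p Q θ 1 η j i - wC ι ι' κ κ' k y b p Q θ 0 η j i)) =
      wC ι ι' κ κ' k y b p Q θ t η := by
    funext j i; exact (wC_affine t η j i).symm
  rw [e] at h'
  rw [h']
  obtain ⟨h1, h2⟩ := h t ⟨ht.1.le, ht.2.le⟩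
  exact cav_err hx hx' hf hk hp hQ hT hκ hκ' _ η hu hv h1 h2

theorem cav_sym (hx : Spin ν x) (hx' : Spin ν' x') (hf : Nice f f1 f2 K) (hk : 0 < k)
    (hθ : AdmR θ) {T e : ℝ} (hT : θ (k - 1) ≤ T) {u : ℕ → ℝ}
    (hu : ∀ l, 0 < l → l < k → p l = u l)
    (h : (1 / (k : ℝ)) * ∑ l ∈ range k, ∫ z, |ov x z.1.1.1 z.2.1.1 - u l|
      ∂pp k (ν.prod ν') ((Cv κ κ' x x' f f1 f2).Hv k (wC ι ι' κ κ' k y b p Q θ 1 0)) l ≤ e)
    (hsym : ∀ l < k, ∫ z, ov x z.1.1.1 z.2.1.1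
        ∂pp k (ν.prod ν') (HM (κ ⊕ κ') k (xx x x') f f1 f2 1 y b) l = ∫ z, ov x' z.1.1.2 z.2.1.2
        ∂pp k (ν.prod ν') (HM (κ ⊕ κ') k (xx x x') f f1 f2 1 y b) l) :
    |pairing k (fun l => ∫ z, ov x' z.1.1.2 z.2.1.2
        ∂pp k (ν.prod ν') ((Cv κ κ' x x' f f1 f2).Hv k (wC ι ι' κ κ' k y b p Q θ 1 0)) l) θ -
      pairing k p θ| ≤ T * e / 2 := by
  have := hx.prob
  have := hx'.prob
  refine abs_pairing_sub hk hθ hT (fun l _ => integral_nonneg fun _ => abs_nonneg _)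
    (fun l h0 hl => ?_) h
  have m1 : Measurable fun u : (Cf × Cf') × (Cf × Cf') => ov x u.1.1 u.2.1 :=
    hx.measurable_ov.comp (by fun_prop : Measurable fun u : (Cf × Cf') × (Cf × Cf') =>
      (u.1.1, u.2.1))
  have m2 : Measurable fun u : (Cf × Cf') × (Cf × Cf') => ov x' u.1.2 u.2.2 :=
    hx'.measurable_ov.comp (by fun_prop : Measurable fun u : (Cf × Cf') × (Cf × Cf') =>
      (u.1.2, u.2.2))
  have e1 := cav_one_pp (κ := κ) (κ' := κ') (y := y) (b := b) (p := p) (Q := Q) (θ := θ)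
    hx hx' hf hk m1 hl.le
  have e2 := cav_one_pp (κ := κ) (κ' := κ') (y := y) (b := b) (p := p) (Q := Q) (θ := θ)
    hx hx' hf hk m2 hl.le
  have e3 := e2.trans ((hsym l hl).symm.trans e1.symm)
  have := pp_prob hk (Rg.lin_Hv (ν := ν.prod ν') (cv_ok (κ := κ) (κ' := κ') hx hx' hf) hk
    (wC ι ι' κ κ' k y b p Q θ 1 0)) l
  have i1 : Integrable (fun z => ov x z.1.1.1 z.2.1.1) (pp k (ν.prod ν')
      ((Cv κ κ' x x' f f1 f2).Hv k (wC ι ι' κ κ' k y b p Q θ 1 0)) l) :=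
    Integrable.of_bound (m1.comp (by fun_prop : Measurable fun z :
      St (IC ι ι' κ κ') (Cf × Cf') × St (IC ι ι' κ κ') (Cf × Cf') =>
        (z.1.1, z.2.1))).aestronglyMeasurable 1 (ae_of_all _ fun z => hx.abs_ov_le _ _)
  simp only at e3
  rw [e3, hu l h0 hl]
  refine le_of_eq_of_le ?_ abs_integral_le_integral_abs
  rw [integral_sub i1 (integrable_const _)]
  simp

theorem cav_alg {n η ε T s e t F11 F10 Y X1 X0 c c' g PE PS Pp : ℝ} (hn : 0 < n) (hη : 0 < η)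
    (hε : 0 < ε) (htT : t ≤ T)
    (A1 : |F11 - F10 - η * (n * (t / 2 - PE))| ≤ ε * η * (n * t))
    (A2 : |X1 - X0 + η * PS| ≤ ε * η * t)
    (A3 : |F11 - (Y + n * (X1 + (c + η * t + c') / 2) + g) - n * Pp| ≤ n * s)
    (A4 : |F10 - (Y + n * (X0 + (c + c') / 2) + g) - n * Pp| ≤ n * s) {P : ℝ}
    (A7 : |PE - P| ≤ T * e / 2) : |P - PS| ≤ 2 * s / η + 2 * ε * T + T * e / 2 := by
  have B1 : ε * η * (n * t) ≤ n * (η * (ε * T)) := by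
    calc ε * η * (n * t) = n * (η * (ε * t)) := by ring
      _ ≤ _ := by gcongr
  have B2 : |n * (X1 - X0 + η * PS)| ≤ n * (η * (ε * T)) := by
    rw [abs_mul, abs_of_pos hn]
    gcongr
    calc _ ≤ ε * η * t := A2
      _ = η * (ε * t) := by ring
      _ ≤ _ := by gcongr
  have B3 : n * η * |PE - PS| ≤ n * (2 * s + 2 * (η * (ε * T))) := by
    rw [← abs_of_pos (mul_pos hn hη), ← abs_mul]
    have h1 := abs_le.mp (A1.trans B1)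
    have h2 := abs_le.mp B2
    have h3 := abs_le.mp A3
    have h4 := abs_le.mp A4
    rw [abs_le]
    constructor <;> linarith [h1.1, h1.2, h2.1, h2.2, h3.1, h3.2, h4.1, h4.2]
  have B4 : |PE - PS| ≤ 2 * s / η + 2 * ε * T := by
    rw [mul_assoc] at B3
    have := le_of_mul_le_mul_left B3 hn
    rw [div_add' _ _ _ hη.ne', le_div_iff₀ hη]
    linarith
  have := abs_sub_le P PE PS
  rw [abs_sub_comm] at A7
  linarith

theorem pairing_cum (hk : 0 < k) (hp : AdmQ k p) (hy : ∀ j, 0 < y j) {δ : ℝ}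
    (hδ : ∑ j ∈ range k, y j ≤ δ) :
    pairing k p (fun l => Q l + ∑ j ∈ range l, y j) ≤ pairing k p Q + δ / 2 := by
  have hk' : (0 : ℝ) < k := Nat.cast_pos.mpr hk
  have h1 : ∑ l ∈ range k, p l * (Q l + ∑ j ∈ range l, y j) ≤ ∑ l ∈ range k, (p l * Q l + δ) :=
    Finset.sum_le_sum fun l hl => by
      have hl' := (Finset.mem_range.mp hl).le
      have p1 : p l ≤ 1 := hp.2.2 ▸ hp.2.1 hl'
      have c0 : 0 ≤ ∑ j ∈ range l, y j := Finset.sum_nonneg fun j _ => (hy j).le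
      have : ∑ j ∈ range l, y j ≤ δ := (Finset.sum_le_sum_of_subset_of_nonneg
        (Finset.range_mono hl') fun j _ _ => (hy j).le).trans hδ
      nlinarith
  rw [Finset.sum_add_distrib, Finset.sum_const, card_range, nsmul_eq_mul] at h1
  unfold pairing
  calc _ ≤ 1 / (2 * (k : ℝ)) * (∑ l ∈ range k, p l * Q l + k * δ) := by gcongr
    _ = _ := by field_simp

theorem cav_fin (hx : Spin ν x) (hx' : Spin ν' x') (hf : Nice f f1 f2 K) (hk : 0 < k)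
    (hy : ∀ j, 0 < y j) (hb : ∀ j < k, 0 ≤ b j) (hp : AdmQ k p) (hQ : AdmR Q) {δ s d e K' T : ℝ}
    (hyδ : ∑ j ∈ range k, y j ≤ δ) (hbδ : ∑ j ∈ range k, b j ≤ δ) (hd : 0 ≤ d) (hT : K ^ 2 ≤ T)
    (hκ' : (Fintype.card κ' : ℝ) ≤ K' * Fintype.card ι') {r : ℕ → ℝ}
    (hr : r = fun l => Q l + ∑ j ∈ range l, y j) (ar : AdmR r) (rT : r (k - 1) ≤ T)
    (C1 : |(Cv κ κ' x x' f f1 f2).Yv k (ν.prod ν') (wC ι ι' κ κ' k y b p Q 0 1 0) -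
      (Cv κ κ' x x' f f1 f2).Yv k (ν.prod ν') (wC ι ι' κ κ' k y b p Q 0 0 0) -
      Fintype.card ι' * (pairing k p Q - Q (k - 1) / 2)| ≤ Fintype.card ι' * s)
    (step2 : ∀ θ, AdmR θ → θ (k - 1) ≤ T → |pairing k p θ - pairing k (pS k ν' x' r) θ| ≤ d)
    (D3 : s + δ / 2 + d + K' * (d + 2 * K ^ 2 * δ) ≤ e) :
    YM κ k ν x f f1 f2 1 y b + Fintype.card ι' *
          (XN k ν' x' r + pairing k (pS k ν' x' r) r - e) +
        Fintype.card κ' * Psi f k (pathQ k (pS k ν' x' r)) ≤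
      YM (κ ⊕ κ') k (ν.prod ν') (xx x x') f f1 f2 1 y b := by
  have a0 : AdmR 0 := ⟨rfl, monotone_const⟩
  have hn0 : (0 : ℝ) < Fintype.card ι' := Nat.cast_pos.mpr Fintype.card_pos
  rw [cav_one hx hx' hf hk, cav_zero hx hx' hf hk (fun j _ => (hy j).le) hb hp.2.1 hQ a0 le_rfl]
    at C1
  simp only [zero_mul, add_zero] at C1
  rw [← hr] at C1
  have C2 := step2 r ar rT
  have aq : AdmQ k (pathQ k (pS k ν' x' r)) := admQ_pS hx' hk r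
  obtain ⟨ρ, aρ, ρK, C3⟩ := Psi_sub hf hk hp aq
  have C4 := step2 ρ aρ (ρK.trans hT)
  rw [pairing_congr (q' := pS k ν' x' r) aρ.1 (fun l h0 hl => by simp [pathQ, h0.ne', hl])] at C3
  have C5 := Pt_pert hf hk hp.2.1 hb
  have C6 : pairing k p r ≤ pairing k p Q + δ / 2 := hr ▸ pairing_cum hk hp hy hyδ
  have C7 : 0 ≤ ∑ j ∈ range k, y j := Finset.sum_nonneg fun j _ => (hy j).le
  have hδ : 0 ≤ δ := C7.trans hyδ
  set n' : ℝ := (Fintype.card ι' : ℝ)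
  set m : ℝ := (Fintype.card κ' : ℝ)
  have hm0 : 0 ≤ m := Nat.cast_nonneg _
  have D1 : Psi f k (pathQ k (pS k ν' x' r)) - (d + 2 * K ^ 2 * δ) ≤
      (Pt f f1 f2).Yv k (Measure.dirac ()) fun j _ => b j + (p (j + 1) - p j) := by
    have h1 := (abs_le.mp C5).1
    have h2 := (abs_le.mp C4).2
    have h3 : 2 * K ^ 2 * ∑ j ∈ range k, b j ≤ 2 * K ^ 2 * δ := by gcongr
    linarith
  have D2 : m * (d + 2 * K ^ 2 * δ) ≤ n' * (K' * (d + 2 * K ^ 2 * δ)) := by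
    rw [← mul_assoc, mul_comm n']; gcongr
  have D4 := mul_le_mul_of_nonneg_left D1 hm0
  have D5 := mul_le_mul_of_nonneg_left D3 hn0.le
  have D6 : n' * pairing k (pS k ν' x' r) r ≤ n' * (pairing k p Q + δ / 2 + d) := by
    gcongr
    linarith [(abs_le.mp C2).1]
  have D7 := (abs_le.mp C1).1
  have D8 := mul_nonneg hn0.le C7
  linarith

end

/-- the cavity step -/
theorem cav_step (K K' e : ℝ) (hK' : 0 ≤ K') (he : 0 < e) : ∃ δ > (0 : ℝ), ∀ n : ℕ,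
    ∃ a > (0 : ℝ), ∃ N0 : ℕ, ∀ (ι ι' κ κ' Cf Cf' : Type) [Fintype ι]
    [Fintype ι'] [Fintype κ] [Fintype κ'] [DecidableEq κ] [DecidableEq κ'] [MeasurableSpace Cf]
    [MeasurableSpace Cf'] [Nonempty Cf] [Nonempty Cf'] [Nonempty ι] [Nonempty ι'] (k : ℕ)
    (_ : 0 < k) (ν : Measure Cf) (ν' : Measure Cf') (x : Cf → ι → ℝ) (x' : Cf' → ι' → ℝ)
    (_ : Spin ν x) (_ : Spin ν' x') (f f1 f2 : ℝ → ℝ) (_ : Nice f f1 f2 K)
    (_ : Fintype.card ι' ≤ n) (_ : Fintype.card κ' ≤ n) (_ : N0 ≤ Fintype.card ι)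
    (_ : (Fintype.card κ : ℝ) ≤ K' * Fintype.card ι)
    (_ : (Fintype.card κ' : ℝ) ≤ K' * Fintype.card ι') (y b : ℕ → ℝ)
    (_ : ∀ j, 0 < y j) (_ : ∀ j < k, 0 ≤ b j) (_ : ∑ j ∈ range k, y j ≤ δ)
    (_ : ∑ j ∈ range k, b j ≤ δ)
    (_ : vR κ k ν x f f1 f2 1 y b ≤ a) (_ : vQ κ k ν x f f1 f2 1 y b ≤ a)
    (_ : ∀ l < k, ∫ z, ov x z.1.1.1 z.2.1.1
        ∂pp k (ν.prod ν') (HM (κ ⊕ κ') k (xx x x') f f1 f2 1 y b) l = ∫ z, ov x' z.1.1.2 z.2.1.2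
        ∂pp k (ν.prod ν') (HM (κ ⊕ κ') k (xx x x') f f1 f2 1 y b) l),
    ∃ r, AdmR r ∧ Strict k r ∧
      YM κ k ν x f f1 f2 1 y b + Fintype.card ι' *
          (XN k ν' x' r + pairing k (pS k ν' x' r) r - e) +
        Fintype.card κ' * Psi f k (pathQ k (pS k ν' x' r)) ≤
      YM (κ ⊕ κ') k (ν.prod ν') (xx x x') f f1 f2 1 y b := by
  obtain ⟨M, hM⟩ : ∃ M, M = K ^ 2 * K' := ⟨_, rfl⟩
  have hM0 : 0 ≤ M := by rw [hM]; positivity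
  obtain ⟨T, hT⟩ : ∃ T, T = M + K ^ 2 + 1 := ⟨_, rfl⟩
  have hT0 : 0 < T := by rw [hT]; positivity
  obtain ⟨δ, hδ0, hδ1, hδ2⟩ : ∃ δ : ℝ, 0 < δ ∧ δ ≤ 1 ∧ δ * (2 + 8 * M) ≤ e :=
    ⟨min 1 (e / (2 + 8 * M)), lt_min one_pos (by positivity), min_le_left _ _,
      (le_div_iff₀ (by positivity)).mp (min_le_right _ _)⟩
  refine ⟨δ, hδ0, fun n => ?_⟩
  obtain ⟨ε, hε0, hε⟩ : ∃ ε : ℝ, 0 < ε ∧ 2 * ε * T * (1 + K') = e / 4 :=
    ⟨e / (8 * T * (1 + K')), by positivity, by field_simp; ring⟩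
  obtain ⟨τ1, hτ1, EF1⟩ := cav_EF ε hε0
  obtain ⟨τ2, hτ2, EF2⟩ := XN_EF ε hε0
  obtain ⟨η, hη0, hη1, hη2⟩ : ∃ η : ℝ, 0 < η ∧ η ≤ 1 ∧ η * (n * T + 1) ≤ min τ1 τ2 :=
    ⟨min 1 (min τ1 τ2 / (n * T + 1)), lt_min one_pos (div_pos (lt_min hτ1 hτ2) (by positivity)),
      min_le_left _ _, (le_div_iff₀ (by positivity)).mp (min_le_right _ _)⟩
  obtain ⟨s, hs0, hs⟩ : ∃ s : ℝ, 0 < s ∧ s / η * (2 * (1 + K') + 1) = e / 4 :=
    ⟨e * η / (4 * (2 * (1 + K') + 1)), by positivity, by field_simp⟩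
  obtain ⟨e1, he10, he11, he12⟩ : ∃ e1 : ℝ, 0 < e1 ∧ e1 * (2 * (1 + T + M)) ≤ s ∧
      e1 * (2 * (1 + K') * T) ≤ e :=
    ⟨min (s / (2 * (1 + T + M))) (e / (2 * (1 + K') * T)), lt_min (by positivity) (by positivity),
      (le_div_iff₀ (by positivity)).mp (min_le_left _ _),
      (le_div_iff₀ (by positivity)).mp (min_le_right _ _)⟩
  have D3 : s + δ / 2 + (2 * s / η + 2 * ε * T + T * e1 / 2) +
      K' * ((2 * s / η + 2 * ε * T + T * e1 / 2) + 2 * K ^ 2 * δ) ≤ e := by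
    have h3 : s ≤ s / η := le_div_self hs0.le hη0 hη1
    have h4 : (1 + K') * (2 * s / η + 2 * ε * T + T * e1 / 2) = s / η * (2 * (1 + K')) +
        2 * ε * T * (1 + K') + e1 * (2 * (1 + K') * T) / 4 := by ring
    have h5 : K' * (2 * K ^ 2 * δ) = 2 * M * δ := by rw [hM]; ring
    linarith
  obtain ⟨a, ha, N1, TR⟩ := cav_transfer K K' T e1 he10 n
  refine ⟨a, ha, max N1 ⌈4 * M * n / s⌉₊, ?_⟩
  intro ι ι' κ κ' Cf Cf' _ _ _ _ _ _ _ _ _ _ _ _ k hk ν ν' x x' hx hx' f f1 f2 hf hι' hκn hN hκ hκ'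
    y b hy hb hyδ hbδ hvR hvQ hsym
  have := hx.prob
  have := hx'.prob
  have hk' : (0 : ℝ) < k := Nat.cast_pos.mpr hk
  have hN0 : (0 : ℝ) < Fintype.card ι := Nat.cast_pos.mpr Fintype.card_pos
  have hn0 : (0 : ℝ) < Fintype.card ι' := Nat.cast_pos.mpr Fintype.card_pos
  have hnn : (Fintype.card ι' : ℝ) ≤ n := Nat.cast_le.mpr hι'
  have hy0 : ∀ j < k, 0 ≤ y j := fun j _ => (hy j).le
  obtain ⟨p, hp⟩ : ∃ p, p = pathQ k (eR κ k ν x f f1 f2 1 y b) := ⟨_, rfl⟩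
  obtain ⟨Q, hQ⟩ : ∃ Q, Q = pathR k (eQ κ k ν x f f1 f2 1 y b) := ⟨_, rfl⟩
  have ap : AdmQ k p := hp ▸ admQ_eR hx hf hk 1 y b
  have aQ : AdmR Q := hQ ▸ (admR_eQ hx hf hk 1 y b).1
  have QM' : Q (k - 1) ≤ M := hQ ▸ (admR_eQ hx hf hk 1 y b).2.trans (by
    rw [div_le_iff₀ hN0, hM, mul_assoc]; gcongr)
  have QT : Q (k - 1) ≤ T := by linarith only [sq_nonneg K, QM', hT]
  have hpu : ∀ l, 0 < l → l < k → p l = eR κ k ν x f f1 f2 1 y b l := fun l h0 hl => by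
    simp [hp, pathQ, h0.ne', hl]
  have hQv : ∀ l, 0 < l → l < k → Q l = eQ κ k ν x f f1 f2 1 y b l := fun l h0 hl => by
    have : min l (k - 1) = l := by omega
    simp [hQ, pathR, this, h0.ne']
  obtain ⟨r, hr⟩ : ∃ r : ℕ → ℝ, r = fun l => Q l + ∑ j ∈ range l, y j := ⟨_, rfl⟩
  have hcum : ∀ l ≤ k, ∑ j ∈ range l, y j ≤ δ := fun l hl =>
    (Finset.sum_le_sum_of_subset_of_nonneg (Finset.range_mono hl) fun j _ _ => (hy j).le).trans hyδ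
  have hrs : ∀ j, r j < r (j + 1) := fun j => by
    simp only [hr, Finset.sum_range_succ]
    linarith only [aQ.2 (Nat.le_succ j), hy j]
  have ar : AdmR r := ⟨by simp [hr, aQ.1], (strictMono_nat_of_lt_succ hrs).monotone⟩
  have rT : r (k - 1) ≤ T := by
    simp only [hr]; linarith only [hcum (k - 1) (by omega), sq_nonneg K, QM', hT, hδ1]
  refine ⟨r, ar, fun j _ => hrs j, ?_⟩
  have tr := fun θ (hθ : AdmR θ) (hθT : θ (k - 1) ≤ T) t η ht hη => TR ι ι' κ κ' Cf Cf' k hk ν ν'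
    x x' hx hx' f f1 f2 hf hι' hκn (le_of_max_le_left hN) hκ y b p Q θ hy0 hb (hyδ.trans hδ1)
    (hbδ.trans hδ1) ap.2.1 aQ QT hθ hθT t η ht hη hvR hvQ
  have hNs : 2 * M * Fintype.card ι' / Fintype.card ι ≤ s / 2 := by
    have h1 : 4 * M * n / s ≤ Fintype.card ι :=
      (Nat.le_ceil _).trans (Nat.cast_le.mpr (le_of_max_le_right hN))
    rw [div_le_iff₀ hs0] at h1
    rw [div_le_iff₀ hN0]
    linarith only [mul_le_mul_of_nonneg_left hnn hM0, h1]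
  have step1 := fun θ (hθ : AdmR θ) (hθT : θ (k - 1) ≤ T) η' (hη' : η' ∈ Set.Icc (0 : ℝ) 1) =>
    (cav_step1 hx hx' hf hk hy0 hb ap aQ hθ QT hη'.1 hκ hκ' hpu hQv
      fun t ht => tr θ hθ hθT t η' ht hη').trans
        (mul_le_mul_of_nonneg_left (c := s) (by rw [← hM]; linarith only [hNs, he11]) hn0.le)
  refine cav_fin (d := 2 * s / η + 2 * ε * T + T * e1 / 2) (T := T) hx hx' hf hk hy hb ap aQ hyδ
    hbδ (by positivity) (by linarith only [hT, hM0]) hκ' hr ar rT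
    (step1 0 ⟨rfl, monotone_const⟩ hT0.le 0 ⟨le_rfl, zero_le_one⟩) (fun θ hθ hθT => ?_) D3
  have hτ : η * (Fintype.card ι' * θ (k - 1)) ≤ min τ1 τ2 := by
    refine le_trans ?_ hη2
    have hθ0 : 0 ≤ θ (k - 1) := hθ.1 ▸ hθ.2 (Nat.zero_le _)
    have : (Fintype.card ι' : ℝ) * θ (k - 1) ≤ n * T :=
      mul_le_mul hnn hθT hθ0 (Nat.cast_nonneg _)
    exact mul_le_mul_of_nonneg_left (this.trans (le_add_of_nonneg_right zero_le_one)) hη0.le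
  have A3 := step1 θ hθ hθT η ⟨hη0.le, hη1⟩
  have A4 := step1 θ hθ hθT 0 ⟨le_rfl, zero_le_one⟩
  rw [cav_zero hx hx' hf hk hy0 hb ap.2.1 aQ hθ hη0.le] at A3
  rw [cav_zero hx hx' hf hk hy0 hb ap.2.1 aQ hθ le_rfl] at A4
  simp only [zero_mul, add_zero] at A4
  subst hr
  exact cav_alg hn0 hη0 hε0 hθT
    (EF1 ι ι' κ κ' Cf Cf' k hk ν ν' x x' hx hx' f f1 f2 K hf y b p Q θ hy0 hb ap.2.1 aQ.2
      hθ η hη0.le (hτ.trans (min_le_left _ _)))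
    (EF2 ι' Cf' k hk ν' x' hx' _ θ ar hθ η hη0.le (hτ.trans (min_le_right _ _))) A3 A4
    (cav_sym hx hx' hf hk hθ hθT hpu
      (tr θ hθ hθT 1 0 ⟨zero_le_one, le_rfl⟩ ⟨le_rfl, zero_le_one⟩).1 hsym)

end Vale.Agent.P157
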