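import Vale.Agent.P157.Cav2

namespace Vale.Agent.P157

open MeasureTheory ProbabilityTheory Real Finset Filter Topology
open scoped ENNReal

theorem cav_pt {N n S S' R R' p Q M T : ℝ} (hN : 0 < N) (hn : 0 < n) (hR : |R| ≤ 1)
    (hR' : |R'| ≤ 1) (hS : |S| ≤ M * N) (hS' : |S'| ≤ M * n) (hQ0 : 0 ≤ Q) (hQ : Q ≤ T) :
    |n / (N + n) * S * (R' - R) + S' * ((N * R + n * R') / (N + n) - p) - n * Q * R' +
      n * (p * Q)| ≤ n * (2 * |S / N - Q| + (T + M) * |R - p| + 4 * M * n / N) := by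
  have hM : 0 ≤ M := by
    by_contra h
    have : M * N < 0 := mul_neg_of_neg_of_pos (not_le.mp h) hN
    linarith [abs_nonneg S]
  have hd : |R' - R| ≤ 2 := by
    have := abs_sub R' R
    linarith
  have hNn : 0 < N + n := by linarith
  have e : n / (N + n) * S * (R' - R) + S' * ((N * R + n * R') / (N + n) - p) - n * Q * R' +
      n * (p * Q) = n * ((S / N - Q) * (R' - R)) - n * (Q * (R - p)) + S' * (R - p) +
        (n / (N + n)) * ((S' - n * (S / N)) * (R' - R)) := by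
    field_simp
    ring
  rw [e]
  have h1 : |n * ((S / N - Q) * (R' - R))| ≤ n * (2 * |S / N - Q|) := by
    rw [abs_mul, abs_mul, abs_of_pos hn]
    have := mul_le_mul_of_nonneg_left hd (abs_nonneg (S / N - Q))
    nlinarith
  have h2 : |n * (Q * (R - p))| ≤ n * (T * |R - p|) := by
    rw [abs_mul, abs_mul, abs_of_pos hn, abs_of_nonneg hQ0]
    gcongr
  have h3 : |S' * (R - p)| ≤ n * (M * |R - p|) := by
    rw [abs_mul]
    have := mul_le_mul_of_nonneg_right hS' (abs_nonneg (R - p))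
    linarith
  have h4 : |(n / (N + n)) * ((S' - n * (S / N)) * (R' - R))| ≤ n * (4 * M * n / N) := by
    have a1 : |S / N| ≤ M := by
      rw [abs_div, abs_of_pos hN, div_le_iff₀ hN]; exact hS
    have a2 : |S' - n * (S / N)| ≤ 2 * M * n := by
      have := abs_sub S' (n * (S / N))
      rw [abs_mul, abs_of_pos hn] at this
      nlinarith
    have a3 : n / (N + n) ≤ n / N := div_le_div_of_nonneg_left hn.le hN (by linarith)
    rw [abs_mul, abs_mul, abs_of_pos (div_pos hn hNn)]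
    calc n / (N + n) * (|S' - n * (S / N)| * |R' - R|) ≤ n / N * (2 * M * n * 2) := by
          gcongr
      _ = n * (4 * M * n / N) := by ring
  calc _ ≤ |n * ((S / N - Q) * (R' - R)) - n * (Q * (R - p)) + S' * (R - p)| +
        |(n / (N + n)) * ((S' - n * (S / N)) * (R' - R))| := abs_add_le _ _
    _ ≤ (|n * ((S / N - Q) * (R' - R)) - n * (Q * (R - p))| + |S' * (R - p)|) + _ := by
        gcongr; exact abs_add_le _ _
    _ ≤ ((|n * ((S / N - Q) * (R' - R))| + |n * (Q * (R - p))|) + |S' * (R - p)|) + _ := by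
        gcongr; exact abs_sub _ _
    _ ≤ _ := by linarith

theorem pairing_Ioo {k : ℕ} {q r : ℕ → ℝ} (h : q 0 * r 0 = 0) :
    pairing k q r = (1 / (2 * (k : ℝ))) * ∑ l ∈ Ioo 0 k, q l * r l := by
  unfold pairing
  congr 1
  symm
  refine Finset.sum_subset (fun l hl => by simp at hl ⊢; omega) fun l hl hl' => ?_
  have : l = 0 := by simp at hl hl'; omega
  rw [this, h]

theorem pairing_congr {k : ℕ} {q q' r : ℕ → ℝ} (h0 : r 0 = 0)
    (h : ∀ l, 0 < l → l < k → q l = q' l) : pairing k q r = pairing k q' r := by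
  rw [pairing_Ioo (by simp [h0]), pairing_Ioo (q := q') (by simp [h0])]
  congr 1
  exact Finset.sum_congr rfl fun l hl => by
    rw [h l (Finset.mem_Ioo.mp hl).1 (Finset.mem_Ioo.mp hl).2]

theorem abs_pairing_sub {k : ℕ} (hk : 0 < k) {q q' θ d : ℕ → ℝ} {T e : ℝ} (hθ : AdmR θ)
    (hT : θ (k - 1) ≤ T) (hd0 : ∀ l < k, 0 ≤ d l) (hd : ∀ l, 0 < l → l < k → |q l - q' l| ≤ d l)
    (he : (1 / (k : ℝ)) * ∑ l ∈ range k, d l ≤ e) :
    |pairing k q θ - pairing k q' θ| ≤ T * e / 2 := by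
  have hk' : (0 : ℝ) < k := Nat.cast_pos.mpr hk
  have h0 : ∀ l, 0 ≤ θ l := fun l => hθ.1 ▸ hθ.2 (Nat.zero_le l)
  have hT0 : 0 ≤ T := (h0 _).trans hT
  have e1 : pairing k q θ - pairing k q' θ =
      (1 / (2 * (k : ℝ))) * ∑ l ∈ range k, (q l - q' l) * θ l := by
    simp only [pairing, sub_mul, Finset.sum_sub_distrib]; ring
  rw [e1, abs_mul, abs_of_pos (by positivity : (0 : ℝ) < 1 / (2 * (k : ℝ)))]
  have h2 : |∑ l ∈ range k, (q l - q' l) * θ l| ≤ T * ∑ l ∈ range k, d l := by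
    rw [Finset.mul_sum]
    refine (Finset.abs_sum_le_sum_abs _ _).trans (Finset.sum_le_sum fun l hl => ?_)
    have hl' := Finset.mem_range.mp hl
    rcases Nat.eq_zero_or_pos l with rfl | hp
    · rw [hθ.1]; simpa using mul_nonneg hT0 (hd0 0 hk)
    · rw [abs_mul, abs_of_nonneg (h0 l), mul_comm]
      exact mul_le_mul ((hθ.2 (by omega)).trans hT) (hd l hp hl') (abs_nonneg _) hT0
  calc 1 / (2 * (k : ℝ)) * |∑ l ∈ range k, (q l - q' l) * θ l|
      ≤ 1 / (2 * (k : ℝ)) * (T * ∑ l ∈ range k, d l) := by gcongr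
    _ = T * ((1 / (k : ℝ)) * ∑ l ∈ range k, d l) / 2 := by field_simp
    _ ≤ T * e / 2 := by gcongr

variable {ι ι' κ κ' Cf Cf' : Type} [Fintype ι] [Fintype ι'] [Fintype κ] [Fintype κ']
  [DecidableEq κ] [DecidableEq κ'] [MeasurableSpace Cf] [MeasurableSpace Cf'] {k : ℕ}
  {ν : Measure Cf} {ν' : Measure Cf'} {x : Cf → ι → ℝ} {x' : Cf' → ι' → ℝ} {f f1 f2 : ℝ → ℝ}
  {K : ℝ} {y b p Q θ : ℕ → ℝ} [Nonempty Cf] [Nonempty Cf'] [Nonempty ι] [Nonempty ι']

theorem cav_err (hx : Spin ν x) (hx' : Spin ν' x') (hf : Nice f f1 f2 K) (hk : 0 < k)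
    (hp : AdmQ k p) (hQ : AdmR Q) {T K' e : ℝ} (hT : Q (k - 1) ≤ T)
    (hκ : (Fintype.card κ : ℝ) ≤ K' * Fintype.card ι)
    (hκ' : (Fintype.card κ' : ℝ) ≤ K' * Fintype.card ι') (w : ℕ → IC ι ι' κ κ' → ℝ) (η : ℝ)
    {u v : ℕ → ℝ} (hu : ∀ l, 0 < l → l < k → p l = u l) (hv : ∀ l, 0 < l → l < k → Q l = v l)
    (h1 : (1 / (k : ℝ)) * ∑ l ∈ range k, ∫ z, |ov x z.1.1.1 z.2.1.1 - u l|
      ∂pp k (ν.prod ν') ((Cv κ κ' x x' f f1 f2).Hv k w) l ≤ e)
    (h2 : (1 / (k : ℝ)) * ∑ l ∈ range k, ∫ z, |SC Sum.inl k x x' f f1 f2 w z / Fintype.card ι - v l|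
      ∂pp k (ν.prod ν') ((Cv κ κ' x x' f f1 f2).Hv k w) l ≤ e) :
    |(Cv κ κ' x x' f f1 f2).GI k (ν.prod ν') w
        (fun j i => wC ι ι' κ κ' k y b p Q θ 1 η j i - wC ι ι' κ κ' k y b p Q θ 0 η j i) -
      Fintype.card ι' * (pairing k p Q - Q (k - 1) / 2)| ≤ Fintype.card ι' *
        ((1 + T + K ^ 2 * K') * e + 2 * (K ^ 2 * K') * Fintype.card ι' / Fintype.card ι) := by
  have := hx.prob
  have := hx'.prob
  have hk' : (0 : ℝ) < k := Nat.cast_pos.mpr hk
  have hN : (0 : ℝ) < Fintype.card ι := Nat.cast_pos.mpr Fintype.card_pos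
  have hn : (0 : ℝ) < Fintype.card ι' := Nat.cast_pos.mpr Fintype.card_pos
  have hlin := Rg.lin_Hv (ν := ν.prod ν') (cv_ok (κ := κ) (κ' := κ') hx hx' hf) hk w
  have hQ0 : ∀ l, 0 ≤ Q l := fun l => hQ.1 ▸ hQ.2 (Nat.zero_le l)
  have hT0 : 0 ≤ T := (hQ0 _).trans hT
  have hK' : 0 ≤ K' := by
    by_contra h
    have : K' * (Fintype.card ι : ℝ) < 0 := mul_neg_of_neg_of_pos (not_le.mp h) hN
    linarith [Nat.cast_nonneg (α := ℝ) (Fintype.card κ)]
  set M := K ^ 2 * K' with hM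
  have hM0 : 0 ≤ M := by positivity
  set N : ℝ := (Fintype.card ι : ℝ)
  set n : ℝ := (Fintype.card ι' : ℝ)
  set μ := fun l => pp k (ν.prod ν') ((Cv κ κ' x x' f f1 f2).Hv k w) l with hμ
  have : ∀ l, IsProbabilityMeasure (μ l) := fun l => pp_prob hk hlin l
  have mR : Measurable fun z : St (IC ι ι' κ κ') (Cf × Cf') × St (IC ι ι' κ κ') (Cf × Cf') =>
      ov x z.1.1.1 z.2.1.1 := hx.measurable_ov.comp (by fun_prop :
        Measurable fun z : St (IC ι ι' κ κ') (Cf × Cf') × St (IC ι ι' κ κ') (Cf × Cf') =>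
          (z.1.1.1, z.2.1.1))
  have mR' : Measurable fun z : St (IC ι ι' κ κ') (Cf × Cf') × St (IC ι ι' κ κ') (Cf × Cf') =>
      ov x' z.1.1.2 z.2.1.2 := hx'.measurable_ov.comp (by fun_prop :
        Measurable fun z : St (IC ι ι' κ κ') (Cf × Cf') × St (IC ι ι' κ κ') (Cf × Cf') =>
          (z.1.1.2, z.2.1.2))
  have mS := measurable_SC (k := k) hx hx' hf (Sum.inl : κ → κ ⊕ κ') w
  have mS' := measurable_SC (k := k) hx hx' hf (Sum.inr : κ' → κ ⊕ κ') w
  have bS : ∀ z, |SC Sum.inl k x x' f f1 f2 w z| ≤ M * N := fun z =>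
    (abs_SC_le hf _ w z).trans (by rw [hM, mul_assoc]; gcongr)
  have bS' : ∀ z, |SC Sum.inr k x x' f f1 f2 w z| ≤ M * n := fun z =>
    (abs_SC_le hf _ w z).trans (by rw [hM, mul_assoc]; gcongr)
  set X : ℕ → St (IC ι ι' κ κ') (Cf × Cf') × St (IC ι ι' κ κ') (Cf × Cf') → ℝ := fun l z =>
    (n / (N + n)) *
            SC Sum.inl k x x' f f1 f2 w z * (ov x' z.1.1.2 z.2.1.2 - ov x z.1.1.1 z.2.1.1) +
          SC Sum.inr k x x' f f1 f2 w z *
            ((N * ov x z.1.1.1 z.2.1.1 + n * ov x' z.1.1.2 z.2.1.2) / (N + n) - p l) -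
          n * Q l * ov x' z.1.1.2 z.2.1.2 with hX
  have iA : ∀ l c, Integrable (fun z => |ov x z.1.1.1 z.2.1.1 - c|) (μ l) := fun l c =>
    (Integrable.sub (Integrable.of_bound mR.aestronglyMeasurable 1
      (ae_of_all _ fun z => hx.abs_ov_le _ _)) (integrable_const c)).abs
  have iB : ∀ l c, Integrable (fun z => |SC Sum.inl k x x' f f1 f2 w z / N - c|) (μ l) :=
    fun l c => (Integrable.sub ((Integrable.of_bound mS.aestronglyMeasurable _
      (ae_of_all _ bS)).div_const _) (integrable_const c)).abs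
  have key : ∀ l ∈ Ioo 0 k, |(∫ z, X l z ∂μ l) + n * (p l * Q l)| ≤
      n * (2 * (∫ z, |SC Sum.inl k x x' f f1 f2 w z / N - v l| ∂μ l) +
        (T + M) * (∫ z, |ov x z.1.1.1 z.2.1.1 - u l| ∂μ l) + 4 * M * n / N) := by
    intro l hl
    obtain ⟨hl0, hlk⟩ := Finset.mem_Ioo.mp hl
    have hb : ∀ z, |X l z + n * (p l * Q l)| ≤
        n * (2 * |SC Sum.inl k x x' f f1 f2 w z / N - v l| +
          (T + M) * |ov x z.1.1.1 z.2.1.1 - u l| + 4 * M * n / N) := fun z => by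
      rw [← hu l hl0 hlk, ← hv l hl0 hlk]
      exact cav_pt hN hn (hx.abs_ov_le _ _) (hx'.abs_ov_le _ _) (bS z) (bS' z) (hQ0 l)
        ((hQ.2 (by omega)).trans hT)
    have iR : Integrable (fun z => n * (2 * |SC Sum.inl k x x' f f1 f2 w z / N - v l| +
          (T + M) * |ov x z.1.1.1 z.2.1.1 - u l| + 4 * M * n / N)) (μ l) :=
      ((((iB l _).const_mul 2).add ((iA l _).const_mul _)).add (integrable_const _)).const_mul _
    have mX : Measurable (X l) := by
      simp only [hX]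
      exact (((measurable_const.mul mS).mul (mR'.sub mR)).add (mS'.mul
        ((((measurable_const.mul mR).add (measurable_const.mul mR')).div_const _).sub
          measurable_const))).sub (measurable_const.mul mR')
    have iX' : Integrable (fun z => X l z + n * (p l * Q l)) (μ l) :=
      iR.mono' (mX.add measurable_const).aestronglyMeasurable (ae_of_all _ hb)
    have iX : Integrable (X l) (μ l) := by
      exact (iX'.sub (integrable_const (n * (p l * Q l)))).congr (ae_of_all _ fun z => by simp)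
    have e1 : (∫ z, X l z ∂μ l) + n * (p l * Q l) = ∫ z, X l z + n * (p l * Q l) ∂μ l := by
      rw [integral_add iX (integrable_const _)]; simp
    rw [e1]
    refine (norm_integral_le_of_norm_le (f := fun z => X l z + n * (p l * Q l)) iR
      (ae_of_all _ hb)).trans (le_of_eq ?_)
    have i2 : Integrable (fun z => 2 * |SC Sum.inl k x x' f f1 f2 w z / N - v l| +
        (T + M) * |ov x z.1.1.1 z.2.1.1 - u l|) (μ l) :=
      ((iB l _).const_mul 2).add ((iA l _).const_mul _)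
    rw [integral_const_mul, integral_add i2
      (integrable_const _), integral_add ((iB l _).const_mul 2) ((iA l _).const_mul _),
      integral_const_mul, integral_const_mul]
    simp
  rw [cav_deriv hx hx' hf hk hp hQ.1 w η, pairing_Ioo (by simp [hp.1])]
  have e2 : -(n * Q (k - 1) / 2) - (1 / (2 * (k : ℝ))) * ∑ l ∈ Ioo 0 k, (∫ z, X l z ∂μ l) -
      n * ((1 / (2 * (k : ℝ))) * ∑ l ∈ Ioo 0 k, p l * Q l - Q (k - 1) / 2) =
      -((1 / (2 * (k : ℝ))) * ∑ l ∈ Ioo 0 k, ((∫ z, X l z ∂μ l) + n * (p l * Q l))) := by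
    rw [Finset.sum_add_distrib, ← Finset.mul_sum]; ring
  refine le_of_eq_of_le (congrArg abs e2) ?_
  rw [abs_neg, abs_mul, abs_of_pos (by positivity : (0 : ℝ) < 1 / (2 * (k : ℝ)))]
  have h3 : |∑ l ∈ Ioo 0 k, ((∫ z, X l z ∂μ l) + n * (p l * Q l))| ≤ ∑ l ∈ range k,
      n * (2 * (∫ z, |SC Sum.inl k x x' f f1 f2 w z / N - v l| ∂μ l) +
        (T + M) * (∫ z, |ov x z.1.1.1 z.2.1.1 - u l| ∂μ l) + 4 * M * n / N) := by
    refine (Finset.abs_sum_le_sum_abs _ _).trans ((Finset.sum_le_sum key).trans ?_)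
    refine Finset.sum_le_sum_of_subset_of_nonneg (fun l hl => by simp at hl ⊢; omega)
      fun l _ _ => ?_
    have a1 : 0 ≤ ∫ z, |SC Sum.inl k x x' f f1 f2 w z / N - v l| ∂μ l :=
      integral_nonneg fun _ => abs_nonneg _
    have a2 : 0 ≤ ∫ z, |ov x z.1.1.1 z.2.1.1 - u l| ∂μ l := integral_nonneg fun _ => abs_nonneg _
    positivity
  conv at h3 =>
    rhs
    rw [← Finset.mul_sum, Finset.sum_add_distrib, Finset.sum_add_distrib, ← Finset.mul_sum,
      ← Finset.mul_sum, Finset.sum_const, card_range, nsmul_eq_mul]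
  set a := ∑ l ∈ range k, ∫ z, |SC Sum.inl k x x' f f1 f2 w z / N - v l| ∂μ l
  set c := ∑ l ∈ range k, ∫ z, |ov x z.1.1.1 z.2.1.1 - u l| ∂μ l
  have he : 0 ≤ e := le_trans (mul_nonneg (by positivity)
    (Finset.sum_nonneg fun l _ => integral_nonneg fun _ => abs_nonneg _)) h1
  calc _ ≤ 1 / (2 * (k : ℝ)) * (n * (2 * a + (T + M) * c + k * (4 * M * n / N))) := by gcongr
    _ = n * ((1 / (k : ℝ)) * a + (T + M) / 2 * ((1 / (k : ℝ)) * c) + 2 * M * n / N) := by
        field_simp; ring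
    _ ≤ n * (e + (T + M) / 2 * e + 2 * M * n / N) := by gcongr
    _ ≤ _ := by
        have : (T + M) / 2 * e ≤ (T + M) * e := by nlinarith
        gcongr
        linarith

end Vale.Agent.P157
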