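import Vale.Agent.P157.Conc1C

namespace Vale.Agent.P157

open MeasureTheory ProbabilityTheory Real Finset Filter Topology
open scoped ENNReal RealInnerProductSpace

variable {ι Cf : Type} [Fintype ι] [Nonempty ι] [MeasurableSpace Cf] {ν : Measure Cf}
  {x : Cf → ι → ℝ}

namespace C1

section Mag

omit [Nonempty ι]

variable {ζ ζ' v : ℕ → ℝ}

/-- the tilted magnetisation as a vector -/
noncomputable def MM (ν : Measure Cf) (x : Cf → ι → ℝ) (ζ v : ℕ → ℝ) (n j : ℕ)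
    (h : EuclideanSpace ℝ ι) : EuclideanSpace ℝ ι :=
  WithLp.toLp 2 fun i => (FS ι ζ v).P n j (Φs ν x) (Mg ν x i) h

theorem ex_Mg (hx : Spin ν x) (hζ : ∀ j, 0 < ζ j) (i : ι) : (FS ι ζ v).Ex (Mg ν x i) :=
  Sys.Ex.of_bdd (fs_ok ι hζ v) (measurable_Mg hx i) _ (abs_Mg_le hx i)

theorem meas_inner_M0 (hx : Spin ν x) (e : EuclideanSpace ℝ ι) :
    Measurable fun b => ⟪e, M0 ν x b⟫ := measurable_const.inner (measurable_M0 hx)

theorem inner_MM (hx : Spin ν x) (hζ : ∀ j, 0 < ζ j) (n j : ℕ) (e h : EuclideanSpace ℝ ι) :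
    ⟪e, MM ν x ζ v n j h⟫ = (FS ι ζ v).P n j (Φs ν x) (fun b => ⟪e, M0 ν x b⟫) h := by
  simp only [MM, M0, c1_inner]
  exact (Sys.P_sum (fs_ok ι hζ v) (lin_Φs hx ζ v) univ (fun i => e i)
    (fun i _ => ex_Mg hx hζ i) n j h).symm

theorem MM_zero (hx : Spin ν x) (j : ℕ) : MM ν x ζ v 0 j = M0 ν x := by
  funext h
  simp only [MM, M0, Sys.P_zero (measurable_Mg hx _)]

theorem MM_succ (hx : Spin ν x) (hζ : ∀ j, 0 < ζ j) (n j : ℕ) (e h : EuclideanSpace ℝ ι) :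
    ⟪e, MM ν x ζ v (n + 1) j h⟫ = ∫ b, ⟪e, MM ν x ζ v n (j + 1) b⟫
      ∂(FS ι ζ v).stepM j ((FS ι ζ v).X n (j + 1) (Φs ν x)) h := by
  simp only [inner_MM hx hζ]
  exact Sys.P_succ (fs_ok ι hζ v) (lin_Φs hx ζ v)
    (Sys.Ex.of_bdd (fs_ok ι hζ v) (meas_inner_M0 hx e) _ (abs_inner_M0 hx e)) n j h

theorem measurable_MM (hx : Spin ν x) (hζ : ∀ j, 0 < ζ j) (n j : ℕ) :
    Measurable (MM ν x ζ v n j) :=
  (PiLp.continuous_toLp 2 _).measurable.comp (measurable_pi_lambda _ fun i =>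
    Sys.measurable_P (fs_ok ι hζ v) (lin_Φs hx ζ v) (measurable_Mg hx i) n j)

theorem norm_MM_le (hx : Spin ν x) (hζ : ∀ j, 0 < ζ j) (n j : ℕ) (h : EuclideanSpace ℝ ι) :
    ‖MM ν x ζ v n j h‖ ≤ √(Fintype.card ι) := by
  have hp := Sys.m_prob (fs_ok ι hζ v) (lin_Φs hx ζ v) n j h
  have h1 : |⟪MM ν x ζ v n j h, MM ν x ζ v n j h⟫| ≤ ‖MM ν x ζ v n j h‖ * √(Fintype.card ι) := by
    rw [inner_MM hx hζ n j (MM ν x ζ v n j h) h]
    have := norm_integral_le_of_norm_le_const (μ := (FS ι ζ v).m n j (Φs ν x) h)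
      (f := fun b => ⟪MM ν x ζ v n j h, M0 ν x b⟫) (ae_of_all _ fun b => abs_inner_M0 hx _ b)
    rw [probReal_univ, mul_one] at this
    exact this
  rw [real_inner_self_eq_norm_sq, abs_of_nonneg (sq_nonneg _), pow_two] at h1
  by_cases h0 : ‖MM ν x ζ v n j h‖ = 0
  · rw [h0]; positivity
  · exact le_of_mul_le_mul_left h1 (lt_of_le_of_ne (norm_nonneg _) (Ne.symm h0))

theorem hom_rot (L : EuclideanSpace ℝ ι ≃ₗᵢ[ℝ] EuclideanSpace ℝ ι) (n j : ℕ) :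
    Sys.Hom (FS ι ζ v) (FS ι ζ v) (fun _ => L) (fun _ => L) n j where
  mφ _ := L.continuous.measurable
  mp _ _ _ := c1_mp L
  ζ_eq _ _ _ := rfl
  comm i _ _ s w := by simp only [FS, L.map_add, L.map_smul]
  gauge := ⟨1, fun _ _ _ s => by simp [FS]⟩

theorem hom_add (a : EuclideanSpace ℝ ι) (n j : ℕ) :
    Sys.Hom (FS ι ζ v) (FS ι ζ v) (fun _ s => s + a) (fun _ w => w) n j where
  mφ _ := measurable_add_const a
  mp _ _ _ := MeasurePreserving.id _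
  ζ_eq _ _ _ := rfl
  comm i _ _ s w := by simp only [FS, add_right_comm]
  gauge := ⟨1 + ‖a‖, fun _ _ _ s => (norm_add_le s a).trans (by
    simp only [FS]; nlinarith [norm_nonneg s, norm_nonneg a])⟩

theorem rad_X (hx : Spin ν x) (hr : RotInv ν x) (hζ : ∀ j, 0 < ζ j) (n j : ℕ) :
    Rad ((FS ι ζ v).X n j (Φs ν x)) := c1_rad_of_rot fun L h => by
  rw [← (hom_rot L n j).X_eq (fs_ok ι hζ v) (lin_Φs hx ζ v) h]
  simp only [Φs_rot hx hr]

theorem MM_rot (hx : Spin ν x) (hr : RotInv ν x) (hζ : ∀ j, 0 < ζ j) (n j : ℕ)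
    (L : EuclideanSpace ℝ ι ≃ₗᵢ[ℝ] EuclideanSpace ℝ ι) (h : EuclideanSpace ℝ ι) :
    MM ν x ζ v n j (L h) = L (MM ν x ζ v n j h) := by
  refine ext_inner_left ℝ fun e => ?_
  obtain ⟨e, rfl⟩ := L.surjective e
  rw [L.inner_map_map, inner_MM hx hζ, inner_MM hx hζ, ← (hom_rot L n j).P_eq (fs_ok ι hζ v)
    (fs_ok ι hζ v) (lin_Φs hx ζ v) (meas_inner_M0 hx _) h]
  simp only [Φs_rot hx hr, M0_rot hx hr, L.inner_map_map]

theorem hasDeriv_X (hx : Spin ν x) (hζ : ∀ j, 0 < ζ j) (n j : ℕ) (e : EuclideanSpace ℝ ι)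
    (t : ℝ) : HasDerivAt (fun t : ℝ => (FS ι ζ v).X n j (Φs ν x) (t • e))
      ⟪e, MM ν x ζ v n j (t • e)⟫ t := by
  have hY := fs_ok ι hζ v
  have hL := lin_Φs hx ζ v
  set K := √(Fintype.card ι) * (1 + (|t| + 1) * ‖e‖) + ‖e‖ * √(Fintype.card ι) + 1 with hK
  have hK1 : 1 ≤ K := le_add_of_nonneg_left (by positivity)
  have hb : ∀ u ∈ Metric.ball t 1, ∀ s : EuclideanSpace ℝ ι,
      |Φs ν x (s + u • e)| ≤ K * (1 + ‖s‖) := by
    intro u hu s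
    have h1 : |u| ≤ |t| + 1 := by
      have h2 : |u - t| < 1 := hu
      linarith [abs_sub_abs_le_abs_sub u t]
    have h2 : ‖s + u • e‖ ≤ (1 + (|t| + 1) * ‖e‖) * (1 + ‖s‖) := by
      refine (norm_add_le _ _).trans ?_
      rw [norm_smul, Real.norm_eq_abs]
      have h3 : |u| * ‖e‖ ≤ (|t| + 1) * ‖e‖ := by gcongr
      have h4 : 0 ≤ (|t| + 1) * ‖e‖ * ‖s‖ := by positivity
      nlinarith
    refine (abs_Φs_le hx _).trans ((mul_le_mul_of_nonneg_left h2 (sqrt_nonneg _)).trans ?_)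
    rw [← mul_assoc]
    refine mul_le_mul_of_nonneg_right ?_ (by positivity)
    have : 0 ≤ ‖e‖ * √(Fintype.card ι : ℝ) := by positivity
    linarith
  have hF : (FS ι ζ v).LFam (Metric.ball t 1) (fun u s => Φs ν x (s + u • e))
      fun u s => ⟪e, M0 ν x (s + u • e)⟫ := by
    refine ⟨⟨fun u _ => hL.1.comp (measurable_add_const _),
      fun u _ => (meas_inner_M0 hx e).comp (measurable_add_const _),
      fun u _ s => hasDeriv_Φs hx s e u, K, fun u hu s => ⟨(hb u hu s).trans ?_, ?_⟩⟩, K, hb⟩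
    · refine mul_le_mul_of_nonneg_left ?_ (by linarith)
      have := add_one_le_exp (K * ‖s‖)
      change _ ≤ exp (K * ‖s‖)
      nlinarith [norm_nonneg s]
    · refine (abs_inner_M0 hx _ _).trans (le_trans ?_ (le_mul_of_one_le_right (by linarith)
        (one_le_exp (mul_nonneg (by linarith) (norm_nonneg s)))))
      have : 0 ≤ √(Fintype.card ι : ℝ) * (1 + (|t| + 1) * ‖e‖) := by positivity
      linarith
  have h1 := (Sys.X_fam hY Metric.isOpen_ball hF n j).der t (Metric.mem_ball_self one_pos) 0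
  simp only [(hom_add _ n j).X_eq hY hL, zero_add] at h1
  rw [inner_MM hx hζ, ← zero_add (t • e), ← (hom_add _ n j).P_eq hY hY hL (meas_inner_M0 hx e)]
  exact h1

theorem inc_X (hx : Spin ν x) (hr : RotInv ν x) (hζ : ∀ j, 0 < ζ j) {n j : ℕ}
    (hd : ∀ h, ∃ a : ℝ, 0 ≤ a ∧ MM ν x ζ v n j h = a • h) : Inc ((FS ι ζ v).X n j (Φs ν x)) :=
  c1_inc_of_deriv (rad_X hx hr hζ n j) (hasDeriv_X hx hζ n j) fun e t ht => by
    rw [c1_inner_scale hd ht.le]; positivity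

theorem inc_X_sub (hx : Spin ν x) (hr : RotInv ν x) (hζ : ∀ j, 0 < ζ j) (hle : ∀ j, ζ j ≤ ζ' j)
    {n j : ℕ} (hd : ∀ h, ∃ a : ℝ, 0 ≤ a ∧ MM ν x ζ v n j h = a • h)
    (hd' : ∀ h, ∃ a : ℝ, 0 ≤ a ∧ MM ν x ζ' v n j h = a • h)
    (hm : ∀ h, ‖MM ν x ζ v n j h‖ ≤ ‖MM ν x ζ' v n j h‖) (i : ℕ) :
    Inc fun b => ζ' i * (FS ι ζ' v).X n j (Φs ν x) b - ζ i * (FS ι ζ v).X n j (Φs ν x) b := by
  have hζ' : ∀ j, 0 < ζ' j := fun j => (hζ j).trans_le (hle j)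
  have h1 : Inc fun b => (FS ι ζ' v).X n j (Φs ν x) b - (FS ι ζ v).X n j (Φs ν x) b := by
    refine c1_inc_of_deriv (fun a b e => ?_)
      (fun e t => (hasDeriv_X hx hζ' n j e t).sub (hasDeriv_X hx hζ n j e t)) fun e t ht => ?_
    · simp only [rad_X hx hr hζ n j a b e, rad_X hx hr hζ' n j a b e]
    · rw [c1_inner_scale hd ht.le, c1_inner_scale hd' ht.le, sub_nonneg]
      exact mul_le_mul_of_nonneg_left (hm _) (norm_nonneg _)
  intro a b hab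
  have h2 := mul_le_mul_of_nonneg_left (h1 a b hab) (hζ i).le
  have h3 := mul_le_mul_of_nonneg_left (inc_X hx hr hζ' hd' a b hab) (sub_nonneg.2 (hle i))
  simp only at h2 ⊢
  linarith

end Mag

variable {ζ : ℕ → ℝ} {v : ℕ → ℝ}

theorem MM_step (hx : Spin ν x) (hr : RotInv ν x) (hζ : ∀ j, 0 < ζ j) {n j : ℕ}
    (hd : ∀ h, ∃ a : ℝ, 0 ≤ a ∧ MM ν x ζ v n (j + 1) h = a • h) (hs : 0 < √(v j))
    (h : EuclideanSpace ℝ ι) : ⟪h, MM ν x ζ v (n + 1) j h⟫ = ‖h‖ / √(Fintype.card ι) *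
      ∫ b, ‖MM ν x ζ v n (j + 1) b‖ * ‖M0 ν x (kap v j h • b)‖
        ∂(FS ι ζ v).stepM j ((FS ι ζ v).X n (j + 1) (Φs ν x)) h := by
  rw [MM_succ hx hζ, step_vec hx hr hζ (Sys.lin_X (fs_ok ι hζ v) (lin_Φs hx ζ v) _ _)
    (rad_X hx hr hζ _ _) hs h (measurable_MM hx hζ _ _) (norm_MM_le hx hζ _ _)
    (MM_rot hx hr hζ _ _)]
  congr 1
  refine integral_congr_ae (ae_of_all _ fun b => ?_)
  obtain ⟨a, ha, h1⟩ := hd b
  obtain ⟨c, hc, h2⟩ := dir_M0 hx hr (kap v j h • b)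
  exact c1_inner_dir ha (mul_nonneg hc (kap_nonneg h)) h1 (by rw [h2, smul_smul])

omit [Nonempty ι] in
theorem MM_step_zero (hx : Spin ν x) (hζ : ∀ j, 0 < ζ j) {n j : ℕ} (hs : √(v j) = 0) :
    MM ν x ζ v (n + 1) j = MM ν x ζ v n (j + 1) := by
  funext h
  refine ext_inner_left ℝ fun e => ?_
  rw [MM_succ hx hζ, step_zero hζ (Sys.lin_X (fs_ok ι hζ v) (lin_Φs hx ζ v) _ _) hs
    (measurable_const.inner (measurable_MM hx hζ _ _))]

theorem MM_dir (hx : Spin ν x) (hr : RotInv ν x) (hζ : ∀ j, 0 < ζ j) (n j : ℕ)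
    (h : EuclideanSpace ℝ ι) : ∃ a : ℝ, 0 ≤ a ∧ MM ν x ζ v n j h = a • h := by
  induction n generalizing j h with
  | zero => rw [MM_zero hx]; exact dir_M0 hx hr h
  | succ n ih =>
    rcases (sqrt_nonneg (v j)).eq_or_lt with hs | hs
    · rw [MM_step_zero hx hζ hs.symm]; exact ih _ _
    refine c1_dir (MM_rot hx hr hζ _ _) (fun h => ?_) h
    rw [MM_step hx hr hζ (ih _) hs]
    exact mul_nonneg (by positivity) (integral_nonneg fun b => by positivity)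

theorem MM_mono (hx : Spin ν x) (hr : RotInv ν x) (n : ℕ) : ∀ (j : ℕ) {ζ ζ' : ℕ → ℝ}
    (_ : ∀ j, 0 < ζ j) (_ : ∀ j, ζ j ≤ ζ' j) {h h' : EuclideanSpace ℝ ι} (_ : ‖h‖ ≤ ‖h'‖),
    ‖MM ν x ζ v n j h‖ ≤ ‖MM ν x ζ' v n j h'‖ := by
  induction n with
  | zero =>
    intro j ζ ζ' _ _ h h' hh
    rw [MM_zero hx, MM_zero hx]
    exact inc_M0 hx hr _ _ hh
  | succ n ih =>
    intro j ζ ζ' hζ hle h h' hh
    have hζ' : ∀ j, 0 < ζ' j := fun j => (hζ j).trans_le (hle j)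
    rcases (sqrt_nonneg (v j)).eq_or_lt with hs | hs
    · rw [MM_step_zero hx hζ hs.symm, MM_step_zero hx hζ' hs.symm]
      exact ih _ hζ hle hh
    by_cases h0 : h = 0
    · rw [h0, c1_zero (MM_rot hx hr hζ _ _), norm_zero]
      exact norm_nonneg _
    have hp : 0 < ‖h‖ := norm_pos_iff.2 h0
    have hp' : 0 < ‖h'‖ := hp.trans_le hh
    have hd := sqrt_card_pos (ι := ι)
    have hY := fs_ok ι hζ v
    have hX := Sys.lin_X hY (lin_Φs hx ζ v) n (j + 1)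
    have hX' := Sys.lin_X (fs_ok ι hζ' v) (lin_Φs hx ζ' v) n (j + 1)
    have e1 := MM_step hx hr hζ (MM_dir hx hr hζ n (j + 1)) hs h
    have e2 := MM_step hx hr hζ' (MM_dir hx hr hζ' n (j + 1)) hs h'
    have f1 := c1_inner_scale (MM_dir (v := v) hx hr hζ (n + 1) j) zero_le_one h
    have f2 := c1_inner_scale (MM_dir (v := v) hx hr hζ' (n + 1) j) zero_le_one h'
    rw [one_smul] at f1 f2
    rw [f1, div_eq_mul_inv, mul_assoc] at e1
    rw [f2, div_eq_mul_inv, mul_assoc] at e2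
    rw [mul_left_cancel₀ hp.ne' e1, mul_left_cancel₀ hp'.ne' e2]
    refine mul_le_mul_of_nonneg_left ?_ (by positivity)
    have hE : ∀ {ξ : ℕ → ℝ} (_ : ∀ j, 0 < ξ j) (c : ℝ), (FS ι ζ v).Ex fun b =>
        ‖MM ν x ξ v n (j + 1) b‖ * ‖M0 ν x (c • b)‖ := fun hξ c =>
      Sys.Ex.of_bdd hY ((measurable_MM hx hξ _ _).norm.mul
        ((measurable_M0 hx).comp (measurable_const_smul c)).norm)
        (√(Fintype.card ι) * √(Fintype.card ι)) fun b => by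
          rw [abs_of_nonneg (by positivity)]
          exact mul_le_mul (norm_MM_le hx hξ _ _ _) (norm_M0_le hx _) (norm_nonneg _) hd.le
    refine le_trans (integral_mono ((hE hζ _).integrable_stepM hY hX j h)
      ((hE hζ' (kap v j h')).integrable_stepM hY hX j h) fun b => ?_)
      (step_cmp hx hr hζ hζ' hX hX' (rad_X hx hr hζ _ _) (rad_X hx hr hζ' _ _)
        (inc_X_sub hx hr hζ hle (MM_dir hx hr hζ _ _) (MM_dir hx hr hζ' _ _)
          (fun h => ih _ hζ hle le_rfl) j) (hE hζ' _) (fun a b hab => ?_) hh)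
    · refine mul_le_mul (ih _ hζ hle le_rfl) (inc_M0 hx hr _ _ ?_) (norm_nonneg _) (norm_nonneg _)
      rw [norm_smul, norm_smul, Real.norm_of_nonneg (kap_nonneg _),
        Real.norm_of_nonneg (kap_nonneg _)]
      exact mul_le_mul_of_nonneg_right (kap_mono hh) (norm_nonneg _)
    · refine mul_le_mul (ih _ hζ' (fun _ => le_rfl) hab) (inc_M0 hx hr _ _ ?_) (norm_nonneg _)
        (norm_nonneg _)
      rw [norm_smul, norm_smul]
      exact mul_le_mul_of_nonneg_left hab (norm_nonneg _)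

end C1

open C1

variable {ζ : ℕ → ℝ} {v : ℕ → ℝ}

/-- the squared magnetisation after `l` of `l + n` levels as a function of the initial field -/
noncomputable def gF (ν : Measure Cf) (x : Cf → ι → ℝ) (ζ v : ℕ → ℝ) (l n j : ℕ) :
    EuclideanSpace ℝ ι → ℝ :=
  (FS ι ζ v).P l j ((FS ι ζ v).X n (j + l) (Φs ν x))
    fun h => ∑ i, (FS ι ζ v).P n (j + l) (Φs ν x) (Mg ν x i) h ^ 2

omit [Nonempty ι] in
theorem pF_eq (ζ v : ℕ → ℝ) (l n : ℕ) : pF ν x ζ v l n = gF ν x ζ v l n 0 0 := by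
  simp [pF, gF]

omit [Nonempty ι] in
theorem gF_eq (ζ v : ℕ → ℝ) (l n j : ℕ) : gF ν x ζ v l n j =
    (FS ι ζ v).P l j ((FS ι ζ v).X n (j + l) (Φs ν x)) fun h => ‖MM ν x ζ v n (j + l) h‖ ^ 2 := by
  simp only [gF, EuclideanSpace.real_norm_sq_eq, MM]

omit [Nonempty ι] in
theorem ex_MM_sq (hx : Spin ν x) (hζ : ∀ j, 0 < ζ j) (n j : ℕ) :
    (FS ι ζ v).Ex fun h => ‖MM ν x ζ v n j h‖ ^ 2 :=
  (Sys.Ex.of_bdd (fs_ok ι hζ v) (measurable_MM hx hζ n j).norm _ fun h =>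
    (abs_norm _).trans_le (norm_MM_le hx hζ n j h)).sq (fs_ok ι hζ v)

omit [Nonempty ι] in
theorem ex_gF (hx : Spin ν x) (hζ : ∀ j, 0 < ζ j) (l n j : ℕ) :
    (FS ι ζ v).Ex (gF ν x ζ v l n j) := by
  rw [gF_eq]
  exact Sys.ex_P (fs_ok ι hζ v) (Sys.lin_X (fs_ok ι hζ v) (lin_Φs hx ζ v) _ _)
    (ex_MM_sq hx hζ _ _) l j

omit [Nonempty ι] in
theorem gF_succ (hx : Spin ν x) (hζ : ∀ j, 0 < ζ j) (l n j : ℕ) (h : EuclideanSpace ℝ ι) :
    gF ν x ζ v (l + 1) n j h = ∫ b, gF ν x ζ v l n (j + 1) b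
      ∂(FS ι ζ v).stepM j ((FS ι ζ v).X (l + n) (j + 1) (Φs ν x)) h := by
  rw [gF_eq, gF_eq, Sys.P_succ (fs_ok ι hζ v) (Sys.lin_X (fs_ok ι hζ v) (lin_Φs hx ζ v) _ _)
    (ex_MM_sq hx hζ _ _), Sys.X_add, show j + (l + 1) = j + 1 + l by ring]

theorem gF_both (hx : Spin ν x) (hr : RotInv ν x) (n l : ℕ) : ∀ (j : ℕ) {ζ ζ' : ℕ → ℝ}
    (_ : ∀ j, 0 < ζ j) (_ : ∀ j, ζ j ≤ ζ' j) {h h' : EuclideanSpace ℝ ι} (_ : ‖h‖ ≤ ‖h'‖),
    gF ν x ζ v l n j h ≤ gF ν x ζ' v l n j h' := by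
  induction l with
  | zero =>
    intro j ζ ζ' hζ hle h h' hh
    have hζ' : ∀ j, 0 < ζ' j := fun j => (hζ j).trans_le (hle j)
    rw [gF_eq, gF_eq, Sys.P_zero (ex_MM_sq hx hζ _ _).1, Sys.P_zero (ex_MM_sq hx hζ' _ _).1]
    exact pow_le_pow_left₀ (norm_nonneg _) (MM_mono hx hr n _ hζ hle hh) 2
  | succ l ih =>
    intro j ζ ζ' hζ hle h h' hh
    have hζ' : ∀ j, 0 < ζ' j := fun j => (hζ j).trans_le (hle j)
    have hY := fs_ok ι hζ v
    have hX := Sys.lin_X hY (lin_Φs hx ζ v) (l + n) (j + 1)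
    have hX' := Sys.lin_X (fs_ok ι hζ' v) (lin_Φs hx ζ' v) (l + n) (j + 1)
    have hE : (FS ι ζ v).Ex (gF ν x ζ' v l n (j + 1)) := ex_gF hx hζ' l n (j + 1)
    rw [gF_succ hx hζ, gF_succ hx hζ']
    exact le_trans (integral_mono ((ex_gF hx hζ l n (j + 1)).integrable_stepM hY hX j h)
      (hE.integrable_stepM hY hX j h) fun b => ih _ hζ hle le_rfl)
      (step_cmp hx hr hζ hζ' hX hX' (rad_X hx hr hζ _ _) (rad_X hx hr hζ' _ _)
        (inc_X_sub hx hr hζ hle (MM_dir hx hr hζ _ _) (MM_dir hx hr hζ' _ _)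
          (fun h => MM_mono hx hr _ _ hζ hle le_rfl) j) hE
        (fun a b hab => ih _ hζ' (fun _ => le_rfl) hab) hh)

/-- radial monotonicity in the initial field -/
theorem gF_radial (hx : Spin ν x) (hr : RotInv ν x) {ζ : ℕ → ℝ} (hζ : ∀ j, 0 < ζ j) (v : ℕ → ℝ)
    (l n j : ℕ) {h h' : EuclideanSpace ℝ ι} (hh : ‖h‖ ≤ ‖h'‖) :
    gF ν x ζ v l n j h ≤ gF ν x ζ v l n j h' := gF_both hx hr n l j hζ (fun _ => le_rfl) hh

/-- monotonicity in the exponents -/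
theorem gF_mono (hx : Spin ν x) (hr : RotInv ν x) {ζ ζ' : ℕ → ℝ} (hζ : ∀ j, 0 < ζ j)
    (hle : ∀ j, ζ j ≤ ζ' j) (v : ℕ → ℝ) (l n j : ℕ) (h : EuclideanSpace ℝ ι) :
    gF ν x ζ v l n j h ≤ gF ν x ζ' v l n j h := gF_both hx hr n l j hζ hle le_rfl

end Vale.Agent.P157
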