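import Vale.Agent.P157.Core2

namespace Vale.Agent.P157

open MeasureTheory ProbabilityTheory Real Finset Filter Topology
open scoped ENNReal

namespace Sys

variable {S Ω : Type*} [MeasurableSpace S] [MeasurableSpace Ω] {Y : Sys S Ω} {U : Set ℝ}
  {H H' g g' h h' : ℝ → S → ℝ}

theorem Fam.ex (hg : Y.Fam U g g') {t : ℝ} (ht : t ∈ U) : Y.Ex (g t) := by
  obtain ⟨C, hC⟩ := hg.bd
  exact ⟨hg.meas t ht, C, fun s => (hC t ht s).1⟩

theorem Fam.ex' (hg : Y.Fam U g g') {t : ℝ} (ht : t ∈ U) : Y.Ex (g' t) := by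
  obtain ⟨C, hC⟩ := hg.bd
  exact ⟨hg.meas' t ht, C, fun s => (hC t ht s).2⟩

theorem LFam.lin_at (hH : Y.LFam U H H') {t : ℝ} (ht : t ∈ U) : Y.Lin (H t) := by
  obtain ⟨C, hC⟩ := hH.lin
  exact ⟨hH.meas t ht, C, fun s => hC t ht s⟩

theorem Fam.mono (hg : Y.Fam U g g') {U' : Set ℝ} (h : U' ⊆ U) : Y.Fam U' g g' := by
  obtain ⟨C, hC⟩ := hg.bd
  exact ⟨fun t ht => hg.meas t (h ht), fun t ht => hg.meas' t (h ht),
    fun t ht => hg.der t (h ht), C, fun t ht => hC t (h ht)⟩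

theorem LFam.mono (hH : Y.LFam U H H') {U' : Set ℝ} (h : U' ⊆ U) : Y.LFam U' H H' := by
  obtain ⟨C, hC⟩ := hH.lin
  exact ⟨hH.toFam.mono h, C, fun t ht => hC t (h ht)⟩

theorem Fam.congr (hg : Y.Fam U g g') (e : ∀ t s, h t s = g t s)
    (e' : ∀ t ∈ U, ∀ s, h' t s = g' t s) : Y.Fam U h h' := by
  obtain rfl : h = g := funext fun t => funext fun s => e t s
  obtain ⟨C, hC⟩ := hg.bd
  refine ⟨hg.meas, fun t ht => ?_, fun t ht s => ?_, C, fun t ht s => ?_⟩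
  · have : h' t = g' t := funext (e' t ht)
    rw [this]; exact hg.meas' t ht
  · rw [e' t ht s]; exact hg.der t ht s
  · rw [e' t ht s]; exact hC t ht s

theorem Fam.congrOn (hU : IsOpen U) (hg : Y.Fam U g g') (e : ∀ t ∈ U, ∀ s, h t s = g t s)
    (e' : ∀ t ∈ U, ∀ s, h' t s = g' t s) : Y.Fam U h h' := by
  obtain ⟨C, hC⟩ := hg.bd
  refine ⟨fun t ht => ?_, fun t ht => ?_, fun t ht s => ?_, C, fun t ht s => ?_⟩
  · have : h t = g t := funext (e t ht)
    rw [this]; exact hg.meas t ht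
  · have : h' t = g' t := funext (e' t ht)
    rw [this]; exact hg.meas' t ht
  · rw [e' t ht s]
    refine (hg.der t ht s).congr_of_eventuallyEq ?_
    filter_upwards [hU.mem_nhds ht] with u hu using e u hu s
  · rw [e' t ht s, e t ht s]; exact hC t ht s

/-- uniform exponential bound -/
def UB (Y : Sys S Ω) (U : Set ℝ) (g : ℝ → S → ℝ) : Prop :=
  ∃ C, 0 ≤ C ∧ ∀ t ∈ U, ∀ s, |g t s| ≤ C * exp (C * Y.ν s)

theorem grow (hY : Y.OK) {C C' : ℝ} (h : C ≤ C') (h0 : 0 ≤ C') (s : S) :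
    C * exp (C * Y.ν s) ≤ C' * exp (C' * Y.ν s) := by
  have h1 : exp (C * Y.ν s) ≤ exp (C' * Y.ν s) :=
    exp_le_exp.2 (mul_le_mul_of_nonneg_right h (hY.ν_nonneg s))
  calc C * exp (C * Y.ν s) ≤ C' * exp (C * Y.ν s) :=
        mul_le_mul_of_nonneg_right h (exp_pos _).le
    _ ≤ _ := mul_le_mul_of_nonneg_left h1 h0

theorem Fam.ub (hY : Y.OK) (hg : Y.Fam U g g') : Y.UB U g := by
  obtain ⟨C, hC⟩ := hg.bd
  exact ⟨|C|, abs_nonneg _, fun t ht s =>
    (hC t ht s).1.trans (grow hY (le_abs_self C) (abs_nonneg _) s)⟩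

theorem Fam.ub' (hY : Y.OK) (hg : Y.Fam U g g') : Y.UB U g' := by
  obtain ⟨C, hC⟩ := hg.bd
  exact ⟨|C|, abs_nonneg _, fun t ht s =>
    (hC t ht s).2.trans (grow hY (le_abs_self C) (abs_nonneg _) s)⟩

theorem Fam.mk' (hY : Y.OK) (m1 : ∀ t ∈ U, Measurable (g t)) (m2 : ∀ t ∈ U, Measurable (g' t))
    (d : ∀ t ∈ U, ∀ s, HasDerivAt (fun t => g t s) (g' t s) t) (b1 : Y.UB U g)
    (b2 : Y.UB U g') : Y.Fam U g g' := by
  obtain ⟨C1, h1, b1⟩ := b1
  obtain ⟨C2, h2, b2⟩ := b2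
  exact ⟨m1, m2, d, C1 + C2, fun t ht s =>
    ⟨(b1 t ht s).trans (grow hY (by linarith) (by linarith) s),
      (b2 t ht s).trans (grow hY (by linarith) (by linarith) s)⟩⟩

theorem UB.add (hY : Y.OK) (b1 : Y.UB U g) (b2 : Y.UB U h) :
    Y.UB U fun t s => g t s + h t s := by
  obtain ⟨C1, h1, b1⟩ := b1
  obtain ⟨C2, h2, b2⟩ := b2
  refine ⟨C1 + C2, by linarith, fun t ht s => ?_⟩
  have e1 : exp (C1 * Y.ν s) ≤ exp ((C1 + C2) * Y.ν s) :=
    exp_le_exp.2 (mul_le_mul_of_nonneg_right (by linarith) (hY.ν_nonneg s))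
  have e2 : exp (C2 * Y.ν s) ≤ exp ((C1 + C2) * Y.ν s) :=
    exp_le_exp.2 (mul_le_mul_of_nonneg_right (by linarith) (hY.ν_nonneg s))
  have := abs_add_le (g t s) (h t s)
  have k1 := mul_le_mul_of_nonneg_left e1 h1
  have k2 := mul_le_mul_of_nonneg_left e2 h2
  have := b1 t ht s
  have := b2 t ht s
  nlinarith

theorem UB.mul (hY : Y.OK) (b1 : Y.UB U g) (b2 : Y.UB U h) :
    Y.UB U fun t s => g t s * h t s := by
  obtain ⟨C1, h1, b1⟩ := b1
  obtain ⟨C2, h2, b2⟩ := b2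
  refine ⟨C1 * C2 + C1 + C2, by positivity, fun t ht s => ?_⟩
  have e1 : exp (C1 * Y.ν s) * exp (C2 * Y.ν s) ≤ exp ((C1 * C2 + C1 + C2) * Y.ν s) := by
    rw [← exp_add]
    have := hY.ν_nonneg s
    exact exp_le_exp.2 (by nlinarith [mul_nonneg (mul_nonneg h1 h2) this])
  calc |g t s * h t s| = |g t s| * |h t s| := abs_mul _ _
    _ ≤ (C1 * exp (C1 * Y.ν s)) * (C2 * exp (C2 * Y.ν s)) :=
        mul_le_mul (b1 t ht s) (b2 t ht s) (abs_nonneg _) (by positivity)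
    _ = (C1 * C2) * (exp (C1 * Y.ν s) * exp (C2 * Y.ν s)) := by ring
    _ ≤ _ := mul_le_mul (by nlinarith) e1 (by positivity) (by positivity)

theorem UB.cst (hY : Y.OK) (c : ℝ) : Y.UB U fun _ _ => c := by
  refine ⟨|c|, abs_nonneg _, fun t _ s => ?_⟩
  have : 1 ≤ exp (|c| * Y.ν s) := one_le_exp (mul_nonneg (abs_nonneg _) (hY.ν_nonneg s))
  nlinarith [abs_nonneg c]

theorem UB.exp_lin (hY : Y.OK) (hl : ∃ C, ∀ t ∈ U, ∀ s, |H t s| ≤ C * (1 + Y.ν s)) (c : ℝ) :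
    Y.UB U fun t s => exp (c * H t s) := by
  obtain ⟨C, hC⟩ := hl
  refine ⟨exp (|c| * |C|), (exp_pos _).le, fun t ht s => ?_⟩
  rw [abs_of_pos (exp_pos _), ← exp_add]
  refine exp_le_exp.2 ?_
  have h0 := hY.ν_nonneg s
  have h1 : c * H t s ≤ |c| * |H t s| := by rw [← abs_mul]; exact le_abs_self _
  have h2 : |H t s| ≤ |C| * (1 + Y.ν s) :=
    (hC t ht s).trans (mul_le_mul_of_nonneg_right (le_abs_self C) (by linarith))
  have h3 : |c| * |C| ≤ exp (|c| * |C|) := by linarith [add_one_le_exp (|c| * |C|)]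
  have h4 := mul_le_mul_of_nonneg_left h2 (abs_nonneg c)
  have h5 := mul_le_mul_of_nonneg_right h3 h0
  nlinarith

theorem UB.step (hY : Y.OK) (b : Y.UB U g) (j : ℕ) : ∃ C, 0 ≤ C ∧ ∀ t ∈ U, ∀ s w,
    ‖g t (Y.a j s w)‖ ≤ C * exp (C * Y.ν s) * exp (C * Y.n j w) := by
  obtain ⟨C, h0, b⟩ := b
  refine ⟨C, h0, fun t ht s w => (b t ht _).trans ?_⟩
  rw [mul_assoc, ← exp_add, ← mul_add]
  exact mul_le_mul_of_nonneg_left
    (exp_le_exp.2 (mul_le_mul_of_nonneg_left (hY.ν_a j s w) h0)) h0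

theorem UB.intμ (hY : Y.OK) (b : Y.UB U g) (j : ℕ) :
    Y.UB U fun t s => ∫ w, g t (Y.a j s w) ∂Y.μ := by
  obtain ⟨C, h0, b⟩ := b.step hY j
  set I := ∫ w, exp (C * Y.n j w) ∂Y.μ with hI
  have hI0 : 0 ≤ I := integral_nonneg fun w => (exp_pos _).le
  refine ⟨C * I + C, by positivity, fun t ht s => ?_⟩
  have h1 : ‖∫ w, g t (Y.a j s w) ∂Y.μ‖ ≤ ∫ w, C * exp (C * Y.ν s) * exp (C * Y.n j w) ∂Y.μ :=
    norm_integral_le_of_norm_le ((hY.int_n j C).const_mul _) (ae_of_all _ fun w => b t ht s w)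
  rw [integral_const_mul, ← hI] at h1
  refine le_trans h1 ?_
  have h2 : exp (C * Y.ν s) ≤ exp ((C * I + C) * Y.ν s) :=
    exp_le_exp.2 (mul_le_mul_of_nonneg_right (by nlinarith [mul_nonneg h0 hI0]) (hY.ν_nonneg s))
  calc C * exp (C * Y.ν s) * I = (C * I) * exp (C * Y.ν s) := by ring
    _ ≤ _ := mul_le_mul (by linarith) h2 (exp_pos _).le (by positivity)

theorem Fam.const (hY : Y.OK) {g : S → ℝ} (hg : Y.Ex g) :
    Y.Fam U (fun _ => g) fun _ _ => 0 := by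
  obtain ⟨hm, C, hC⟩ := hg
  exact Fam.mk' hY (fun _ _ => hm) (fun _ _ => measurable_const)
    (fun t _ s => hasDerivAt_const t (g s))
    ⟨|C|, abs_nonneg _, fun _ _ s => (hC s).trans (grow hY (le_abs_self C) (abs_nonneg _) s)⟩
    (UB.cst hY 0)

theorem Fam.add (hY : Y.OK) (hg : Y.Fam U g g') (hh : Y.Fam U h h') :
    Y.Fam U (fun t s => g t s + h t s) fun t s => g' t s + h' t s :=
  Fam.mk' hY (fun t ht => (hg.meas t ht).add (hh.meas t ht))
    (fun t ht => (hg.meas' t ht).add (hh.meas' t ht))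
    (fun t ht s => (hg.der t ht s).add (hh.der t ht s))
    ((hg.ub hY).add hY (hh.ub hY)) ((hg.ub' hY).add hY (hh.ub' hY))

theorem Fam.mul (hY : Y.OK) (hg : Y.Fam U g g') (hh : Y.Fam U h h') :
    Y.Fam U (fun t s => g t s * h t s) fun t s => g' t s * h t s + g t s * h' t s :=
  Fam.mk' hY (fun t ht => (hg.meas t ht).mul (hh.meas t ht))
    (fun t ht => ((hg.meas' t ht).mul (hh.meas t ht)).add ((hg.meas t ht).mul (hh.meas' t ht)))
    (fun t ht s => (hg.der t ht s).mul (hh.der t ht s))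
    ((hg.ub hY).mul hY (hh.ub hY))
    (((hg.ub' hY).mul hY (hh.ub hY)).add hY ((hg.ub hY).mul hY (hh.ub' hY)))

theorem Fam.sum (hY : Y.OK) {α : Type*} (A : Finset α) {g g' : α → ℝ → S → ℝ}
    (hg : ∀ a ∈ A, Y.Fam U (g a) (g' a)) :
    Y.Fam U (fun t s => ∑ a ∈ A, g a t s) fun t s => ∑ a ∈ A, g' a t s := by
  classical
  induction A using Finset.induction_on with
  | empty =>
    simpa using (Fam.const (U := U) hY (Ex.const hY 0))
  | insert a A ha ih =>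
    simp only [Finset.sum_insert ha]
    exact (hg a (mem_insert_self _ _)).add hY (ih fun b hb => hg b (mem_insert_of_mem hb))

theorem LFam.exp (hY : Y.OK) (hH : Y.LFam U H H') (c : ℝ) :
    Y.Fam U (fun t s => exp (c * H t s)) fun t s => exp (c * H t s) * (c * H' t s) :=
  Fam.mk' hY (fun t ht => ((hH.meas t ht).const_mul c).exp)
    (fun t ht => ((hH.meas t ht).const_mul c).exp.mul ((hH.meas' t ht).const_mul c))
    (fun t ht s => ((hH.der t ht s).const_mul c).exp)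
    (UB.exp_lin hY hH.lin c)
    ((UB.exp_lin hY hH.lin c).mul hY ((UB.cst hY c).mul hY (hH.toFam.ub' hY)))

theorem meas_intμ (hY : Y.OK) {g : S → ℝ} (hg : Measurable g) (j : ℕ) :
    Measurable fun s => ∫ w, g (Y.a j s w) ∂Y.μ := by
  have := hY.prob
  exact ((hg.comp (hY.meas_a j)).stronglyMeasurable.integral_prod_right' (ν := Y.μ)).measurable

theorem meas_sec (hY : Y.OK) {g : S → ℝ} (hg : Measurable g) (j : ℕ) (s : S) :
    Measurable fun w => g (Y.a j s w) :=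
  (hg.comp (hY.meas_a j)).comp measurable_prodMk_left

theorem Fam.intμ (hY : Y.OK) (hU : IsOpen U) (hg : Y.Fam U g g') (j : ℕ) :
    Y.Fam U (fun t s => ∫ w, g t (Y.a j s w) ∂Y.μ) fun t s => ∫ w, g' t (Y.a j s w) ∂Y.μ := by
  refine Fam.mk' hY (fun t ht => meas_intμ hY (hg.meas t ht) j)
    (fun t ht => meas_intμ hY (hg.meas' t ht) j) (fun t ht s => ?_)
    ((hg.ub hY).intμ hY j) ((hg.ub' hY).intμ hY j)
  obtain ⟨C, -, b⟩ := (hg.ub' hY).step hY j
  refine (hasDerivAt_integral_of_dominated_loc_of_deriv_le (μ := Y.μ)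
    (F := fun t w => g t (Y.a j s w)) (F' := fun t w => g' t (Y.a j s w))
    (bound := fun w => C * exp (C * Y.ν s) * exp (C * Y.n j w)) (hU.mem_nhds ht) ?_
    ((hg.ex ht).integrable_step hY j s) (meas_sec hY (hg.meas' t ht) j s).aestronglyMeasurable
    (ae_of_all _ fun w u hu => b u hu s w) ((hY.int_n j C).const_mul _)
    (ae_of_all _ fun w u hu => hg.der u hu _)).2
  filter_upwards [hU.mem_nhds ht] with u hu using
    (meas_sec hY (hg.meas u hu) j s).aestronglyMeasurable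

theorem integral_stepM' (hY : Y.OK) {Φ g : S → ℝ} (hΦ : Y.Lin Φ) (j : ℕ) (s : S)
    (hg : Measurable g) : ∫ s', g s' ∂Y.stepM j Φ s = exp (-Y.ζ j * Y.T j Φ s) *
      ∫ w, exp (Y.ζ j * Φ (Y.a j s w)) * g (Y.a j s w) ∂Y.μ := by
  rw [integral_stepM hY hΦ j s hg, ← integral_const_mul]
  refine integral_congr_ae (ae_of_all _ fun w => ?_)
  simp only
  rw [← mul_assoc, ← exp_add]
  congr 2
  ring

theorem T_fam (hY : Y.OK) (hU : IsOpen U) (hH : Y.LFam U H H') (j : ℕ) :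
    Y.LFam U (fun t => Y.T j (H t)) fun t s => ∫ s', H' t s' ∂Y.stepM j (H t) s := by
  obtain ⟨C, hC⟩ := hH.lin
  obtain ⟨C', h0, hC'⟩ := unif hY 1 j C
  have hl : ∃ C, ∀ t ∈ U, ∀ s, |Y.T j (H t) s| ≤ C * (1 + Y.ν s) :=
    ⟨C', fun t ht s => (hC' (H t) (hH.meas t ht) (hC t ht) s).1⟩
  have hF := (hH.exp hY (Y.ζ j)).intμ hY hU j
  have hz := hY.ζ_pos j
  refine ⟨Fam.mk' hY (fun t ht => (lin_T hY (hH.lin_at ht) j).1)
    (fun t ht => (ex_stepM hY (hH.lin_at ht) (hH.toFam.ex' ht) j).1) (fun t ht s => ?_) ?_ ?_, hl⟩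
  · have hpos : 0 < ∫ w, Real.exp (Y.ζ j * H t (Y.a j s w)) ∂Y.μ := by
      rw [← exp_T hY (hH.lin_at ht)]; exact exp_pos _
    have h1 := ((hF.der t ht s).log hpos.ne').const_mul (Y.ζ j)⁻¹
    refine h1.congr_deriv ?_
    rw [integral_stepM' hY (hH.lin_at ht) j s (hH.meas' t ht), ← exp_T hY (hH.lin_at ht)]
    have : ∫ w, Real.exp (Y.ζ j * H t (Y.a j s w)) * (Y.ζ j * H' t (Y.a j s w)) ∂Y.μ =
        Y.ζ j * ∫ w, Real.exp (Y.ζ j * H t (Y.a j s w)) * H' t (Y.a j s w) ∂Y.μ := by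
      rw [← integral_const_mul]
      exact integral_congr_ae (ae_of_all _ fun w => by simp only; ring)
    rw [this, neg_mul, exp_neg]
    field_simp
  · refine ⟨C' + 1, by linarith, fun t ht s =>
      ((hC' (H t) (hH.meas t ht) (hC t ht) s).1).trans ?_⟩
    have h1 := hY.ν_nonneg s
    have h2 : 1 + Y.ν s ≤ Real.exp ((C' + 1) * Y.ν s) := by
      have := add_one_le_exp ((C' + 1) * Y.ν s)
      nlinarith [mul_nonneg h0 h1]
    exact mul_le_mul (by linarith) h2 (by linarith) (by linarith)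
  · obtain ⟨K, hK, b⟩ := (UB.exp_lin hY hl (-Y.ζ j)).mul hY
      (((UB.exp_lin hY hH.lin (Y.ζ j)).mul hY (hH.toFam.ub' hY)).intμ hY j)
    refine ⟨K, hK, fun t ht s => ?_⟩
    simp only
    rw [integral_stepM' hY (hH.lin_at ht) j s (hH.meas' t ht)]
    exact b t ht s

theorem step_fam (hY : Y.OK) (hU : IsOpen U) (hH : Y.LFam U H H') (hg : Y.Fam U g g') (j : ℕ) :
    Y.Fam U (fun t s => ∫ s', g t s' ∂Y.stepM j (H t) s) fun t s =>
      (∫ s', g' t s' ∂Y.stepM j (H t) s) + Y.ζ j * ((∫ s', g t s' * H' t s' ∂Y.stepM j (H t) s) -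
        (∫ s', g t s' ∂Y.stepM j (H t) s) * ∫ s', H' t s' ∂Y.stepM j (H t) s) := by
  have h1 := ((T_fam hY hU hH j).exp hY (-Y.ζ j)).mul hY
    (((hH.exp hY (Y.ζ j)).mul hY hg).intμ hY hU j)
  refine h1.congrOn hU (fun t ht s => integral_stepM' hY (hH.lin_at ht) j s (hg.meas t ht))
    fun t ht s => ?_
  have hL := hH.lin_at ht
  have e1 : Y.Ex fun s => Real.exp (Y.ζ j * H t s) := (hL.const_mul _).ex_exp hY
  have i1 := (e1.mul hY ((hg.ex ht).mul hY (hH.toFam.ex' ht))).integrable_step hY j s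
  have i2 := (e1.mul hY (hg.ex' ht)).integrable_step hY j s
  have : ∫ w, (Real.exp (Y.ζ j * H t (Y.a j s w)) * (Y.ζ j * H' t (Y.a j s w)) * g t (Y.a j s w) +
      Real.exp (Y.ζ j * H t (Y.a j s w)) * g' t (Y.a j s w)) ∂Y.μ =
      Y.ζ j * (∫ w, Real.exp (Y.ζ j * H t (Y.a j s w)) * (g t (Y.a j s w) * H' t (Y.a j s w)) ∂Y.μ)
        + ∫ w, Real.exp (Y.ζ j * H t (Y.a j s w)) * g' t (Y.a j s w) ∂Y.μ := by
    rw [← integral_const_mul, ← integral_add (i1.const_mul _) i2]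
    exact integral_congr_ae (ae_of_all _ fun w => by simp only; ring)
  rw [this, integral_stepM' hY hL j s (hg.meas t ht), integral_stepM' hY hL j s (hg.meas' t ht),
    integral_stepM' (g := fun s' => g t s' * H' t s') hY hL j s
      ((hg.meas t ht).mul (hH.meas' t ht))]
  ring

theorem X_fam (hY : Y.OK) (hU : IsOpen U) (hH : Y.LFam U H H') (n j : ℕ) :
    Y.LFam U (fun t => Y.X n j (H t)) fun t => Y.P n j (H t) (H' t) := by
  induction n generalizing j with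
  | zero =>
    exact ⟨hH.toFam.congr (fun _ _ => rfl) fun t ht s => by rw [P_zero (hH.meas' t ht)], hH.lin⟩
  | succ n ih =>
    have h1 := T_fam hY hU (ih (j + 1)) j
    exact ⟨h1.toFam.congr (fun _ _ => rfl) fun t ht s =>
      P_succ hY (hH.lin_at ht) (hH.toFam.ex' ht) n j s, h1.lin⟩

theorem P_fam (hY : Y.OK) (hU : IsOpen U) (hH : Y.LFam U H H') (hg : Y.Fam U g g') (n j : ℕ) :
    Y.Fam U (fun t => Y.P n j (H t) (g t))
      fun t s => Y.P n j (H t) (g' t) s + Y.D n j (H t) (g t) (H' t) s := by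
  induction n generalizing j with
  | zero =>
    exact hg.congrOn hU (fun t ht s => by rw [P_zero (hg.meas t ht)])
      fun t ht s => by rw [P_zero (hg.meas' t ht)]; simp [D]
  | succ n ih =>
    have h1 := step_fam hY hU (X_fam hY hU hH n (j + 1)) (ih (j + 1)) j
    refine h1.congrOn hU (fun t ht s => P_succ hY (hH.lin_at ht) (hg.ex ht) n j s)
      fun t ht s => ?_
    have hL := hH.lin_at ht
    have hX := lin_X hY hL n (j + 1)
    rw [integral_add ((ex_P hY hL (hg.ex' ht) n (j + 1)).integrable_stepM hY hX j s)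
      ((ex_D hY hL (hg.ex ht) (hH.toFam.ex' ht) n (j + 1)).integrable_stepM hY hX j s),
      D, P_succ hY hL (hg.ex' ht), P_succ hY hL (hg.ex ht), P_succ hY hL (hH.toFam.ex' ht)]
    ring

end Sys

end Vale.Agent.P157
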