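import Vale.Agent.P157.Ident
import Vale.Agent.P157.Deriv

namespace Vale.Agent.P157.C1

open MeasureTheory ProbabilityTheory Real Finset Filter Topology
open scoped ENNReal RealInnerProductSpace

section Generic

variable {V : Type} [NormedAddCommGroup V] [InnerProductSpace ℝ V] [FiniteDimensional ℝ V]
  [MeasurableSpace V] [BorelSpace V]

theorem c1_int_sq : Integrable fun x : V => exp (-‖x‖ ^ 2 / 2) := by
  have h := (GaussianFourier.integrable_cexp_neg_mul_sq_norm_add (V := V) (b := 1 / 2)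
    (by norm_num) 0 0).norm
  refine h.congr (Eventually.of_forall fun x => ?_)
  have e : (-(1 / 2 : ℂ) * (‖x‖ : ℂ) ^ 2 + 0 * (⟪(0 : V), x⟫ : ℝ)) = ((-‖x‖ ^ 2 / 2 : ℝ) : ℂ) := by
    push_cast; ring
  simp only [e, Complex.norm_exp_ofReal]

theorem c1_integral_sq :
    ∫ x : V, exp (-‖x‖ ^ 2 / 2) = (2 * π) ^ ((Module.finrank ℝ V : ℝ) / 2) := by
  have h := GaussianFourier.integral_rexp_neg_mul_sq_norm (V := V) (b := 1 / 2) (by norm_num)
  rw [show π / (1 / 2) = 2 * π by ring] at h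
  rw [← h]
  exact integral_congr_ae (Eventually.of_forall fun x => by simp only; congr 1; ring)

theorem c1_eq_tilted :
    stdGaussian V = (volume : Measure V).tilted fun x => -‖x‖ ^ 2 / 2 := by
  have := isProbabilityMeasure_tilted (μ := (volume : Measure V))
    (f := fun x => -‖x‖ ^ 2 / 2) c1_int_sq
  refine Measure.ext_of_charFun (funext fun t => ?_)
  rw [charFun_stdGaussian, charFun_apply, integral_tilted, c1_integral_sq]
  have h := GaussianFourier.integral_cexp_neg_mul_sq_norm_add (V := V) (b := 1 / 2)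
    (by norm_num) Complex.I t
  have hp : (0 : ℝ) < (2 * π) ^ ((Module.finrank ℝ V : ℝ) / 2) := by positivity
  have e1 : ((π : ℂ) / (1 / 2)) ^ ((Module.finrank ℝ V : ℂ) / 2) =
      (((2 * π) ^ ((Module.finrank ℝ V : ℝ) / 2) : ℝ) : ℂ) := by
    rw [Complex.ofReal_cpow (by positivity)]
    push_cast
    congr 1; ring
  have e2 : ∀ x : V, (exp (-‖x‖ ^ 2 / 2) / (2 * π) ^ ((Module.finrank ℝ V : ℝ) / 2)) •
      Complex.exp (⟪x, t⟫ * Complex.I) = (((2 * π) ^ ((Module.finrank ℝ V : ℝ) / 2) : ℝ) : ℂ)⁻¹ *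
        Complex.exp (-(1 / 2 : ℂ) * (‖x‖ : ℂ) ^ 2 + Complex.I * (⟪t, x⟫ : ℝ)) := by
    intro x
    rw [Complex.exp_add, Complex.real_smul, real_inner_comm, Complex.ofReal_div, Complex.ofReal_exp,
      show ((-‖x‖ ^ 2 / 2 : ℝ) : ℂ) = -(1 / 2 : ℂ) * (‖x‖ : ℂ) ^ 2 by push_cast; ring,
      mul_comm Complex.I]
    ring
  simp only [e2]
  rw [integral_const_mul, h, e1, ← mul_assoc, inv_mul_cancel₀ (by exact_mod_cast hp.ne'), one_mul,
    Complex.I_sq]
  congr 1; ring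

/-- Cameron-Martin shift formula -/
theorem c1_shift (θ : V) (f : V → ℝ) :
    ∫ z, f (z + θ) ∂stdGaussian V = ∫ z, exp (⟪θ, z⟫ - ‖θ‖ ^ 2 / 2) * f z ∂stdGaussian V := by
  rw [c1_eq_tilted, integral_tilted, integral_tilted]
  generalize (∫ x : V, exp (-‖x‖ ^ 2 / 2)) = Z
  rw [← integral_add_right_eq_self (μ := volume) (fun z => (exp (-‖z‖ ^ 2 / 2) / Z) •
    (exp (⟪θ, z⟫ - ‖θ‖ ^ 2 / 2) * f z)) θ]
  refine integral_congr_ae (Eventually.of_forall fun z => ?_)
  simp only [smul_eq_mul, ← mul_assoc]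
  congr 1
  rw [div_mul_eq_mul_div, ← exp_add, norm_add_sq_real, inner_add_right,
    real_inner_self_eq_norm_sq, real_inner_comm]
  congr 2; ring

theorem c1_mp (L : V ≃ₗᵢ[ℝ] V) : MeasurePreserving L (stdGaussian V) (stdGaussian V) :=
  ⟨L.continuous.measurable, stdGaussian_map L⟩

omit [FiniteDimensional ℝ V] [MeasurableSpace V] [BorelSpace V] in
theorem c1_exists_iso {a b : V} (h : ‖a‖ = ‖b‖) : ∃ L : V ≃ₗᵢ[ℝ] V, L a = b :=
  ⟨_, Submodule.reflection_sub h⟩

/-- averaging the base point over a sphere -/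
theorem c1_fold {Cf : Type} [MeasurableSpace Cf] {ν : Measure Cf} [IsProbabilityMeasure ν]
    {u : Cf → V} (hu : Measurable u) {K : V → V → ℝ} (hK : Measurable fun p : V × V => K p.1 p.2)
    (hinv : ∀ (L : V ≃ₗᵢ[ℝ] V) a w, K (L a) (L w) = K a w) {a : V} (ha : ∀ σ, ‖u σ‖ = ‖a‖)
    {B : V → ℝ} (hB : Integrable B (stdGaussian V)) (hb : ∀ σ w, |K (u σ) w| ≤ B w) :
    ∫ w, K a w ∂stdGaussian V = ∫ w, ∫ σ, K (u σ) w ∂ν ∂stdGaussian V := by
  have h1 : ∀ σ, ∫ w, K (u σ) w ∂stdGaussian V = ∫ w, K a w ∂stdGaussian V := by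
    intro σ
    obtain ⟨L, hL⟩ := c1_exists_iso (ha σ).symm
    rw [← hL, ← (c1_mp L).integral_comp' (f := L.toHomeomorph.toMeasurableEquiv)]
    exact integral_congr_ae (Eventually.of_forall fun w => hinv L a w)
  have hm : Measurable fun p : Cf × V => K (u p.1) p.2 :=
    hK.comp ((hu.comp measurable_fst).prodMk measurable_snd)
  have hi : Integrable (Function.uncurry fun σ w => K (u σ) w) (ν.prod (stdGaussian V)) :=
    (hB.comp_snd ν).mono' hm.aestronglyMeasurable (Eventually.of_forall fun p => hb p.1 p.2)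
  rw [← integral_integral_swap hi]
  simp [h1]

omit [FiniteDimensional ℝ V] [MeasurableSpace V] [BorelSpace V] in
/-- an equivariant field points in the radial direction -/
theorem c1_dir {M : V → V} (he : ∀ (L : V ≃ₗᵢ[ℝ] V) h, M (L h) = L (M h))
    (hp : ∀ h, 0 ≤ ⟪h, M h⟫) (h : V) : ∃ a : ℝ, 0 ≤ a ∧ M h = a • h := by
  have h1 := he (Submodule.span ℝ {h}).reflection h
  rw [Submodule.reflection_mem_subspace_eq_self (Submodule.mem_span_singleton_self h), eq_comm,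
    Submodule.reflection_eq_self_iff, Submodule.mem_span_singleton] at h1
  obtain ⟨a, ha⟩ := h1
  by_cases h0 : h = 0
  · exact ⟨0, le_rfl, by rw [← ha, h0]; simp⟩
  · refine ⟨a, ?_, ha.symm⟩
    have := hp h
    rw [← ha, real_inner_smul_right, real_inner_self_eq_norm_sq] at this
    exact nonneg_of_mul_nonneg_left this (by positivity)

omit [FiniteDimensional ℝ V] [MeasurableSpace V] [BorelSpace V] in
theorem c1_inner_dir {b y z : V} {a c : ℝ} (ha : 0 ≤ a) (hc : 0 ≤ c) (hy : y = a • b)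
    (hz : z = c • b) : ⟪y, z⟫ = ‖y‖ * ‖z‖ := by
  rw [hy, hz, real_inner_smul_left, real_inner_smul_right, real_inner_self_eq_norm_sq, norm_smul,
    norm_smul, Real.norm_of_nonneg ha, Real.norm_of_nonneg hc]
  ring

end Generic

section Radial

variable {V : Type} [NormedAddCommGroup V] [InnerProductSpace ℝ V]

/-- radially increasing -/
def Inc (F : V → ℝ) : Prop := ∀ h h', ‖h‖ ≤ ‖h'‖ → F h ≤ F h'

/-- radial -/
def Rad (F : V → ℝ) : Prop := ∀ h h', ‖h‖ = ‖h'‖ → F h = F h'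

omit [InnerProductSpace ℝ V] in
theorem Inc.rad {F : V → ℝ} (h : Inc F) : Rad F :=
  fun a b e => le_antisymm (h a b e.le) (h b a e.ge)

theorem c1_scale {h h' : V} (hh : ‖h‖ ≤ ‖h'‖) : ∃ τ : ℝ, 0 ≤ τ ∧ τ ≤ 1 ∧ ‖h‖ = ‖τ • h'‖ := by
  by_cases h0 : ‖h'‖ = 0
  · exact ⟨0, le_rfl, zero_le_one, by simpa using le_antisymm (h0 ▸ hh) (norm_nonneg h)⟩
  · have hp : 0 < ‖h'‖ := lt_of_le_of_ne (norm_nonneg _) (Ne.symm h0)
    refine ⟨‖h‖ / ‖h'‖, by positivity, (div_le_one hp).2 hh, ?_⟩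
    rw [norm_smul, Real.norm_of_nonneg (by positivity), div_mul_cancel₀ _ h0]

theorem c1_inc_of_deriv {F : V → ℝ} (hF : Rad F) {D : V → ℝ → ℝ}
    (hd : ∀ e t, HasDerivAt (fun t : ℝ => F (t • e)) (D e t) t)
    (hp : ∀ e t, 0 < t → 0 ≤ D e t) : Inc F := by
  intro h h' hh
  obtain ⟨τ, h0, h1, e⟩ := c1_scale hh
  have hm : MonotoneOn (fun t : ℝ => F (t • h')) (Set.Ici 0) := by
    refine monotoneOn_of_deriv_nonneg (convex_Ici 0)
      (fun t _ => (hd h' t).continuousAt.continuousWithinAt)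
      (fun t _ => (hd h' t).differentiableAt.differentiableWithinAt) fun t ht => ?_
    rw [interior_Ici] at ht
    rw [(hd h' t).deriv]
    exact hp h' t ht
  have := hm h0 (Set.mem_Ici.2 zero_le_one) h1
  simp only [one_smul] at this
  rw [hF h _ e]
  exact this

end Radial

/-- monotone likelihood ratio -/
theorem c1_mlr {α : Type*} [MeasurableSpace α] {μ : Measure α} {f1 f2 G : α → ℝ}
    (h1 : Integrable f1 μ) (h2 : Integrable f2 μ) (g1 : Integrable (fun a => f1 a * G a) μ)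
    (g2 : Integrable (fun a => f2 a * G a) μ)
    (h : ∀ a b, 0 ≤ (G a - G b) * (f2 a * f1 b - f1 a * f2 b)) :
    (∫ a, f1 a * G a ∂μ) * ∫ a, f2 a ∂μ ≤ (∫ a, f2 a * G a ∂μ) * ∫ a, f1 a ∂μ := by
  have lin : ∀ c1 c2 c3 c4 : ℝ, ∫ a, c1 * (f2 a * G a) - c2 * (f1 a * G a) - c3 * f2 a + c4 * f1 a ∂μ
      = c1 * (∫ a, f2 a * G a ∂μ) - c2 * (∫ a, f1 a * G a ∂μ) - c3 * (∫ a, f2 a ∂μ) +
        c4 * ∫ a, f1 a ∂μ := by
    intro c1 c2 c3 c4
    have i1 : Integrable (fun a => c1 * (f2 a * G a) - c2 * (f1 a * G a)) μ :=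
      (g2.const_mul _).sub (g1.const_mul _)
    have i2 : Integrable (fun a => c1 * (f2 a * G a) - c2 * (f1 a * G a) - c3 * f2 a) μ :=
      i1.sub (h2.const_mul _)
    rw [integral_add i2 (h1.const_mul _), integral_sub i1 (h2.const_mul _),
      integral_sub (g2.const_mul _) (g1.const_mul _), integral_const_mul, integral_const_mul,
      integral_const_mul, integral_const_mul]
  set A1 := ∫ a, f1 a * G a ∂μ
  set A2 := ∫ a, f2 a * G a ∂μ
  set Z1 := ∫ a, f1 a ∂μ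
  set Z2 := ∫ a, f2 a ∂μ
  have k1 : ∀ b, 0 ≤ Z1 * (f2 b * G b) - Z2 * (f1 b * G b) - A1 * f2 b + A2 * f1 b := by
    intro b
    have e := lin (f1 b) (f2 b) (f1 b * G b) (f2 b * G b)
    have : 0 ≤ ∫ a, f1 b * (f2 a * G a) - f2 b * (f1 a * G a) - f1 b * G b * f2 a +
      f2 b * G b * f1 a ∂μ := integral_nonneg fun a => (h a b).trans_eq (by ring)
    linarith
  have k2 : 0 ≤ ∫ b, Z1 * (f2 b * G b) - Z2 * (f1 b * G b) - A1 * f2 b + A2 * f1 b ∂μ :=
    integral_nonneg k1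
  rw [lin] at k2
  linarith

/-- the exponential form of the likelihood ratio condition -/
theorem c1_mlr_exp {a1 a2 b1 b2 ga gb : ℝ} (h : ga ≤ gb ∧ a2 - a1 ≤ b2 - b1 ∨
    gb ≤ ga ∧ b2 - b1 ≤ a2 - a1) : 0 ≤ (ga - gb) * (exp a2 * exp b1 - exp a1 * exp b2) := by
  rw [← exp_add, ← exp_add]
  rcases h with h | h
  · exact mul_nonneg_of_nonpos_of_nonpos (by linarith [h.1])
      (sub_nonpos.2 (exp_le_exp.2 (by linarith [h.2])))
  · exact mul_nonneg (by linarith [h.1]) (sub_nonneg.2 (exp_le_exp.2 (by linarith [h.2])))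

end Vale.Agent.P157.C1
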