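import Vale.Agent.P157.Conc1A

namespace Vale.Agent.P157.C1

open MeasureTheory ProbabilityTheory Real Finset Filter Topology
open scoped ENNReal RealInnerProductSpace

variable {ι Cf : Type} [Fintype ι] [MeasurableSpace Cf] {ν : Measure Cf} {x : Cf → ι → ℝ}

/-- the spin as a vector -/
def uu (x : Cf → ι → ℝ) (σ : Cf) : EuclideanSpace ℝ ι := WithLp.toLp 2 (x σ)

/-- the magnetisation as a vector -/
noncomputable def M0 (ν : Measure Cf) (x : Cf → ι → ℝ) (h : EuclideanSpace ℝ ι) :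
    EuclideanSpace ℝ ι := WithLp.toLp 2 fun i => Mg ν x i h

theorem c1_inner (e : EuclideanSpace ℝ ι) (y : ι → ℝ) :
    ⟪e, WithLp.toLp 2 y⟫ = ∑ i, e i * y i := by
  simp [PiLp.inner_apply, mul_comm]

omit [MeasurableSpace Cf] in
theorem c1_inner_uu (e : EuclideanSpace ℝ ι) (σ : Cf) : ∑ i, e i * x σ i = ⟪e, uu x σ⟫ :=
  (c1_inner e _).symm

theorem measurable_uu (hx : Spin ν x) : Measurable (uu x) :=
  (PiLp.continuous_toLp 2 _).measurable.comp hx.meas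

theorem norm_uu (hx : Spin ν x) (σ : Cf) : ‖uu x σ‖ = √(Fintype.card ι) := by
  rw [EuclideanSpace.norm_eq, ← hx.norm σ]
  simp [uu]

theorem abs_inner_uu (hx : Spin ν x) (e : EuclideanSpace ℝ ι) (σ : Cf) :
    |⟪e, uu x σ⟫| ≤ ‖e‖ * √(Fintype.card ι) := by
  rw [← norm_uu hx σ]; exact abs_real_inner_le_norm _ _

theorem meas_inner_uu (hx : Spin ν x) (e : EuclideanSpace ℝ ι) :
    Measurable fun σ => ⟪e, uu x σ⟫ :=
  (continuous_const.inner continuous_id).measurable.comp (measurable_uu hx)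

theorem int_exp_uu (hx : Spin ν x) (h : EuclideanSpace ℝ ι) :
    Integrable (fun σ => exp ⟪h, uu x σ⟫) ν := by
  have := hx.prob
  refine Integrable.of_bound (meas_inner_uu hx h).exp.aestronglyMeasurable
    (exp (‖h‖ * √(Fintype.card ι))) (ae_of_all _ fun σ => ?_)
  rw [Real.norm_of_nonneg (exp_pos _).le]
  exact exp_le_exp.2 ((le_abs_self _).trans (abs_inner_uu hx h σ))

theorem int_exp_mul_uu (hx : Spin ν x) (h e : EuclideanSpace ℝ ι) :
    Integrable (fun σ => exp ⟪h, uu x σ⟫ * ⟪e, uu x σ⟫) ν :=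
  (int_exp_uu hx h).mul_bdd (meas_inner_uu hx e).aestronglyMeasurable
    (ae_of_all _ fun σ => abs_inner_uu hx e σ)

theorem Φs_eq (h : EuclideanSpace ℝ ι) : Φs ν x h = log (∫ σ, exp ⟪h, uu x σ⟫ ∂ν) := by
  simp only [Φs, c1_inner_uu]

theorem lam_pos (hx : Spin ν x) (h : EuclideanSpace ℝ ι) : 0 < ∫ σ, exp ⟪h, uu x σ⟫ ∂ν := by
  have := hx.prob
  exact integral_exp_pos (int_exp_uu hx h)

theorem exp_Φs (hx : Spin ν x) (h : EuclideanSpace ℝ ι) :
    exp (Φs ν x h) = ∫ σ, exp ⟪h, uu x σ⟫ ∂ν := by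
  rw [Φs_eq, exp_log (lam_pos hx h)]

theorem inner_M0 (hx : Spin ν x) (e h : EuclideanSpace ℝ ι) :
    exp (Φs ν x h) * ⟪e, M0 ν x h⟫ = ∫ σ, exp ⟪h, uu x σ⟫ * ⟪e, uu x σ⟫ ∂ν := by
  classical
  have hi : ∀ i, Integrable (fun σ => e i * (x σ i * exp ⟪h, uu x σ⟫)) ν := by
    intro i
    refine ((int_exp_mul_uu hx h (EuclideanSpace.single i 1)).const_mul (e i)).congr
      (ae_of_all _ fun σ => ?_)
    simp [uu, EuclideanSpace.inner_single_left, mul_comm]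
  rw [M0, c1_inner, exp_Φs hx]
  simp only [Mg, c1_inner_uu]
  rw [mul_sum]
  have e1 : ∀ σ, exp ⟪h, uu x σ⟫ * ⟪e, uu x σ⟫ = ∑ i, e i * (x σ i * exp ⟪h, uu x σ⟫) := by
    intro σ
    rw [← c1_inner_uu e, mul_sum]
    exact sum_congr rfl fun i _ => by ring
  simp only [e1]
  rw [integral_finsetSum _ fun i _ => hi i]
  refine sum_congr rfl fun i _ => ?_
  rw [integral_const_mul]
  have := (lam_pos hx h).ne'
  field_simp

theorem rot_uu (hx : Spin ν x) (hr : RotInv ν x) (L : EuclideanSpace ℝ ι ≃ₗᵢ[ℝ] EuclideanSpace ℝ ι)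
    {F : EuclideanSpace ℝ ι → ℝ} (hF : Measurable F) :
    ∫ σ, F (L (uu x σ)) ∂ν = ∫ σ, F (uu x σ) ∂ν := by
  have h1 := integral_map (μ := ν) (φ := fun σ => L (uu x σ))
    (L.continuous.measurable.comp (measurable_uu hx)).aemeasurable hF.aestronglyMeasurable
  have h2 := integral_map (μ := ν) (φ := uu x) (measurable_uu hx).aemeasurable
    hF.aestronglyMeasurable
  rw [← h1, ← h2]
  exact congrArg (fun μ => ∫ y, F y ∂μ) (hr L)

theorem Φs_rot (hx : Spin ν x) (hr : RotInv ν x)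
    (L : EuclideanSpace ℝ ι ≃ₗᵢ[ℝ] EuclideanSpace ℝ ι) (h : EuclideanSpace ℝ ι) :
    Φs ν x (L h) = Φs ν x h := by
  rw [Φs_eq, Φs_eq, ← rot_uu hx hr L (F := fun y => exp ⟪L h, y⟫) (by fun_prop)]
  simp only [L.inner_map_map]

theorem M0_rot (hx : Spin ν x) (hr : RotInv ν x)
    (L : EuclideanSpace ℝ ι ≃ₗᵢ[ℝ] EuclideanSpace ℝ ι) (h : EuclideanSpace ℝ ι) :
    M0 ν x (L h) = L (M0 ν x h) := by
  refine ext_inner_left ℝ fun e => ?_
  obtain ⟨e, rfl⟩ := L.surjective e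
  refine mul_left_cancel₀ (exp_pos (Φs ν x h)).ne' ?_
  rw [L.inner_map_map, inner_M0 hx, ← Φs_rot hx hr L h, inner_M0 hx,
    ← rot_uu hx hr L (F := fun y => exp ⟪L h, y⟫ * ⟪L e, y⟫) (by fun_prop)]
  simp only [L.inner_map_map]

theorem c1_rad_of_rot {F : EuclideanSpace ℝ ι → ℝ}
    (hF : ∀ (L : EuclideanSpace ℝ ι ≃ₗᵢ[ℝ] EuclideanSpace ℝ ι) h, F (L h) = F h) : Rad F := by
  intro h h' e
  obtain ⟨L, rfl⟩ := c1_exists_iso e
  exact (hF L h).symm

theorem measurable_M0 (hx : Spin ν x) : Measurable (M0 ν x) :=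
  (PiLp.continuous_toLp 2 _).measurable.comp (measurable_pi_lambda _ fun i => measurable_Mg hx i)

theorem abs_inner_M0 (hx : Spin ν x) (e h : EuclideanSpace ℝ ι) :
    |⟪e, M0 ν x h⟫| ≤ ‖e‖ * √(Fintype.card ι) := by
  have hp := exp_pos (Φs ν x h)
  refine le_of_mul_le_mul_left ?_ hp
  rw [← abs_of_pos hp, ← abs_mul, inner_M0 hx, abs_of_pos hp, exp_Φs hx, ← integral_mul_const]
  refine (abs_integral_le_integral_abs).trans (integral_mono (int_exp_mul_uu hx h e).abs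
    ((int_exp_uu hx h).mul_const _) fun σ => ?_)
  simp only
  rw [abs_mul, abs_of_pos (exp_pos _)]
  exact mul_le_mul_of_nonneg_left (abs_inner_uu hx e σ) (exp_pos _).le

theorem norm_M0_le (hx : Spin ν x) (h : EuclideanSpace ℝ ι) :
    ‖M0 ν x h‖ ≤ √(Fintype.card ι) := by
  have h1 := abs_inner_M0 hx (M0 ν x h) h
  rw [real_inner_self_eq_norm_sq, abs_of_nonneg (sq_nonneg _), pow_two] at h1
  by_cases h0 : ‖M0 ν x h‖ = 0
  · rw [h0]; positivity
  · exact le_of_mul_le_mul_left h1 (lt_of_le_of_ne (norm_nonneg _) (Ne.symm h0))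

theorem hasDeriv_Φs (hx : Spin ν x) (h e : EuclideanSpace ℝ ι) (t : ℝ) :
    HasDerivAt (fun t : ℝ => Φs ν x (h + t • e)) ⟪e, M0 ν x (h + t • e)⟫ t := by
  have := hx.prob
  have h1 : HasDerivAt (fun t : ℝ => ∫ σ, exp ⟪h + t • e, uu x σ⟫ ∂ν)
      (∫ σ, exp ⟪h + t • e, uu x σ⟫ * ⟪e, uu x σ⟫ ∂ν) t := by
    refine (hasDerivAt_integral_of_dominated_loc_of_deriv_le (μ := ν)
      (F := fun t σ => exp ⟪h + t • e, uu x σ⟫)
      (F' := fun t σ => exp ⟪h + t • e, uu x σ⟫ * ⟪e, uu x σ⟫)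
      (bound := fun _ => exp ((‖h‖ + (|t| + 1) * ‖e‖) * √(Fintype.card ι)) *
        (‖e‖ * √(Fintype.card ι))) (Metric.ball_mem_nhds t one_pos)
      (Eventually.of_forall fun s => (int_exp_uu hx _).aestronglyMeasurable) (int_exp_uu hx _)
      (int_exp_mul_uu hx _ e).aestronglyMeasurable (ae_of_all _ fun σ s hs => ?_)
      (integrable_const _) (ae_of_all _ fun σ s _ => ?_)).2
    · rw [Real.norm_eq_abs, abs_mul, abs_of_pos (exp_pos _)]
      refine mul_le_mul (exp_le_exp.2 ((le_abs_self _).trans ((abs_inner_uu hx _ σ).trans ?_)))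
        (abs_inner_uu hx e σ) (abs_nonneg _) (exp_pos _).le
      refine mul_le_mul_of_nonneg_right ((norm_add_le _ _).trans ?_) (sqrt_nonneg _)
      rw [norm_smul, Real.norm_eq_abs]
      have : |s| ≤ |t| + 1 := by
        have h2 : |s - t| < 1 := hs
        linarith [abs_sub_abs_le_abs_sub s t]
      gcongr
    · simp only [inner_add_left, real_inner_smul_left]
      have := (((hasDerivAt_id s).mul_const ⟪e, uu x σ⟫).const_add ⟪h, uu x σ⟫).exp
      simpa using this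
  have h2 := h1.log (lam_pos hx _).ne'
  simp only [← Φs_eq] at h2
  refine h2.congr_deriv ?_
  rw [← inner_M0 hx, ← exp_Φs hx]
  field_simp

theorem mono_M0 (hx : Spin ν x) (e : EuclideanSpace ℝ ι) {s t : ℝ} (hst : s ≤ t) :
    ⟪e, M0 ν x (s • e)⟫ ≤ ⟪e, M0 ν x (t • e)⟫ := by
  have h := c1_mlr (G := fun σ => ⟪e, uu x σ⟫) (int_exp_uu hx (s • e)) (int_exp_uu hx (t • e))
    (int_exp_mul_uu hx _ e) (int_exp_mul_uu hx _ e) fun a b => c1_mlr_exp (by
      simp only [real_inner_smul_left]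
      rcases le_total ⟪e, uu x a⟫ ⟪e, uu x b⟫ with h | h
      · exact Or.inl ⟨h, by nlinarith⟩
      · exact Or.inr ⟨h, by nlinarith⟩)
  rw [← inner_M0 hx, ← inner_M0 hx, ← exp_Φs hx, ← exp_Φs hx] at h
  have hp := mul_pos (exp_pos (Φs ν x (s • e))) (exp_pos (Φs ν x (t • e)))
  refine le_of_mul_le_mul_left ?_ hp
  linarith

theorem c1_zero {M : EuclideanSpace ℝ ι → EuclideanSpace ℝ ι}
    (he : ∀ (L : EuclideanSpace ℝ ι ≃ₗᵢ[ℝ] EuclideanSpace ℝ ι) h, M (L h) = L (M h)) : M 0 = 0 := by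
  have := he (LinearIsometryEquiv.neg ℝ) 0
  simp only [LinearIsometryEquiv.coe_neg, neg_zero] at this
  have h2 : (2 : ℝ) • M 0 = 0 := by rw [two_smul]; exact eq_neg_iff_add_eq_zero.1 this
  exact (smul_eq_zero.1 h2).resolve_left two_ne_zero

theorem dir_M0 (hx : Spin ν x) (hr : RotInv ν x) (h : EuclideanSpace ℝ ι) :
    ∃ a : ℝ, 0 ≤ a ∧ M0 ν x h = a • h := by
  refine c1_dir (M0_rot hx hr) (fun h => ?_) h
  have := mono_M0 hx h zero_le_one
  rwa [zero_smul, one_smul, c1_zero (M0_rot hx hr), inner_zero_right] at this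

theorem c1_inner_scale {M : EuclideanSpace ℝ ι → EuclideanSpace ℝ ι}
    (hd : ∀ h, ∃ a : ℝ, 0 ≤ a ∧ M h = a • h) {t : ℝ} (ht : 0 ≤ t) (e : EuclideanSpace ℝ ι) :
    ⟪e, M (t • e)⟫ = ‖e‖ * ‖M (t • e)‖ := by
  obtain ⟨a, ha, h⟩ := hd (t • e)
  exact c1_inner_dir zero_le_one (mul_nonneg ha ht) (one_smul ℝ e).symm (by rw [h, smul_smul])

theorem inc_M0 (hx : Spin ν x) (hr : RotInv ν x) : Inc fun h => ‖M0 ν x h‖ := by
  have hrad : Rad fun h => ‖M0 ν x h‖ :=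
    c1_rad_of_rot fun L h => by simp only [M0_rot hx hr, L.norm_map]
  intro h h' hh
  obtain ⟨τ, h0, h1, e⟩ := c1_scale hh
  have h2 := mono_M0 hx h' h1
  rw [c1_inner_scale (dir_M0 hx hr) h0, c1_inner_scale (dir_M0 hx hr) zero_le_one, one_smul] at h2
  by_cases h3 : ‖h'‖ = 0
  · exact (hrad h h' (le_antisymm hh (h3 ▸ norm_nonneg h))).le
  · rw [hrad h _ e]
    exact le_of_mul_le_mul_left h2 (lt_of_le_of_ne (norm_nonneg _) (Ne.symm h3))

/-- total positivity of the folded kernel -/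
theorem tp2_Φs (hx : Spin ν x) (hr : RotInv ν x) {c1 c2 : ℝ} (h1 : 0 ≤ c1) (h2 : c1 ≤ c2) :
    Inc fun b => Φs ν x (c2 • b) - Φs ν x (c1 • b) := by
  have hd : ∀ (c : ℝ) (e : EuclideanSpace ℝ ι) (t : ℝ), HasDerivAt
      (fun t : ℝ => Φs ν x (c • t • e)) ⟪c • e, M0 ν x (t • c • e)⟫ t := by
    intro c e t
    have := hasDeriv_Φs hx 0 (c • e) t
    simpa only [zero_add, smul_comm c] using this
  refine c1_inc_of_deriv (c1_rad_of_rot fun L h => ?_) (fun e t => (hd c2 e t).sub (hd c1 e t))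
    fun e t ht => ?_
  · simp only [← L.map_smul, Φs_rot hx hr]
  · rw [c1_inner_scale (dir_M0 hx hr) ht.le, c1_inner_scale (dir_M0 hx hr) ht.le, sub_nonneg]
    have h3 : ‖c1 • e‖ ≤ ‖c2 • e‖ := by
      rw [norm_smul, norm_smul, Real.norm_of_nonneg h1, Real.norm_of_nonneg (h1.trans h2)]
      gcongr
    refine mul_le_mul h3 (inc_M0 hx hr _ _ ?_) (norm_nonneg _) (norm_nonneg _)
    rw [norm_smul t, norm_smul t]
    gcongr

end Vale.Agent.P157.C1
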