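import Vale.Agent.P157.Conc1B

namespace Vale.Agent.P157.C1

open MeasureTheory ProbabilityTheory Real Finset Filter Topology
open scoped ENNReal RealInnerProductSpace

variable {ι Cf : Type} [Fintype ι] [MeasurableSpace Cf] {ν : Measure Cf} {x : Cf → ι → ℝ}
  {ζ ζ' v : ℕ → ℝ} {Φ Φ' g : EuclideanSpace ℝ ι → ℝ} {j : ℕ}

theorem step_zero (hζ : ∀ j, 0 < ζ j) (hΦ : (FS ι ζ v).Lin Φ) (hs : √(v j) = 0)
    (hg : Measurable g) (h : EuclideanSpace ℝ ι) : ∫ b, g b ∂(FS ι ζ v).stepM j Φ h = g h := by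
  have hY := fs_ok ι hζ v
  have hp := Sys.stepM_prob hY hΦ j h
  have h1 := Sys.integral_stepM hY hΦ j h (g := fun _ => 1) measurable_const
  rw [Sys.integral_stepM hY hΦ j h hg]
  have e : ∀ w, (FS ι ζ v).a j h w = h := fun w => by simp [FS, hs]
  simp only [e, mul_one] at h1 ⊢
  rw [integral_mul_const, ← h1]
  simp

theorem step_shift (hζ : ∀ j, 0 < ζ j) (hΦ : (FS ι ζ v).Lin Φ) (hs : 0 < √(v j))
    (hg : Measurable g) (h : EuclideanSpace ℝ ι) : ∫ b, g b ∂(FS ι ζ v).stepM j Φ h =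
      exp (-ζ j * (FS ι ζ v).T j Φ h - ‖(√(v j))⁻¹ • h‖ ^ 2 / 2) *
        ∫ w, exp ⟪(√(v j))⁻¹ • h, w⟫ * (exp (ζ j * Φ (√(v j) • w)) * g (√(v j) • w))
          ∂stdGaussian (EuclideanSpace ℝ ι) := by
  have hY := fs_ok ι hζ v
  rw [Sys.integral_stepM' hY hΦ j h hg]
  have e : ∀ w, (FS ι ζ v).a j h w = √(v j) • (w + (√(v j))⁻¹ • h) := fun w => by
    simp only [FS, smul_add, smul_smul, mul_inv_cancel₀ hs.ne', one_smul, add_comm]
  simp only [e]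
  have := c1_shift ((√(v j))⁻¹ • h) fun w => exp (ζ j * Φ (√(v j) • w)) * g (√(v j) • w)
  change exp (-ζ j * _) * ∫ w, exp (ζ j * Φ (√(v j) • (w + (√(v j))⁻¹ • h))) *
    g (√(v j) • (w + (√(v j))⁻¹ • h)) ∂stdGaussian _ = _
  rw [this, sub_eq_add_neg (-ζ j * _), exp_add, mul_assoc, ← integral_const_mul (exp (-_))]
  congr 1
  refine integral_congr_ae (ae_of_all _ fun w => ?_)
  simp only
  rw [sub_eq_add_neg, exp_add]
  ring

theorem int_step0 (hζ : ∀ j, 0 < ζ j) (hg : (FS ι ζ v).Ex g) (j : ℕ) :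
    Integrable (fun w => g (√(v j) • w)) (stdGaussian (EuclideanSpace ℝ ι)) := by
  have := hg.integrable_step (fs_ok ι hζ v) j 0
  simpa only [FS, zero_add] using this

theorem lin_norm (c : ℝ) : (FS ι ζ v).Lin fun b => c * ‖b‖ := by
  refine ⟨measurable_norm.const_mul c, |c|, fun b => ?_⟩
  rw [abs_mul, abs_norm]
  exact mul_le_mul_of_nonneg_left (le_add_of_nonneg_left zero_le_one) (abs_nonneg c)

theorem lin_Φs_smul (hx : Spin ν x) (c : ℝ) : (FS ι ζ v).Lin fun b => Φs ν x (c • b) := by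
  refine ⟨(lin_Φs hx ζ v).1.comp (measurable_const_smul c), √(Fintype.card ι) * |c|, fun b => ?_⟩
  refine (abs_Φs_le hx _).trans ?_
  rw [norm_smul, Real.norm_eq_abs, mul_assoc]
  have : ‖b‖ ≤ 1 + (FS ι ζ v).ν b := le_add_of_nonneg_left zero_le_one
  gcongr

variable [Nonempty ι]

/-- the scale of the folded kernel -/
noncomputable def kap (v : ℕ → ℝ) (j : ℕ) (h : EuclideanSpace ℝ ι) : ℝ :=
  ‖h‖ / (√(v j) ^ 2 * √(Fintype.card ι))

theorem sqrt_card_pos : 0 < √(Fintype.card ι : ℝ) :=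
  sqrt_pos.2 (Nat.cast_pos.2 Fintype.card_pos)

theorem step_fold (hx : Spin ν x) (hζ : ∀ j, 0 < ζ j) (hΦ : (FS ι ζ v).Lin Φ) (hR : Rad Φ)
    (hs : 0 < √(v j)) (h : EuclideanSpace ℝ ι)
    {G : EuclideanSpace ℝ ι → EuclideanSpace ℝ ι → ℝ}
    (hG : Measurable fun p : EuclideanSpace ℝ ι × EuclideanSpace ℝ ι => G p.1 p.2)
    (hinv : ∀ (L : EuclideanSpace ℝ ι ≃ₗᵢ[ℝ] EuclideanSpace ℝ ι) a b, G (L a) (L b) = G a b)
    (hg : (FS ι ζ v).Ex g) (hb : ∀ a b, ‖a‖ = ‖h‖ → |G a b| ≤ g b) :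
    ∫ b, G h b ∂(FS ι ζ v).stepM j Φ h =
      exp (-ζ j * (FS ι ζ v).T j Φ h - ‖(√(v j))⁻¹ • h‖ ^ 2 / 2) *
        ∫ w, exp (ζ j * Φ (√(v j) • w)) * ∫ σ, exp ⟪kap v j h • √(v j) • w, uu x σ⟫ *
          G ((‖h‖ / √(Fintype.card ι)) • uu x σ) (√(v j) • w) ∂ν
          ∂stdGaussian (EuclideanSpace ℝ ι) := by
  have := hx.prob
  have hY := fs_ok ι hζ v
  have hd := sqrt_card_pos (ι := ι)
  rw [step_shift hζ hΦ hs (g := fun b => G h b) (hG.comp measurable_prodMk_left) h]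
  congr 1
  set s := √(v j) with hsd
  have hn : ∀ σ, ‖(‖h‖ / √(Fintype.card ι)) • uu x σ‖ = ‖h‖ := fun σ => by
    rw [norm_smul, norm_uu hx, Real.norm_of_nonneg (by positivity), div_mul_cancel₀ _ hd.ne']
  have hE : (FS ι ζ v).Ex fun b => exp (‖h‖ / s ^ 2 * ‖b‖) * (exp (ζ j * Φ b) * g b) :=
    ((lin_norm _).ex_exp hY).mul hY (((hΦ.const_mul _).ex_exp hY).mul hY hg)
  have hm := hΦ.1
  have key := c1_fold (ν := ν) (u := fun σ => (‖h‖ / √(Fintype.card ι)) • uu x σ)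
    ((measurable_const_smul _).comp (measurable_uu hx))
    (K := fun a w => exp ⟪s⁻¹ • a, w⟫ * (exp (ζ j * Φ (s • w)) * G a (s • w)))
    (Measurable.mul (by fun_prop) (Measurable.mul (by fun_prop)
      (hG.comp (measurable_fst.prodMk ((measurable_const_smul s).comp measurable_snd)))))
    (fun L a w => by
      simp only [← L.map_smul, L.inner_map_map, hinv, hR (L (s • w)) (s • w) (L.norm_map _)])
    (a := h) hn (int_step0 hζ hE j) fun σ w => by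
      rw [abs_mul, abs_mul, abs_of_pos (exp_pos _), abs_of_pos (exp_pos _)]
      refine mul_le_mul (exp_le_exp.2 ((real_inner_le_norm _ _).trans_eq ?_))
        (mul_le_mul_of_nonneg_left (hb _ _ (hn σ)) (exp_pos _).le) (by positivity) (exp_pos _).le
      rw [norm_smul, hn, norm_smul, Real.norm_of_nonneg hs.le, Real.norm_of_nonneg (by positivity)]
      field_simp
  rw [key]
  refine integral_congr_ae (ae_of_all _ fun w => ?_)
  simp only
  rw [← integral_const_mul]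
  refine integral_congr_ae (ae_of_all _ fun σ => ?_)
  have e : ⟪s⁻¹ • (‖h‖ / √(Fintype.card ι)) • uu x σ, w⟫ = ⟪kap v j h • s • w, uu x σ⟫ := by
    simp only [real_inner_smul_left, kap, ← hsd]
    rw [real_inner_comm w]
    field_simp
  simp only [e]
  ring

theorem step_rad (hx : Spin ν x) (hζ : ∀ j, 0 < ζ j) (hΦ : (FS ι ζ v).Lin Φ) (hR : Rad Φ)
    (hs : 0 < √(v j)) (h : EuclideanSpace ℝ ι) (hg : (FS ι ζ v).Ex g) (hgR : Rad g) :
    ∫ b, g b ∂(FS ι ζ v).stepM j Φ h =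
      exp (-ζ j * (FS ι ζ v).T j Φ h - ‖(√(v j))⁻¹ • h‖ ^ 2 / 2) *
        ∫ w, exp (ζ j * Φ (√(v j) • w) + Φs ν x (kap v j h • √(v j) • w)) * g (√(v j) • w)
          ∂stdGaussian (EuclideanSpace ℝ ι) := by
  rw [step_fold hx hζ hΦ hR hs h (G := fun _ b => g b) (hg.1.comp measurable_snd)
    (fun L _ b => hgR _ _ (L.norm_map b)) hg.abs fun _ _ _ => le_rfl]
  congr 1
  refine integral_congr_ae (ae_of_all _ fun w => ?_)
  simp only
  rw [integral_mul_const, ← exp_Φs hx, exp_add, mul_assoc]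

theorem step_vec (hx : Spin ν x) (hr : RotInv ν x) (hζ : ∀ j, 0 < ζ j) (hΦ : (FS ι ζ v).Lin Φ)
    (hR : Rad Φ) (hs : 0 < √(v j)) (h : EuclideanSpace ℝ ι)
    {M : EuclideanSpace ℝ ι → EuclideanSpace ℝ ι} (hM : Measurable M) {C : ℝ}
    (hC : ∀ b, ‖M b‖ ≤ C)
    (he : ∀ (L : EuclideanSpace ℝ ι ≃ₗᵢ[ℝ] EuclideanSpace ℝ ι) h, M (L h) = L (M h)) :
    ∫ b, ⟪h, M b⟫ ∂(FS ι ζ v).stepM j Φ h = ‖h‖ / √(Fintype.card ι) *
      ∫ b, ⟪M b, M0 ν x (kap v j h • b)⟫ ∂(FS ι ζ v).stepM j Φ h := by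
  have hY := fs_ok ι hζ v
  have hm0 := measurable_M0 hx
  have hE : (FS ι ζ v).Ex fun b => ⟪M b, M0 ν x (kap v j h • b)⟫ :=
    Sys.Ex.of_bdd hY (hM.inner (hm0.comp (measurable_const_smul _))) (C * √(Fintype.card ι))
      fun b => (abs_inner_M0 hx _ _).trans (mul_le_mul_of_nonneg_right (hC b) (sqrt_nonneg _))
  rw [step_rad hx hζ hΦ hR hs h hE (c1_rad_of_rot fun L b => by
      simp only [← L.map_smul, he, M0_rot hx hr, L.inner_map_map]),
    step_fold hx hζ hΦ hR hs h (G := fun a b => ⟪a, M b⟫)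
      (measurable_fst.inner (hM.comp measurable_snd))
      (fun L a b => by simp only [he, L.inner_map_map]) (Sys.Ex.const hY (‖h‖ * C))
      fun a b e => (abs_real_inner_le_norm _ _).trans
        (mul_le_mul e.le (hC b) (norm_nonneg _) (norm_nonneg _)), mul_left_comm]
  congr 1
  rw [← integral_const_mul]
  refine integral_congr_ae (ae_of_all _ fun w => ?_)
  simp only
  rw [exp_add, mul_assoc (exp _), inner_M0 hx, mul_left_comm]
  congr 1
  rw [← integral_const_mul]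
  refine integral_congr_ae (ae_of_all _ fun σ => ?_)
  simp only [real_inner_smul_left, real_inner_comm (uu x σ) (M _)]
  ring

omit [Nonempty ι] in
theorem kap_nonneg (h : EuclideanSpace ℝ ι) : 0 ≤ kap v j h := by
  unfold kap; positivity

omit [Nonempty ι] in
theorem kap_mono {h h' : EuclideanSpace ℝ ι} (hh : ‖h‖ ≤ ‖h'‖) : kap v j h ≤ kap v j h' :=
  div_le_div_of_nonneg_right hh (by positivity)

/-- comparison of tilted steps -/
theorem step_cmp (hx : Spin ν x) (hr : RotInv ν x) (hζ : ∀ j, 0 < ζ j) (hζ' : ∀ j, 0 < ζ' j)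
    (hΦ : (FS ι ζ v).Lin Φ) (hΦ' : (FS ι ζ' v).Lin Φ') (hR : Rad Φ) (hR' : Rad Φ')
    (hI : Inc fun b => ζ' j * Φ' b - ζ j * Φ b) (hg : (FS ι ζ v).Ex g) (hgI : Inc g)
    {h h' : EuclideanSpace ℝ ι} (hh : ‖h‖ ≤ ‖h'‖) :
    ∫ b, g b ∂(FS ι ζ v).stepM j Φ h ≤ ∫ b, g b ∂(FS ι ζ' v).stepM j Φ' h' := by
  rcases (sqrt_nonneg (v j)).eq_or_lt with hs | hs
  · rw [step_zero hζ hΦ hs.symm hg.1, step_zero hζ' hΦ' hs.symm hg.1]
    exact hgI _ _ hh
  have hY := fs_ok ι hζ v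
  have hY' := fs_ok ι hζ' v
  have hg' : (FS ι ζ' v).Ex g := hg
  have p1 := Sys.stepM_prob hY hΦ j h
  have p2 := Sys.stepM_prob hY' hΦ' j h'
  have o1 := step_rad hx hζ hΦ hR hs h (Sys.Ex.const hY 1) fun _ _ _ => rfl
  have o2 := step_rad hx hζ' hΦ' hR' hs h' (Sys.Ex.const hY' 1) fun _ _ _ => rfl
  simp only [integral_const, probReal_univ, smul_eq_mul, mul_one] at o1 o2
  rw [step_rad hx hζ hΦ hR hs h hg hgI.rad, step_rad hx hζ' hΦ' hR' hs h' hg' hgI.rad]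
  have e1 : (FS ι ζ v).Ex fun b => exp (ζ j * Φ b + Φs ν x (kap v j h • b)) :=
    ((hΦ.const_mul _).add (lin_Φs_smul hx _)).ex_exp hY
  have e2 : (FS ι ζ' v).Ex fun b => exp (ζ' j * Φ' b + Φs ν x (kap v j h' • b)) :=
    ((hΦ'.const_mul _).add (lin_Φs_smul hx _)).ex_exp hY'
  have ht := tp2_Φs hx hr (kap_nonneg (v := v) (j := j) h) (kap_mono hh)
  have key := c1_mlr (G := fun w => g (√(v j) • w)) (int_step0 hζ e1 j) (int_step0 hζ' e2 j)
    (int_step0 hζ (e1.mul hY hg) j) (int_step0 hζ' (e2.mul hY' hg') j) fun a b => c1_mlr_exp (by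
      rcases le_total ‖√(v j) • a‖ ‖√(v j) • b‖ with k | k
      · exact Or.inl ⟨hgI _ _ k, by linarith [hI _ _ k, ht _ _ k]⟩
      · exact Or.inr ⟨hgI _ _ k, by linarith [hI _ _ k, ht _ _ k]⟩)
  have alg : ∀ N1 N2 A1 A2 Z1 Z2 : ℝ, 0 < N1 → 0 < N2 → 1 = N1 * Z1 → 1 = N2 * Z2 →
      A1 * Z2 ≤ A2 * Z1 → N1 * A1 ≤ N2 * A2 := by
    intro N1 N2 A1 A2 Z1 Z2 a1 a2 b1 b2 c
    calc N1 * A1 = N1 * A1 * (N2 * Z2) := by rw [← b2, mul_one]
      _ = N1 * N2 * (A1 * Z2) := by ring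
      _ ≤ N1 * N2 * (A2 * Z1) := mul_le_mul_of_nonneg_left c (mul_pos a1 a2).le
      _ = N2 * A2 * (N1 * Z1) := by ring
      _ = _ := by rw [← b1, mul_one]
  exact alg _ _ _ _ _ _ (exp_pos _) (exp_pos _) o1 o2 key

end Vale.Agent.P157.C1
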