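import Vale.Agent.P157.Conc1

namespace Vale.Agent.P157

open MeasureTheory ProbabilityTheory Real Finset Filter Topology
open scoped ENNReal RealInnerProductSpace

section FSsplit

variable {ι : Type} [Fintype ι] {ζ v Z V : ℕ → ℝ} {H g : EuclideanSpace ℝ ι → ℝ}

theorem c2_conv {a b : ℝ} (ha : 0 ≤ a) (hb : 0 ≤ b) :
    ((stdGaussian (EuclideanSpace ℝ ι)).map (√a • ·)) ∗
      ((stdGaussian (EuclideanSpace ℝ ι)).map (√b • ·)) =
      (stdGaussian (EuclideanSpace ℝ ι)).map (√(a + b) • ·) := by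
  apply Measure.ext_of_charFun
  ext t
  rw [charFun_conv, charFun_map_smul, charFun_map_smul, charFun_map_smul, charFun_stdGaussian,
    charFun_stdGaussian, charFun_stdGaussian, ← Complex.exp_add]
  congr 1
  simp only [norm_smul, Real.norm_eq_abs, ← Complex.ofReal_pow, mul_pow, sq_abs, sq_sqrt ha,
    sq_sqrt hb, sq_sqrt (add_nonneg ha hb)]
  push_cast
  ring

theorem c2_conv_int {a b : ℝ} (ha : 0 ≤ a) (hb : 0 ≤ b) {F : EuclideanSpace ℝ ι → ℝ}
    (hF : (FS ι ζ v).Ex F) (h : EuclideanSpace ℝ ι) :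
    ∫ w, ∫ w', F (h + √a • w + √b • w') ∂stdGaussian _ ∂stdGaussian _ =
      ∫ w, F (h + √(a + b) • w) ∂stdGaussian _ := by
  have hm : Measurable fun z => F (h + z) := hF.1.comp (measurable_const_add h)
  have hs : ∀ c : ℝ, Measurable fun w : EuclideanSpace ℝ ι => c • w := fun c => by fun_prop
  have hi : Integrable (fun z => F (h + z))
      ((stdGaussian (EuclideanSpace ℝ ι)).map (√(a + b) • ·)) :=
    (integrable_map_measure hm.aestronglyMeasurable (hs _).aemeasurable).2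
      (Sys.Ex.integrable_step (fs_ok ι (ζ := fun _ => 1) (fun _ => one_pos) fun _ => a + b)
        hF 0 h)
  rw [← integral_map (hs _).aemeasurable hm.aestronglyMeasurable, ← c2_conv ha hb]
  rw [← c2_conv ha hb] at hi
  have h1 : Measurable fun p : EuclideanSpace ℝ ι × EuclideanSpace ℝ ι => F (h + (p.1 + p.2)) :=
    hm.comp measurable_add
  rw [integral_conv hi, integral_map (hs _).aemeasurable
    h1.stronglyMeasurable.integral_prod_right'.aestronglyMeasurable]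
  congr 1
  funext w
  have h2 : Measurable fun y => F (h + (√a • w + y)) := hm.comp (measurable_const_add _)
  simp only
  rw [integral_map (hs _).aemeasurable h2.aestronglyMeasurable]
  simp only [add_assoc]

theorem c2_shift (n : ℕ) : ∀ j j', (∀ i < n, ζ (j + i) = Z (j' + i) ∧ v (j + i) = V (j' + i)) →
    (FS ι ζ v).X n j H = (FS ι Z V).X n j' H ∧ (FS ι ζ v).m n j H = (FS ι Z V).m n j' H := by
  induction n with
  | zero => exact fun _ _ _ => ⟨rfl, rfl⟩
  | succ n ih =>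
    intro j j' h
    obtain ⟨h1, h2⟩ := ih (j + 1) (j' + 1) fun i hi => by
      have := h (i + 1) (by omega)
      rwa [show j + (i + 1) = j + 1 + i by ring, show j' + (i + 1) = j' + 1 + i by ring] at this
    obtain ⟨h3, h4⟩ := h 0 (by omega)
    simp only [add_zero] at h3 h4
    have hT : ∀ Φ, (FS ι ζ v).T j Φ = (FS ι Z V).T j' Φ := fun Φ => by
      funext s; simp only [Sys.T, FS, h3, h4]
    have hS : ∀ Φ, (FS ι ζ v).stepM j Φ = (FS ι Z V).stepM j' Φ := fun Φ => by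
      funext s
      simp only [Sys.stepM, hT]
      simp only [FS, h3, h4]
    constructor
    · simp only [Sys.X, h1, hT]
    · funext s
      simp only [Sys.m, h1, h2, hS]

theorem c2_shiftP {n j j' : ℕ} (h : ∀ i < n, ζ (j + i) = Z (j' + i) ∧ v (j + i) = V (j' + i)) :
    (FS ι ζ v).P n j H g = (FS ι Z V).P n j' H g := by
  funext s
  simp only [Sys.P, (c2_shift n j j' h).2]

/-- the level `p` is split into two levels -/
structure Split (ζ v Z V : ℕ → ℝ) (p : ℕ) : Prop where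
  lt : ∀ i < p, ζ i = Z i ∧ v i = V i
  z1 : Z p = ζ p
  z2 : Z (p + 1) = ζ p
  a0 : 0 ≤ V p
  b0 : 0 ≤ V (p + 1)
  sum : v p = V p + V (p + 1)
  gt : ∀ i, p < i → ζ i = Z (i + 1) ∧ v i = V (i + 1)

theorem c2_two (hζ : ∀ j, 0 < ζ j) (hZ : ∀ j, 0 < Z j) {p : ℕ} (h : Split ζ v Z V p)
    (hH : (FS ι ζ v).Lin H) (hg : (FS ι ζ v).Ex g) :
    (FS ι ζ v).X 1 p H = (FS ι Z V).X 2 p H ∧ (FS ι ζ v).P 1 p H g = (FS ι Z V).P 2 p H g := by
  have hY := fs_ok ι hζ v
  have hY' := fs_ok ι hZ V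
  have hH' : (FS ι Z V).Lin H := hH
  have hg' : (FS ι Z V).Ex g := hg
  have e1 : (FS ι Z V).ζ p = ζ p := h.z1
  have e2 : (FS ι Z V).ζ (p + 1) = ζ p := h.z2
  have hT : (FS ι ζ v).T p H = (FS ι Z V).T p ((FS ι Z V).T (p + 1) H) := by
    funext s
    have h1 := fun s => Sys.exp_T hY' hH' (p + 1) s
    rw [e2] at h1
    rw [Sys.T, Sys.T, e1]
    simp only [h1]
    have := c2_conv_int h.a0 h.b0 ((hH.const_mul (ζ p)).ex_exp hY) s
    rw [← h.sum] at this
    exact congrArg (fun z => (ζ p)⁻¹ * log z) this.symm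
  refine ⟨hT, funext fun s => ?_⟩
  have h1 : ∀ (Y : Sys (EuclideanSpace ℝ ι) (EuclideanSpace ℝ ι)), Y.OK → Y.Lin H → Y.Ex g →
      ∀ j s, Y.P 1 j H g s = exp (-Y.ζ j * Y.T j H s) *
        ∫ w, exp (Y.ζ j * H (Y.a j s w)) * g (Y.a j s w) ∂Y.μ := by
    intro Y hY hH hg j s
    rw [Sys.P_succ hY hH hg 0 j s, Sys.P_zero hg.1]
    exact Sys.integral_stepM' hY hH j s hg.1
  rw [h1 _ hY hH hg, Sys.P_succ hY' hH' hg' 1 p s,
    Sys.integral_stepM' hY' (Sys.lin_X hY' hH' _ _) p s (Sys.ex_P hY' hH' hg' _ _).1, e1, hT]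
  congr 1
  have h2 := c2_conv_int h.a0 h.b0 (((hH.const_mul (ζ p)).ex_exp hY).mul hY hg) s
  rw [← h.sum] at h2
  refine h2.symm.trans ?_
  congr 1
  funext w
  rw [h1 _ hY' hH' hg', e2, ← mul_assoc, ← exp_add]
  have : ζ p * (FS ι Z V).X 1 (p + 1) H ((FS ι Z V).a p s w) +
      -ζ p * (FS ι Z V).T (p + 1) H ((FS ι Z V).a p s w) = 0 := by
    simp only [Sys.X]; ring
  rw [this, exp_zero, one_mul]
  rfl

theorem c2_split (hζ : ∀ j, 0 < ζ j) (hZ : ∀ j, 0 < Z j) {p : ℕ} (h : Split ζ v Z V p)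
    (hH : (FS ι ζ v).Lin H) (hg : (FS ι ζ v).Ex g) {n j : ℕ} (h1 : j ≤ p) (h2 : p < j + n) :
    (FS ι ζ v).X n j H = (FS ι Z V).X (n + 1) j H ∧
      (FS ι ζ v).P n j H g = (FS ι Z V).P (n + 1) j H g := by
  have hY := fs_ok ι hζ v
  have hY' := fs_ok ι hZ V
  have hH' : (FS ι Z V).Lin H := hH
  have hg' : (FS ι Z V).Ex g := hg
  obtain ⟨m, rfl⟩ := Nat.exists_eq_add_of_le h1
  obtain ⟨m', rfl⟩ : ∃ m', n = m + (1 + m') := ⟨n - m - 1, by omega⟩
  have s1 : ∀ i < m, ζ (j + i) = Z (j + i) ∧ v (j + i) = V (j + i) := fun i hi =>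
    h.lt _ (by omega)
  have s2 : ∀ i < m', ζ (j + m + 1 + i) = Z (j + m + 2 + i) ∧
      v (j + m + 1 + i) = V (j + m + 2 + i) := fun i _ => by
    have := h.gt (j + m + 1 + i) (by omega)
    rwa [show j + m + 1 + i + 1 = j + m + 2 + i by ring] at this
  obtain ⟨t1, t2⟩ := c2_two hζ hZ h (Sys.lin_X hY hH m' (j + m + 1))
    (Sys.ex_P hY hH hg m' (j + m + 1))
  have hX : (FS ι ζ v).X (1 + m') (j + m) H = (FS ι Z V).X (2 + m') (j + m) H := by
    rw [Sys.X_add, Sys.X_add, t1, (c2_shift m' _ _ s2).1]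
  have hP : (FS ι ζ v).P (1 + m') (j + m) H g = (FS ι Z V).P (2 + m') (j + m) H g := by
    funext s
    rw [Sys.P_add hY hH hg, Sys.P_add hY' hH' hg', t2, (c2_shift m' _ _ s2).1, c2_shiftP s2]
  rw [show m + (1 + m') + 1 = m + (2 + m') by ring]
  constructor
  · rw [Sys.X_add, Sys.X_add m, hX, (c2_shift m _ _ s1).1]
  · funext s
    rw [Sys.P_add hY hH hg, Sys.P_add hY' hH' hg' m, hX, hP, c2_shiftP s1]

end FSsplit

variable {ι Cf : Type} [Fintype ι] [MeasurableSpace Cf] {k : ℕ}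
  {ν : Measure Cf} {x : Cf → ι → ℝ} {ζ v Z V : ℕ → ℝ}

theorem c2_exMg (hx : Spin ν x) (hζ : ∀ j, 0 < ζ j) (i : ι) : (FS ι ζ v).Ex (Mg ν x i) :=
  Sys.Ex.of_bdd (fs_ok ι hζ v) (measurable_Mg hx i) _ (abs_Mg_le hx i)

theorem c2_exG (hx : Spin ν x) (hζ : ∀ j, 0 < ζ j) (n j : ℕ) :
    (FS ι ζ v).Ex fun h => ∑ i, (FS ι ζ v).P n j (Φs ν x) (Mg ν x i) h ^ 2 :=
  Sys.Ex.sum (fs_ok ι hζ v) _ fun i _ =>
    (Sys.ex_P (fs_ok ι hζ v) (lin_Φs hx ζ v) (c2_exMg hx hζ i) n j).sq (fs_ok ι hζ v)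

theorem gF_trunk (hx : Spin ν x) (hζ : ∀ j, 0 < ζ j) (hZ : ∀ j, 0 < Z j) {p : ℕ}
    (h : Split ζ v Z V p) {l : ℕ} (hl : p < l) (n : ℕ) :
    gF ν x ζ v l n 0 = gF ν x Z V (l + 1) n 0 := by
  have s : ∀ i < n, ζ (0 + l + i) = Z (0 + (l + 1) + i) ∧ v (0 + l + i) = V (0 + (l + 1) + i) :=
    fun i _ => by
      have := h.gt (0 + l + i) (by omega)
      rwa [show 0 + l + i + 1 = 0 + (l + 1) + i by ring] at this
  unfold gF
  rw [(c2_split hζ hZ h (Sys.lin_X (fs_ok ι hζ v) (lin_Φs hx ζ v) _ _) (c2_exG hx hζ _ _)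
    (Nat.zero_le p) (by omega)).2, (c2_shift n _ _ s).1]
  simp only [c2_shiftP s]

theorem gF_branch (hx : Spin ν x) (hζ : ∀ j, 0 < ζ j) (hZ : ∀ j, 0 < Z j) {p : ℕ}
    (h : Split ζ v Z V p) {l n : ℕ} (hl : l ≤ p) (hn : p < l + n) :
    gF ν x ζ v l n 0 = gF ν x Z V l (n + 1) 0 := by
  have s : ∀ i < l, ζ (0 + i) = Z (0 + i) ∧ v (0 + i) = V (0 + i) := fun i _ => h.lt _ (by omega)
  have t := fun g (hg : (FS ι ζ v).Ex g) => c2_split hζ hZ h (lin_Φs hx ζ v) hg (n := n)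
    (j := 0 + l) (by omega) (by omega)
  unfold gF
  rw [c2_shiftP s, (t _ (Sys.Ex.const (fs_ok ι hζ v) 0)).1]
  simp only [fun i => (t _ (c2_exMg hx hζ i)).2]

theorem c2_mgf (y : EuclideanSpace ℝ ι) :
    ∫ w, exp ⟪y, w⟫ ∂stdGaussian (EuclideanSpace ℝ ι) = exp (‖y‖ ^ 2 / 2) := by
  have h := IsGaussian.map_eq_gaussianReal (μ := stdGaussian (EuclideanSpace ℝ ι)) (innerSL ℝ y)
  rw [integral_strongDual_stdGaussian, variance_dual_stdGaussian, innerSL_apply_norm] at h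
  have := mgf_gaussianReal h 1
  simpa [mgf] using this

theorem c2_gauss (hx : Spin ν x) {u : Cf → ℝ} (hu : Measurable u) {C : ℝ} (hC : ∀ σ, |u σ| ≤ C)
    (a : ℝ) (h : EuclideanSpace ℝ ι) :
    ∫ w, ∫ σ, u σ * exp (∑ i, (h + a • w) i * x σ i) ∂ν ∂stdGaussian (EuclideanSpace ℝ ι) =
      exp (a ^ 2 * Fintype.card ι / 2) * ∫ σ, u σ * exp (∑ i, h i * x σ i) ∂ν := by
  have := hx.prob
  have hxm : ∀ i, Measurable fun σ => x σ i := fun i => (measurable_pi_apply i).comp hx.meas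
  have e : ∀ σ (w : EuclideanSpace ℝ ι), u σ * exp (∑ i, (h + a • w) i * x σ i) =
      u σ * exp (∑ i, h i * x σ i) * exp ⟪a • WithLp.toLp 2 (x σ), w⟫ := by
    intro σ w
    rw [mul_assoc, ← exp_add, PiLp.inner_apply, ← sum_add_distrib]
    congr 2
    refine sum_congr rfl fun i _ => ?_
    simp
    ring
  have e2 : ∀ σ, ∫ w, exp ⟪a • WithLp.toLp 2 (x σ), w⟫ ∂stdGaussian (EuclideanSpace ℝ ι) =
      exp (a ^ 2 * Fintype.card ι / 2) := by
    intro σ
    rw [c2_mgf, norm_smul, mul_pow, Real.norm_eq_abs, sq_abs, EuclideanSpace.real_norm_sq_eq,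
      hx.norm]
  have hm : Measurable fun p : EuclideanSpace ℝ ι × Cf =>
      u p.2 * exp (∑ i, (h + a • p.1) i * x p.2 i) := by
    refine (hu.comp measurable_snd).mul (measurable_sum _ fun i _ => ?_).exp
    exact Measurable.mul (by fun_prop) ((hxm i).comp measurable_snd)
  have hm2 : Measurable fun σ => u σ * exp (∑ i, h i * x σ i) :=
    hu.mul (measurable_sum _ fun i _ => (hxm i).const_mul _).exp
  have hi2 : Integrable (fun σ => u σ * exp (∑ i, h i * x σ i)) ν := by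
    refine Integrable.of_bound hm2.aestronglyMeasurable
      (C * exp (∑ i, |h i| * √(Fintype.card ι))) (Eventually.of_forall fun σ => ?_)
    rw [Real.norm_eq_abs, abs_mul, abs_of_pos (exp_pos _)]
    refine mul_le_mul (hC σ) (exp_le_exp.2 (sum_le_sum fun i _ => ?_)) (exp_pos _).le
      ((abs_nonneg _).trans (hC σ))
    refine (le_abs_self _).trans ?_
    rw [abs_mul]
    exact mul_le_mul_of_nonneg_left (hx.abs_le σ i) (abs_nonneg _)
  have hi : Integrable (fun p : EuclideanSpace ℝ ι × Cf =>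
      u p.2 * exp (∑ i, (h + a • p.1) i * x p.2 i)) ((stdGaussian _).prod ν) := by
    rw [integrable_prod_iff' hm.aestronglyMeasurable]
    simp only [e]
    refine ⟨Eventually.of_forall fun σ => Integrable.const_mul
      (Integrable.of_integral_ne_zero (by rw [e2]; exact (exp_pos _).ne')) _, ?_⟩
    simp only [norm_mul, Real.norm_of_nonneg (exp_pos _).le, integral_const_mul, e2]
    simpa only [norm_mul, Real.norm_of_nonneg (exp_pos _).le] using hi2.norm.mul_const _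
  rw [integral_integral_swap hi]
  simp only [e, integral_const_mul, e2]
  rw [integral_mul_const, mul_comm]

theorem c2_pos (hx : Spin ν x) (h : EuclideanSpace ℝ ι) :
    0 < ∫ σ, exp (∑ i, h i * x σ i) ∂ν := by
  have := hx.prob
  refine integral_exp_pos (Integrable.of_bound (measurable_sum _ fun i _ =>
    ((measurable_pi_apply i).comp hx.meas).const_mul _).exp.aestronglyMeasurable
    (exp (∑ i, |h i| * √(Fintype.card ι))) (Eventually.of_forall fun σ => ?_))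
  rw [Real.norm_of_nonneg (exp_pos _).le]
  refine exp_le_exp.2 (sum_le_sum fun i _ => (le_abs_self _).trans ?_)
  rw [abs_mul]
  exact mul_le_mul_of_nonneg_left (hx.abs_le σ i) (abs_nonneg _)

theorem c2_one (hx : Spin ν x) (hζ : ∀ j, 0 < ζ j) {j : ℕ} (h1 : ζ j = 1) :
    (FS ι ζ v).X 1 j (Φs ν x) = (fun h => Φs ν x h + √(v j) ^ 2 * Fintype.card ι / 2) ∧
      ∀ i, (FS ι ζ v).P 1 j (Φs ν x) (Mg ν x i) = Mg ν x i := by
  have hY := fs_ok ι hζ v
  have e1 : (FS ι ζ v).ζ j = 1 := h1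
  have e2 : ∀ h, exp (Φs ν x h) = ∫ σ, exp (∑ i, h i * x σ i) ∂ν := fun h =>
    exp_log (c2_pos hx h)
  have hT : (FS ι ζ v).T j (Φs ν x) = fun h => Φs ν x h + √(v j) ^ 2 * Fintype.card ι / 2 := by
    funext h
    have := c2_gauss hx (u := fun _ => 1) measurable_const (C := 1) (by simp) (√(v j)) h
    simp only [one_mul] at this
    rw [Sys.T, e1]
    simp only [one_mul, inv_one, e2]
    refine (congrArg log this).trans ?_
    rw [log_mul (exp_pos _).ne' (c2_pos hx h).ne', log_exp, add_comm]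
    rfl
  refine ⟨hT, fun i => funext fun h => ?_⟩
  rw [Sys.P_succ hY (lin_Φs hx ζ v) (c2_exMg hx hζ i) 0 j h, Sys.P_zero (measurable_Mg hx i)]
  refine (Sys.integral_stepM' hY (lin_Φs hx ζ v) j h (measurable_Mg hx i)).trans ?_
  have := c2_gauss hx (u := fun σ => x σ i) ((measurable_pi_apply i).comp hx.meas)
    (fun σ => hx.abs_le σ i) (√(v j)) h
  have e3 : ∀ h', exp (Φs ν x h') * Mg ν x i h' = ∫ σ, x σ i * exp (∑ i, h' i * x σ i) ∂ν :=
    fun h' => by rw [e2, Mg, mul_div_cancel₀ _ (c2_pos hx h').ne']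
  rw [hT, e1]
  simp only [one_mul, e3]
  refine (congrArg (_ * ·) this).trans ?_
  rw [← e3, ← mul_assoc, ← mul_assoc, ← exp_add, ← exp_add]
  ring_nf
  simp

theorem gF_last (hx : Spin ν x) (hζ : ∀ j, 0 < ζ j) {v' : ℕ → ℝ} {l n : ℕ} (h1 : ζ (l + n) = 1)
    (hv : ∀ i < l + n, v i = v' i) : gF ν x ζ v l (n + 1) 0 = gF ν x ζ v' l (n + 1) 0 := by
  have key : ∀ v : ℕ → ℝ, gF ν x ζ v l (n + 1) 0 = gF ν x ζ v l n 0 := by
    intro v
    have hY := fs_ok ι hζ v
    have hH := lin_Φs hx ζ v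
    obtain ⟨t1, t2⟩ := c2_one (v := v) hx hζ (j := 0 + l + n) (by rwa [zero_add])
    have hP : ∀ i, (FS ι ζ v).P (n + 1) (0 + l) (Φs ν x) (Mg ν x i) =
        (FS ι ζ v).P n (0 + l) (Φs ν x) (Mg ν x i) := by
      intro i
      funext h
      rw [Sys.P_add hY hH (c2_exMg hx hζ i), t1, t2, Sys.P, Sys.m_add_const hY hH]
      rfl
    unfold gF
    simp only [hP]
    funext h
    rw [Sys.X_add, t1, Sys.X_add_const hY hH, Sys.P, Sys.m_add_const hY (Sys.lin_X hY hH _ _)]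
    rfl
  have s1 : ∀ i < l, ζ (0 + i) = ζ (0 + i) ∧ v (0 + i) = v' (0 + i) := fun i _ =>
    ⟨rfl, hv _ (by omega)⟩
  have s2 : ∀ i < n, ζ (0 + l + i) = ζ (0 + l + i) ∧ v (0 + l + i) = v' (0 + l + i) := fun i _ =>
    ⟨rfl, hv _ (by omega)⟩
  rw [key, key]
  unfold gF
  rw [c2_shiftP s1, (c2_shift n _ _ s2).1]
  simp only [c2_shiftP s2]

variable [Nonempty ι] [Nonempty Cf]

omit [Nonempty ι] in
theorem pS_eq (hx : Spin ν x) {l : ℕ} (hl : l < k) (r : ℕ → ℝ) : pS k ν x r l =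
    gF ν x (fun j => min 1 (((j : ℝ) + 1) / k))
      (fun j => if j + 1 < k then r (j + 1) - r j else 0) l (k - l) 0 0 / Fintype.card ι := by
  rw [← pF_eq, ← pp_Sp hx (by omega) _ hl.le, ← integral_div]
  rfl

/-- insertion of two values at the position `p` -/
def ins (p : ℕ) (u : ℕ → ℝ) (a b : ℝ) (i : ℕ) : ℝ :=
  if i < p then u i else if i = p then a else if i = p + 1 then b else u (i - 1)

theorem split_ins (ζ v : ℕ → ℝ) (p : ℕ) {a b : ℝ} (ha : 0 ≤ a) (hb : 0 ≤ b) (h : v p = a + b) :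
    Split ζ v (ins p ζ (ζ p) (ζ p)) (ins p v a b) p where
  lt i hi := by simp [ins, hi]
  z1 := by simp [ins]
  z2 := by simp [ins]
  a0 := by simpa [ins] using ha
  b0 := by simpa [ins] using hb
  sum := by simpa [ins] using h
  gt i hi := by
    have h1 : ¬ i + 1 < p := by omega
    have h2 : ¬ i + 1 = p := by omega
    simp [ins, h1, h2, hi.ne']

theorem ins_pos (hζ : ∀ j, 0 < ζ j) (p j : ℕ) : 0 < ins p ζ (ζ p) (ζ p) j := by
  unfold ins
  split_ifs <;> exact hζ _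

/-- raising the path at another level lowers the overlap -/
theorem pS_anti (hx : Spin ν x) (hr : RotInv ν x) {r : ℕ → ℝ} {l l' : ℕ} (h0 : 0 < l')
    (hl' : l' < k) (hl : l < k) (hne : l ≠ l') {c : ℝ} (hc : 0 ≤ c)
    (h1 : r (l' - 1) ≤ r l') (h2 : l' + 1 < k → r l' + c ≤ r (l' + 1)) :
    pS k ν x (Function.update r l' (r l' + c)) l ≤ pS k ν x r l := by
  obtain ⟨m, rfl⟩ : ∃ m, l' = m + 1 := ⟨l' - 1, by omega⟩
  rw [pS_eq hx hl, pS_eq hx hl]
  refine div_le_div_of_nonneg_right ?_ (Nat.cast_nonneg _)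
  have hk' : (0 : ℝ) < k := by exact_mod_cast (by omega : 0 < k)
  set ζ : ℕ → ℝ := fun j => min 1 (((j : ℝ) + 1) / k) with hζd
  have hζ : ∀ j, 0 < ζ j := fun j => lt_min one_pos (by positivity)
  set v : ℕ → ℝ := fun j => if j + 1 < k then r (j + 1) - r j else 0 with hv
  set v' : ℕ → ℝ := fun j => if j + 1 < k then Function.update r (m + 1) (r (m + 1) + c) (j + 1) -
    Function.update r (m + 1) (r (m + 1) + c) j else 0 with hv'
  set u : ℕ → ℝ := Function.update v (m + 1) (v' (m + 1) + c) with hu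
  have e1 : gF ν x ζ v l (k - l) 0 = gF ν x ζ u l (k - l) 0 := by
    by_cases h3 : m + 1 + 1 < k
    · congr 1
      rw [hu, eq_comm, Function.update_eq_self_iff]
      simp [hv, hv', h3]
      ring
    · obtain ⟨n, hn⟩ : ∃ n, k - l = n + 1 := ⟨k - l - 1, by omega⟩
      rw [hn]
      refine gF_last hx hζ ?_ fun i hi => by rw [hu, Function.update_of_ne (by omega)]
      have : ((l + n : ℕ) : ℝ) + 1 = k := by exact_mod_cast (by omega : l + n + 1 = k)
      simp only [hζd, this, div_self hk'.ne', min_self]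
  have hm0 : 0 ≤ v m := by simpa [hv, hl'] using h1
  have hm1 : 0 ≤ v' (m + 1) := by
    simp only [hv']
    split_ifs with h3
    · simpa using h2 h3
    · exact le_rfl
  have s1 := split_ins ζ u (m + 1) hc hm1 (by simp [hu, add_comm])
  have s2 := split_ins ζ v' m hm0 hc (by simp [hv, hv', hl']; ring)
  have e2 : ins m v' (v m) c = ins (m + 1) u c (v' (m + 1)) := by
    funext i
    rcases lt_trichotomy i m with h3 | h3 | h3
    · have h4 : i < m + 1 := by omega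
      simp [ins, h3, h4, hu, hv, hv', Function.update_of_ne h4.ne, h3.ne]
    · simp [ins, h3, hu]
    · obtain ⟨j, rfl⟩ : ∃ j, i = j + 1 := ⟨i - 1, by omega⟩
      have h4 : ¬ j + 1 < m := by omega
      have h5 : ¬ j + 1 = m := by omega
      have h6 : ¬ j < m := by omega
      by_cases h7 : j = m
      · simp [ins, h7]
      · by_cases h8 : j = m + 1
        · subst h8
          have h9 : ¬ m + 1 + 1 < m := by omega
          have h10 : ¬ m + 1 + 1 = m := by omega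
          simp [ins, h9, h10]
        · simp [ins, h4, h5, h6, h7, h8, hu, hv, hv']
  have hle : ∀ j, ins m ζ (ζ m) (ζ m) j ≤ ins (m + 1) ζ (ζ (m + 1)) (ζ (m + 1)) j := by
    have hmono : Monotone ζ := fun a b h => min_le_min le_rfl (by gcongr)
    intro j
    unfold ins
    split_ifs <;> exact hmono (by omega)
  rw [e1]
  rcases lt_or_gt_of_ne hne with h3 | h3
  · rw [gF_branch hx hζ (ins_pos hζ _) s1 h3.le (by omega),
      gF_branch hx hζ (ins_pos hζ _) s2 (by omega) (by omega), e2]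
    exact gF_mono hx hr (ins_pos hζ _) hle _ _ _ _ _
  · rw [gF_trunk hx hζ (ins_pos hζ _) s1 h3, gF_trunk hx hζ (ins_pos hζ _) s2 (by omega), e2]
    exact gF_mono hx hr (ins_pos hζ _) hle _ _ _ _ _

/-- raising the path at all positive levels raises the overlap -/
theorem pS_shift (hx : Spin ν x) (hr : RotInv ν x) {r : ℕ → ℝ} {l : ℕ} (h0 : 0 < l) (hl : l < k)
    {c : ℝ} (hc : 0 ≤ c) (h1 : r 0 ≤ r 1) :
    pS k ν x r l ≤ pS k ν x (fun i => if i = 0 then r i else r i + c) l := by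
  rw [pS_eq hx hl, pS_eq hx hl]
  refine div_le_div_of_nonneg_right ?_ (Nat.cast_nonneg _)
  have hk' : (0 : ℝ) < k := by exact_mod_cast (by omega : 0 < k)
  have hk1 : 1 < k := by omega
  set ζ : ℕ → ℝ := fun j => min 1 (((j : ℝ) + 1) / k) with hζd
  have hζ : ∀ j, 0 < ζ j := fun j => lt_min one_pos (by positivity)
  set v : ℕ → ℝ := fun j => if j + 1 < k then r (j + 1) - r j else 0 with hv
  set v' : ℕ → ℝ := fun j => if j + 1 < k then (if j + 1 = 0 then r (j + 1) else r (j + 1) + c) -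
    (if j = 0 then r j else r j + c) else 0 with hv'
  have s1 := split_ins ζ v' 0 (b := v 0) hc (by simpa [hv, hk1] using h1)
    (by simp [hv, hv', hk1]; ring)
  set Z := ins 0 ζ (ζ 0) (ζ 0)
  set V := ins 0 v' c (v 0) with hV
  have hZ : ∀ j, 0 < Z j := ins_pos hζ 0
  have s : ∀ i, ζ i = Z (i + 1) ∧ v i = V (i + 1) := by
    intro i
    rcases Nat.eq_zero_or_pos i with h | h
    · subst h
      exact ⟨s1.z2.symm, by simp [hV, ins]⟩
    · refine ⟨(s1.gt i h).1, Eq.trans ?_ (s1.gt i h).2⟩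
      simp [hv, hv', h.ne']
  have e1 : gF ν x ζ v l (k - l) 0 = gF ν x Z V l (k - l) 1 := by
    have t1 : ∀ i < l, ζ (0 + i) = Z (1 + i) ∧ v (0 + i) = V (1 + i) := fun i _ => by
      rw [zero_add, add_comm]; exact s i
    have t2 : ∀ i < k - l, ζ (0 + l + i) = Z (1 + l + i) ∧ v (0 + l + i) = V (1 + l + i) :=
      fun i _ => by rw [show 1 + l + i = 0 + l + i + 1 by ring]; exact s _
    unfold gF
    rw [c2_shiftP t1, (c2_shift _ _ _ t2).1]
    simp only [c2_shiftP t2]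
  rw [e1, gF_trunk hx hζ hZ s1 h0]
  have hY := fs_ok ι hZ V
  have hX := Sys.lin_X hY (lin_Φs hx Z V) (k - l) (1 + l)
  have e2 : gF ν x Z V (l + 1) (k - l) 0 0 = ∫ s', gF ν x Z V l (k - l) 1 s'
      ∂(FS ι Z V).stepM 0 ((FS ι Z V).X l (0 + 1) ((FS ι Z V).X (k - l) (1 + l) (Φs ν x))) 0 := by
    unfold gF
    rw [show 0 + (l + 1) = 1 + l by ring, Sys.P_succ hY hX (c2_exG hx hZ _ _)]
  have := Sys.stepM_prob hY (Sys.lin_X hY hX l (0 + 1)) 0 0
  rw [e2]
  refine le_of_eq_of_le ?_ (integral_mono (integrable_const (gF ν x Z V l (k - l) 1 0))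
    ((Sys.ex_P hY hX (c2_exG hx hZ _ _) l 1).integrable_stepM hY (Sys.lin_X hY hX l (0 + 1)) 0 0)
    fun s' => gF_radial hx hr hZ V l (k - l) 1 (by simp))
  simp

end Vale.Agent.P157
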