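import Vale.Agent.P157.Conc2
import Vale.Agent.P157.Grad

namespace Vale.Agent.P157

open MeasureTheory ProbabilityTheory Real Finset Filter Topology
open scoped ENNReal

section Lin

variable {S Ω : Type*} [MeasurableSpace S] [MeasurableSpace Ω] {Y : Sys S Ω} {H g : S → ℝ}

/-- derivative of the two replica average of `g ⊗ g` in the direction `h` of the Hamiltonian -/
noncomputable def c3L (Y : Sys S Ω) (l n : ℕ) (H g h : S → ℝ) (s : S) : ℝ :=
  Y.P l 0 (Y.X n (0 + l) H) (fun s => 2 * Y.P n (0 + l) H g s * Y.D n (0 + l) H g h s) s +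
    Y.D l 0 (Y.X n (0 + l) H) (fun s => Y.P n (0 + l) H g s * Y.P n (0 + l) H g s)
      (Y.P n (0 + l) H h) s

theorem c3L_sum (hY : Y.OK) (hH : Y.Lin H) (hg : Y.Ex g) {α : Type*} (t : Finset α) (c : α → ℝ)
    {h : α → S → ℝ} (hh : ∀ a ∈ t, Y.Ex (h a)) (l n : ℕ) (s : S) :
    c3L Y l n H g (fun s => ∑ a ∈ t, c a * h a s) s = ∑ a ∈ t, c a * c3L Y l n H g (h a) s := by
  have hX := Sys.lin_X hY hH n (0 + l)
  have hP := Sys.ex_P hY hH hg n (0 + l)
  have e1 : (fun s => 2 * Y.P n (0 + l) H g s * Y.D n (0 + l) H g (fun s => ∑ a ∈ t, c a * h a s) s)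
      = fun s => ∑ a ∈ t, c a * (2 * Y.P n (0 + l) H g s * Y.D n (0 + l) H g (h a) s) := by
    funext s
    rw [Sys.D_comm, Sys.D_sum_left hY hH hg t c hh, mul_sum]
    refine sum_congr rfl fun a _ => ?_
    rw [Sys.D_comm]; ring
  have e2 : Y.P n (0 + l) H (fun s => ∑ a ∈ t, c a * h a s) =
      fun s => ∑ a ∈ t, c a * Y.P n (0 + l) H (h a) s := funext fun s => Sys.P_sum hY hH t c hh _ _ s
  unfold c3L
  rw [e1, e2, Sys.P_sum hY hX t c fun a ha =>
      (hP.const_mul hY 2).mul hY (Sys.ex_D hY hH hg (hh a ha) _ _),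
    Sys.D_comm, Sys.D_sum_left hY hX (hP.mul hY hP) t c fun a ha => Sys.ex_P hY hH (hh a ha) _ _,
    ← sum_add_distrib]
  refine sum_congr rfl fun a _ => ?_
  rw [Sys.D_comm (g := Y.P n (0 + l) H (h a))]; ring

theorem c3L_deriv (hY : Y.OK) {U : Set ℝ} (hU : IsOpen U) {Ht H' : ℝ → S → ℝ}
    (hH : Y.LFam U Ht H') (hg : Y.Ex g) (l n : ℕ) (s : S) {t : ℝ} (ht : t ∈ U) :
    HasDerivAt (fun t => ∫ p, g p.1 * g p.2 ∂Y.pr l n 0 (Ht t) s) (c3L Y l n (Ht t) g (H' t) s) t := by
  have h1 := Sys.P_fam hY hU hH (Sys.Fam.const hY hg) n (0 + l)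
  have h2 := (Sys.P_fam hY hU (Sys.X_fam hY hU hH n (0 + l)) (h1.mul hY h1) l 0).der t ht s
  refine (h2.congr_of_eventuallyEq ?_).congr_deriv ?_
  · filter_upwards [hU.mem_nhds ht] with t ht
    exact Sys.integral_pr_mul hY (hH.lin_at ht) hg hg l n 0 s
  · unfold c3L
    congr 2
    funext s
    simp only [Sys.P, integral_zero, zero_add]
    ring

end Lin

theorem c3_abel (k : ℕ) (B θ : ℕ → ℝ) (h0 : θ 0 = 0) :
    ∑ j ∈ range k, (if j + 1 < k then θ (j + 1) - θ j else 0) * B j =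
      ∑ i ∈ Ioo 0 k, (B (i - 1) - if i + 1 < k then B i else 0) * θ i := by
  have e1 : ∑ i ∈ Ioo 0 k, B (i - 1) * θ i =
      ∑ j ∈ range k, (if j + 1 < k then θ (j + 1) else 0) * B j := by
    simp only [ite_mul, zero_mul]
    rw [← sum_filter]
    refine sum_nbij' (fun i => i - 1) (fun j => j + 1) ?_ ?_ ?_ ?_ ?_
    · intro i hi; simp only [mem_Ioo, mem_filter, mem_range] at hi ⊢; omega
    · intro i hi; simp only [mem_Ioo, mem_filter, mem_range] at hi ⊢; omega
    · intro i hi; simp only [mem_Ioo] at hi ⊢; omega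
    · intro i _; simp
    · intro i hi
      rw [Nat.sub_add_cancel (mem_Ioo.1 hi).1, mul_comm]
  have e2 : ∑ i ∈ Ioo 0 k, (if i + 1 < k then B i else 0) * θ i =
      ∑ j ∈ range k, (if j + 1 < k then θ j else 0) * B j := by
    refine (sum_congr rfl fun i _ => ?_).trans (sum_subset (fun i hi => mem_range.2 (mem_Ioo.1 hi).2)
      fun i hi hi' => ?_)
    · split_ifs <;> ring
    · have : i = 0 := by simp only [mem_Ioo, mem_range] at hi hi'; omega
      simp [this, h0]
  simp only [sub_mul (B _), sum_sub_distrib, e1, e2]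
  rw [← sum_sub_distrib]
  refine sum_congr rfl fun j _ => ?_
  split_ifs <;> ring

theorem c3_nonneg {f : ℝ → ℝ} {L : ℝ} (h : HasDerivAt f L 0) (h1 : ∀ᶠ t in 𝓝[>] 0, f 0 ≤ f t) :
    0 ≤ L := by
  refine ge_of_tendsto h.tendsto_slope_zero_right ?_
  filter_upwards [h1, self_mem_nhdsWithin] with t h2 h3
  rw [zero_add, smul_eq_mul]
  exact mul_nonneg (inv_nonneg.2 (le_of_lt h3)) (sub_nonneg.2 h2)

variable {ι Cf : Type} [Fintype ι] [Nonempty ι] [MeasurableSpace Cf] [Nonempty Cf] {k : ℕ}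
  {ν : Measure Cf} {x : Cf → ι → ℝ}

/-- the overlaps are differentiable in the path and the derivative is linear in the direction -/
theorem pS_deriv (hx : Spin ν x) (hk : 0 < k) {r : ℕ → ℝ} (hr : Strict k r) {l : ℕ} (hl : l < k) :
    ∃ A : ℕ → ℝ, ∀ θ : ℕ → ℝ, θ 0 = 0 → HasDerivAt (fun t => pS k ν x (fun i => r i + t * θ i) l)
      (∑ i ∈ Ioo 0 k, A i * θ i) 0 := by
  have := hx.prob
  have hY : (GS k ι ν).OK := gs_ok hk
  have hR := sp_ok hx le_rfl
  set X : ι → St ι Cf → ℝ := fun i s => x s.1 i with hX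
  have xX : ∀ i, (GS k ι ν).Ex (X i) := fun i => Sys.Ex.of_bdd hY
    (((measurable_pi_apply i).comp hx.meas).comp measurable_fst) _ fun s => hx.abs_le _ _
  set G : ℕ → St ι Cf → ℝ := fun j s => ∑ i, X i s * s.2 j i with hG
  have xG : ∀ j ∈ range k, (GS k ι ν).Ex (G j) := fun j hj => Sys.Ex.sum hY _ fun i _ =>
    (xX i).mul hY ((lin_coord hk (mem_range.1 hj) i).ex hY)
  set w : (ℕ → ℝ) → ℕ → ℝ := fun r j => if j + 1 < k then r (j + 1) - r j else 0 with hw
  set H0 := (Sp x).Hv k (wS ι k r) with hH0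
  set B : ℕ → ℝ := fun j => (∑ i, c3L (GS k ι ν) l (k + 1 - l) H0 (X i) (G j) (s0 ι Cf)) /
    (2 * √(w r j)) / Fintype.card ι with hB
  refine ⟨fun i => B (i - 1) - if i + 1 < k then B i else 0, fun θ h0 => ?_⟩
  rw [← c3_abel k B θ h0]
  obtain ⟨δ, hδ, hδ'⟩ : ∃ δ > 0, ∀ t : ℝ, dist t 0 < δ → ∀ j ∈ range k, j + 1 < k →
      w r j / 2 < w r j + t * w θ j ∧ w r j + t * w θ j < 2 * w r j := by
    refine Metric.eventually_nhds_iff.1 ((eventually_all_finset _).2 fun j _ => ?_) |>.imp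
      fun δ h => ⟨h.1, fun t ht => h.2 ht⟩
    by_cases hj : j + 1 < k
    · have hp : 0 < w r j := by simpa [hw, hj] using hr j hj
      have hc : Tendsto (fun t : ℝ => w r j + t * w θ j) (𝓝 0) (𝓝 (w r j)) :=
        Continuous.tendsto' (by fun_prop) _ _ (by simp)
      filter_upwards [hc.eventually (lt_mem_nhds (half_lt_self hp)),
        hc.eventually (gt_mem_nhds (by linarith : w r j < 2 * w r j))] with t h1 h2 _
      exact ⟨h1, h2⟩
    · exact Eventually.of_forall fun _ h => absurd h hj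
  have hL := Rg.lfam_H (ν := ν) hR hk (U := Metric.ball 0 δ)
    (lam := fun t j _ => √(w r j + t * w θ j))
    (lam' := fun t j _ => w θ j / (2 * √(w r j + t * w θ j)))
    (C := ∑ j ∈ range k, (√(2 * w r j) + |w θ j| / (2 * √(w r j / 2))))
    (fun t ht j hj _ => by
      by_cases h1 : j + 1 < k
      · have hp : 0 < w r j := by simpa [hw, h1] using hr j h1
        have h2 := (hδ' t ht j (mem_range.2 hj) h1).1
        simpa using (((hasDerivAt_id t).mul_const (w θ j)).const_add (w r j)).sqrt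
          (by simp only [id]; linarith)
      · simpa [hw, h1] using hasDerivAt_const t (0 : ℝ))
    fun t ht j hj _ => by
      have h3 := single_le_sum (f := fun j => √(2 * w r j) + |w θ j| / (2 * √(w r j / 2)))
        (fun _ _ => by positivity) (mem_range.2 hj)
      have h4 : 0 ≤ √(2 * w r j) := sqrt_nonneg _
      have h5 : 0 ≤ |w θ j| / (2 * √(w r j / 2)) := by positivity
      by_cases h1 : j + 1 < k
      · have hp : 0 < w r j := by simpa [hw, h1] using hr j h1
        obtain ⟨h6, h7⟩ := hδ' t ht j (mem_range.2 hj) h1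
        constructor
        · rw [abs_of_nonneg (sqrt_nonneg _)]
          linarith [sqrt_le_sqrt h7.le]
        · have : |w θ j / (2 * √(w r j + t * w θ j))| ≤ |w θ j| / (2 * √(w r j / 2)) := by
            rw [abs_div, abs_of_nonneg (by positivity : 0 ≤ 2 * √(w r j + t * w θ j))]
            gcongr
          linarith
      · have e1 : w r j = 0 := by simp [hw, h1]
        have e2 : w θ j = 0 := by simp [hw, h1]
        have h6 := (add_nonneg h4 h5).trans h3
        simp only [e1, e2, mul_zero, add_zero, sqrt_zero, abs_zero, div_zero]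
        exact ⟨h6, h6⟩
  have h0' : (0 : ℝ) ∈ Metric.ball (0 : ℝ) δ := Metric.mem_ball_self hδ
  have d := (HasDerivAt.fun_sum fun i (_ : i ∈ univ) =>
    c3L_deriv hY Metric.isOpen_ball hL (xX i) l (k + 1 - l) (s0 ι Cf) h0').div_const
      (Fintype.card ι : ℝ)
  have e1 : ∀ t : ℝ, (Sp x).H k (fun j _ => √(w r j + t * w θ j)) =
      (Sp x).Hv k (wS ι k fun i => r i + t * θ i) := by
    intro t
    unfold Rg.Hv
    congr 1
    funext j i
    simp only [hw, wS]
    split_ifs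
    · congr 1; ring
    · simp
  refine (d.congr_of_eventuallyEq (Eventually.of_forall fun t => ?_)).congr_deriv ?_
  · simp only [e1]
    rw [← integral_finsetSum _ fun i _ => ((xX i).fst hY |>.mul hY ((xX i).snd hY)).integrable_pr
      hY (Rg.lin_Hv hR hk _) _ _ _ _, ← integral_div]
    rfl
  · have e2 : (fun s => ∑ a, (Sp x).F1 a ((Sp x).U k (fun j _ => √(w r j + 0 * w θ j)) a s) *
        (Sp x).U k (fun j _ => w θ j / (2 * √(w r j + 0 * w θ j))) a s) =
        fun s => ∑ j ∈ range k, w θ j / (2 * √(w r j)) * G j s := by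
      funext s
      simp [Rg.U, Sp, hG, hX, mul_sum, mul_assoc]
    have e3 : (Sp x).H k (fun j _ => √(w r j + 0 * w θ j)) = H0 := by
      rw [e1]; simp [hH0]
    simp only [e2, e3, fun i => c3L_sum hY (Rg.lin_Hv hR hk (wS ι k r)) (xX i) (range k)
      (fun j => w θ j / (2 * √(w r j))) xG, hH0]
    rw [sum_comm, sum_div]
    refine sum_congr rfl fun j _ => ?_
    simp only [hB, hH0, ← mul_sum, hw]
    ring

theorem psd_of_M (s : Finset ℕ) (A : ℕ → ℕ → ℝ) (h1 : ∀ i ∈ s, ∀ j ∈ s, i ≠ j → A i j ≤ 0)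
    (h2 : ∀ i ∈ s, 0 ≤ ∑ j ∈ s, A i j) (h3 : ∀ j ∈ s, 0 ≤ ∑ i ∈ s, A i j) (u : ℕ → ℝ) :
    0 ≤ ∑ i ∈ s, u i * ∑ j ∈ s, A i j * u j := by
  have h4 : ∑ i ∈ s, ∑ j ∈ s, (u i ^ 2 / 2 * A i j + u j ^ 2 / 2 * A i j) ≤
      ∑ i ∈ s, u i * ∑ j ∈ s, A i j * u j := by
    refine sum_le_sum fun i hi => ?_
    rw [mul_sum]
    refine sum_le_sum fun j hj => ?_
    by_cases h : i = j
    · subst h; nlinarith
    · nlinarith [mul_nonneg (neg_nonneg.2 (h1 i hi j hj h)) (sq_nonneg (u i - u j))]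
  refine le_trans ?_ h4
  simp only [sum_add_distrib]
  rw [sum_comm (f := fun i j => u j ^ 2 / 2 * A i j)]
  simp only [← mul_sum]
  exact add_nonneg (sum_nonneg fun i hi => mul_nonneg (by positivity) (h2 i hi))
    (sum_nonneg fun i hi => mul_nonneg (by positivity) (h3 i hi))

theorem c3_pairing (p u : ℕ → ℝ) (h0 : u 0 = 0) :
    pairing k p u = 1 / (2 * (k : ℝ)) * ∑ l ∈ Ioo 0 k, p l * u l := by
  unfold pairing
  congr 1
  refine (sum_subset (fun i hi => mem_range.2 (mem_Ioo.1 hi).2) fun i hi hi' => ?_).symm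
  have : i = 0 := by simp only [mem_Ioo, mem_range] at hi hi'; omega
  rw [this, h0, mul_zero]

theorem c3_XN (hx : Spin ν x) (hk : 0 < k) {r θ : ℕ → ℝ} (h0 : θ 0 = 0) {t : ℝ}
    (hr : Strict k fun l => r l + t * θ l) : HasDerivAt (fun t => XN k ν x fun l => r l + t * θ l)
      (-pairing k (pS k ν x fun l => r l + t * θ l) θ) t := by
  have h := XN_deriv hx hk hr h0
  rw [← sub_self t] at h
  refine (h.comp_sub_const t t).congr_of_eventuallyEq (Eventually.of_forall fun s => ?_)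
  simp only
  congr 1
  funext l
  ring

theorem c3_col (hx : Spin ν x) (hrot : RotInv ν x) {ρ : ℕ → ℝ} {i : ℕ} (hi : i ∈ Ioo 0 k) {s : ℝ}
    (hs : 0 < s) (h : ∀ σ ∈ Set.Icc 0 s, Strict k fun l => ρ l + σ * if l = i then 1 else 0) :
    ∑ l ∈ Ioo 0 k, pS k ν x ρ l ≤
      ∑ l ∈ Ioo 0 k, pS k ν x (fun l => ρ l + s * if l = i then 1 else 0) l := by
  obtain ⟨hi0, hik⟩ := mem_Ioo.1 hi
  have hk : 0 < k := by omega
  have hk' : (0 : ℝ) < 1 / (2 * (k : ℝ)) := by positivity
  set e : ℕ → ℝ := fun l => if l = i then 1 else 0 with he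
  set o : ℕ → ℝ := fun l => if l = 0 then 0 else 1 with ho
  have e0 : e 0 = 0 := by simp [he, hi0.ne]
  have o0 : o 0 = 0 := by simp [ho]
  have pe : ∀ p : ℕ → ℝ, pairing k p e = 1 / (2 * (k : ℝ)) * p i := fun p => by
    rw [c3_pairing p e e0]; simp [he, hi0, hik]
  have po : ∀ p : ℕ → ℝ, pairing k p o = 1 / (2 * (k : ℝ)) * ∑ l ∈ Ioo 0 k, p l := fun p => by
    rw [c3_pairing p o o0, sum_congr rfl fun l hl => by
      simp only [ho, if_neg (mem_Ioo.1 hl).1.ne', mul_one]; rfl]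
  have h1 : ∀ t, 0 ≤ t → XN k ν x (fun l => ρ l + t * o l + s * e l) -
      XN k ν x (fun l => ρ l + s * e l) ≤
      XN k ν x (fun l => ρ l + t * o l + 0 * e l) - XN k ν x (fun l => ρ l + 0 * e l) := by
    intro t ht
    have hd : ∀ σ ∈ Set.Icc 0 s, HasDerivAt (fun σ => XN k ν x (fun l => ρ l + t * o l + σ * e l) -
        XN k ν x (fun l => ρ l + σ * e l))
        (-pairing k (pS k ν x fun l => ρ l + t * o l + σ * e l) e -
          -pairing k (pS k ν x fun l => ρ l + σ * e l) e) σ := fun σ hσ =>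
      (c3_XN hx hk e0 fun j hj => by
        have h2 := h σ hσ j hj
        have h3 : o j ≤ o (j + 1) := by simp only [ho]; split_ifs <;> simp_all
        simp only at h2 ⊢
        nlinarith).sub (c3_XN hx hk e0 (h σ hσ))
    obtain ⟨ξ, hξ, e1⟩ := exists_hasDerivAt_eq_slope _ _ hs
      (fun σ hσ => (hd σ hσ).continuousAt.continuousWithinAt)
      fun σ hσ => hd σ ⟨hσ.1.le, hσ.2.le⟩
    have h2 := pS_shift hx hrot (r := fun l => ρ l + ξ * e l) hi0 hik ht
      (h ξ ⟨hξ.1.le, hξ.2.le⟩ 0 (by omega)).le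
    have e2 : (fun l => if l = 0 then ρ l + ξ * e l else ρ l + ξ * e l + t) =
        fun l => ρ l + t * o l + ξ * e l := by
      funext l; simp only [ho]; split_ifs <;> ring
    rw [e2] at h2
    rw [pe, pe, sub_zero, eq_div_iff hs.ne'] at e1
    nlinarith [mul_nonneg (mul_nonneg hk'.le (sub_nonneg.2 h2)) hs.le]
  have d1 := XN_deriv hx hk (h s ⟨hs.le, le_rfl⟩) o0
  have d2 := XN_deriv hx hk (r := ρ) (by simpa using h 0 ⟨le_rfl, hs.le⟩) o0
  have h2 := c3_nonneg (d2.sub d1) (by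
    filter_upwards [self_mem_nhdsWithin] with t ht
    have h3 := h1 t (le_of_lt ht)
    simp only [zero_mul, add_zero, Pi.sub_apply, add_right_comm _ (t * o _)] at h3 ⊢
    linarith)
  rw [po, po] at h2
  nlinarith

theorem c3_psd (hx : Spin ν x) (hrot : RotInv ν x) (hk : 0 < k) {ρ u : ℕ → ℝ} (hρ : Strict k ρ)
    (h0 : u 0 = 0) : ∃ L, 0 ≤ L ∧
      HasDerivAt (fun t => pairing k (pS k ν x fun l => ρ l + t * u l) u) L 0 := by
  choose! A hA using fun l (hl : l < k) => pS_deriv hx hk hρ hl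
  have hs : ∀ θ : ℕ → ℝ, ∀ᶠ t : ℝ in 𝓝 0, Strict k fun l => ρ l + t * θ l := by
    intro θ
    have : ∀ᶠ t : ℝ in 𝓝 0, ∀ j ∈ range k, j + 1 < k →
        ρ j + t * θ j < ρ (j + 1) + t * θ (j + 1) := by
      refine (eventually_all_finset _).2 fun j _ => ?_
      by_cases hj : j + 1 < k
      · exact (ContinuousAt.eventually_lt (f := fun t : ℝ => ρ j + t * θ j)
          (g := fun t : ℝ => ρ (j + 1) + t * θ (j + 1)) (by fun_prop) (by fun_prop)
          (by simpa using hρ j hj)).mono fun _ h _ => h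
      · exact Eventually.of_forall fun _ h => absurd h hj
    exact this.mono fun t h j hj => h j (mem_range.2 (by omega)) hj
  have hE : ∀ l, ∀ i ∈ Ioo 0 k, ∑ j ∈ Ioo 0 k, A l j * (if j = i then 1 else 0) = A l i :=
    fun l i hi => by simp [mem_Ioo.1 hi]
  have hpsd := psd_of_M (Ioo 0 k) A (fun l hl i hi hne => by
      obtain ⟨hi0, hik⟩ := mem_Ioo.1 hi
      have d := hA l (mem_Ioo.1 hl).2 (fun j => if j = i then 1 else 0) (by simp [hi0.ne])
      rw [hE l i hi] at d
      refine neg_nonneg.1 (c3_nonneg d.neg ?_)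
      filter_upwards [self_mem_nhdsWithin,
        nhdsWithin_le_nhds (hs fun j => if j = i then 1 else 0)] with t ht hst
      have h1 := pS_anti hx hrot (r := ρ) hi0 hik (mem_Ioo.1 hl).2 hne (le_of_lt ht)
        (by have := hρ (i - 1) (by omega); rw [Nat.sub_add_cancel hi0] at this; exact this.le)
        fun h => by simpa using (hst i h).le
      have e : Function.update ρ i (ρ i + t) = fun j => ρ j + t * if j = i then 1 else 0 := by
        funext j
        by_cases h : j = i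
        · subst h; simp
        · simp [h]
      rw [e] at h1
      simpa using h1)
    (fun l hl => by
      obtain ⟨hl0, hlk⟩ := mem_Ioo.1 hl
      have d := hA l hlk (fun j => if j = 0 then 0 else 1) (by simp)
      rw [sum_congr rfl fun j hj => by rw [if_neg (mem_Ioo.1 hj).1.ne', mul_one]] at d
      refine c3_nonneg d ?_
      filter_upwards [self_mem_nhdsWithin] with t ht
      have h1 := pS_shift hx hrot (r := ρ) hl0 hlk (le_of_lt ht) (hρ 0 (by omega)).le
      have e : (fun i => if i = 0 then ρ i else ρ i + t) =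
          fun i => ρ i + t * if i = 0 then 0 else 1 := by
        funext i; split_ifs <;> ring
      rw [e] at h1
      simpa using h1)
    (fun i hi => by
      have d := HasDerivAt.fun_sum fun l (hl : l ∈ Ioo 0 k) => hA l (mem_Ioo.1 hl).2
        (fun j => if j = i then 1 else 0) (by simp [(mem_Ioo.1 hi).1.ne])
      simp only [hE _ i hi] at d
      refine c3_nonneg d ?_
      obtain ⟨δ, hδ, h1⟩ := Metric.eventually_nhds_iff.1 (hs fun j => if j = i then 1 else 0)
      filter_upwards [Ioo_mem_nhdsGT hδ] with s hs'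
      have := c3_col hx hrot hi hs'.1 fun σ hσ => h1 (by
        rw [Real.dist_eq, sub_zero, abs_of_nonneg hσ.1]; exact hσ.2.trans_lt hs'.2)
      simpa using this) u
  refine ⟨1 / (2 * (k : ℝ)) * ∑ l ∈ Ioo 0 k, (∑ j ∈ Ioo 0 k, A l j * u j) * u l,
    mul_nonneg (by positivity) (by simpa only [mul_comm] using hpsd), ?_⟩
  simp only [c3_pairing _ u h0]
  exact (HasDerivAt.fun_sum fun l hl => (hA l (mem_Ioo.1 hl).2 u h0).mul_const _).const_mul _

/-- concavity of the spin functional -/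
theorem conc (hx : Spin ν x) (hrot : RotInv ν x) (hk : 0 < k) {r r' : ℕ → ℝ} (hr : AdmR r)
    (hs : Strict k r) (hr' : AdmR r') :
    XN k ν x r' + pairing k (pS k ν x r) r' ≤ XN k ν x r + pairing k (pS k ν x r) r := by
  obtain ⟨t, ht, e⟩ := XN_mvt hx hk hr hr'
  set u : ℕ → ℝ := fun l => r' l - r l with hu
  have h0 : u 0 = 0 := by simp [hu, hr.1, hr'.1]
  have hd : ∀ τ ∈ Set.Icc 0 t, ∃ L, 0 ≤ L ∧
      HasDerivAt (fun t => pairing k (pS k ν x fun l => r l + t * u l) u) L τ := by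
    intro τ hτ
    obtain ⟨L, hL, d⟩ := c3_psd hx hrot hk (ρ := fun l => r l + τ * u l) (fun j hj => by
      have h1 := hs j hj
      have h2 := hr'.2 (Nat.le_succ j)
      have h3 : τ < 1 := hτ.2.trans_lt ht.2
      simp only [hu]
      nlinarith [mul_pos (sub_pos.2 h3) (sub_pos.2 h1), mul_nonneg hτ.1 (sub_nonneg.2 h2)]) h0
    rw [← sub_self τ] at d
    refine ⟨L, hL, (d.comp_sub_const τ τ).congr_of_eventuallyEq (Eventually.of_forall fun s => ?_)⟩
    simp only
    congr 2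
    funext l
    ring
  choose! L hL using hd
  obtain ⟨ξ, hξ, e1⟩ := exists_hasDerivAt_eq_slope _ _ ht.1
    (fun σ hσ => (hL σ hσ).2.continuousAt.continuousWithinAt) fun σ hσ => (hL σ ⟨hσ.1.le, hσ.2.le⟩).2
  have h1 := (hL ξ ⟨hξ.1.le, hξ.2.le⟩).1
  rw [e1, sub_zero, le_div_iff₀ ht.1] at h1
  simp only [zero_mul, add_zero] at h1
  have h2 : pairing k (pS k ν x r) u = pairing k (pS k ν x r) r' - pairing k (pS k ν x r) r := by
    simp only [pairing, hu, mul_sub, sum_sub_distrib]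
  linarith

end Vale.Agent.P157
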