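import Vale.Agent.P157.Defs

namespace Vale.Agent.P157

open MeasureTheory ProbabilityTheory Real Finset Filter Topology
open scoped ENNReal

theorem core1_integral_bind {α β : Type*} [MeasurableSpace α] [MeasurableSpace β] {μ : Measure α}
    {κ : α → Measure β} (hκ : Measurable κ) {g : β → ℝ} (hg : Integrable g (μ.bind κ)) :
    ∫ y, g y ∂μ.bind κ = ∫ x, ∫ y, g y ∂κ x ∂μ :=
  Kernel.integral_comp (κ := Kernel.const Unit μ) (η := ⟨κ, hκ⟩) (a := ()) hg

theorem core1_meas_param {α β γ : Type*} [MeasurableSpace α] [MeasurableSpace β]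
    [MeasurableSpace γ] {κ : β → Measure γ} (hκ : Measurable κ)
    (hp : ∀ b, IsProbabilityMeasure (κ b)) {G : α × γ → ℝ} (hG : Measurable G) :
    Measurable fun p : α × β => ∫ y, G (p.1, y) ∂κ p.2 := by
  let K : Kernel (α × β) γ := ⟨fun p => κ p.2, hκ.comp measurable_snd⟩
  have : IsMarkovKernel K := ⟨fun p => hp p.2⟩
  exact (StronglyMeasurable.integral_kernel_prod_right' (κ := K)
    (f := fun q : (α × β) × γ => G (q.1.1, q.2))
    (hG.comp (by fun_prop)).stronglyMeasurable).measurable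

theorem core1_abs_le {α : Type*} [MeasurableSpace α] {μ : Measure α} {g b : α → ℝ} {c : ℝ}
    (hc : 0 ≤ c) (h : ∀ x, |g x| ≤ b x) (hb : ∫⁻ x, ENNReal.ofReal (b x) ∂μ ≤ ENNReal.ofReal c) :
    |∫ x, g x ∂μ| ≤ c :=
  (norm_integral_le_lintegral_norm g).trans (ENNReal.toReal_le_of_le_ofReal hc
    ((lintegral_mono fun x => ENNReal.ofReal_le_ofReal (h x)).trans hb))

theorem core1_integrable {α : Type*} [MeasurableSpace α] {μ : Measure α} {g b : α → ℝ} {c : ℝ}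
    (hg : Measurable g) (h : ∀ x, |g x| ≤ b x)
    (hb : ∫⁻ x, ENNReal.ofReal (b x) ∂μ ≤ ENNReal.ofReal c) : Integrable g μ := by
  refine ⟨hg.aestronglyMeasurable, lt_of_le_of_lt (le_trans (lintegral_mono fun x => ?_) hb)
    ENNReal.ofReal_lt_top⟩
  rw [← ofReal_norm]
  exact ENNReal.ofReal_le_ofReal (h x)

theorem core1_mono {C C' x : ℝ} (hC : C ≤ C') (h0 : 0 ≤ C') (hx : 0 ≤ x) :
    C * exp (C * x) ≤ C' * exp (C' * x) :=
  mul_le_mul hC (exp_le_exp.2 (mul_le_mul_of_nonneg_right hC hx)) (exp_pos _).le h0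

namespace Sys

variable {S Ω : Type*} [MeasurableSpace S] [MeasurableSpace Ω] {Y : Sys S Ω}
  {Φ Φ' H g h : S → ℝ}

theorem Lin.bd (hY : Y.OK) (h : Y.Lin Φ) : ∃ C, 0 ≤ C ∧ ∀ s, |Φ s| ≤ C * (1 + Y.ν s) := by
  obtain ⟨C, hC⟩ := h.2
  exact ⟨|C|, abs_nonneg C, fun s => (hC s).trans (mul_le_mul_of_nonneg_right (le_abs_self C)
    (by linarith [hY.ν_nonneg s]))⟩

theorem Ex.bd (hY : Y.OK) (h : Y.Ex g) : ∃ C, 0 ≤ C ∧ ∀ s, |g s| ≤ C * exp (C * Y.ν s) := by
  obtain ⟨C, hC⟩ := h.2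
  exact ⟨|C|, abs_nonneg C, fun s => (hC s).trans
    (core1_mono (le_abs_self C) (abs_nonneg C) (hY.ν_nonneg s))⟩

theorem Lin.ex (hY : Y.OK) (h : Y.Lin Φ) : Y.Ex Φ := by
  obtain ⟨C, h0, hC⟩ := h.bd hY
  refine ⟨h.1, C + 1, fun s => (hC s).trans ?_⟩
  have h1 := hY.ν_nonneg s
  have h2 := add_one_le_exp ((C + 1) * Y.ν s)
  refine mul_le_mul (by linarith) ?_ (by linarith) (by linarith)
  nlinarith [mul_nonneg h0 h1]

theorem Lin.of_bdd (hY : Y.OK) (hm : Measurable Φ) (C : ℝ) (h : ∀ s, |Φ s| ≤ C) : Y.Lin Φ :=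
  ⟨hm, C, fun s => (h s).trans (le_mul_of_one_le_right ((abs_nonneg _).trans (h s))
    (by linarith [hY.ν_nonneg s]))⟩

theorem Lin.const (hY : Y.OK) (c : ℝ) : Y.Lin fun _ => c :=
  Lin.of_bdd hY measurable_const |c| fun _ => le_rfl

theorem Lin.add (h : Y.Lin Φ) (h' : Y.Lin Φ') : Y.Lin fun s => Φ s + Φ' s := by
  obtain ⟨C, hC⟩ := h.2
  obtain ⟨C', hC'⟩ := h'.2
  exact ⟨h.1.add h'.1, C + C', fun s => (abs_add_le _ _).trans (by linarith [hC s, hC' s])⟩

theorem Lin.sub (h : Y.Lin Φ) (h' : Y.Lin Φ') : Y.Lin fun s => Φ s - Φ' s := by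
  obtain ⟨C, hC⟩ := h.2
  obtain ⟨C', hC'⟩ := h'.2
  exact ⟨h.1.sub h'.1, C + C', fun s => (abs_sub _ _).trans (by linarith [hC s, hC' s])⟩

theorem Lin.const_mul (h : Y.Lin Φ) (c : ℝ) : Y.Lin fun s => c * Φ s := by
  obtain ⟨C, hC⟩ := h.2
  refine ⟨h.1.const_mul c, |c| * C, fun s => ?_⟩
  rw [abs_mul, mul_assoc]
  exact mul_le_mul_of_nonneg_left (hC s) (abs_nonneg c)

theorem Lin.abs (h : Y.Lin Φ) : Y.Lin fun s => |Φ s| := by
  obtain ⟨C, hC⟩ := h.2
  exact ⟨continuous_abs.measurable.comp h.1, C, fun s => by rw [abs_abs]; exact hC s⟩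

theorem Lin.sum (hY : Y.OK) {α : Type*} (t : Finset α) {Φ : α → S → ℝ}
    (h : ∀ a ∈ t, Y.Lin (Φ a)) : Y.Lin fun s => ∑ a ∈ t, Φ a s := by
  classical
  induction t using Finset.induction_on with
  | empty => simpa using Lin.const hY 0
  | insert a t ha ih =>
    simp only [sum_insert ha]
    exact (h a (mem_insert_self _ _)).add (ih fun b hb => h b (mem_insert_of_mem hb))

theorem Lin.ex_exp (hY : Y.OK) (h : Y.Lin Φ) : Y.Ex fun s => exp (Φ s) := by
  obtain ⟨C, h0, hC⟩ := h.bd hY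
  refine ⟨h.1.exp, exp C, fun s => ?_⟩
  rw [abs_of_pos (exp_pos _), ← exp_add]
  refine exp_le_exp.2 ((le_abs_self _).trans ((hC s).trans ?_))
  nlinarith [add_one_le_exp C, hY.ν_nonneg s]

theorem Ex.of_bdd (hY : Y.OK) (hm : Measurable g) (C : ℝ) (h : ∀ s, |g s| ≤ C) : Y.Ex g :=
  (Lin.of_bdd hY hm C h).ex hY

theorem Ex.const (hY : Y.OK) (c : ℝ) : Y.Ex fun _ => c := (Lin.const hY c).ex hY

theorem Ex.of_le (hm : Measurable g) (hh : Y.Ex h) (hle : ∀ s, |g s| ≤ |h s|) : Y.Ex g := by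
  obtain ⟨C, hC⟩ := hh.2
  exact ⟨hm, C, fun s => (hle s).trans (hC s)⟩

theorem Ex.add (hY : Y.OK) (hg : Y.Ex g) (hh : Y.Ex h) : Y.Ex fun s => g s + h s := by
  obtain ⟨C, h0, hC⟩ := hg.bd hY
  obtain ⟨C', h0', hC'⟩ := hh.bd hY
  refine ⟨hg.1.add hh.1, C + C', fun s => (abs_add_le _ _).trans ?_⟩
  have h1 := hY.ν_nonneg s
  rw [add_mul C C' (exp _)]
  refine add_le_add ((hC s).trans ?_) ((hC' s).trans ?_) <;> gcongr <;> linarith

theorem Ex.mul (hY : Y.OK) (hg : Y.Ex g) (hh : Y.Ex h) : Y.Ex fun s => g s * h s := by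
  obtain ⟨C, h0, hC⟩ := hg.bd hY
  obtain ⟨C', h0', hC'⟩ := hh.bd hY
  refine ⟨hg.1.mul hh.1, C * C' + (C + C'), fun s => ?_⟩
  have h1 := hY.ν_nonneg s
  have h2 := mul_nonneg h0 h0'
  calc |g s * h s| ≤ C * exp (C * Y.ν s) * (C' * exp (C' * Y.ν s)) := by
        rw [abs_mul]
        exact mul_le_mul (hC s) (hC' s) (abs_nonneg _) (by positivity)
    _ = C * C' * exp ((C + C') * Y.ν s) := by rw [add_mul, exp_add]; ring
    _ ≤ _ := mul_le_mul (by linarith) (exp_le_exp.2 (mul_le_mul_of_nonneg_right (by linarith) h1))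
        (exp_pos _).le (by positivity)

theorem Ex.const_mul (hY : Y.OK) (hg : Y.Ex g) (c : ℝ) : Y.Ex fun s => c * g s :=
  (Ex.const hY c).mul hY hg

theorem Ex.sub (hY : Y.OK) (hg : Y.Ex g) (hh : Y.Ex h) : Y.Ex fun s => g s - h s := by
  simpa only [neg_mul, one_mul, ← sub_eq_add_neg] using hg.add hY (hh.const_mul hY (-1))

theorem Ex.sq (hY : Y.OK) (hg : Y.Ex g) : Y.Ex fun s => g s ^ 2 := by
  simpa only [pow_two] using hg.mul hY hg

theorem Ex.abs (hg : Y.Ex g) : Y.Ex fun s => |g s| :=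
  Ex.of_le (continuous_abs.measurable.comp hg.1) hg fun s => (abs_abs _).le

theorem Ex.sum (hY : Y.OK) {α : Type*} (t : Finset α) {g : α → S → ℝ}
    (h : ∀ a ∈ t, Y.Ex (g a)) : Y.Ex fun s => ∑ a ∈ t, g a s := by
  classical
  induction t using Finset.induction_on with
  | empty => simpa using Ex.const hY 0
  | insert a t ha ih =>
    simp only [sum_insert ha]
    exact (h a (mem_insert_self _ _)).add hY (ih fun b hb => h b (mem_insert_of_mem hb))

theorem OK.meas_as (hY : Y.OK) (j : ℕ) (s : S) : Measurable (Y.a j s) :=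
  (hY.meas_a j).comp measurable_prodMk_left

theorem Ex.integrable_step (hY : Y.OK) (hg : Y.Ex g) (j : ℕ) (s : S) :
    Integrable (fun w => g (Y.a j s w)) Y.μ := by
  obtain ⟨C, h0, hC⟩ := hg.bd hY
  refine ((hY.int_n j C).const_mul (C * exp (C * Y.ν s))).mono'
    (hg.1.comp (hY.meas_as j s)).aestronglyMeasurable (ae_of_all _ fun w => (hC _).trans ?_)
  rw [mul_assoc, ← exp_add, ← mul_add]
  gcongr
  exact hY.ν_a j s w

theorem integrable_exp_step (hY : Y.OK) (hΦ : Y.Lin Φ) (j : ℕ) (c : ℝ) (s : S) :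
    Integrable (fun w => exp (c * Φ (Y.a j s w))) Y.μ :=
  ((hΦ.const_mul c).ex_exp hY).integrable_step hY j s

theorem exp_T (hY : Y.OK) (hΦ : Y.Lin Φ) (j : ℕ) (s : S) :
    exp (Y.ζ j * Y.T j Φ s) = ∫ w, exp (Y.ζ j * Φ (Y.a j s w)) ∂Y.μ := by
  have := hY.prob
  rw [T, mul_inv_cancel_left₀ (hY.ζ_pos j).ne',
    exp_log (integral_exp_pos (integrable_exp_step hY hΦ j _ s))]

theorem measurable_T (hY : Y.OK) (hΦ : Measurable Φ) (j : ℕ) : Measurable (Y.T j Φ) := by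
  have := hY.prob
  refine Measurable.const_mul (Measurable.log ?_) _
  exact (StronglyMeasurable.integral_prod_right'
    (f := fun p : S × Ω => exp (Y.ζ j * Φ (Y.a j p.1 p.2)))
    ((hΦ.comp (hY.meas_a j)).const_mul _).exp.stronglyMeasurable).measurable

theorem core1_T_bd (hY : Y.OK) (j : ℕ) {C : ℝ} (hC : 0 ≤ C) : ∃ C' : ℝ, 0 ≤ C' ∧ ∀ Φ : S → ℝ,
    Measurable Φ → (∀ s, |Φ s| ≤ C * (1 + Y.ν s)) → ∀ s, |Y.T j Φ s| ≤ C' * (1 + Y.ν s) := by
  have := hY.prob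
  have hζ := hY.ζ_pos j
  set A := ∫ w, exp (Y.ζ j * C * Y.n j w) ∂Y.μ
  set B := ∫ w, exp (-(Y.ζ j * C) * Y.n j w) ∂Y.μ
  have hA : 0 < A := integral_exp_pos (hY.int_n j _)
  have hB : 0 < B := integral_exp_pos (hY.int_n j _)
  refine ⟨C + (|log A| + |log B|) / Y.ζ j, by positivity, fun Φ hm hb s => ?_⟩
  have hΦ : Y.Lin Φ := ⟨hm, C, hb⟩
  have hi := integrable_exp_step hY hΦ j (Y.ζ j) s
  have hν := hY.ν_nonneg s
  have hb' : ∀ w, |Φ (Y.a j s w)| ≤ C * (1 + Y.ν s) + C * Y.n j w := fun w =>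
    (hb _).trans (by nlinarith [hY.ν_a j s w])
  have h1 : Y.ζ j * Y.T j Φ s ≤ Y.ζ j * (C * (1 + Y.ν s)) + log A := by
    rw [← exp_le_exp, exp_T hY hΦ, exp_add, exp_log hA, ← integral_const_mul]
    refine integral_mono hi ((hY.int_n j _).const_mul _) fun w => ?_
    simp only [← exp_add]
    exact exp_le_exp.2 (by nlinarith [(abs_le.1 (hb' w)).2])
  have h2 : -(Y.ζ j * (C * (1 + Y.ν s))) + log B ≤ Y.ζ j * Y.T j Φ s := by
    rw [← exp_le_exp, exp_T hY hΦ, exp_add, exp_log hB, ← integral_const_mul]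
    refine integral_mono ((hY.int_n j _).const_mul _) hi fun w => ?_
    simp only [← exp_add]
    exact exp_le_exp.2 (by nlinarith [(abs_le.1 (hb' w)).1])
  refine le_of_mul_le_mul_left ?_ hζ
  have h3 : Y.ζ j * ((C + (|log A| + |log B|) / Y.ζ j) * (1 + Y.ν s)) =
      Y.ζ j * (C * (1 + Y.ν s)) + (|log A| + |log B|) * (1 + Y.ν s) := by field_simp
  have h4 : |log A| + |log B| ≤ (|log A| + |log B|) * (1 + Y.ν s) :=
    le_mul_of_one_le_right (by positivity) (by linarith)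
  rw [h3, ← abs_of_pos hζ, ← abs_mul, abs_of_pos hζ, abs_le]
  constructor <;> linarith [le_abs_self (log A), neg_abs_le (log B), abs_nonneg (log A),
    abs_nonneg (log B)]

theorem lin_T (hY : Y.OK) (hΦ : Y.Lin Φ) (j : ℕ) : Y.Lin (Y.T j Φ) := by
  obtain ⟨C, h0, hC⟩ := hΦ.bd hY
  obtain ⟨C', -, h⟩ := core1_T_bd hY j h0
  exact ⟨measurable_T hY hΦ.1 j, C', h Φ hΦ.1 hC⟩

theorem lin_X (hY : Y.OK) (hH : Y.Lin H) (n j : ℕ) : Y.Lin (Y.X n j H) := by
  induction n generalizing j with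
  | zero => exact hH
  | succ n ih => exact lin_T hY (ih (j + 1)) j

theorem core1_dens (hY : Y.OK) (hΦ : Y.Lin Φ) (j : ℕ) : Measurable fun p : S × Ω =>
    ENNReal.ofReal (exp (Y.ζ j * (Φ (Y.a j p.1 p.2) - Y.T j Φ p.1))) :=
  (((hΦ.1.comp (hY.meas_a j)).sub ((measurable_T hY hΦ.1 j).comp measurable_fst)).const_mul
    _).exp.ennreal_ofReal

theorem lintegral_stepM (hY : Y.OK) (hΦ : Y.Lin Φ) (j : ℕ) (s : S) {g : S → ℝ≥0∞}
    (hg : Measurable g) : ∫⁻ s', g s' ∂Y.stepM j Φ s = ∫⁻ w,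
      ENNReal.ofReal (exp (Y.ζ j * (Φ (Y.a j s w) - Y.T j Φ s))) * g (Y.a j s w) ∂Y.μ := by
  rw [stepM, lintegral_map hg (hY.meas_as j s)]
  exact lintegral_withDensity_eq_lintegral_mul _
    ((core1_dens hY hΦ j).comp measurable_prodMk_left) (hg.comp (hY.meas_as j s))

theorem integral_stepM (hY : Y.OK) (hΦ : Y.Lin Φ) (j : ℕ) (s : S) (hg : Measurable g) :
    ∫ s', g s' ∂Y.stepM j Φ s =
      ∫ w, exp (Y.ζ j * (Φ (Y.a j s w) - Y.T j Φ s)) * g (Y.a j s w) ∂Y.μ := by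
  rw [stepM, integral_map (hY.meas_as j s).aemeasurable hg.aestronglyMeasurable]
  refine (integral_withDensity_eq_integral_toReal_smul
    ((core1_dens hY hΦ j).comp measurable_prodMk_left)
    (ae_of_all _ fun w => ENNReal.ofReal_lt_top) _).trans ?_
  simp only [Function.comp_apply, ENNReal.toReal_ofReal (exp_pos _).le, smul_eq_mul]

theorem stepM_prob (hY : Y.OK) (hΦ : Y.Lin Φ) (j : ℕ) (s : S) :
    IsProbabilityMeasure (Y.stepM j Φ s) := by
  constructor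
  rw [← lintegral_one, lintegral_stepM hY hΦ j s measurable_const]
  simp only [mul_one, mul_sub, exp_sub]
  rw [← ofReal_integral_eq_lintegral_ofReal ((integrable_exp_step hY hΦ j _ s).div_const _)
    (ae_of_all _ fun w => by positivity), integral_div, ← exp_T hY hΦ, div_self (exp_pos _).ne',
    ENNReal.ofReal_one]

theorem measurable_stepM (hY : Y.OK) (hΦ : Y.Lin Φ) (j : ℕ) : Measurable (Y.stepM j Φ) := by
  have := hY.prob
  refine Measure.measurable_of_measurable_coe _ fun A hA => ?_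
  have hA' : Measurable (A.indicator (1 : S → ℝ≥0∞)) := measurable_one.indicator hA
  simp only [← lintegral_indicator_one hA, lintegral_stepM hY hΦ j _ hA']
  exact Measurable.lintegral_prod_right' (f := fun p : S × Ω =>
    ENNReal.ofReal (exp (Y.ζ j * (Φ (Y.a j p.1 p.2) - Y.T j Φ p.1))) *
      A.indicator (1 : S → ℝ≥0∞) (Y.a j p.1 p.2))
    ((core1_dens hY hΦ j).mul (hA'.comp (hY.meas_a j)))

theorem core1_step_bd (hY : Y.OK) (j : ℕ) {C B : ℝ} (hC : 0 ≤ C) (hB : 0 ≤ B) :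
    ∃ C' : ℝ, 0 ≤ C' ∧ ∀ Φ : S → ℝ, Measurable Φ → (∀ s, |Φ s| ≤ C * (1 + Y.ν s)) → ∀ s,
      ∫⁻ s', ENNReal.ofReal (B * exp (B * Y.ν s')) ∂Y.stepM j Φ s ≤
        ENNReal.ofReal (C' * exp (C' * Y.ν s)) := by
  obtain ⟨C1, h1, hT⟩ := core1_T_bd hY j hC
  have hζ := hY.ζ_pos j
  set A := ∫ w, exp ((Y.ζ j * C + B) * Y.n j w) ∂Y.μ
  have hA : 0 ≤ A := integral_nonneg fun w => (exp_pos _).le
  refine ⟨B * exp (Y.ζ j * (C + C1)) * A + (Y.ζ j * (C + C1) + B), by positivity,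
    fun Φ hm hb s => ?_⟩
  have hν := hY.ν_nonneg s
  rw [lintegral_stepM hY ⟨hm, C, hb⟩ j s
    ((hY.meas_ν.const_mul B).exp.const_mul B).ennreal_ofReal]
  calc _ ≤ ∫⁻ w, ENNReal.ofReal (B * exp (Y.ζ j * (C + C1)) *
        exp ((Y.ζ j * (C + C1) + B) * Y.ν s) * exp ((Y.ζ j * C + B) * Y.n j w)) ∂Y.μ := by
        refine lintegral_mono fun w => ?_
        rw [← ENNReal.ofReal_mul (exp_pos _).le]
        refine ENNReal.ofReal_le_ofReal ?_
        rw [mul_left_comm, mul_assoc, mul_assoc, ← exp_add, ← exp_add, ← exp_add]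
        refine mul_le_mul_of_nonneg_left (exp_le_exp.2 ?_) hB
        have a1 := hY.ν_a j s w
        have a2 : Φ (Y.a j s w) - Y.T j Φ s ≤ C * (1 + Y.ν s + Y.n j w) + C1 * (1 + Y.ν s) := by
          nlinarith [(abs_le.1 (hb (Y.a j s w))).2, (abs_le.1 (hT Φ hm hb s)).1]
        nlinarith [mul_le_mul_of_nonneg_left a2 hζ.le, mul_le_mul_of_nonneg_left a1 hB]
    _ = ENNReal.ofReal (B * exp (Y.ζ j * (C + C1)) * A *
        exp ((Y.ζ j * (C + C1) + B) * Y.ν s)) := by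
        rw [← ofReal_integral_eq_lintegral_ofReal ((hY.int_n j _).const_mul _)
          (ae_of_all _ fun w => by positivity), integral_const_mul, mul_right_comm]
    _ ≤ _ := by
        have a3 : 0 ≤ B * exp (Y.ζ j * (C + C1)) * A := by positivity
        have a4 : 0 ≤ Y.ζ j * (C + C1) + B := by positivity
        exact ENNReal.ofReal_le_ofReal (mul_le_mul (by linarith)
          (exp_le_exp.2 (mul_le_mul_of_nonneg_right (by linarith) (hY.ν_nonneg s)))
          (exp_pos _).le (by linarith))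

theorem Ex.integrable_stepM (hY : Y.OK) (hΦ : Y.Lin Φ) (hg : Y.Ex g) (j : ℕ) (s : S) :
    Integrable g (Y.stepM j Φ s) := by
  obtain ⟨C, h0, hC⟩ := hΦ.bd hY
  obtain ⟨B, h0', hB⟩ := hg.bd hY
  obtain ⟨C', -, h⟩ := core1_step_bd hY j h0 h0'
  exact core1_integrable hg.1 hB (h Φ hΦ.1 hC s)

theorem ex_stepM (hY : Y.OK) (hΦ : Y.Lin Φ) (hg : Y.Ex g) (j : ℕ) :
    Y.Ex fun s => ∫ s', g s' ∂Y.stepM j Φ s := by
  obtain ⟨C, h0, hC⟩ := hΦ.bd hY
  obtain ⟨B, h0', hB⟩ := hg.bd hY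
  obtain ⟨C', h1, h⟩ := core1_step_bd hY j h0 h0'
  refine ⟨(core1_meas_param (α := Unit) (measurable_stepM hY hΦ j) (stepM_prob hY hΦ j)
    (G := fun p => g p.2) (hg.1.comp measurable_snd)).comp (measurable_prodMk_left (x := ())),
    C', fun s => core1_abs_le (by positivity) hB (h Φ hΦ.1 hC s)⟩

theorem measurable_m (hY : Y.OK) (hH : Y.Lin H) (n j : ℕ) : Measurable (Y.m n j H) := by
  induction n generalizing j with
  | zero => exact Measure.measurable_dirac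
  | succ n ih =>
    exact (Measure.measurable_bind' (ih (j + 1))).comp (measurable_stepM hY (lin_X hY hH _ _) j)

theorem m_prob (hY : Y.OK) (hH : Y.Lin H) (n j : ℕ) (s : S) :
    IsProbabilityMeasure (Y.m n j H s) := by
  induction n generalizing j s with
  | zero => exact Measure.dirac.isProbabilityMeasure
  | succ n ih =>
    have := stepM_prob hY (lin_X hY hH n (j + 1)) j s
    exact isProbabilityMeasure_bind (measurable_m hY hH n (j + 1)).aemeasurable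
      (ae_of_all _ (ih (j + 1)))

theorem core1_unif (hY : Y.OK) (n j : ℕ) {C B : ℝ} (hC : 0 ≤ C) (hB : 0 ≤ B) :
    ∃ C' : ℝ, 0 ≤ C' ∧ ∀ H : S → ℝ, Measurable H →
    (∀ s, |H s| ≤ C * (1 + Y.ν s)) → ∀ s, |Y.X n j H s| ≤ C' * (1 + Y.ν s) ∧
      ∫⁻ s', ENNReal.ofReal (B * exp (B * Y.ν s')) ∂Y.m n j H s ≤
        ENNReal.ofReal (C' * exp (C' * Y.ν s)) := by
  induction n generalizing j with
  | zero =>
    refine ⟨C + B, by positivity, fun H hm hb s => ⟨(hb s).trans ?_, ?_⟩⟩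
    · nlinarith [hY.ν_nonneg s]
    · rw [m, lintegral_dirac' _ ((hY.meas_ν.const_mul B).exp.const_mul B).ennreal_ofReal]
      exact ENNReal.ofReal_le_ofReal (core1_mono (by linarith) (by positivity) (hY.ν_nonneg s))
  | succ n ih =>
    obtain ⟨C1, h1, H1⟩ := ih (j + 1)
    obtain ⟨C2, h2, H2⟩ := core1_T_bd hY j h1
    obtain ⟨C3, h3, H3⟩ := core1_step_bd hY j h1 h1
    refine ⟨C2 + C3, by positivity, fun H hm hb s => ?_⟩
    have hX := (lin_X hY ⟨hm, C, hb⟩ n (j + 1)).1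
    refine ⟨(H2 _ hX (fun s => (H1 H hm hb s).1) s).trans (by nlinarith [hY.ν_nonneg s]), ?_⟩
    refine (Measure.lintegral_bind_le _ _ _).trans ((lintegral_mono fun s' =>
      (H1 H hm hb s').2).trans ((H3 _ hX (fun s => (H1 H hm hb s).1) s).trans ?_))
    exact ENNReal.ofReal_le_ofReal (core1_mono (by linarith) (by positivity) (hY.ν_nonneg s))

/-- growth bounds that are uniform in the Hamiltonian -/
theorem unif (hY : Y.OK) (n j : ℕ) (C : ℝ) : ∃ C' : ℝ, 0 ≤ C' ∧ ∀ H : S → ℝ, Measurable H →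
    (∀ s, |H s| ≤ C * (1 + Y.ν s)) → ∀ s, |Y.X n j H s| ≤ C' * (1 + Y.ν s) ∧
      ∫⁻ s', ENNReal.ofReal (exp (C * Y.ν s')) ∂Y.m n j H s ≤
        ENNReal.ofReal (C' * exp (C' * Y.ν s)) := by
  obtain ⟨C', h0, h⟩ := core1_unif hY n j (abs_nonneg C) (B := |C| + 1) (by positivity)
  refine ⟨C', h0, fun H hm hb s => ?_⟩
  have h1 := h H hm (fun s => (hb s).trans (mul_le_mul_of_nonneg_right (le_abs_self C)
    (by linarith [hY.ν_nonneg s]))) s
  refine ⟨h1.1, le_trans (lintegral_mono fun s' => ENNReal.ofReal_le_ofReal ?_) h1.2⟩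
  refine le_trans (exp_le_exp.2 (mul_le_mul_of_nonneg_right
    (by linarith [le_abs_self C] : C ≤ |C| + 1) (hY.ν_nonneg s'))) ?_
  exact le_mul_of_one_le_left (exp_pos _).le (by linarith [abs_nonneg C])

theorem Ex.integrable_m (hY : Y.OK) (hH : Y.Lin H) (hg : Y.Ex g) (n j : ℕ) (s : S) :
    Integrable g (Y.m n j H s) := by
  obtain ⟨C, h0, hC⟩ := hH.bd hY
  obtain ⟨B, h0', hB⟩ := hg.bd hY
  obtain ⟨C', -, h⟩ := core1_unif hY n j h0 h0'
  exact core1_integrable hg.1 hB (h H hH.1 hC s).2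

theorem measurable_P_param (hY : Y.OK) (hH : Y.Lin H) (n j : ℕ) {α : Type*} [MeasurableSpace α]
    {G : α × S → ℝ} (hG : Measurable G) :
    Measurable fun p : α × S => ∫ s', G (p.1, s') ∂Y.m n j H p.2 :=
  core1_meas_param (measurable_m hY hH n j) (m_prob hY hH n j) hG

theorem measurable_P (hY : Y.OK) (hH : Y.Lin H) (hg : Measurable g) (n j : ℕ) :
    Measurable (Y.P n j H g) :=
  (measurable_P_param hY hH n j (α := Unit) (G := fun p => g p.2)
    (hg.comp measurable_snd)).comp (measurable_prodMk_left (x := ()))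

theorem ex_P (hY : Y.OK) (hH : Y.Lin H) (hg : Y.Ex g) (n j : ℕ) : Y.Ex (Y.P n j H g) := by
  obtain ⟨C, h0, hC⟩ := hH.bd hY
  obtain ⟨B, h0', hB⟩ := hg.bd hY
  obtain ⟨C', h1, h⟩ := core1_unif hY n j h0 h0'
  exact ⟨measurable_P hY hH hg.1 n j, C', fun s =>
    core1_abs_le (by positivity) hB (h H hH.1 hC s).2⟩

theorem P_zero (hg : Measurable g) (j : ℕ) : Y.P 0 j H g = g :=
  funext fun s => integral_dirac' g s hg.stronglyMeasurable

theorem P_succ (hY : Y.OK) (hH : Y.Lin H) (hg : Y.Ex g) (n j : ℕ) (s : S) :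
    Y.P (n + 1) j H g s = ∫ s', Y.P n (j + 1) H g s' ∂Y.stepM j (Y.X n (j + 1) H) s :=
  core1_integral_bind (measurable_m hY hH n (j + 1)) (hg.integrable_m hY hH (n + 1) j s)

theorem X_add (l n j : ℕ) : Y.X (l + n) j H = Y.X l j (Y.X n (j + l) H) := by
  induction l generalizing j with
  | zero => rw [Nat.zero_add]; rfl
  | succ l ih => rw [Nat.add_right_comm, X, X, ih, Nat.add_right_comm j 1 l, Nat.add_assoc j l 1]

theorem m_add (hY : Y.OK) (hH : Y.Lin H) (l n j : ℕ) (s : S) :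
    Y.m (l + n) j H s = (Y.m l j (Y.X n (j + l) H) s).bind (Y.m n (j + l) H) := by
  induction l generalizing j s with
  | zero => rw [Nat.zero_add, m, Measure.dirac_bind (measurable_m hY hH _ _)]; rfl
  | succ l ih =>
    rw [Nat.add_right_comm, m, m, X_add, Measure.bind_bind
      (measurable_m hY (lin_X hY hH _ _) _ _).aemeasurable (measurable_m hY hH _ _).aemeasurable,
      Nat.add_right_comm j 1 l, Nat.add_assoc j l 1]
    congr 1
    funext s'
    rw [ih, Nat.add_right_comm j 1 l, Nat.add_assoc j l 1]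

theorem P_add (hY : Y.OK) (hH : Y.Lin H) (hg : Y.Ex g) (l n j : ℕ) (s : S) :
    Y.P (l + n) j H g s = Y.P l j (Y.X n (j + l) H) (Y.P n (j + l) H g) s := by
  have h := hg.integrable_m hY hH (l + n) j s
  rw [m_add hY hH] at h
  rw [P, m_add hY hH]
  exact core1_integral_bind (measurable_m hY hH n (j + l)) h

theorem core1_T_add (hY : Y.OK) (hΦ : Y.Lin Φ) (c : ℝ) (j : ℕ) :
    Y.T j (fun s => Φ s + c) = fun s => Y.T j Φ s + c := by
  funext s
  refine mul_left_cancel₀ (hY.ζ_pos j).ne' (exp_injective ?_)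
  rw [exp_T hY (hΦ.add (Lin.const hY c)), mul_add, exp_add, exp_T hY hΦ, ← integral_mul_const]
  simp only [mul_add, exp_add]

theorem X_add_const (hY : Y.OK) (hH : Y.Lin H) (c : ℝ) (n j : ℕ) :
    Y.X n j (fun s => H s + c) = fun s => Y.X n j H s + c := by
  induction n generalizing j with
  | zero => rfl
  | succ n ih => rw [X, ih, core1_T_add hY (lin_X hY hH _ _)]; rfl

theorem m_add_const (hY : Y.OK) (hH : Y.Lin H) (c : ℝ) (n j : ℕ) :
    Y.m n j (fun s => H s + c) = Y.m n j H := by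
  induction n generalizing j with
  | zero => rfl
  | succ n ih =>
    funext s
    rw [m, m, ih, X_add_const hY hH, stepM, stepM, core1_T_add hY (lin_X hY hH _ _)]
    simp only [add_sub_add_right_eq_sub]

theorem X_const (hY : Y.OK) (c : ℝ) (n j : ℕ) : Y.X n j (fun _ => c) = fun _ => c := by
  have := hY.prob
  induction n generalizing j with
  | zero => rfl
  | succ n ih =>
    funext s
    rw [X, ih, T]
    simp [inv_mul_cancel_left₀ (hY.ζ_pos j).ne']

end Sys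

end Vale.Agent.P157
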