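import Vale.Agent.P157.Core2A

namespace Vale.Agent.P157

open MeasureTheory ProbabilityTheory Real Finset Filter Topology
open scoped ENNReal

namespace Sys

variable {S Ω : Type*} [MeasurableSpace S] [MeasurableSpace Ω] {Y : Sys S Ω}
  {H H' g g' h : S → ℝ} {G G' : S × S → ℝ}

/-! two replicas -/

theorem Ex2.bd (hY : Y.OK) (h : Y.Ex2 G) :
    ∃ C, 0 ≤ C ∧ ∀ p, |G p| ≤ C * exp (C * (Y.ν p.1 + Y.ν p.2)) := by
  obtain ⟨C, hC⟩ := h.2
  exact ⟨max C 0, le_max_right _ _, fun p => (hC p).trans (c2_mono_C (le_max_left _ _)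
    (le_max_right _ _) (add_nonneg (hY.ν_nonneg _) (hY.ν_nonneg _)))⟩

theorem Ex.fst (hY : Y.OK) (hg : Y.Ex g) : Y.Ex2 fun p => g p.1 := by
  obtain ⟨hm, C, hC⟩ := hg
  refine ⟨hm.comp measurable_fst, max C 0, fun p => (hC p.1).trans ?_⟩
  refine (c2_mono_C (le_max_left C 0) (le_max_right _ _) (hY.ν_nonneg _)).trans ?_
  have := hY.ν_nonneg p.2
  gcongr
  linarith
theorem Ex.snd (hY : Y.OK) (hg : Y.Ex g) : Y.Ex2 fun p => g p.2 := by
  obtain ⟨hm, C, hC⟩ := hg
  refine ⟨hm.comp measurable_snd, max C 0, fun p => (hC p.2).trans ?_⟩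
  refine (c2_mono_C (le_max_left C 0) (le_max_right _ _) (hY.ν_nonneg _)).trans ?_
  have := hY.ν_nonneg p.1
  gcongr
  linarith
theorem Ex2.of_bdd (hY : Y.OK) (hm : Measurable G) (C : ℝ) (h : ∀ p, |G p| ≤ C) : Y.Ex2 G := by
  refine ⟨hm, max C 0, fun p => (h p).trans ((le_max_left C 0).trans ?_)⟩
  have h0 := add_nonneg (hY.ν_nonneg p.1) (hY.ν_nonneg p.2)
  exact le_mul_of_one_le_right (le_max_right _ _)
    (one_le_exp (mul_nonneg (le_max_right _ _) h0))
theorem Ex2.add (hY : Y.OK) (h : Y.Ex2 G) (h' : Y.Ex2 G') : Y.Ex2 fun p => G p + G' p := by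
  obtain ⟨C, h0, hC⟩ := h.bd hY
  obtain ⟨C', h0', hC'⟩ := h'.bd hY
  refine ⟨h.1.add h'.1, C + C', fun p => (abs_add_le _ _).trans ?_⟩
  have hx := add_nonneg (hY.ν_nonneg p.1) (hY.ν_nonneg p.2)
  rw [add_mul C C' (exp _)]
  refine add_le_add ((hC p).trans ?_) ((hC' p).trans ?_)
  · gcongr
    linarith
  · gcongr
    linarith
theorem Ex2.mul (hY : Y.OK) (h : Y.Ex2 G) (h' : Y.Ex2 G') : Y.Ex2 fun p => G p * G' p := by
  obtain ⟨C, h0, hC⟩ := h.bd hY
  obtain ⟨C', h0', hC'⟩ := h'.bd hY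
  refine ⟨h.1.mul h'.1, C * C' + (C + C'), fun p => ?_⟩
  have hx := add_nonneg (hY.ν_nonneg p.1) (hY.ν_nonneg p.2)
  have h1 : 0 ≤ C * C' := mul_nonneg h0 h0'
  rw [abs_mul]
  calc _ ≤ C * exp (C * (Y.ν p.1 + Y.ν p.2)) * (C' * exp (C' * (Y.ν p.1 + Y.ν p.2))) :=
        mul_le_mul (hC p) (hC' p) (abs_nonneg _) (by positivity)
    _ = C * C' * exp ((C + C') * (Y.ν p.1 + Y.ν p.2)) := by rw [add_mul C C', exp_add]; ring
    _ ≤ _ := mul_le_mul (by linarith) (exp_le_exp.2 (mul_le_mul_of_nonneg_right (by linarith) hx))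
        (exp_pos _).le (by positivity)
theorem Ex2.const_mul (hY : Y.OK) (h : Y.Ex2 G) (c : ℝ) : Y.Ex2 fun p => c * G p := by
  exact (Ex2.of_bdd hY measurable_const |c| fun _ => le_rfl).mul hY h
theorem Ex2.sum (hY : Y.OK) {α : Type*} (t : Finset α) {G : α → S × S → ℝ}
    (h : ∀ a ∈ t, Y.Ex2 (G a)) : Y.Ex2 fun p => ∑ a ∈ t, G a p := by
  classical
  induction t using Finset.induction_on with
  | empty => exact Ex2.of_bdd hY (by simp) 0 (by simp)
  | insert a t ha ih =>
    simp only [sum_insert ha]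
    exact (h a (mem_insert_self _ _)).add hY (ih fun b hb => h b (mem_insert_of_mem hb))
theorem measurable_mm (hY : Y.OK) (hH : Y.Lin H) (n j : ℕ) :
    Measurable fun s => (Y.m n j H s).prod (Y.m n j H s) :=
  c2_measurable_prod (measurable_m hY hH n j) (m_prob hY hH n j)

theorem pr_prob (hY : Y.OK) (hH : Y.Lin H) (l n j : ℕ) (s : S) :
    IsProbabilityMeasure (Y.pr l n j H s) := by
  have := m_prob hY (lin_X hY hH n (j + l)) l j s
  exact isProbabilityMeasure_bind (measurable_mm hY hH n (j + l)).aemeasurable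
    (Eventually.of_forall fun s' => by
      have := m_prob hY hH n (j + l) s'
      infer_instance)
theorem lintegral_pr (hY : Y.OK) (hH : Y.Lin H) (l n j : ℕ) (s : S) {G : S × S → ℝ≥0∞}
    (hG : Measurable G) : ∫⁻ p, G p ∂Y.pr l n j H s =
      ∫⁻ s', (∫⁻ s1, ∫⁻ s2, G (s1, s2) ∂Y.m n (j + l) H s' ∂Y.m n (j + l) H s')
        ∂Y.m l j (Y.X n (j + l) H) s := by
  rw [pr, Measure.lintegral_bind (measurable_mm hY hH n (j + l)).aemeasurable hG.aemeasurable]
  refine lintegral_congr fun s' => ?_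
  have := m_prob hY hH n (j + l) s'
  exact lintegral_prod _ hG.aemeasurable
theorem ex_exp_ν (hY : Y.OK) (C : ℝ) : Y.Ex fun s => exp (C * Y.ν s) := by
  refine Lin.ex_exp hY ⟨hY.meas_ν.const_mul C, |C|, fun s => ?_⟩
  have := hY.ν_nonneg s
  rw [abs_mul, abs_of_nonneg this]
  exact mul_le_mul_of_nonneg_left (by linarith) (abs_nonneg _)

theorem Ex2.integrable_mm (hY : Y.OK) (hH : Y.Lin H) (hG : Y.Ex2 G) (n j : ℕ) (s : S) :
    Integrable G ((Y.m n j H s).prod (Y.m n j H s)) := by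
  obtain ⟨C, h0, hC⟩ := hG.bd hY
  have he : Y.Ex fun s => exp (C * Y.ν s) := ex_exp_ν hY C
  have := m_prob hY hH n j s
  refine (((he.integrable_m hY hH n j s).mul_prod (he.integrable_m hY hH n j s)).const_mul C).mono'
    hG.1.aestronglyMeasurable (Eventually.of_forall fun p => ?_)
  rw [← exp_add, ← mul_add]
  exact hC p

theorem Ex2.integrable_pr (hY : Y.OK) (hH : Y.Lin H) (hG : Y.Ex2 G) (l n j : ℕ) (s : S) :
    Integrable G (Y.pr l n j H s) := by
  obtain ⟨C, h0, hC⟩ := hG.bd hY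
  have he : Y.Ex fun s => exp (C * Y.ν s) := ex_exp_ν hY C
  have h1 : Integrable (fun p : S × S => exp (C * Y.ν p.1) * exp (C * Y.ν p.2))
      (Y.pr l n j H s) := by
    refine c2_integrable_bind (measurable_mm hY hH n (j + l))
      ((he.1.comp measurable_fst).mul (he.1.comp measurable_snd)) (fun s' => ?_) ?_
    · have := m_prob hY hH n (j + l) s'
      exact (he.integrable_m hY hH n (j + l) s').mul_prod (he.integrable_m hY hH n (j + l) s')
    · refine (((ex_P hY hH he n (j + l)).mul hY (ex_P hY hH he n (j + l))).integrable_m hY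
        (lin_X hY hH n (j + l)) l j s).congr (Eventually.of_forall fun s' => ?_)
      have := m_prob hY hH n (j + l) s'
      simp only [norm_mul, Real.norm_eq_abs, abs_exp]
      exact (integral_prod_mul (fun s => exp (C * Y.ν s)) fun s => exp (C * Y.ν s)).symm
  refine (h1.const_mul C).mono' hG.1.aestronglyMeasurable (Eventually.of_forall fun p => ?_)
  rw [← exp_add, ← mul_add]
  exact hC p
theorem integral_pr (hY : Y.OK) (hH : Y.Lin H) (hG : Y.Ex2 G) (l n j : ℕ) (s : S) :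
    ∫ p, G p ∂Y.pr l n j H s =
      ∫ s', (∫ s1, ∫ s2, G (s1, s2) ∂Y.m n (j + l) H s' ∂Y.m n (j + l) H s')
        ∂Y.m l j (Y.X n (j + l) H) s := by
  rw [pr, c2_integral_bind (measurable_mm hY hH n (j + l)) (hG.integrable_pr hY hH l n j s)]
  refine integral_congr_ae (Eventually.of_forall fun s' => ?_)
  have := m_prob hY hH n (j + l) s'
  exact integral_prod _ (hG.integrable_mm hY hH n (j + l) s')
theorem integral_pr_mul (hY : Y.OK) (hH : Y.Lin H) (hg : Y.Ex g) (hh : Y.Ex h) (l n j : ℕ)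
    (s : S) : ∫ p, g p.1 * h p.2 ∂Y.pr l n j H s =
      Y.P l j (Y.X n (j + l) H) (fun s' => Y.P n (j + l) H g s' * Y.P n (j + l) H h s') s := by
  rw [pr, c2_integral_bind (measurable_mm hY hH n (j + l))
    (((hg.fst hY).mul hY (hh.snd hY)).integrable_pr hY hH l n j s)]
  refine integral_congr_ae (Eventually.of_forall fun s' => ?_)
  have := m_prob hY hH n (j + l) s'
  exact integral_prod_mul g h
theorem pr_map_fst (hY : Y.OK) (hH : Y.Lin H) (l n j : ℕ) (s : S) :
    (Y.pr l n j H s).map Prod.fst = Y.m (l + n) j H s := by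
  refine Measure.ext_of_lintegral _ fun f hf => ?_
  rw [lintegral_map hf measurable_fst,
    lintegral_pr hY hH l n j s (G := fun p => f p.1) (hf.comp measurable_fst),
    m_add hY hH, Measure.lintegral_bind (measurable_m hY hH _ _).aemeasurable hf.aemeasurable]
  refine lintegral_congr fun s' => ?_
  have := m_prob hY hH n (j + l) s'
  simp
theorem pr_map_snd (hY : Y.OK) (hH : Y.Lin H) (l n j : ℕ) (s : S) :
    (Y.pr l n j H s).map Prod.snd = Y.m (l + n) j H s := by
  refine Measure.ext_of_lintegral _ fun f hf => ?_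
  rw [lintegral_map hf measurable_snd,
    lintegral_pr hY hH l n j s (G := fun p => f p.2) (hf.comp measurable_snd),
    m_add hY hH, Measure.lintegral_bind (measurable_m hY hH _ _).aemeasurable hf.aemeasurable]
  refine lintegral_congr fun s' => ?_
  have := m_prob hY hH n (j + l) s'
  simp
theorem pr_map_swap (hY : Y.OK) (hH : Y.Lin H) (l n j : ℕ) (s : S) :
    (Y.pr l n j H s).map Prod.swap = Y.pr l n j H s := by
  refine Measure.ext_of_lintegral _ fun f hf => ?_
  rw [lintegral_map hf measurable_swap,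
    lintegral_pr hY hH l n j s (G := fun p => f p.swap) (hf.comp measurable_swap),
    lintegral_pr hY hH l n j s hf]
  refine lintegral_congr fun s' => ?_
  have := m_prob hY hH n (j + l) s'
  exact lintegral_lintegral_swap (hf.comp measurable_swap).aemeasurable
theorem pr_mono (hY : Y.OK) (hH : Y.Lin H) (hg : Y.Ex g) (l n j : ℕ) (s : S) :
    ∫ p, g p.1 * g p.2 ∂Y.pr l (n + 1) j H s ≤ ∫ p, g p.1 * g p.2 ∂Y.pr (l + 1) n j H s := by
  have hP := ex_P hY hH hg n (j + l + 1)
  have hP' := ex_P hY hH hg (n + 1) (j + l)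
  have hX := lin_X hY hH n (j + l + 1)
  rw [integral_pr_mul hY hH hg hg, integral_pr_mul hY hH hg hg, ← Nat.add_assoc,
    P_add hY hX (hP.mul hY hP)]
  refine integral_mono ((hP'.mul hY hP').integrable_m hY (lin_X hY hH _ _) l j s)
    ((ex_P hY hX (hP.mul hY hP) 1 (j + l)).integrable_m hY (lin_X hY hH _ _) l j s) fun s' => ?_
  have := stepM_prob hY hX (j + l) s'
  simp only
  rw [P_succ hY hH hg, P_succ hY hX (hP.mul hY hP), P_zero (hP.mul hY hP).1, ← pow_two]
  simp only [← pow_two]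
  exact c2_sq_le (hP.integrable_stepM hY hX _ _) ((hP.sq hY).integrable_stepM hY hX _ _)
theorem pr_nonneg (hY : Y.OK) (hH : Y.Lin H) (hg : Y.Ex g) (l n j : ℕ) (s : S) :
    0 ≤ ∫ p, g p.1 * g p.2 ∂Y.pr l n j H s := by
  rw [integral_pr_mul hY hH hg hg]
  exact integral_nonneg fun _ => mul_self_nonneg _

/-! the susceptibility form -/

theorem ex_D (hY : Y.OK) (hH : Y.Lin H) (hg : Y.Ex g) (hh : Y.Ex h) (n j : ℕ) :
    Y.Ex (Y.D n j H g h) := by
  induction n generalizing j with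
  | zero => exact Ex.const hY 0
  | succ n ih =>
    have hX := lin_X hY hH n (j + 1)
    exact (ex_stepM hY hX (ih (j + 1)) j).add hY (((ex_stepM hY hX
      ((ex_P hY hH hg n (j + 1)).mul hY (ex_P hY hH hh n (j + 1))) j).sub hY
      ((ex_P hY hH hg (n + 1) j).mul hY (ex_P hY hH hh (n + 1) j))).const_mul hY _)
theorem D_comm (n j : ℕ) : Y.D n j H g h = Y.D n j H h g := by
  induction n generalizing j with
  | zero => rfl
  | succ n ih =>
    funext s
    simp only [D, ih (j + 1), mul_comm]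
theorem P_sum (hY : Y.OK) (hH : Y.Lin H) {α : Type*} (t : Finset α)
    (c : α → ℝ) {g : α → S → ℝ} (hg : ∀ a ∈ t, Y.Ex (g a)) (n j : ℕ) (s : S) :
    Y.P n j H (fun s => ∑ a ∈ t, c a * g a s) s = ∑ a ∈ t, c a * Y.P n j H (g a) s := by
  simp only [P]
  rw [integral_finsetSum _ fun a ha => ((hg a ha).integrable_m hY hH n j s).const_mul _]
  simp only [integral_const_mul]

theorem D_sum_left (hY : Y.OK) (hH : Y.Lin H) (hh : Y.Ex h) {α : Type*} (t : Finset α)
    (c : α → ℝ) {g : α → S → ℝ} (hg : ∀ a ∈ t, Y.Ex (g a)) (n j : ℕ) (s : S) :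
    Y.D n j H (fun s => ∑ a ∈ t, c a * g a s) h s = ∑ a ∈ t, c a * Y.D n j H (g a) h s := by
  induction n generalizing j s with
  | zero => simp [D]
  | succ n ih =>
    have hX := lin_X hY hH n (j + 1)
    simp only [D, ih, P_sum hY hH t c hg, sum_mul, mul_assoc]
    rw [integral_finsetSum _ fun a ha =>
        ((ex_D hY hH (hg a ha) hh n (j + 1)).integrable_stepM hY hX j s).const_mul _,
      integral_finsetSum _ fun a ha => (((ex_P hY hH (hg a ha) n (j + 1)).mul hY
        (ex_P hY hH hh n (j + 1))).integrable_stepM hY hX j s).const_mul _]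
    simp only [integral_const_mul]
    rw [← sum_sub_distrib, mul_sum, ← sum_add_distrib]
    exact sum_congr rfl fun a _ => by ring
theorem ex_pr (hY : Y.OK) (hH : Y.Lin H) (hg : Y.Ex g) (hh : Y.Ex h) (l n j : ℕ) :
    Y.Ex fun s => ∫ p, g p.1 * h p.2 ∂Y.pr l n j H s := by
  simp only [integral_pr_mul hY hH hg hh]
  exact ex_P hY (lin_X hY hH _ _) ((ex_P hY hH hg _ _).mul hY (ex_P hY hH hh _ _)) l j

theorem pr_zero (hY : Y.OK) (hH : Y.Lin H) (hg : Y.Ex g) (hh : Y.Ex h) (n j : ℕ) (s : S) :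
    ∫ p, g p.1 * h p.2 ∂Y.pr 0 n j H s = Y.P n j H g s * Y.P n j H h s := by
  rw [integral_pr_mul hY hH hg hh, P_zero ((ex_P hY hH hg _ _).mul hY (ex_P hY hH hh _ _)).1]
  rfl

theorem pr_succ (hY : Y.OK) (hH : Y.Lin H) (hg : Y.Ex g) (hh : Y.Ex h) (l n j : ℕ) (s : S) :
    ∫ p, g p.1 * h p.2 ∂Y.pr (l + 1) n j H s =
      ∫ s', (∫ p, g p.1 * h p.2 ∂Y.pr l n (j + 1) H s') ∂Y.stepM j (Y.X (l + n) (j + 1) H) s := by
  simp only [integral_pr_mul hY hH hg hh]
  rw [P_succ hY (lin_X hY hH _ _) ((ex_P hY hH hg _ _).mul hY (ex_P hY hH hh _ _)), X_add,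
    show j + (l + 1) = j + 1 + l by omega]

theorem D_abel (hY : Y.OK) (hH : Y.Lin H) (hg : Y.Ex g) (hh : Y.Ex h) (n j : ℕ) (s : S) :
    Y.D (n + 1) j H g h s + Y.ζ j * (Y.P (n + 1) j H g s * Y.P (n + 1) j H h s) =
      Y.ζ (j + n) * Y.P (n + 1) j H (fun s => g s * h s) s -
        ∑ l ∈ range n, (Y.ζ (j + l + 1) - Y.ζ (j + l)) *
          ∫ p, g p.1 * h p.2 ∂Y.pr (l + 1) (n - l) j H s := by
  have hgh := hg.mul hY hh
  induction n generalizing j s with
  | zero =>
    rw [P_succ hY hH hgh, D]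
    simp only [D, P_zero hg.1, P_zero hh.1, P_zero hgh.1, integral_zero, range_zero, sum_empty,
      add_zero]
    ring
  | succ n ih =>
    have hX := lin_X hY hH (n + 1) (j + 1)
    have hPP := (ex_P hY hH hg (n + 1) (j + 1)).mul hY (ex_P hY hH hh (n + 1) (j + 1))
    have i1 := (ex_P hY hH hgh (n + 1) (j + 1)).integrable_stepM hY hX j s
    have i2 := hPP.integrable_stepM hY hX j s
    have i3 : ∀ l ∈ range n, Integrable (fun s' => (Y.ζ (j + 1 + l + 1) - Y.ζ (j + 1 + l)) *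
        ∫ p, g p.1 * h p.2 ∂Y.pr (l + 1) (n - l) (j + 1) H s')
        (Y.stepM j (Y.X (n + 1) (j + 1) H) s) := fun l _ =>
      ((ex_pr hY hH hg hh _ _ _).integrable_stepM hY hX j s).const_mul _
    have i4 := integrable_finsetSum _ i3
    have e1 : ∫ s', Y.D (n + 1) (j + 1) H g h s' ∂Y.stepM j (Y.X (n + 1) (j + 1) H) s =
        ∫ s', (Y.ζ (j + 1 + n) * Y.P (n + 1) (j + 1) H (fun s => g s * h s) s' -
          ∑ l ∈ range n, (Y.ζ (j + 1 + l + 1) - Y.ζ (j + 1 + l)) *
            ∫ p, g p.1 * h p.2 ∂Y.pr (l + 1) (n - l) (j + 1) H s') -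
          Y.ζ (j + 1) * (Y.P (n + 1) (j + 1) H g s' * Y.P (n + 1) (j + 1) H h s')
          ∂Y.stepM j (Y.X (n + 1) (j + 1) H) s :=
      integral_congr_ae (Eventually.of_forall fun s' => eq_sub_of_add_eq (ih (j + 1) s'))
    have i5 : Integrable (fun s' => Y.ζ (j + 1 + n) * Y.P (n + 1) (j + 1) H (fun s => g s * h s) s' -
          ∑ l ∈ range n, (Y.ζ (j + 1 + l + 1) - Y.ζ (j + 1 + l)) *
            ∫ p, g p.1 * h p.2 ∂Y.pr (l + 1) (n - l) (j + 1) H s')
        (Y.stepM j (Y.X (n + 1) (j + 1) H) s) := (i1.const_mul _).sub i4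
    rw [integral_sub i5 (i2.const_mul _), integral_sub (i1.const_mul _) i4, integral_const_mul,
      integral_const_mul, integral_finsetSum _ i3, ← P_succ hY hH hgh] at e1
    have e2 : ∑ l ∈ range n, ∫ s', (Y.ζ (j + 1 + l + 1) - Y.ζ (j + 1 + l)) *
        ∫ p, g p.1 * h p.2 ∂Y.pr (l + 1) (n - l) (j + 1) H s'
          ∂Y.stepM j (Y.X (n + 1) (j + 1) H) s =
        ∑ l ∈ range n, (Y.ζ (j + (l + 1) + 1) - Y.ζ (j + (l + 1))) *
          ∫ p, g p.1 * h p.2 ∂Y.pr (l + 1 + 1) (n + 1 - (l + 1)) j H s := by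
      refine sum_congr rfl fun l hl => ?_
      have hl' := mem_range.1 hl
      rw [integral_const_mul, pr_succ hY hH hg hh (l + 1), Nat.add_sub_add_right,
        show l + 1 + (n - l) = n + 1 by omega, show j + 1 + l = j + (l + 1) by omega]
    have e3 : ∫ p, g p.1 * h p.2 ∂Y.pr (0 + 1) (n + 1 - 0) j H s =
        ∫ s', Y.P (n + 1) (j + 1) H g s' * Y.P (n + 1) (j + 1) H h s'
          ∂Y.stepM j (Y.X (n + 1) (j + 1) H) s := by
      rw [pr_succ hY hH hg hh, Nat.sub_zero, Nat.zero_add]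
      simp only [pr_zero hY hH hg hh]
    rw [D, e1, e2, sum_range_succ', e3, show j + 1 + n = j + (n + 1) by omega]
    simp only [add_zero]
    ring
theorem var_le_D (hY : Y.OK) (hH : Y.Lin H) (hg : Y.Ex g) (n j : ℕ) (c : ℝ)
    (hc : ∀ i, j ≤ i → i < j + n → c ≤ Y.ζ i) (s : S) :
    c * (Y.P n j H (fun s => g s ^ 2) s - Y.P n j H g s ^ 2) ≤ Y.D n j H g g s := by
  induction n generalizing j s with
  | zero => simp [D, P_zero hg.1, P_zero (hg.sq hY).1]
  | succ n ih =>
    have hX := lin_X hY hH n (j + 1)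
    have := stepM_prob hY hX j s
    have hP := ex_P hY hH hg n (j + 1)
    have i1 := (ex_P hY hH (hg.sq hY) n (j + 1)).integrable_stepM hY hX j s
    have i2 := (hP.sq hY).integrable_stepM hY hX j s
    have h1 : ∫ s', c * (Y.P n (j + 1) H (fun s => g s ^ 2) s' - Y.P n (j + 1) H g s' ^ 2)
        ∂Y.stepM j (Y.X n (j + 1) H) s ≤
        ∫ s', Y.D n (j + 1) H g g s' ∂Y.stepM j (Y.X n (j + 1) H) s :=
      integral_mono ((i1.sub i2).const_mul c) ((ex_D hY hH hg hg _ _).integrable_stepM hY hX j s)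
        fun s' => ih (j + 1) (fun i h1 h2 => hc i (by omega) (by omega)) s'
    rw [integral_const_mul, integral_sub i1 i2, ← P_succ hY hH (hg.sq hY)] at h1
    have h2 := c2_sq_le (hP.integrable_stepM hY hX j s) i2
    rw [← P_succ hY hH hg] at h2
    have h3 := mul_le_mul_of_nonneg_right (hc j le_rfl (by omega)) (sub_nonneg.2 h2)
    rw [D]
    simp only [← pow_two]
    linarith
theorem D_le_var (hY : Y.OK) (h1 : ∀ i, Y.ζ i ≤ 1) (hH : Y.Lin H) (hg : Y.Ex g) (n j : ℕ)
    (s : S) : Y.D n j H g g s ≤ Y.P n j H (fun s => g s ^ 2) s - Y.P n j H g s ^ 2 := by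
  induction n generalizing j s with
  | zero => simp [D, P_zero hg.1, P_zero (hg.sq hY).1]
  | succ n ih =>
    have hX := lin_X hY hH n (j + 1)
    have := stepM_prob hY hX j s
    have hP := ex_P hY hH hg n (j + 1)
    have i1 := (ex_P hY hH (hg.sq hY) n (j + 1)).integrable_stepM hY hX j s
    have i2 := (hP.sq hY).integrable_stepM hY hX j s
    have h3 : ∫ s', Y.D n (j + 1) H g g s' ∂Y.stepM j (Y.X n (j + 1) H) s ≤
        ∫ s', (Y.P n (j + 1) H (fun s => g s ^ 2) s' - Y.P n (j + 1) H g s' ^ 2)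
        ∂Y.stepM j (Y.X n (j + 1) H) s :=
      integral_mono ((ex_D hY hH hg hg _ _).integrable_stepM hY hX j s) (i1.sub i2)
        fun s' => ih (j + 1) s'
    rw [integral_sub i1 i2, ← P_succ hY hH (hg.sq hY)] at h3
    have h2 := c2_sq_le (hP.integrable_stepM hY hX j s) i2
    rw [← P_succ hY hH hg] at h2
    have h4 := mul_le_mul_of_nonneg_right (h1 j) (sub_nonneg.2 h2)
    rw [D]
    simp only [← pow_two]
    linarith

theorem D_lin (hY : Y.OK) (hH : Y.Lin H) (hg : Y.Ex g) (hg' : Y.Ex g') (hh : Y.Ex h) (x : ℝ)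
    (n j : ℕ) (s : S) : Y.D n j H (fun s => x * g s + g' s) h s =
      x * Y.D n j H g h s + Y.D n j H g' h s := by
  have := D_sum_left hY hH hh (univ : Finset Bool) (fun b => if b then x else 1)
    (g := fun b => if b then g else g') (fun b _ => by cases b <;> simpa) n j s
  simpa using this

theorem abs_D_le (hY : Y.OK) (h1 : ∀ i, Y.ζ i ≤ 1) (hH : Y.Lin H) (hg : Y.Ex g) (hh : Y.Ex h)
    (n j : ℕ) (s : S) : |Y.D n j H g h s| ≤
      √(Y.P n j H (fun s => g s ^ 2) s) * √(Y.P n j H (fun s => h s ^ 2) s) := by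
  have key : ∀ x : ℝ, 0 ≤ Y.D n j H g g s * (x * x) + 2 * Y.D n j H g h s * x +
      Y.D n j H h h s := by
    intro x
    have hu : Y.Ex fun s => x * g s + h s := (hg.const_mul hY x).add hY hh
    have h0 := var_le_D hY hH hu n j 0 (fun i _ _ => (hY.ζ_pos i).le) s
    rw [zero_mul, D_lin hY hH hg hh hu, D_comm (g := g), D_comm (g := h), D_lin hY hH hg hh hg,
      D_lin hY hH hg hh hh, D_comm (g := h) (h := g)] at h0
    linarith
  have h2 := discrim_le_zero key
  rw [discrim] at h2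
  have g0 := var_le_D hY hH hg n j 0 (fun i _ _ => (hY.ζ_pos i).le) s
  have h0 := var_le_D hY hH hh n j 0 (fun i _ _ => (hY.ζ_pos i).le) s
  rw [zero_mul] at g0 h0
  have g1 := (D_le_var hY h1 hH hg n j s).trans (sub_le_self _ (sq_nonneg _))
  have h1 := (D_le_var hY h1 hH hh n j s).trans (sub_le_self _ (sq_nonneg _))
  rw [← sqrt_mul (g0.trans g1)]
  refine abs_le_sqrt ?_
  have := mul_le_mul g1 h1 h0 (g0.trans g1)
  linarith

/-! invariance -/

theorem Inv.ae (hY : Y.OK) (hH : Y.Lin H) {n j : ℕ} (hg : Measurable g) (hi : Y.Inv n j g)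
    (s : S) : ∀ᵐ s' ∂Y.m n j H s, g s' = g s := by
  induction n generalizing j s with
  | zero => exact (ae_dirac_iff (measurableSet_eq_fun hg measurable_const)).2 rfl
  | succ n ih =>
    have hms : MeasurableSet {s' | g s' = g s} := measurableSet_eq_fun hg measurable_const
    have h1 : ∀ᵐ s' ∂Y.stepM j (Y.X n (j + 1) H) s, g s' = g s :=
      (ae_map_iff ((hY.meas_a j).comp measurable_prodMk_left).aemeasurable hms).2
        (Eventually.of_forall fun w => hi j le_rfl (by omega) s w)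
    refine Measure.ae_comp_of_ae_ae (κ := ⟨Y.m n (j + 1) H, measurable_m hY hH _ _⟩) hms ?_
    filter_upwards [h1] with s' hs'
    rw [← hs']
    exact ih (fun i h1 h2 => hi i (by omega) (by omega)) s'
theorem P_pull (hY : Y.OK) (hH : Y.Lin H) {n j : ℕ} (hg : Measurable g) (hi : Y.Inv n j g)
    (h : S → ℝ) (s : S) : Y.P n j H (fun s => g s * h s) s = g s * Y.P n j H h s := by
  rw [P, P, ← integral_const_mul]
  refine integral_congr_ae ?_
  filter_upwards [hi.ae hY hH hg s] with s' hs'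
  rw [hs']
omit [MeasurableSpace S] in
theorem Inv.step {β : Type*} {F : S → β} {n j : ℕ} (hF : Y.Inv n (j + 1) F) (hO : Y.Ow) (i : ℕ)
    (h1 : j ≤ i) (h2 : i < j + (n + 1)) (s : S) (w' w : Ω) :
    F (Y.a j (Y.a i s w') w) = F (Y.a j s w) := by
  rcases eq_or_lt_of_le h1 with h | h
  · rw [← h, hO.1]
  · rw [hO.2 j i s w w' h.ne, hF i (by omega) (by omega)]

theorem inv_X (hO : Y.Ow) (n j : ℕ) : Y.Inv n j (Y.X n j H) := by
  induction n generalizing j with
  | zero => intro i h1 h2; omega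
  | succ n ih =>
    intro i h1 h2 s w
    simp only [X, T, (ih (j + 1)).step hO i h1 h2]
theorem inv_m (hY : Y.OK) (hH : Y.Lin H) (hO : Y.Ow) (n j : ℕ) : Y.Inv n j (Y.m n j H) := by
  induction n generalizing j with
  | zero => intro i h1 h2; omega
  | succ n ih =>
    intro i h1 h2 s w
    have hX := lin_X hY hH n (j + 1)
    have hm := measurable_m hY hH n (j + 1)
    ext A hA
    have hA' : Measurable fun s' => Y.m n (j + 1) H s' A := (Measure.measurable_coe hA).comp hm
    have hT : Y.T j (Y.X n (j + 1) H) (Y.a i s w) = Y.T j (Y.X n (j + 1) H) s :=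
      inv_X hO (n + 1) j i h1 h2 s w
    rw [m, m, Measure.bind_apply hA hm.aemeasurable, Measure.bind_apply hA hm.aemeasurable,
      lintegral_stepM hY hX j _ hA', lintegral_stepM hY hX j _ hA', hT]
    simp only [(ih (j + 1)).step hO i h1 h2, (inv_X hO n (j + 1)).step hO i h1 h2]
theorem inv_P (hY : Y.OK) (hH : Y.Lin H) (hO : Y.Ow) (n j : ℕ) : Y.Inv n j (Y.P n j H g) := by
  intro i h1 h2 s w
  rw [P, P, inv_m hY hH hO n j i h1 h2]
theorem inv_D (hY : Y.OK) (hH : Y.Lin H) (hO : Y.Ow) (hg : Y.Ex g) (hh : Y.Ex h) (n j : ℕ) :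
    Y.Inv n j (Y.D n j H g h) := by
  induction n generalizing j with
  | zero => intro i h1 h2; omega
  | succ n ih =>
    intro i h1 h2 s w
    have hX := lin_X hY hH n (j + 1)
    have hT : Y.T j (Y.X n (j + 1) H) (Y.a i s w) = Y.T j (Y.X n (j + 1) H) s :=
      inv_X hO (n + 1) j i h1 h2 s w
    have m1 := (ex_D hY hH hg hh n (j + 1)).1
    have m2 := ((ex_P hY hH hg n (j + 1)).mul hY (ex_P hY hH hh n (j + 1))).1
    rw [D, D, integral_stepM hY hX j _ m1, integral_stepM hY hX j _ m1, integral_stepM hY hX j _ m2,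
      integral_stepM hY hX j _ m2, hT, inv_P hY hH hO (n + 1) j i h1 h2,
      inv_P hY hH hO (n + 1) j i h1 h2]
    simp only [(ih (j + 1)).step hO i h1 h2, (inv_X hO n (j + 1)).step hO i h1 h2,
      (inv_P hY hH hO n (j + 1)).step hO i h1 h2]
theorem P_trunk (hY : Y.OK) (hH : Y.Lin H) (hg : Y.Ex g) {l n j : ℕ} (hi : Y.Inv n (j + l) g)
    (s : S) : Y.P l j (Y.X n (j + l) H) g s = Y.P (l + n) j H g s := by
  rw [P_add hY hH hg]
  refine congrArg (fun F => Y.P l j (Y.X n (j + l) H) F s) (funext fun s' => ?_)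
  have := m_prob hY hH n (j + l) s'
  rw [P, integral_congr_ae (hi.ae hY hH hg.1 s')]
  simp

/-! Jensen bounds and continuity -/

theorem X_mono (hY : Y.OK) (hH : Y.Lin H) (hH' : Y.Lin H') (hle : ∀ s, H s ≤ H' s) (n j : ℕ)
    (s : S) : Y.X n j H s ≤ Y.X n j H' s := by
  induction n generalizing j s with
  | zero => exact hle s
  | succ n ih =>
    have hX := lin_X hY hH n (j + 1)
    have hX' := lin_X hY hH' n (j + 1)
    refine le_of_mul_le_mul_left (exp_le_exp.1 ?_) (hY.ζ_pos j)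
    rw [X, X, exp_T hY hX, exp_T hY hX']
    exact integral_mono (integrable_exp_step hY hX j _ s) (integrable_exp_step hY hX' j _ s)
      fun w => exp_le_exp.2 (mul_le_mul_of_nonneg_left (ih _ _) (hY.ζ_pos j).le)
/-- change of the one step law -/
theorem integral_stepM_change (hY : Y.OK) (hH : Y.Lin H) (hH' : Y.Lin H') (j : ℕ) (s : S)
    (hg : Measurable g) : ∫ s', g s' ∂Y.stepM j H' s = exp (-(Y.ζ j * (Y.T j H' s - Y.T j H s))) *
      ∫ s', exp (Y.ζ j * (H' s' - H s')) * g s' ∂Y.stepM j H s := by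
  rw [integral_stepM hY hH' j s hg, integral_stepM hY hH j s
    (g := fun s' => exp (Y.ζ j * (H' s' - H s')) * g s') ((((hH'.sub hH).const_mul (Y.ζ j)).ex_exp hY).1.mul hg), ← integral_const_mul]
  refine integral_congr_ae (Eventually.of_forall fun w => ?_)
  simp only
  rw [← mul_assoc, ← mul_assoc, ← exp_add, ← exp_add]
  ring_nf

theorem integral_exp_stepM (hY : Y.OK) (hH : Y.Lin H) (hH' : Y.Lin H') (j : ℕ) (s : S) :
    ∫ s', exp (Y.ζ j * (H' s' - H s')) ∂Y.stepM j H s = exp (Y.ζ j * (Y.T j H' s - Y.T j H s)) := by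
  have h := integral_stepM_change hY hH hH' j s (g := fun _ => 1) measurable_const
  have := stepM_prob hY hH' j s
  simp only [integral_const, probReal_univ, smul_eq_mul, mul_one] at h
  rw [exp_neg] at h
  exact ((inv_mul_eq_one₀ (exp_pos _).ne').1 h.symm).symm

theorem P_exp_pos (hY : Y.OK) (hH : Y.Lin H) (hH' : Y.Lin H') (n j : ℕ) (s : S) :
    0 < Y.P n j H (fun s => exp (H' s)) s := by
  have := m_prob hY hH n j s
  exact integral_exp_pos ((hH'.ex_exp hY).integrable_m hY hH n j s)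

theorem le_X_sub (hY : Y.OK) (hH : Y.Lin H) (hH' : Y.Lin H') (n j : ℕ) (s : S) :
    Y.P n j H (fun s => H' s - H s) s ≤ Y.X n j H' s - Y.X n j H s := by
  induction n generalizing j s with
  | zero => rw [P_zero (hH'.sub hH).1]; exact le_rfl
  | succ n ih =>
    have hX := lin_X hY hH n (j + 1)
    have hX' := lin_X hY hH' n (j + 1)
    have := stepM_prob hY hX j s
    have hd := (hX'.sub hX).const_mul (Y.ζ j)
    have h1 := c2_jensen ((hd.ex hY).integrable_stepM hY hX j s)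
      ((hd.ex_exp hY).integrable_stepM hY hX j s)
    rw [integral_exp_stepM hY hX hX', integral_const_mul, exp_le_exp] at h1
    rw [P_succ hY hH ((hH'.sub hH).ex hY)]
    refine le_trans ?_ (le_of_mul_le_mul_left h1 (hY.ζ_pos j))
    exact integral_mono ((ex_P hY hH ((hH'.sub hH).ex hY) _ _).integrable_stepM hY hX j s)
      (((hX'.sub hX).ex hY).integrable_stepM hY hX j s) fun s' => ih _ _
theorem X_sub_le (hY : Y.OK) (h1 : ∀ i, Y.ζ i ≤ 1) (hH : Y.Lin H) (hH' : Y.Lin H') (n j : ℕ)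
    (s : S) : Y.X n j H' s - Y.X n j H s ≤ log (Y.P n j H (fun s => exp (H' s - H s)) s) := by
  induction n generalizing j s with
  | zero => rw [P_zero ((hH'.sub hH).ex_exp hY).1, log_exp]; exact le_rfl
  | succ n ih =>
    have hX := lin_X hY hH n (j + 1)
    have hX' := lin_X hY hH' n (j + 1)
    have := stepM_prob hY hX j s
    have hd := (hX'.sub hX).const_mul (Y.ζ j)
    have he := (hH'.sub hH).ex_exp hY
    have h2 := c2_conc ((ex_P hY hH he n (j + 1)).integrable_stepM hY hX j s)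
      ((hd.ex_exp hY).integrable_stepM hY hX j s) (hY.ζ_pos j).le (h1 j)
      (P_succ hY hH he n j s).ge (P_exp_pos hY hH (hH'.sub hH) n (j + 1))
      fun s' => exp_le_exp.2 (mul_le_mul_of_nonneg_left (ih _ _) (hY.ζ_pos j).le)
    rw [integral_exp_stepM hY hX hX', exp_le_exp] at h2
    exact le_of_mul_le_mul_left h2 (hY.ζ_pos j)
theorem X_tendsto (hY : Y.OK) (h1 : ∀ i, Y.ζ i ≤ 1) (hH : Y.Lin H) {τ : Type*} {F : Filter τ}
    {Ht : τ → S → ℝ} {ω : τ → ℝ} (hω : Tendsto ω F (𝓝 0))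
    (ht : ∀ᶠ t in F, Measurable (Ht t) ∧ ∀ s, |Ht t s - H s| ≤ ω t * (1 + Y.ν s)) (n j : ℕ)
    (s : S) : Tendsto (fun t => Y.X n j (Ht t) s) F (𝓝 (Y.X n j H s)) := by
  have := m_prob hY hH n j s
  have hν : Y.Lin fun s => 1 + Y.ν s := ⟨hY.meas_ν.const_add 1, 1, fun s => by
    have := hY.ν_nonneg s
    rw [one_mul, abs_of_nonneg (by linarith)]⟩
  have ie := (hν.ex_exp hY).integrable_m hY hH n j s
  set B := ∫ s', exp (1 + Y.ν s') ∂Y.m n j H s with hB
  rw [tendsto_iff_norm_sub_tendsto_zero]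
  refine squeeze_zero' (Eventually.of_forall fun _ => norm_nonneg _) ?_
    (by simpa using hω.mul_const B)
  filter_upwards [ht, hω.eventually (Iio_mem_nhds one_pos)] with t ⟨hm, hb⟩ ht1
  have h0 : 0 ≤ ω t := by
    have h2 := hY.ν_nonneg s
    exact nonneg_of_mul_nonneg_left ((abs_nonneg _).trans (hb s)) (by linarith)
  have hd : Y.Lin fun s => Ht t s - H s := ⟨hm.sub hH.1, ω t, hb⟩
  have hL : Y.Lin (Ht t) := by simpa using hd.add hH
  have l1 := le_X_sub hY hH hL n j s
  have l2 := X_sub_le hY h1 hH hL n j s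
  have l3 := log_le_sub_one_of_pos (P_exp_pos hY hH hd n j s)
  have l4 : Y.P n j H (fun s => exp (Ht t s - H s)) s ≤
      ∫ s', (ω t * exp (1 + Y.ν s') + (1 - ω t)) ∂Y.m n j H s :=
    integral_mono ((hd.ex_exp hY).integrable_m hY hH n j s)
      ((ie.const_mul _).add (integrable_const _)) fun s' =>
      (exp_le_exp.2 ((le_abs_self _).trans (hb s'))).trans (c2_exp_mul_le h0 ht1.le _)
  rw [integral_add (ie.const_mul _) (integrable_const _), integral_const_mul] at l4
  simp only [integral_const, probReal_univ, smul_eq_mul, one_mul] at l4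
  have l5 : ∫ s', -ω t * exp (1 + Y.ν s') ∂Y.m n j H s ≤ Y.P n j H (fun s => Ht t s - H s) s :=
    integral_mono (ie.const_mul _) ((hd.ex hY).integrable_m hY hH n j s) fun s' => by
      have h3 := (abs_le.1 (hb s')).1
      have h4 := mul_le_mul_of_nonneg_left (add_one_le_exp (1 + Y.ν s')) h0
      simp only
      linarith
  rw [integral_const_mul] at l5
  rw [Real.norm_eq_abs, abs_le]
  constructor <;> linarith

end Sys

end Vale.Agent.P157
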