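import Vale.Agent.P157.Core1

/-! Elementary inequalities for probability measures, integrals over `bind`. -/

namespace Vale.Agent.P157

open MeasureTheory ProbabilityTheory Real Finset Filter Topology
open scoped ENNReal

variable {α β : Type*} [MeasurableSpace α] [MeasurableSpace β] {μ : Measure α}

theorem c2_integrable_bind {κ : α → Measure β} (hκ : Measurable κ) {f : β → ℝ} (hf : Measurable f)
    (h1 : ∀ x, Integrable f (κ x)) (h2 : Integrable (fun x => ∫ y, ‖f y‖ ∂κ x) μ) :
    Integrable f (μ.bind κ) :=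
  (Measure.integrable_comp_iff (κ := ⟨κ, hκ⟩) hf.aestronglyMeasurable).2
    ⟨Eventually.of_forall h1, h2⟩

theorem c2_integral_bind {κ : α → Measure β} (hκ : Measurable κ) {f : β → ℝ}
    (hf : Integrable f (μ.bind κ)) : ∫ y, f y ∂μ.bind κ = ∫ x, ∫ y, f y ∂κ x ∂μ := by
  have e : μ.bind κ = ((⟨κ, hκ⟩ : Kernel α β) ∘ₖ Kernel.const Unit μ) () :=
    Measure.comp_eq_comp_const_apply (κ := ⟨κ, hκ⟩)
  rw [e] at hf ⊢
  exact Kernel.integral_comp hf

theorem c2_measurable_prod {κ : α → Measure β} (hκ : Measurable κ)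
    (hp : ∀ x, IsProbabilityMeasure (κ x)) : Measurable fun x => (κ x).prod (κ x) := by
  let k : Kernel α β := ⟨κ, hκ⟩
  have : IsMarkovKernel k := ⟨hp⟩
  have e : (fun x => (κ x).prod (κ x)) = k ×ₖ k := funext fun x => (Kernel.prod_apply k k x).symm
  rw [e]
  exact (k ×ₖ k).measurable

theorem c2_cs {f g : α → ℝ} (hf : Integrable (fun x => f x ^ 2) μ)
    (hg : Integrable (fun x => g x ^ 2) μ) (hfg : Integrable (fun x => f x * g x) μ) :
    (∫ x, f x * g x ∂μ) ^ 2 ≤ (∫ x, f x ^ 2 ∂μ) * ∫ x, g x ^ 2 ∂μ := by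
  have h : ∀ t : ℝ, 0 ≤ (∫ x, f x ^ 2 ∂μ) * (t * t) + (2 * ∫ x, f x * g x ∂μ) * t +
      ∫ x, g x ^ 2 ∂μ := by
    intro t
    have h1 : Integrable (fun x => t ^ 2 * f x ^ 2 + 2 * t * (f x * g x)) μ :=
      (hf.const_mul _).add (hfg.const_mul _)
    have h2 : 0 ≤ ∫ x, (t ^ 2 * f x ^ 2 + 2 * t * (f x * g x) + g x ^ 2) ∂μ :=
      integral_nonneg fun x => by
        simp only [Pi.zero_apply]
        nlinarith [sq_nonneg (t * f x + g x)]
    rw [integral_add h1 hg, integral_add (hf.const_mul _) (hfg.const_mul _), integral_const_mul,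
      integral_const_mul] at h2
    linarith
  have := discrim_le_zero h
  rw [discrim] at this
  linarith

theorem c2_sq_le [IsProbabilityMeasure μ] {f : α → ℝ} (hf : Integrable f μ)
    (hf2 : Integrable (fun x => f x ^ 2) μ) : (∫ x, f x ∂μ) ^ 2 ≤ ∫ x, f x ^ 2 ∂μ := by
  simpa using c2_cs (g := fun _ => 1) hf2 (integrable_const _) (by simpa using hf)

theorem c2_jensen [IsProbabilityMeasure μ] {f : α → ℝ} (hf : Integrable f μ)
    (he : Integrable (fun x => exp (f x)) μ) : exp (∫ x, f x ∂μ) ≤ ∫ x, exp (f x) ∂μ := by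
  set c := ∫ x, f x ∂μ with hc
  have h1 : Integrable (fun x => exp c * (1 - c) + exp c * f x) μ :=
    (integrable_const _).add (hf.const_mul _)
  have h2 : ∫ x, (exp c * (1 - c) + exp c * f x) ∂μ ≤ ∫ x, exp (f x) ∂μ := by
    refine integral_mono h1 he fun x => ?_
    have h3 := add_one_le_exp (f x - c)
    have h4 : exp (f x) = exp c * exp (f x - c) := by rw [← exp_add]; ring_nf
    have h5 := mul_le_mul_of_nonneg_left h3 (exp_pos c).le
    simp only
    linarith
  rw [integral_add (integrable_const _) (hf.const_mul _), integral_const_mul (exp c) f, ← hc] at h2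
  simp only [integral_const, probReal_univ, smul_eq_mul, one_mul] at h2
  linarith

theorem c2_exp_mul_le {θ : ℝ} (h0 : 0 ≤ θ) (h1 : θ ≤ 1) (y : ℝ) :
    exp (θ * y) ≤ θ * exp y + (1 - θ) := by
  have := convexOn_exp.2 (Set.mem_univ y) (Set.mem_univ 0) h0 (sub_nonneg.2 h1) (by ring)
  simpa using this

theorem c2_conc [IsProbabilityMeasure μ] {W f : α → ℝ} (hW : Integrable W μ)
    (hf : Integrable f μ) {θ A : ℝ} (h0 : 0 ≤ θ) (h1 : θ ≤ 1) (hA : ∫ x, W x ∂μ ≤ A)
    (hpos : ∀ x, 0 < W x) (hle : ∀ x, f x ≤ exp (θ * log (W x))) :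
    ∫ x, f x ∂μ ≤ exp (θ * log A) := by
  have hA0 : 0 < A := by
    refine lt_of_lt_of_le ?_ hA
    have h := integral_exp_pos (μ := μ) (f := fun x => log (W x))
      (by simpa only [fun x => exp_log (hpos x)] using hW)
    simpa only [fun x => exp_log (hpos x)] using h
  have h2 : Integrable (fun x => exp (θ * log A) * θ / A * W x + exp (θ * log A) * (1 - θ)) μ :=
    (hW.const_mul _).add (integrable_const _)
  have h3 : ∫ x, f x ∂μ ≤
      ∫ x, (exp (θ * log A) * θ / A * W x + exp (θ * log A) * (1 - θ)) ∂μ := by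
    refine integral_mono hf h2 fun x => (hle x).trans ?_
    have h4 := c2_exp_mul_le h0 h1 (log (W x) - log A)
    rw [exp_sub, exp_log (hpos x), exp_log hA0] at h4
    have h5 : exp (θ * log (W x)) = exp (θ * log A) * exp (θ * (log (W x) - log A)) := by
      rw [← exp_add]; ring_nf
    have h6 := mul_le_mul_of_nonneg_left h4 (exp_pos (θ * log A)).le
    rw [h5]
    refine h6.trans (le_of_eq ?_)
    ring
  rw [integral_add (hW.const_mul _) (integrable_const _), integral_const_mul] at h3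
  simp only [integral_const, probReal_univ, smul_eq_mul, one_mul] at h3
  have h7 : exp (θ * log A) * θ / A * ∫ x, W x ∂μ ≤ exp (θ * log A) * θ / A * A :=
    mul_le_mul_of_nonneg_left hA (by positivity)
  have h8 : exp (θ * log A) * θ / A * A = exp (θ * log A) * θ := by field_simp
  linarith

theorem c2_mono_C {C C' x : ℝ} (h : C ≤ C') (h0 : 0 ≤ C') (hx : 0 ≤ x) :
    C * exp (C * x) ≤ C' * exp (C' * x) :=
  (mul_le_mul_of_nonneg_right h (exp_pos _).le).trans
    (mul_le_mul_of_nonneg_left (exp_le_exp.2 (mul_le_mul_of_nonneg_right h hx)) h0)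

end Vale.Agent.P157
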