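import Vale.Agent.P157.MdAPI

namespace Vale.Agent.P157

open MeasureTheory ProbabilityTheory Real Finset Filter Topology
open scoped ENNReal

theorem ms_mono {I A Cf : Type} [MeasurableSpace Cf] {R : Rg I A Cf} {K K' : ℝ} (h : R.OK K)
    (hK : K ≤ K') : R.OK K' :=
  ⟨h.d1, h.d2, fun a u => (h.b1 a u).trans hK, fun a u => (h.b2 a u).trans hK, h.me, h.be⟩

theorem ms_card {K K' N M : ℝ} (hN : 1 ≤ N) (h : M ≤ K' * N) : M + 1 ≤ (|K| + |K'| + 1) * N := by
  nlinarith [abs_nonneg K, le_abs_self K', abs_nonneg K']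

theorem syncR (K K' η : ℝ) (hη : 0 < η) : ∃ k0 : ℕ, ∀ k ≥ k0, 0 < k → ∀ ε > 0, ∀ c : ℝ,
    ∃ N0 : ℕ, ∀ (ι κ Cf : Type) [Fintype ι] [Fintype κ] [DecidableEq κ] [MeasurableSpace Cf]
    [Nonempty Cf] (ν : Measure Cf) (x : Cf → ι → ℝ) (_ : Spin ν x) (f f1 f2 : ℝ → ℝ)
    (_ : Nice f f1 f2 K) (_ : N0 ≤ Fintype.card ι)
    (_ : (Fintype.card κ : ℝ) ≤ K' * Fintype.card ι) (s : ℝ) (y b : ℕ → ℝ)
    (_ : ∀ j < k, ε ≤ y j ∧ y j ≤ c)
    (_ : ∀ j < k, ∃ a : ℝ, IsLocalMax (fun t : ℝ => YM κ k ν x f f1 f2 s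
      (Function.update y j (y j + t)) b - a * t - c * Fintype.card ι * t ^ 2) 0),
    vR κ k ν x f f1 f2 s y b ≤ η := by
  have hK1 : 1 ≤ |K| + |K'| + 1 := by linarith [abs_nonneg K, abs_nonneg K']
  obtain ⟨k0, h⟩ := syncB _ η hK1 hη
  refine ⟨k0, fun k hk hk0 ε hε c => ?_⟩
  obtain ⟨N0, h⟩ := h k hk hk0 ε hε c
  refine ⟨⌈N0⌉₊ + 1, fun ι κ Cf _ _ _ _ _ ν x hx f f1 f2 hf hN hκ s y b hy hm => ?_⟩
  have := hx.prob
  have hN' : (⌈N0⌉₊ : ℝ) + 1 ≤ Fintype.card ι := by exact_mod_cast hN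
  have hN1 : (1 : ℝ) ≤ Fintype.card ι := by linarith [Nat.cast_nonneg (α := ℝ) ⌈N0⌉₊]
  have hs : ∀ g : ι ⊕ κ × ι × Bool → ℝ,
      ∑ i ∈ univ.filter (fun i : ι ⊕ κ × ι × Bool => i.isLeft = true), g i =
        ∑ i, g (.inl i) := fun g => by
    rw [sum_filter, Fintype.sum_sum_type]; simp
  have key := h _ _ Cf (Md κ x f f1 f2)
    (ms_mono (md_ok hx hf) (by linarith [le_abs_self K, abs_nonneg K'])) ν
    (fun i => i.isLeft = true) 1 (Fintype.card ι) (wM ι κ s y b) y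
    (by linarith [Nat.le_ceil N0]) one_pos hy
    (fun j _ i hi => by cases i <;> simp [wM] at hi ⊢)
    (fun σ => by
      rw [hs]
      simp only [Md, Sum.elim_inl, one_mul, hx.norm]
      nlinarith)
    (fun a => by
      cases a with
      | none => exact Or.inl fun _ => rfl
      | some a =>
        refine Or.inr ⟨fun i hi ho => ?_, ?_⟩
        · cases i <;> simp [Md] at hi ho
        · rw [filter_eq_empty_iff.2 fun i _ => by cases i <;> simp [Md]]
          simp)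
    (by rw [Fintype.card_option]; push_cast; exact ms_card hN1 hκ)
    fun j hj => by
      obtain ⟨a, ha⟩ := hm j hj
      refine ⟨a, ?_⟩
      convert ha using 5 with t
      unfold YM
      congr 1
      funext j' i
      cases i with
      | inl i =>
        by_cases h1 : j' = j
        · subst h1; simp [wM]
        · simp [wM, h1]
      | inr i => simp [wM]
  simp only [hs] at key
  simpa [vR, eR, RM, ov, HM, Rg.ψ, Md] using key

theorem syncQ (K K' η : ℝ) (hη : 0 < η) : ∃ k0 : ℕ, ∀ k ≥ k0, 0 < k → ∀ ε > 0, ∀ c : ℝ,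
    ∃ N0 : ℕ, ∀ (ι κ Cf : Type) [Fintype ι] [Fintype κ] [DecidableEq κ] [MeasurableSpace Cf]
    [Nonempty Cf] (ν : Measure Cf) (x : Cf → ι → ℝ) (_ : Spin ν x) (f f1 f2 : ℝ → ℝ)
    (_ : Nice f f1 f2 K) (_ : N0 ≤ Fintype.card ι)
    (_ : (Fintype.card κ : ℝ) ≤ K' * Fintype.card ι) (s : ℝ) (y b : ℕ → ℝ)
    (_ : ∀ j < k, ε ≤ b j ∧ b j ≤ c)
    (_ : ∀ j < k, ∃ a : ℝ, IsLocalMax (fun t : ℝ => YM κ k ν x f f1 f2 s y
      (Function.update b j (b j + t)) - a * t - c * Fintype.card ι * t ^ 2) 0),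
    vQ κ k ν x f f1 f2 s y b ≤ η := by
  have hK1 : 1 ≤ |K| + |K'| + 1 := by linarith [abs_nonneg K, abs_nonneg K']
  obtain ⟨k0, h⟩ := syncB _ η hK1 hη
  refine ⟨k0, fun k hk hk0 ε hε c => ?_⟩
  obtain ⟨N0, h⟩ := h k hk hk0 ε hε c
  refine ⟨⌈N0⌉₊ + 1, fun ι κ Cf _ _ _ _ _ ν x hx f f1 f2 hf hN hκ s y b hy hm => ?_⟩
  have := hx.prob
  have hN' : (⌈N0⌉₊ : ℝ) + 1 ≤ Fintype.card ι := by exact_mod_cast hN
  have hN1 : (1 : ℝ) ≤ Fintype.card ι := by linarith [Nat.cast_nonneg (α := ℝ) ⌈N0⌉₊]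
  have hN0 : (Fintype.card ι : ℝ) ≠ 0 := by positivity
  have hs : ∀ g : ι ⊕ κ × ι × Bool → ℝ, ∑ i ∈ univ.filter (fun i : ι ⊕ κ × ι × Bool =>
      Sum.elim (fun _ => false) (fun q => q.2.2) i = true), g i =
        ∑ a, ∑ i, g (.inr (a, i, true)) := fun g => by
    rw [sum_filter, Fintype.sum_sum_type]; simp [Fintype.sum_prod_type]
  have key := h _ _ Cf (Md κ x f f1 f2)
    (ms_mono (md_ok hx hf) (by linarith [le_abs_self K, abs_nonneg K'])) ν
    (fun i => Sum.elim (fun _ => false) (fun q => q.2.2) i = true) (1 / Fintype.card ι)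
    (Fintype.card ι) (wM ι κ s y b) b
    (by linarith [Nat.le_ceil N0]) (by positivity) hy
    (fun j _ i hi => by
      cases i with
      | inl i => simp at hi
      | inr i =>
        simp only [Sum.elim_inr] at hi
        simp [wM, div_eq_mul_inv, hi])
    (fun σ => by
      rw [hs]
      simp only [Md, Sum.elim_inr, if_true, one_pow, mul_one, sum_const, card_univ, nsmul_eq_mul]
      rw [mul_one_div_cancel hN0]
      linarith [ms_card (K := K) hN1 hκ])
    (fun a => by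
      cases a with
      | none => exact Or.inl fun _ => rfl
      | some a =>
        refine Or.inr ⟨fun i hi ho σ => ?_, ?_⟩
        · cases i with
          | inl i => simp at hi
          | inr i =>
            simp only [Sum.elim_inr] at hi
            simp [Md, hi]
        · rw [← filter_filter, card_filter, Nat.cast_sum, hs]
          simp [Md, hN0])
    (by rw [Fintype.card_option]; push_cast; exact ms_card hN1 hκ)
    fun j hj => by
      obtain ⟨a, ha⟩ := hm j hj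
      refine ⟨a, ?_⟩
      convert ha using 5 with t
      unfold YM
      congr 1
      funext j' i
      cases i with
      | inl i => simp [wM]
      | inr i =>
        by_cases h1 : j' = j
        · subst h1
          by_cases h2 : i.2.2 = true
          · simp [wM, h2]; ring
          · simp [wM, h2]
        · simp [wM, h1]
  have e : ∀ z : St (ι ⊕ κ × ι × Bool) Cf × St (ι ⊕ κ × ι × Bool) Cf, (∑ a : κ, ∑ i : ι,
      1 / (Fintype.card ι : ℝ) * ((Md κ x f f1 f2).ψ k (wM ι κ s y b) (.inr (a, i, true)) z.1 *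
        (Md κ x f f1 f2).ψ k (wM ι κ s y b) (.inr (a, i, true)) z.2)) / Fintype.card ι =
      QM κ k x f f1 f2 s y b z := by
    intro z
    unfold QM
    congr 1
    refine sum_congr rfl fun a _ => ?_
    have : ∀ (i : ι) z', (Md κ x f f1 f2).ψ k (wM ι κ s y b) (.inr (a, i, true)) z' =
        f1 (UM κ k x f f1 f2 s y b a z') := fun i z' => one_mul _
    simp only [this, sum_const, card_univ, nsmul_eq_mul]
    field_simp
  simp only [hs, e] at key
  exact key

theorem ms_sum {k j : ℕ} (hj : j < k) (y b : ℕ → ℝ) (m v : ℝ) :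
    ∑ i ∈ range k, ((Function.update y j v i - m) ^ 2 + (b i - m) ^ 2) =
      ∑ i ∈ range k, ((y i - m) ^ 2 + (b i - m) ^ 2) + ((v - m) ^ 2 - (y j - m) ^ 2) := by
  rw [← add_sum_erase _ _ (mem_range.2 hj), ← add_sum_erase _ _ (mem_range.2 hj),
    sum_congr rfl fun i hi => by rw [Function.update_of_ne (ne_of_mem_erase hi)],
    Function.update_self]
  ring

theorem ms_abs {k j : ℕ} (hj : j < k) (y : ℕ → ℝ) (v : ℝ) :
    ∑ i ∈ range k, |Function.update y j v i - y i| = |v - y j| := by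
  rw [sum_eq_single_of_mem j (mem_range.2 hj) fun i _ h => by simp [Function.update_of_ne h],
    Function.update_self]

/-- a maximiser of a penalised Lipschitz function of one variable is a local maximum -/
theorem ms_loc {G : ℝ → ℝ} {m u v L c c' : ℝ} (hu : 0 < u) (hv : m - u ≤ v ∧ v ≤ m + u)
    (hL : 2 * L < 3 * c * u) (hc : c ≤ c')
    (hG : ∀ v', m - u ≤ v' → v' ≤ m + u → |G v' - G v| ≤ L * |v' - v|)
    (hmax : ∀ v', m - u ≤ v' → v' ≤ m + u →
      G v' - c * ((v' - m) ^ 2 - (v - m) ^ 2) ≤ G v) :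
    ∃ a, IsLocalMax (fun t => G (v + t) - a * t - c' * t ^ 2) 0 := by
  have h1 : ∀ e : ℝ, e ^ 2 = 1 → |e| = 1 → v ≠ m + e * u := by
    intro e h2 h3 h4
    have h5 := abs_le.1 h3.le
    have h6 := hG (m + e * u / 2) (by nlinarith) (by nlinarith)
    have h7 := hmax (m + e * u / 2) (by nlinarith) (by nlinarith)
    have h8 : |m + e * u / 2 - v| = u / 2 := by
      rw [h4, show m + e * u / 2 - (m + e * u) = -(e * (u / 2)) by ring, abs_neg, abs_mul, h3,
        one_mul, abs_of_pos (half_pos hu)]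
    have h9 : (m + e * u / 2 - m) ^ 2 - (v - m) ^ 2 = -(3 / 4 * u ^ 2) := by
      rw [h4]; linear_combination (-(3 / 4) * u ^ 2) * h2
    rw [h8] at h6
    rw [h9] at h7
    nlinarith [(abs_le.1 h6).1]
  have h2 : m - u < v := lt_of_le_of_ne hv.1 fun h => h1 (-1) (by norm_num) (by norm_num)
    (by linarith)
  have h3 : v < m + u := lt_of_le_of_ne hv.2 fun h => h1 1 (by norm_num) (by norm_num)
    (by linarith)
  refine ⟨2 * c * (v - m), ?_⟩
  filter_upwards [Ioo_mem_nhds (show m - u - v < 0 by linarith) (show 0 < m + u - v by linarith)]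
    with t ht
  have h4 := hmax (v + t) (by linarith [ht.1]) (by linarith [ht.2])
  simp only [add_zero, mul_zero, sub_zero, ne_eq, OfNat.ofNat_ne_zero, not_false_eq_true, zero_pow]
  nlinarith [mul_le_mul_of_nonneg_right hc (sq_nonneg t)]

/-- a contact point for the perturbation fields -/
theorem contact (K K' η δ : ℝ) (hη : 0 < η) (hδ : 0 < δ) : ∃ k0 : ℕ, ∀ k ≥ k0, 0 < k →
    ∃ c ≥ (0 : ℝ), c * δ ^ 2 / k ≤ 8 * K ^ 2 * (1 + |K'|) * δ ∧ ∃ N0 : ℕ, ∀ (ι κ Cf : Type)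
    [Fintype ι] [Fintype κ] [DecidableEq κ] [MeasurableSpace Cf]
    [Nonempty Cf] (ν : Measure Cf) (x : Cf → ι → ℝ) (_ : Spin ν x) (f f1 f2 : ℝ → ℝ)
    (_ : Nice f f1 f2 K) (_ : N0 ≤ Fintype.card ι)
    (_ : (Fintype.card κ : ℝ) ≤ K' * Fintype.card ι), ∃ y b : ℕ → ℝ,
      (∀ j, δ / (2 * k) ≤ y j ∧ y j ≤ 3 * δ / (2 * k)) ∧
      (∀ j, δ / (2 * k) ≤ b j ∧ b j ≤ 3 * δ / (2 * k)) ∧
      vR κ k ν x f f1 f2 1 y b ≤ η ∧ vQ κ k ν x f f1 f2 1 y b ≤ η ∧
      ∀ y' b' : ℕ → ℝ, (∀ j, δ / (2 * k) ≤ y' j ∧ y' j ≤ 3 * δ / (2 * k)) →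
        (∀ j, δ / (2 * k) ≤ b' j ∧ b' j ≤ 3 * δ / (2 * k)) →
        YM κ k ν x f f1 f2 1 y' b' - c * Fintype.card ι *
            ∑ j ∈ range k, ((y' j - δ / k) ^ 2 + (b' j - δ / k) ^ 2) ≤
          YM κ k ν x f f1 f2 1 y b - c * Fintype.card ι *
            ∑ j ∈ range k, ((y j - δ / k) ^ 2 + (b j - δ / k) ^ 2) := by
  obtain ⟨k1, h1⟩ := syncR K K' η hη
  obtain ⟨k2, h2⟩ := syncQ K K' η hη
  refine ⟨max k1 k2, fun k hk hk0 => ?_⟩
  have hk' : (0 : ℝ) < k := by exact_mod_cast hk0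
  set c := 4 * K ^ 2 * (1 + |K'|) * k / δ with hc
  set u := δ / (2 * k) with hu
  have hu0 : 0 < u := by positivity
  have e1 : δ / (2 * k) = δ / k - u := by rw [hu]; field_simp; ring
  have e2 : 3 * δ / (2 * k) = δ / k + u := by rw [hu]; field_simp; ring
  obtain ⟨N1, h1⟩ := h1 k (le_of_max_le_left hk) hk0 u hu0 (max c (3 * δ / (2 * k)))
  obtain ⟨N2, h2⟩ := h2 k (le_of_max_le_right hk) hk0 u hu0 (max c (3 * δ / (2 * k)))
  refine ⟨c, by positivity, ?_, max (max N1 N2) 1,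
    fun ι κ Cf _ _ _ _ _ ν x hx f f1 f2 hf hN hκ => ?_⟩
  · have : c * δ ^ 2 / k = 4 * K ^ 2 * (1 + |K'|) * δ := by rw [hc]; field_simp
    rw [this]
    have : 0 ≤ K ^ 2 * (1 + |K'|) * δ := by positivity
    linarith
  have := hx.prob
  have hN1 : 1 ≤ Fintype.card ι := le_of_max_le_right hN
  have : Nonempty ι := Fintype.card_pos_iff.1 hN1
  have hN1' : (1 : ℝ) ≤ Fintype.card ι := by exact_mod_cast hN1
  set Φ : (ℕ → ℝ) → (ℕ → ℝ) → ℝ := fun y b => YM κ k ν x f f1 f2 1 y b -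
    c * Fintype.card ι * ∑ j ∈ range k, ((y j - δ / k) ^ 2 + (b j - δ / k) ^ 2) with hΦ
  have hcont : Continuous fun z : (ℕ → ℝ) × (ℕ → ℝ) => Φ z.1 z.2 := by
    refine Continuous.sub (continuous_iff_continuousAt.2 fun z => ?_) (by fun_prop)
    refine Rg.Yv_cont (md_ok hx hf) hk0 fun j _ i => Continuous.tendsto ?_ z
    cases i with
    | inl i => simp only [wM, Sum.elim_inl]; fun_prop
    | inr i => simp only [wM, Sum.elim_inr]; split_ifs <;> fun_prop
  have hB : IsCompact (Set.pi Set.univ fun _ : ℕ => Set.Icc u (3 * δ / (2 * k))) :=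
    isCompact_univ_pi fun _ => isCompact_Icc
  obtain ⟨⟨y, b⟩, ⟨hy, hb⟩, hmax⟩ := (hB.prod hB).exists_isMaxOn
    ⟨(fun _ => u, fun _ => u), fun _ _ => ⟨le_rfl, by linarith⟩, fun _ _ => ⟨le_rfl, by linarith⟩⟩
    hcont.continuousOn
  have hy' : ∀ j, u ≤ y j ∧ y j ≤ 3 * δ / (2 * k) := fun j => hy j trivial
  have hb' : ∀ j, u ≤ b j ∧ b j ≤ 3 * δ / (2 * k) := fun j => hb j trivial
  have hmax' : ∀ y' b' : ℕ → ℝ, (∀ j, u ≤ y' j ∧ y' j ≤ 3 * δ / (2 * k)) →
      (∀ j, u ≤ b' j ∧ b' j ≤ 3 * δ / (2 * k)) → Φ y' b' ≤ Φ y b := fun y' b' h3 h4 =>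
    hmax (a := (y', b')) ⟨fun j _ => h3 j, fun j _ => h4 j⟩
  have hup : ∀ (z : ℕ → ℝ), (∀ j, u ≤ z j ∧ z j ≤ 3 * δ / (2 * k)) → ∀ j v, δ / k - u ≤ v →
      v ≤ δ / k + u → ∀ i, u ≤ Function.update z j v i ∧
        Function.update z j v i ≤ 3 * δ / (2 * k) := by
    intro z hz j v h3 h4 i
    by_cases h5 : i = j
    · subst h5; rw [Function.update_self]; constructor <;> linarith
    · rw [Function.update_of_ne h5]; exact hz i
  have hK1 := hf.one_le
  have hcu : 3 * (c * Fintype.card ι) * u = 6 * K ^ 2 * (1 + |K'|) * Fintype.card ι := by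
    rw [hc, hu]; field_simp; ring
  have hpos : 0 < K ^ 2 * Fintype.card ι := by positivity
  have hK' : 0 ≤ K ^ 2 * |K'| * Fintype.card ι := by positivity
  have hcc : c * Fintype.card ι ≤ max c (3 * δ / (2 * k)) * Fintype.card ι := by
    gcongr; exact le_max_left _ _
  refine ⟨y, b, hy', hb', ?_, ?_, hmax'⟩
  · refine h1 ι κ Cf ν x hx f f1 f2 hf (le_of_max_le_left (le_of_max_le_left hN)) hκ 1 y b
      (fun j _ => ⟨(hy' j).1, (hy' j).2.trans (le_max_right _ _)⟩) fun j hj => ?_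
    refine ms_loc (G := fun v => YM κ k ν x f f1 f2 1 (Function.update y j v) b) (m := δ / k)
      (L := 2 * K ^ 2 * Fintype.card ι) hu0 (by constructor <;> linarith [hy' j])
      (by rw [hcu]; nlinarith) hcc (fun v h3 h4 => ?_) fun v h3 h4 => ?_
    · have h5 := YM_lip (κ := κ) hx hf hk0 (y := y) (b := b) (y' := Function.update y j v)
        (b' := b) zero_le_one zero_le_one (fun i _ => hu0.le.trans (hy' i).1)
        (fun i _ => hu0.le.trans (hup y hy' j v h3 h4 i).1) (fun i _ => hu0.le.trans (hb' i).1)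
        fun i _ => hu0.le.trans (hb' i).1
      rw [ms_abs hj] at h5
      simpa [mul_assoc] using h5
    · have h5 := hmax' _ b (hup y hy' j v h3 h4) hb'
      simp only [hΦ, ms_sum hj] at h5
      simp only [Function.update_eq_self]
      linarith
  · refine h2 ι κ Cf ν x hx f f1 f2 hf (le_of_max_le_right (le_of_max_le_left hN)) hκ 1 y b
      (fun j _ => ⟨(hb' j).1, (hb' j).2.trans (le_max_right _ _)⟩) fun j hj => ?_
    refine ms_loc (G := fun v => YM κ k ν x f f1 f2 1 y (Function.update b j v)) (m := δ / k)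
      (L := 2 * K ^ 2 * Fintype.card κ) hu0 (by constructor <;> linarith [hb' j])
      (by
        rw [hcu]
        have h3 : (Fintype.card κ : ℝ) ≤ |K'| * Fintype.card ι :=
          hκ.trans (by gcongr; exact le_abs_self _)
        nlinarith [mul_le_mul_of_nonneg_left h3 (sq_nonneg K)]) hcc
      (fun v h3 h4 => ?_) fun v h3 h4 => ?_
    · have h5 := YM_lip (κ := κ) hx hf hk0 (y := y) (b := b) (y' := y)
        (b' := Function.update b j v) zero_le_one zero_le_one (fun i _ => hu0.le.trans (hy' i).1)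
        (fun i _ => hu0.le.trans (hy' i).1) (fun i _ => hu0.le.trans (hb' i).1)
        fun i _ => hu0.le.trans (hup b hb' j v h3 h4 i).1
      rw [ms_abs hj] at h5
      simpa [mul_assoc] using h5
    · have h5 := hmax' y _ hy' (hup b hb' j v h3 h4)
      have h6 := ms_sum hj b y (δ / k) v
      simp only [add_comm ((Function.update b j v _ - _) ^ 2), add_comm ((b _ - _) ^ 2)] at h6
      simp only [hΦ, h6] at h5
      simp only [Function.update_eq_self]
      linarith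

end Vale.Agent.P157
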