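import Vale.Agent.P157.Cav3
import Vale.Agent.P157.Conc3
import Vale.Agent.P157.MdSync

namespace Vale.Agent.P157

open MeasureTheory ProbabilityTheory Real Finset Filter Topology
open scoped ENNReal

theorem low_mp_inj {Cf β β' : Type} [MeasurableSpace Cf] [Fintype β] [Fintype β'] (ν : Measure Cf)
    [IsProbabilityMeasure ν] {e : β → β'} (he : Function.Injective e) :
    MeasurePreserving (fun (σ : β' → Cf) b => σ (e b)) (Measure.pi fun _ => ν)
      (Measure.pi fun _ => ν) := by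
  refine ⟨by fun_prop, ?_⟩
  have h1 : iIndepFun (fun (i : β') (v : β' → Cf) => v i) (Measure.pi fun _ => ν) :=
    iIndepFun_pi (X := fun _ => id) (fun _ => aemeasurable_id)
  rw [(h1.precomp he).map_fun_eq_pi_map (fun i => (measurable_pi_apply _).aemeasurable)]
  congr 1
  funext i
  exact (measurePreserving_eval (fun _ : β' => ν) (e i)).map_eq

theorem low_mp_split {Cf β β' β'' : Type} [MeasurableSpace Cf] [Fintype β] [Fintype β']
    [Fintype β''] (ν : Measure Cf) [IsProbabilityMeasure ν] (E : β ⊕ β' ≃ β'') :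
    MeasurePreserving (fun σ : β'' → Cf => (fun b => σ (E (.inl b)), fun b => σ (E (.inr b))))
      (Measure.pi fun _ => ν) ((Measure.pi fun _ => ν).prod (Measure.pi fun _ => ν)) :=
  (measurePreserving_sumPiEquivProdPi (fun _ : β ⊕ β' => ν)).comp (low_mp_inj ν E.injective)

variable {ι Cf : Type} [Fintype ι] [Nonempty ι] [MeasurableSpace Cf] [Nonempty Cf]
  {ν : Measure Cf} {x : Cf → ι → ℝ} {f f1 f2 : ℝ → ℝ} {K : ℝ}

omit [MeasurableSpace Cf] [Nonempty Cf] [Nonempty ι] in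
theorem ov_blk (β : Type) [Fintype β] (σ σ' : β → Cf) :
    ov (blk β x) σ σ' = (∑ b, ov x (σ b) (σ' b)) / Fintype.card β := by
  simp only [ov, blk, Fintype.sum_prod_type, Fintype.card_prod, Nat.cast_mul, ← Finset.sum_div]
  rw [div_div, mul_comm]

omit [Nonempty ι] in
theorem blk_avg (hx : Spin ν x) (hf : Nice f f1 f2 K) {k : ℕ} (hk : 0 < k) {β β'' κ : Type}
    [Fintype β] [Fintype β''] [Nonempty β] [Fintype κ] [DecidableEq κ] (s : ℝ)
    (y b : ℕ → ℝ) {l : ℕ} (hl : l ≤ k) (c : β → β'') (b0 : β'') :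
    ∫ z, ov (blk β x) (fun a => z.1.1 (c a)) (fun a => z.2.1 (c a))
        ∂pp k (Measure.pi fun _ : β'' => ν) (HM κ k (blk β'' x) f f1 f2 s y b) l =
      ∫ z, ov x (z.1.1 b0) (z.2.1 b0)
        ∂pp k (Measure.pi fun _ : β'' => ν) (HM κ k (blk β'' x) f f1 f2 s y b) l := by
  classical
  have := hx.prob
  have hB := hx.blk β''
  have := pp_prob hk (lin_HM (κ := κ) hB hf hk s y b) l
  have mo : ∀ a : β'', Measurable fun u : (β'' → Cf) × (β'' → Cf) => ov x (u.1 a) (u.2 a) :=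
    fun a => hx.measurable_ov.comp (by fun_prop :
      Measurable fun u : (β'' → Cf) × (β'' → Cf) => (u.1 a, u.2 a))
  have h1 : ∀ a : β'', ∫ z, ov x (z.1.1 a) (z.2.1 a)
        ∂pp k (Measure.pi fun _ : β'' => ν) (HM κ k (blk β'' x) f f1 f2 s y b) l =
      ∫ z, ov x (z.1.1 b0) (z.2.1 b0)
        ∂pp k (Measure.pi fun _ : β'' => ν) (HM κ k (blk β'' x) f f1 f2 s y b) l := fun a => by
    have := pp_equiv hB hB hf hk ((Equiv.swap a b0).prodCongr (Equiv.refl ι)) (Equiv.refl κ)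
      (low_mp_inj ν (Equiv.swap a b0).injective) (fun σ i => rfl) s y b (mo b0) hl
    simpa using this
  simp only [ov_blk]
  rw [integral_div, integral_finset_sum]
  · simp only [h1, Finset.sum_const, card_univ, nsmul_eq_mul]
    have : (Fintype.card β : ℝ) ≠ 0 := Nat.cast_ne_zero.mpr Fintype.card_ne_zero
    field_simp
  · intro a _
    exact Integrable.of_bound ((mo (c a)).comp (by fun_prop : Measurable fun z :
      St (β'' × ι ⊕ κ × (β'' × ι) × Bool) (β'' → Cf) × St (β'' × ι ⊕ κ × (β'' × ι) × Bool)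
        (β'' → Cf) => (z.1.1, z.2.1))).aestronglyMeasurable 1
          (ae_of_all _ fun z => hx.abs_ov_le _ _)

theorem blk_sym (hx : Spin ν x) (hf : Nice f f1 f2 K) {k : ℕ} (hk : 0 < k) (β β' κ : Type)
    [Fintype β] [Fintype β'] [Nonempty β] [Nonempty β'] [Fintype κ] [DecidableEq κ] (s : ℝ)
    (y b : ℕ → ℝ) {l : ℕ} (hl : l ≤ k) :
    ∫ z, ov (blk β x) z.1.1.1 z.2.1.1
        ∂pp k ((Measure.pi fun _ : β => ν).prod (Measure.pi fun _ : β' => ν))
          (HM κ k (xx (blk β x) (blk β' x)) f f1 f2 s y b) l =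
      ∫ z, ov (blk β' x) z.1.1.2 z.2.1.2
        ∂pp k ((Measure.pi fun _ : β => ν).prod (Measure.pi fun _ : β' => ν))
          (HM κ k (xx (blk β x) (blk β' x)) f f1 f2 s y b) l := by
  have := hx.prob
  have hA := (hx.blk β).xx (hx.blk β')
  have key := fun u hu => pp_equiv hA (hx.blk (β ⊕ β')) hf hk (Equiv.sumProdDistrib β β' ι).symm
    (Equiv.refl κ) (low_mp_split ν (Equiv.refl (β ⊕ β')))
    (by rintro σ (i | i) <;> rfl) s y b (u := u) hu hl
  have m1 : Measurable fun u : ((β → Cf) × (β' → Cf)) × ((β → Cf) × (β' → Cf)) =>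
      ov (blk β x) u.1.1 u.2.1 := (hx.blk β).measurable_ov.comp (by fun_prop :
        Measurable fun u : ((β → Cf) × (β' → Cf)) × ((β → Cf) × (β' → Cf)) => (u.1.1, u.2.1))
  have m2 : Measurable fun u : ((β → Cf) × (β' → Cf)) × ((β → Cf) × (β' → Cf)) =>
      ov (blk β' x) u.1.2 u.2.2 := (hx.blk β').measurable_ov.comp (by fun_prop :
        Measurable fun u : ((β → Cf) × (β' → Cf)) × ((β → Cf) × (β' → Cf)) => (u.1.2, u.2.2))
  have b0 : β ⊕ β' := .inl (Classical.arbitrary β)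
  exact ((key _ m1).symm.trans (blk_avg hx hf hk s y b hl Sum.inl b0)).trans
    ((key _ m2).symm.trans (blk_avg hx hf hk s y b hl Sum.inr b0)).symm

theorem telescope {u : ℕ → ℝ} {n N0 : ℕ} (hn : 0 < n) {c : ℝ}
    (h : ∀ N ≥ N0, u N + n * c ≤ u (N + n)) {η : ℝ} (hη : 0 < η) :
    ∀ᶠ N in atTop, N * (c - η) ≤ u N := by
  obtain ⟨C, hC⟩ : ∃ C, ∀ N ∈ range (N0 + n), -C ≤ u N - N * c := by
    obtain ⟨C, hC⟩ := (range (N0 + n)).finite_toSet.image (fun N : ℕ => u N - N * c) |>.bddBelow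
    exact ⟨-C, fun N hN => by simpa using hC ⟨N, hN, rfl⟩⟩
  have h1 : ∀ N, -C ≤ u N - N * c := by
    intro N
    induction N using Nat.strong_induction_on with
    | _ N ih =>
      by_cases hN : N < N0 + n
      · exact hC N (Finset.mem_range.mpr hN)
      · obtain ⟨M, rfl⟩ : ∃ M, N = M + n := ⟨N - n, by omega⟩
        have := ih M (by omega)
        have := h M (by omega)
        push_cast
        linarith
  filter_upwards [eventually_ge_atTop ⌈C / η⌉₊] with N hN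
  have : C / η ≤ N := (Nat.le_ceil _).trans (Nat.cast_le.mpr hN)
  rw [div_le_iff₀ hη] at this
  linarith [h1 N]

theorem low_step (hx : Spin ν x) (hrot : RotInv ν x) (hf : Nice f f1 f2 K) {α e : ℝ} {k : ℕ}
    (hk : 0 < k) {V : ℝ} (hV : ∀ q B, AdmQ k q →
      (∀ r, AdmR r → XN k ν x r + pairing k q r ≤ B) → V ≤ α * Psi f k q + B)
    {N n' M M' : ℕ} (hN : 0 < N) (hn : 0 < n') (hM : M ≤ M')
    (hm : |((M' - M : ℕ) : ℝ) - α * (n' * Fintype.card ι)| ≤ 1) {y b r : ℕ → ℝ} (ar : AdmR r)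
    (sr : Strict k r)
    (h : YM (Fin M) k (Measure.pi fun _ : Fin N => ν) (blk (Fin N) x) f f1 f2 1 y b +
      Fintype.card (Fin n' × ι) *
        (XN k (Measure.pi fun _ : Fin n' => ν) (blk (Fin n') x) r + pairing k
          (pS k (Measure.pi fun _ : Fin n' => ν) (blk (Fin n') x) r) r - e) +
        Fintype.card (Fin (M' - M)) *
          Psi f k (pathQ k (pS k (Measure.pi fun _ : Fin n' => ν) (blk (Fin n') x) r)) ≤
      YM (Fin M ⊕ Fin (M' - M)) k
        ((Measure.pi fun _ : Fin N => ν).prod (Measure.pi fun _ : Fin n' => ν))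
        (xx (blk (Fin N) x) (blk (Fin n') x)) f f1 f2 1 y b) :
    YM (Fin M) k (Measure.pi fun _ : Fin N => ν) (blk (Fin N) x) f f1 f2 1 y b +
      n' * Fintype.card ι * (V - e) - K ≤
      YM (Fin M') k (Measure.pi fun _ : Fin (N + n') => ν) (blk (Fin (N + n')) x) f f1 f2 1 y b := by
  have := hx.prob
  have : Nonempty (Fin n') := ⟨⟨0, hn⟩⟩
  rw [YM_equiv ((hx.blk (Fin N)).xx (hx.blk (Fin n'))) (hx.blk (Fin (N + n'))) hf hk
    ((Equiv.sumProdDistrib _ _ ι).symm.trans (finSumFinEquiv.prodCongr (Equiv.refl ι)))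
    (finSumFinEquiv.trans (finCongr (by omega : M + (M' - M) = M')))
    (low_mp_split ν finSumFinEquiv) (by rintro σ (i | i) <;> rfl)]
  refine le_trans ?_ h
  have e1 : pathQ k (pS k (Measure.pi fun _ : Fin n' => ν) (blk (Fin n') x) r) =
      pathQ k (pS k ν x r) := by
    funext l
    unfold pathQ
    split_ifs with h1 h2
    · rfl
    · exact pS_blk hx hk _ sr (Nat.pos_of_ne_zero h1) h2
    · rfl
  have e2 : ∀ r', AdmR r' → pairing k (pathQ k (pS k ν x r)) r' = pairing k (pS k ν x r) r' :=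
    fun r' hr' => pairing_congr hr'.1 fun l h0 hl => by simp [pathQ, h0.ne', hl]
  rw [e1, XN_blk hx hk, pairing_congr (q' := pS k ν x r) ar.1 fun l h0 hl => pS_blk hx hk (Fin n') sr h0 hl]
  have h1 := hV _ _ (admQ_pS hx hk r) fun r' hr' => (e2 r' hr').symm ▸ conc hx hrot hk ar sr hr'
  have h2 := abs_Psi_le (f := f) (continuous_iff_continuousAt.mpr fun u =>
      (hf.d1 u).continuousAt).measurable hf.b0 hk (pathQ k (pS k ν x r))
  simp only [Fintype.card_prod, Fintype.card_fin, Nat.cast_mul]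
  set P := Psi f k (pathQ k (pS k ν x r))
  have h3 : |(((M' - M : ℕ) : ℝ) - α * (n' * Fintype.card ι)) * P| ≤ K := by
    rw [abs_mul]
    calc _ ≤ 1 * K := by gcongr
      _ = K := one_mul K
  have h4 := mul_le_mul_of_nonneg_left h1
    (by positivity : (0 : ℝ) ≤ n' * Fintype.card ι)
  linarith [(abs_le.mp h3).1]

theorem lower (hx : Spin ν x) (hrot : RotInv ν x) (hf : Nice f f1 f2 K) {α η : ℝ} (hα : 0 ≤ α)
    (hη : 0 < η) : ∃ k0 : ℕ, ∀ k ≥ k0, ∀ V : ℝ,
    (∀ q B, AdmQ k q → (∀ r, AdmR r → XN k ν x r + pairing k q r ≤ B) → V ≤ α * Psi f k q + B) →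
    ∀ᶠ N : ℕ in atTop, (N * Fintype.card ι : ℝ) * (V - η) ≤
      YM (Fin ⌊α * (N * Fintype.card ι : ℕ)⌋₊) k (Measure.pi fun _ : Fin N => ν) (blk (Fin N) x)
        f f1 f2 1 0 0 := by
  have hK := hf.one_le
  have hd : (1 : ℝ) ≤ Fintype.card ι := Nat.one_le_cast.mpr Fintype.card_pos
  obtain ⟨δ1, hδ1, CS⟩ := cav_step K (α + 1) (η / 8) (by positivity) (by positivity)
  obtain ⟨δ, hδ, hδa, hδb⟩ : ∃ δ : ℝ, 0 < δ ∧ 3 * δ / 2 ≤ δ1 ∧ δ * (32 * K ^ 2 * (α + 2)) ≤ η :=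
    ⟨min (2 * δ1 / 3) (η / (32 * K ^ 2 * (α + 2))), lt_min (by positivity) (by positivity),
      by linarith [min_le_left (2 * δ1 / 3) (η / (32 * K ^ 2 * (α + 2)))],
      (le_div_iff₀ (by positivity)).mp (min_le_right _ _)⟩
  obtain ⟨n', hn', hn'K⟩ : ∃ n' : ℕ, 0 < n' ∧ K ≤ n' * (η / 8) := by
    refine ⟨⌈K / (η / 8)⌉₊, Nat.ceil_pos.mpr (by positivity), ?_⟩
    exact (div_le_iff₀ (by positivity)).mp (Nat.le_ceil _)
  have hn1 : (1 : ℝ) ≤ n' := Nat.one_le_cast.mpr hn'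
  obtain ⟨a, ha, N1, CS⟩ := CS (n' * Fintype.card ι + ⌈(α + 1) * (n' * Fintype.card ι)⌉₊)
  obtain ⟨k0, CT⟩ := contact K (α + 1) a δ ha hδ
  refine ⟨max k0 1, fun k hk V hV => ?_⟩
  have hk0 : 0 < k := le_of_max_le_right hk
  have hk' : (0 : ℝ) < k := Nat.cast_pos.mpr hk0
  obtain ⟨c, hc0, hc, N2, CT⟩ := CT k (le_of_max_le_left hk) hk0
  rw [abs_of_nonneg (by positivity : 0 ≤ α + 1)] at hc
  obtain ⟨M, hM⟩ : ∃ M : ℕ → ℕ, M = fun N => ⌊α * (N * Fintype.card ι : ℕ)⌋₊ := ⟨_, rfl⟩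
  have hM1 : ∀ N, (M N : ℝ) ≤ α * (N * Fintype.card ι) := fun N => by
    rw [hM]; exact (Nat.floor_le (by positivity)).trans_eq (by push_cast; ring)
  have hM2 : ∀ N : ℕ, α * (N * Fintype.card ι) < M N + 1 := fun N => by
    rw [hM]; exact lt_of_eq_of_lt (by push_cast; ring) (Nat.lt_floor_add_one _)
  have hM3 : ∀ N, (Fintype.card (Fin (M N)) : ℝ) ≤ (α + 1) * Fintype.card (Fin N × ι) := fun N => by
    simp only [Fintype.card_fin, Fintype.card_prod, Nat.cast_mul]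
    have : (0 : ℝ) ≤ N * Fintype.card ι := by positivity
    linarith [hM1 N]
  have hcard : ∀ N, N ≤ Fintype.card (Fin N × ι) := fun N => by
    simp only [Fintype.card_fin, Fintype.card_prod]
    exact Nat.le_mul_of_pos_right _ Fintype.card_pos
  choose y b hy hb hR hQ hmax using fun (N : ℕ) (hN : N2 ≤ N) => CT (Fin N × ι) (Fin (M N))
    (Fin N → Cf) _ _ (hx.blk (Fin N)) f f1 f2 hf (hN.trans (hcard N)) (hM3 N)
  have hsum : ∀ z : ℕ → ℝ, (∀ j, δ / (2 * k) ≤ z j ∧ z j ≤ 3 * δ / (2 * k)) →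
      ∑ j ∈ range k, z j ≤ 3 * δ / 2 := fun z hz => by
    calc _ ≤ ∑ _j ∈ range k, 3 * δ / (2 * k) := Finset.sum_le_sum fun j _ => (hz j).2
      _ = _ := by rw [Finset.sum_const, card_range, nsmul_eq_mul]; field_simp
  have hpos : ∀ z : ℕ → ℝ, (∀ j, δ / (2 * k) ≤ z j ∧ z j ≤ 3 * δ / (2 * k)) → ∀ j, 0 < z j :=
    fun z hz j => lt_of_lt_of_le (by positivity) (hz j).1
  have hpen : ∀ z z' : ℕ → ℝ, (∀ j, δ / (2 * k) ≤ z j ∧ z j ≤ 3 * δ / (2 * k)) →
      (∀ j, δ / (2 * k) ≤ z' j ∧ z' j ≤ 3 * δ / (2 * k)) →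
      c * ∑ j ∈ range k, ((z j - δ / k) ^ 2 + (z' j - δ / k) ^ 2) ≤ η / 8 := fun z z' hz hz' => by
    have h1 : ∀ t : ℝ, δ / (2 * k) ≤ t ∧ t ≤ 3 * δ / (2 * k) → (t - δ / k) ^ 2 ≤ (δ / (2 * k)) ^ 2 :=
      fun t ht => by
        have e1 : δ / k = 2 * (δ / (2 * k)) := by field_simp
        have e2 : 3 * δ / (2 * k) = 3 * (δ / (2 * k)) := by ring
        rw [e1]; rw [e2] at ht
        exact sq_le_sq' (by linarith only [ht.1]) (by linarith only [ht.2])
    calc _ ≤ c * ∑ _j ∈ range k, ((δ / (2 * k)) ^ 2 + (δ / (2 * k)) ^ 2) :=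
          mul_le_mul_of_nonneg_left (Finset.sum_le_sum fun j _ =>
            add_le_add (h1 _ (hz j)) (h1 _ (hz' j))) hc0
      _ = c * δ ^ 2 / k / 2 := by
          rw [Finset.sum_const, card_range, nsmul_eq_mul]; field_simp; ring
      _ ≤ η / 8 := by linarith only [hc, hδb]
  obtain ⟨u, hu⟩ : ∃ u : ℕ → ℝ, ∀ N (hN : N2 ≤ N), u N =
      YM (Fin (M N)) k (Measure.pi fun _ : Fin N => ν) (blk (Fin N) x) f f1 f2 1 (y N hN) (b N hN) -
        c * Fintype.card (Fin N × ι) *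
          ∑ j ∈ range k, ((y N hN j - δ / k) ^ 2 + (b N hN j - δ / k) ^ 2) :=
    ⟨fun N => if hN : N2 ≤ N then _ else 0, fun N hN => dif_pos hN⟩
  have step : ∀ N ≥ max (max N1 N2) 1,
      u N + n' * (Fintype.card ι * (V - 3 * η / 8)) ≤ u (N + n') := fun N hN => by
    have h2 : N2 ≤ N := (le_max_right _ _).trans (le_of_max_le_left hN)
    have h1 : N1 ≤ N := (le_max_left _ _).trans (le_of_max_le_left hN)
    have h0 : 0 < N := le_of_max_le_right hN
    have : Nonempty (Fin N) := ⟨⟨0, h0⟩⟩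
    have : Nonempty (Fin n') := ⟨⟨0, hn'⟩⟩
    have hMM : M N ≤ M (N + n') := by
      rw [hM]; exact Nat.floor_mono (by gcongr; omega)
    have hm : |((M (N + n') - M N : ℕ) : ℝ) - α * (n' * Fintype.card ι)| ≤ 1 := by
      have a1 := hM1 N
      have a2 := hM2 N
      have a3 := hM1 (N + n')
      have a4 := hM2 (N + n')
      rw [Nat.cast_sub hMM, abs_le]
      push_cast at a3 a4
      constructor <;> linarith only [a1, a2, a3, a4]
    have hm' : (Fintype.card (Fin (M (N + n') - M N)) : ℝ) ≤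
        (α + 1) * (n' * Fintype.card ι) := by
      rw [Fintype.card_fin]
      nlinarith only [(abs_le.mp hm).2, hn1, hd]
    obtain ⟨r, ar, sr, hr⟩ := CS (Fin N × ι) (Fin n' × ι) (Fin (M N)) (Fin (M (N + n') - M N))
      (Fin N → Cf) (Fin n' → Cf) k hk0 _ _ _ _ (hx.blk (Fin N)) (hx.blk (Fin n')) f f1 f2 hf
      (by simp) (le_add_left (by exact_mod_cast hm'.trans (Nat.le_ceil _))) (h1.trans (hcard N))
      (hM3 N) (by simpa using hm') (y N h2) (b N h2) (hpos _ (hy N h2))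
      (fun j _ => (hpos _ (hb N h2) j).le) ((hsum _ (hy N h2)).trans hδa)
      ((hsum _ (hb N h2)).trans hδa) (hR N h2) (hQ N h2)
      fun l hl => blk_sym hx hf hk0 _ _ _ 1 _ _ hl.le
    have A1 := low_step hx hrot hf hk0 hV h0 hn' hMM hm ar sr hr
    have A2 := hmax (N + n') (h2.trans (Nat.le_add_right _ _)) _ _ (hy N h2) (hb N h2)
    have A3 := mul_le_mul_of_nonneg_left (hpen _ _ (hy N h2) (hb N h2))
      (by positivity : (0 : ℝ) ≤ n' * Fintype.card ι)
    have A4 : (n' : ℝ) * (η / 8) ≤ n' * Fintype.card ι * (η / 8) := by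
      gcongr; exact le_mul_of_one_le_right (by positivity) hd
    rw [hu N h2, hu (N + n') (h2.trans (Nat.le_add_right _ _))]
    refine le_trans ?_ A2
    simp only [Fintype.card_fin, Fintype.card_prod, Nat.cast_mul, Nat.cast_add]
    linarith only [A1, A3, A4, hn'K]
  filter_upwards [telescope hn' step (η := η / 8) (by positivity), eventually_ge_atTop N2,
    eventually_ge_atTop 1] with N h1 h2 h0
  have : Nonempty (Fin N) := ⟨⟨0, h0⟩⟩
  have A1 := YM_lip (κ := Fin (M N)) (hx.blk (Fin N)) hf hk0 (y := 0) (b := 0) zero_le_one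
    zero_le_one (fun _ _ => le_rfl) (fun j _ => (hpos _ (hy N h2) j).le) (fun _ _ => le_rfl)
    (fun j _ => (hpos _ (hb N h2) j).le)
  have e1 : ∀ z : ℕ → ℝ, (∀ j, δ / (2 * k) ≤ z j ∧ z j ≤ 3 * δ / (2 * k)) →
      ∑ j ∈ range k, |z j - (0 : ℕ → ℝ) j| ≤ 3 * δ / 2 := fun z hz =>
    le_of_eq_of_le (Finset.sum_congr rfl fun j _ => by
      simp [abs_of_pos (hpos z hz j)]) (hsum z hz)
  have hN0 : (0 : ℝ) ≤ N * Fintype.card ι := by positivity
  have A2 : 2 * K ^ 2 * (Fintype.card (Fin N × ι) * ∑ j ∈ range k, |y N h2 j - (0 : ℕ → ℝ) j| +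
      Fintype.card (Fin (M N)) * (|(1 : ℝ) - 1| + ∑ j ∈ range k, |b N h2 j - (0 : ℕ → ℝ) j|)) ≤
      2 * K ^ 2 * (Fintype.card (Fin N × ι) * (3 * δ / 2) +
        (α + 1) * Fintype.card (Fin N × ι) * (3 * δ / 2)) := by
    rw [sub_self, abs_zero, zero_add]
    gcongr
    · exact e1 _ (hy N h2)
    · exact hM3 N
    · exact e1 _ (hb N h2)
  have A3 : 0 ≤ c * Fintype.card (Fin N × ι) *
      ∑ j ∈ range k, ((y N h2 j - δ / k) ^ 2 + (b N h2 j - δ / k) ^ 2) := by positivity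
  have A4 := mul_le_mul_of_nonneg_left hδb hN0
  have A5 : (N : ℝ) * η ≤ N * Fintype.card ι * η := by
    gcongr; exact le_mul_of_one_le_right (by positivity) hd
  have A6 := (abs_le.mp (A1.trans A2)).2
  rw [hu N h2] at h1
  subst hM
  simp only [Fintype.card_fin, Fintype.card_prod, Nat.cast_mul] at A3 A6 h1 ⊢
  nlinarith only [A3, A4, A5, A6, h1, mul_nonneg hN0 hη.le]

end Vale.Agent.P157
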