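import Vale.Agent.P157.MdAPI
import Vale.Agent.P157.TiltB

namespace Vale.Agent.P157

open MeasureTheory ProbabilityTheory Real Finset Filter Topology
open scoped ENNReal

/-- bounded differences: exponential moment -/
theorem mcdiarmid {κ E : Type} [Fintype κ] [DecidableEq κ] [MeasurableSpace E] (μ : Measure E)
    [IsProbabilityMeasure μ] {Z : (κ → E) → ℝ} (hZ : Measurable Z) {c : ℝ}
    (h : ∀ g a e, |Z (Function.update g a e) - Z g| ≤ c) (t : ℝ) :
    ∫ g, exp (t * Z g) ∂(Measure.pi fun _ : κ => μ) ≤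
      exp (t * (∫ g, Z g ∂(Measure.pi fun _ : κ => μ)) +
        t ^ 2 * c ^ 2 * Fintype.card κ / 2) :=
  tl_mcd μ c t univ Z hZ fun g a e => by simpa using h g a e

variable {ι κ Cf : Type} [Fintype ι] [Fintype κ] [DecidableEq κ] [MeasurableSpace Cf]
  [Nonempty Cf] {k : ℕ} {ν : Measure Cf} {x : Cf → ι → ℝ} {f f1 f2 : ℝ → ℝ} {K : ℝ}

omit [MeasurableSpace Cf] [Nonempty Cf] in
theorem tl_HM (hk : 0 < k) (s : St (ι ⊕ κ × ι × Bool) Cf) : HM κ k x f f1 f2 1 0 0 s =
    tlH x f (fun a i => s.2 0 (.inr (a, i, false))) s.1 := by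
  obtain ⟨k, rfl⟩ : ∃ k', k = k' + 1 := ⟨k - 1, by omega⟩
  simp only [HM, Rg.Hv, Rg.H, Fintype.sum_option, tlH]
  have h0 : (Md κ x f f1 f2).U (k + 1) (fun j i => √(wM ι κ 1 0 0 j i)) none s = 0 := by
    refine sum_eq_zero fun j _ => sum_eq_zero fun i hi => ?_
    rcases i with i | p
    · simp [wM]
    · exact absurd (mem_filter.1 hi).2 (by simp [Md])
  rw [h0]
  simp only [Md, Option.elim, id, zero_add]
  refine sum_congr rfl fun a _ => ?_
  congr 1
  simp only [Rg.U, sum_range_succ', sum_filter, Fintype.sum_sum_type, Fintype.sum_prod_type,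
    Fintype.sum_bool, wM, Sum.elim_inl, Sum.elim_inr]
  simp [div_eq_mul_inv, mul_comm]
  rw [mul_sum]
  exact sum_congr rfl fun i _ => by ring

theorem YM_eq_tlL (hx : Spin ν x) (hk : 0 < k) (hf : Measurable f) :
    YM κ k ν x f f1 f2 1 0 0 = k * log (∫ g : κ → ι → ℝ, exp ((1 / (k : ℝ)) * tlL ν x f g)
        ∂Measure.pi fun _ => γ ι) := by
  have := hx.prob
  have hY : (GS k (ι ⊕ κ × ι × Bool) ν).OK := gs_ok hk
  have hkR : (0 : ℝ) < k := by exact_mod_cast hk
  have hk1 : (1 : ℝ) ≤ k := by exact_mod_cast hk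
  have hT : (GS k (ι ⊕ κ × ι × Bool) ν).X 1 k (HM κ k x f f1 f2 1 0 0) =
      fun s => tlL ν x f fun a i => s.2 0 (.inr (a, i, false)) := by
    funext s
    have hz : (GS k (ι ⊕ κ × ι × Bool) ν).ζ k = 1 :=
      min_eq_left ((one_le_div hkR).2 (by linarith))
    simp only [Sys.X, Sys.T, hz, inv_one, one_mul, tl_HM hk, tlL]
    simp only [GS, lt_irrefl, if_false, if_true]
    rw [integral_fun_fst (fun σ => exp (tlH x f (fun a i => s.2 0 (.inr (a, i, false))) σ))]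
    simp
  have hX : (GS k (ι ⊕ κ × ι × Bool) ν).X k 1 (HM κ k x f f1 f2 1 0 0) =
      fun s => tlL ν x f fun a i => s.2 0 (.inr (a, i, false)) := by
    have h1 := Sys.X_add (Y := GS k (ι ⊕ κ × ι × Bool) ν) (H := HM κ k x f f1 f2 1 0 0)
      (k - 1) 1 1
    rw [show k - 1 + 1 = k by omega, show 1 + (k - 1) = k by omega, hT] at h1
    rw [h1]
    refine Sys.X_of_inv hY fun i h1 h2 s w => ?_
    have h3 : i < k := by omega
    have h4 : (0 : ℕ) ≠ i := by omega
    simp only [GS, h3, if_true, Function.update_of_ne h4]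
  have hz : (GS k (ι ⊕ κ × ι × Bool) ν).ζ 0 = 1 / k := by
    simp only [GS, Nat.cast_zero, zero_add]
    exact min_eq_right ((div_le_one hkR).2 hk1)
  have hmp : MeasurePreserving (fun (v : ι ⊕ κ × ι × Bool → ℝ) a i => v (.inr (a, i, false)))
      (γ _) (Measure.pi fun _ : κ => γ ι) :=
    (tl_mp_curry (gaussianReal 0 1) κ ι).comp (tl_mp_comp (gaussianReal 0 1)
      (e := fun p : κ × ι => (.inr (p.1, p.2, false) : ι ⊕ κ × ι × Bool))
      fun p q h => by simpa [Prod.ext_iff] using h)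
  change (GS k (ι ⊕ κ × ι × Bool) ν).T 0
    ((GS k (ι ⊕ κ × ι × Bool) ν).X k (0 + 1) (HM κ k x f f1 f2 1 0 0)) _ = _
  rw [zero_add, hX, Sys.T, hz, one_div, inv_inv]
  simp only [GS, hk, if_true, Function.update_self]
  rw [integral_fun_snd (fun v : ι ⊕ κ × ι × Bool → ℝ =>
    exp ((k : ℝ)⁻¹ * tlL ν x f fun a i => v (.inr (a, i, false)))), ← hmp.map_eq,
    integral_map hmp.measurable.aemeasurable
      ((measurable_tlL hx.meas hf).const_mul _).exp.aestronglyMeasurable]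
  simp

theorem YM_eq_tilt (hx : Spin ν x) (hf : Nice f f1 f2 K) (hk : 0 < k) :
    YM κ k ν x f f1 f2 1 0 0 = k * log (∫ g : κ → ι → ℝ, exp ((1 / (k : ℝ)) *
      log (∫ σ, exp (∑ a, f ((∑ i, g a i * x σ i) / √(Fintype.card ι : ℝ))) ∂ν))
        ∂Measure.pi fun _ => γ ι) := YM_eq_tlL hx hk (tl_nice_meas hf)

theorem EL_le_YM (hx : Spin ν x) (hf : Nice f f1 f2 K) (hk : 0 < k) :
    EL κ ν x f ≤ YM κ k ν x f f1 f2 1 0 0 := by
  have := hx.prob
  have hkR : (0 : ℝ) < k := by exact_mod_cast hk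
  rw [YM_eq_tlL hx hk (tl_nice_meas hf), EL_eq_tlL]
  have h := c2_jensen (μ := Measure.pi fun _ : κ => γ ι)
    ((integrable_tlL (ν := ν) hx.meas (tl_nice_meas hf) hf.b0 _).const_mul (1 / (k : ℝ)))
    (tl_int_exp (measurable_tlL hx.meas (tl_nice_meas hf)) (abs_tlL_le hx.meas (tl_nice_meas hf) hf.b0) _)
  rw [integral_const_mul] at h
  have h2 := (le_log_iff_exp_le ((exp_pos _).trans_le h)).2 h
  have h3 := mul_le_mul_of_nonneg_left h2 hkR.le
  rwa [← mul_assoc, mul_one_div_cancel hkR.ne', one_mul] at h3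

theorem YM_le_EL (hx : Spin ν x) (hf : Nice f f1 f2 K) (hk : 0 < k) :
    YM κ k ν x f f1 f2 1 0 0 ≤ EL κ ν x f + 2 * K ^ 2 * Fintype.card κ / k := by
  have := hx.prob
  have hkR : (0 : ℝ) < k := by exact_mod_cast hk
  rw [YM_eq_tlL hx hk (tl_nice_meas hf), EL_eq_tlL]
  have h := mcdiarmid (κ := κ) (γ ι) (measurable_tlL (ν := ν) hx.meas (tl_nice_meas hf))
    (tlL_update hx.meas (tl_nice_meas hf) hf.b0) (1 / (k : ℝ))
  have h2 := (log_le_iff_le_exp (integral_exp_pos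
    (tl_int_exp (measurable_tlL hx.meas (tl_nice_meas hf)) (abs_tlL_le hx.meas (tl_nice_meas hf) hf.b0) _))).2 h
  refine (mul_le_mul_of_nonneg_left h2 hkR.le).trans (le_of_eq ?_)
  field_simp

end Vale.Agent.P157
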