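import Vale.Agent.P157.MdSync
import Vale.Agent.P157.Grad

namespace Vale.Agent.P157

open MeasureTheory ProbabilityTheory Real Finset Filter Topology
open scoped ENNReal

theorem up_deriv_nonpos {g : ℝ → ℝ} {d t0 : ℝ} (hg : HasDerivAt g d 0) (ht0 : 0 < t0)
    (h : ∀ t, 0 < t → t < t0 → g t ≤ g 0) : d ≤ 0 := by
  have h1 := hg.tendsto_slope_zero_right
  refine le_of_tendsto h1 ?_
  filter_upwards [Ioo_mem_nhdsGT ht0] with t ht
  rw [zero_add, smul_eq_mul]
  exact mul_nonpos_of_nonneg_of_nonpos (inv_pos.2 ht.1).le (sub_nonpos.2 (h t ht.1 ht.2))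

theorem up_tel (q : ℕ → ℝ) (h0 : q 0 = 0) (l : ℕ) : ∑ j ∈ range l, (q (j + 1) - q j) = q l := by
  rw [Finset.sum_range_sub, h0, sub_zero]

theorem up_pairing_add (k : ℕ) (q r ρ : ℕ → ℝ) (t : ℝ) :
    pairing k q (fun l => r l + t * ρ l) = pairing k q r + t * pairing k q ρ := by
  simp only [pairing, mul_add, Finset.sum_add_distrib, Finset.mul_sum]
  exact congrArg _ (Finset.sum_congr rfl fun l _ => by ring)

theorem up_pairing_mono {k : ℕ} {q r ρ : ℕ → ℝ} (hq : ∀ l, 0 ≤ q l) (h : ∀ l, r l ≤ ρ l) :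
    pairing k q r ≤ pairing k q ρ :=
  mul_le_mul_of_nonneg_left
    (Finset.sum_le_sum fun l _ => mul_le_mul_of_nonneg_left (h l) (hq l)) (by positivity)

section Aux

variable {ι κ Cf : Type} [Fintype ι] [Fintype κ] [DecidableEq κ] [MeasurableSpace Cf]
  [Nonempty Cf] {k : ℕ} {ν : Measure Cf} {x : Cf → ι → ℝ} {f f1 f2 : ℝ → ℝ} {K : ℝ}

theorem up_cont (hx : Spin ν x) (hf : Nice f f1 f2 K) (hk : 0 < k) :
    Continuous fun p : ℝ × (ℕ → ℝ) × (ℕ → ℝ) => YM κ k ν x f f1 f2 p.1 p.2.1 p.2.2 := by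
  haveI := hx.prob
  refine continuous_iff_continuousAt.2 fun p => Rg.Yv_cont (md_ok hx hf) hk fun j _ i => ?_
  refine Continuous.tendsto (f := fun p : ℝ × (ℕ → ℝ) × (ℕ → ℝ) => wM ι κ p.1 p.2.1 p.2.2 j i)
    ?_ p
  rcases i with i | ⟨a, i, c⟩
  · simp only [wM, Sum.elim_inl]; fun_prop
  · simp only [wM, Sum.elim_inr]
    split_ifs <;> fun_prop

theorem up_hasDeriv [Nonempty ι] (hx : Spin ν x) (hf : Nice f f1 f2 K) (hk : 0 < k) {s s' : ℝ}
    {y b y' b' : ℕ → ℝ} (hs : 0 < s) (hy : ∀ j, 0 < y j) (hb : ∀ j, b' j ≠ 0 → 0 < b j) :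
    HasDerivAt (fun t => YM κ k ν x f f1 f2 (s + t * s') (fun j => y j + t * y' j)
      (fun j => b j + t * b' j)) ((Md κ x f f1 f2).GI k ν (wM ι κ s y b) (wM ι κ s' y' b')) 0 := by
  haveI := hx.prob
  have hN : (0 : ℝ) < Fintype.card ι := by exact_mod_cast Fintype.card_pos
  have h := Rg.GI_deriv (ν := ν) (md_ok (κ := κ) hx hf) hk (w := wM ι κ s y b)
    (w' := wM ι κ s' y' b') (by
      intro j _ i
      rcases i with i | ⟨a, i, c⟩
      · exact fun _ => hy j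
      · simp only [wM, Sum.elim_inr]
        split_ifs
        · exact fun h => div_pos (hb j fun h0 => h (by rw [h0, zero_div])) hN
        · exact fun _ => div_pos hs hN
        · exact fun h => absurd rfl h)
  have e : (fun t => YM κ k ν x f f1 f2 (s + t * s') (fun j => y j + t * y' j)
      (fun j => b j + t * b' j)) = fun t => (Md κ x f f1 f2).Yv k ν
        fun j i => wM ι κ s y b j i + t * wM ι κ s' y' b' j i := by
    funext t
    refine congrArg ((Md κ x f f1 f2).Yv k ν) (funext fun j => funext fun i => ?_)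
    rcases i with i | ⟨a, i, c⟩
    · rfl
    · simp only [wM, Sum.elim_inr]
      split_ifs <;> ring
  rw [e]
  exact h

theorem up_cov (hx : Spin ν x) (hf : Nice f f1 f2 K) (hk : 0 < k) (s : ℝ) (y b : ℕ → ℝ) {T lam : ℝ}
    (hlam : 0 < lam) (hT : K ^ 2 * Fintype.card κ / Fintype.card ι ≤ T) (l : ℕ) (q : ℝ) :
    ∫ p, eQ κ k ν x f f1 f2 s y b l * RM x p + (-1 * RM x p + q) * QM κ k x f f1 f2 s y b p
        ∂pp k ν (HM κ k x f f1 f2 s y b) l ≤
      q * eQ κ k ν x f f1 f2 s y b l + 2 * lam * T ^ 2 + 1 / (2 * lam) *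
        ∫ p, (RM x p - eR κ k ν x f f1 f2 s y b l) ^ 2 ∂pp k ν (HM κ k x f f1 f2 s y b) l := by
  haveI := hx.prob
  haveI := pp_prob hk (lin_HM (κ := κ) hx hf hk s y b) l
  set μ := pp k ν (HM κ k x f f1 f2 s y b) l with hμ
  set Q := QM κ k x f f1 f2 s y b with hQ
  set ρ := eQ κ k ν x f f1 f2 s y b l with hρ
  set e := eR κ k ν x f f1 f2 s y b l with he
  have mQ : Measurable Q := measurable_QM hx hf s y b
  have bQ : ∀ p, |Q p| ≤ T := fun p => (abs_QM_le hf s y b p).trans hT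
  have mR : Measurable (RM x : St (ι ⊕ κ × ι × Bool) Cf × St (ι ⊕ κ × ι × Bool) Cf → ℝ) :=
    hx.measurable_ov.comp (measurable_fst.fst.prodMk measurable_snd.fst)
  have bR : ∀ p : St (ι ⊕ κ × ι × Bool) Cf × St (ι ⊕ κ × ι × Bool) Cf, |RM x p| ≤ 1 :=
    fun p => hx.abs_ov_le _ _
  have bρ : |ρ| ≤ T := by
    have := norm_integral_le_of_norm_le_const (μ := μ) (f := Q) (ae_of_all _ bQ)
    rw [probReal_univ, mul_one] at this
    exact this
  have iQ : Integrable Q μ := Integrable.of_bound mQ.aestronglyMeasurable T (ae_of_all _ bQ)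
  have iR : Integrable (RM x) μ := Integrable.of_bound mR.aestronglyMeasurable 1 (ae_of_all _ bR)
  have i2 : Integrable (fun p => (RM x p - e) ^ 2) μ := by
    refine Integrable.of_bound ((mR.sub_const e).pow_const 2).aestronglyMeasurable ((1 + |e|) ^ 2)
      (ae_of_all _ fun p => ?_)
    rw [Real.norm_eq_abs, abs_pow]
    exact pow_le_pow_left₀ (abs_nonneg _) ((abs_sub _ _).trans (by linarith [bR p])) 2
  have i3 : Integrable (fun p => (-1 * RM x p + q) * Q p) μ := by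
    refine iQ.bdd_mul (c := 1 + |q|) ((mR.const_mul _).add_const _).aestronglyMeasurable
      (ae_of_all _ fun p => ?_)
    rw [Real.norm_eq_abs, neg_one_mul]
    exact (abs_add_le _ _).trans (by rw [abs_neg]; linarith [bR p])
  have h1 : ∫ p, ρ * RM x p + (-1 * RM x p + q) * Q p ∂μ ≤
      ∫ p, (2 * lam * T ^ 2 + ρ * e) + ((q - e) * Q p + 1 / (2 * lam) * (RM x p - e) ^ 2) ∂μ := by
    refine integral_mono ((iR.const_mul _).add i3)
      ((integrable_const _).add ((iQ.const_mul _).add (i2.const_mul _))) fun p => ?_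
    have a1 := abs_le.1 (bQ p)
    have a2 := abs_le.1 bρ
    have a3 : (Q p - ρ) ^ 2 ≤ 4 * T ^ 2 := by nlinarith
    have a4 : 0 ≤ 1 / (2 * lam) * (RM x p - e + lam * (Q p - ρ)) ^ 2 := by positivity
    have a5 : 1 / (2 * lam) * (RM x p - e + lam * (Q p - ρ)) ^ 2 =
        1 / (2 * lam) * (RM x p - e) ^ 2 + (RM x p - e) * (Q p - ρ) + lam / 2 * (Q p - ρ) ^ 2 := by
      field_simp; ring
    have a6 := mul_le_mul_of_nonneg_left a3 (half_pos hlam).le
    dsimp only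
    nlinarith
  have i4 : Integrable (fun p => (q - e) * Q p + 1 / (2 * lam) * (RM x p - e) ^ 2) μ :=
    (iQ.const_mul _).add (i2.const_mul _)
  rw [integral_add (integrable_const _) i4,
    integral_add (iQ.const_mul _) (i2.const_mul _), integral_const_mul, integral_const_mul] at h1
  have e1 : ∫ p, Q p ∂μ = ρ := rfl
  simp only [integral_const, probReal_univ, smul_eq_mul, one_mul, e1] at h1
  linarith

theorem up_dir [Nonempty ι] (hx : Spin ν x) (hf : Nice f f1 f2 K) (hk : 0 < k) (s : ℝ)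
    (y b : ℕ → ℝ) {T lam : ℝ} (hlam : 0 < lam) (hT : K ^ 2 * Fintype.card κ / Fintype.card ι ≤ T)
    {q ρ : ℕ → ℝ} (hq : AdmQ k q) (hρ : ρ = pathR k (eQ κ k ν x f f1 f2 s y b)) :
    Fintype.card ι * ((1 / 2) * ρ k - pairing k q ρ - lam * T ^ 2 -
        vR κ k ν x f f1 f2 s y b / (4 * lam)) ≤
      (Md κ x f f1 f2).GI k ν (wM ι κ s y b)
        (wM ι κ (-1) (fun j => ρ (j + 1) - ρ j) fun j => q (j + 1) - q j) := by
  have hρ0 : ρ 0 = 0 := by rw [hρ]; exact (admR_eQ hx hf hk s y b).1.1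
  have hk' : (0 : ℝ) < k := by exact_mod_cast hk
  rw [GI_Md hx hf hk _ _ _ _ _ _ (by rw [up_tel q hq.1, hq.2.2]; ring)]
  refine mul_le_mul_of_nonneg_left ?_ (by positivity)
  simp only [up_tel q hq.1, up_tel ρ hρ0]
  set V : ℕ → ℝ := fun l =>
    ∫ p, (RM x p - eR κ k ν x f f1 f2 s y b l) ^ 2 ∂pp k ν (HM κ k x f f1 f2 s y b) l with hV
  have hsub : Ioo 0 k ⊆ range k := fun l hl => mem_range.2 (mem_Ioo.1 hl).2
  have h1 : ∑ l ∈ Ioo 0 k, ∫ p, ρ l * RM x p + (-1 * RM x p + q l) * QM κ k x f f1 f2 s y b p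
      ∂pp k ν (HM κ k x f f1 f2 s y b) l ≤
      ∑ l ∈ range k, (q l * ρ l + 2 * lam * T ^ 2 + 1 / (2 * lam) * V l) := by
    refine le_trans (Finset.sum_le_sum fun l hl => ?_)
      (Finset.sum_le_sum_of_subset_of_nonneg hsub fun l hl hl' => ?_)
    · have h2 : ρ l = eQ κ k ν x f f1 f2 s y b l := by
        have h3 := mem_Ioo.1 hl
        have h4 : min l (k - 1) = l := by omega
        rw [hρ, pathR, h4, if_neg (by omega)]
      rw [h2]
      exact up_cov hx hf hk s y b hlam hT l (q l)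
    · have h2 : l = 0 := by
        have := mem_range.1 hl
        rw [mem_Ioo] at hl'
        omega
      have h3 : 0 ≤ V l := integral_nonneg fun _ => sq_nonneg _
      have h4 : q l * ρ l = 0 := by rw [h2, hρ0, mul_zero]
      rw [h4]
      positivity
  rw [Finset.sum_add_distrib, Finset.sum_add_distrib, Finset.sum_const,
    card_range, nsmul_eq_mul, ← Finset.mul_sum] at h1
  have h2 := mul_le_mul_of_nonneg_left h1 (by positivity : (0 : ℝ) ≤ 1 / (2 * k))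
  have h3 : 1 / (2 * (k : ℝ)) * (∑ l ∈ range k, q l * ρ l + k * (2 * lam * T ^ 2) +
      1 / (2 * lam) * ∑ l ∈ range k, V l) =
      pairing k q ρ + lam * T ^ 2 + vR κ k ν x f f1 f2 s y b / (4 * lam) := by
    unfold pairing vR
    field_simp
    ring
  linarith

theorem up_sum_update {k j : ℕ} (hj : j < k) (z : ℕ → ℝ) (a : ℝ) (g : ℝ → ℝ) :
    ∑ i ∈ range k, g (Function.update z j a i) = ∑ i ∈ range k, g (z i) + (g a - g (z j)) := by
  rw [← Finset.add_sum_erase _ _ (mem_range.2 hj), ← Finset.add_sum_erase _ _ (mem_range.2 hj),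
    Function.update_self, Finset.sum_congr rfl (g := fun i => g (z i))
      fun i hi => by rw [Function.update_of_ne (mem_erase.1 hi).1]]
  ring

end Aux

/-- the penalised coordinates of a maximiser are interior -/
theorem up_int {k : ℕ} {G : (ℕ → ℝ) → ℝ} {N L c u : ℝ} (hN : 0 < N) (hu : 0 < u) (hc0 : 0 < c)
    (hc : 4 * L ≤ c * u) {v z : ℕ → ℝ} (hv : ∀ j, 0 ≤ v j) (hz : ∀ j, 0 ≤ z j)
    (lip : ∀ y y' : ℕ → ℝ, (∀ j, 0 ≤ y j) → (∀ j, 0 ≤ y' j) →
      |G y' - G y| ≤ L * (N * ∑ j ∈ range k, |y' j - y j|)) {j : ℕ} (hj : j < k)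
    (hupd : ∀ a, u / 2 ≤ a → a ≤ 3 * u / 2 → G (Function.update (fun j => v j + z j) j (v j + a)) -
      N * c * ((a - u) ^ 2 - (z j - u) ^ 2) ≤ G fun j => v j + z j) :
    ∃ a : ℝ, IsLocalMax (fun t : ℝ => G (Function.update (fun j => v j + z j) j (v j + z j + t)) -
      a * t - c * N * t ^ 2) 0 := by
  have h1 := hupd u (by linarith) (by linarith)
  have h2 := lip (fun j => v j + z j) (Function.update (fun j => v j + z j) j (v j + u))
    (fun i => add_nonneg (hv i) (hz i)) (fun i => by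
      by_cases hi : i = j
      · rw [hi, Function.update_self]; linarith [hv j]
      · rw [Function.update_of_ne hi]; exact add_nonneg (hv i) (hz i))
  have h3 : ∑ i ∈ range k, |Function.update (fun j => v j + z j) j (v j + u) i - (v i + z i)| =
      |z j - u| := by
    rw [Finset.sum_eq_single j (fun i _ hi => by rw [Function.update_of_ne hi, sub_self, abs_zero])
      (fun h => absurd (mem_range.2 hj) h), Function.update_self, abs_sub_comm,
      add_sub_add_left_eq_sub]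
  rw [h3] at h2
  have h4 : N * (c * |z j - u| ^ 2) ≤ N * (L * |z j - u|) := by
    rw [sq_abs]; linarith [(abs_le.1 h2).1]
  have h5 := le_of_mul_le_mul_left h4 hN
  have h6 : |z j - u| ≤ u / 4 := by
    by_contra hcon
    have h6 : u / 4 < |z j - u| := not_le.1 hcon
    have h7 : c * (u / 4) < c * |z j - u| := mul_lt_mul_of_pos_left h6 hc0
    nlinarith
  have h7 := abs_le.1 h6
  refine ⟨2 * N * c * (z j - u), ?_⟩
  filter_upwards [Ioo_mem_nhds (by linarith : -(u / 4) < 0) (by linarith : 0 < u / 4)] with t ht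
  have h8 := hupd (z j + t) (by linarith [ht.1]) (by linarith [ht.2])
  have h9 : Function.update (fun j => v j + z j) j (v j + z j) = fun j => v j + z j :=
    Function.update_eq_self j _
  rw [← add_assoc] at h8
  rw [add_zero, h9]
  linarith

/-- the contact point argument -/
theorem up_max {k : ℕ} (hk : 0 < k) {G : ℝ → (ℕ → ℝ) → ℝ} {q : ℕ → ℝ} {N L T c u e η : ℝ}
    (hN : 0 < N) (hu : 0 < u) (hc0 : 0 < c) (hc : 4 * L ≤ c * u) (hT0 : 0 ≤ T)
    (hc' : T + 2 * u ≤ c) (he : 0 < e) (he' : e ≤ 1 / 2)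
    (hG : Continuous fun p : ℝ × (ℕ → ℝ) => G p.1 p.2)
    (lip : ∀ τ, 0 < τ → τ < 1 → ∀ y y' : ℕ → ℝ, (∀ j, 0 ≤ y j) → (∀ j, 0 ≤ y' j) →
      |G τ y' - G τ y| ≤ L * (N * ∑ j ∈ range k, |y' j - y j|))
    (hdir : ∀ τ, 0 < τ → τ < 1 → ∀ y : ℕ → ℝ, (∀ j, u / 2 ≤ y j ∧ y j ≤ c) →
      (∀ j < k, ∃ a : ℝ, IsLocalMax (fun t : ℝ => G τ (Function.update y j (y j + t)) -
        a * t - c * N * t ^ 2) 0) →
      ∃ (ρ : ℕ → ℝ) (d : ℝ), AdmR ρ ∧ (∀ l, k ≤ l → ρ (l + 1) = ρ l) ∧ ρ k ≤ T ∧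
        HasDerivAt (fun t => G (τ + t) fun j => y j + t * (ρ (j + 1) - ρ j)) d 0 ∧
        N * (ρ k / 2 - pairing k q ρ - η) < d) :
    ∃ v z : ℕ → ℝ, (∀ j, 0 ≤ v j) ∧ (∀ j, u / 2 ≤ z j ∧ z j ≤ 3 * u / 2) ∧
      ∑ j ∈ range k, v j ≤ T ∧ G e (fun _ => u) + N * (η * e) ≤ G (1 - e) (fun j => v j + z j) +
        N * (-(∑ j ∈ range k, v j) / 2 + pairing k q (fun l => ∑ j ∈ range l, v j) +
          η * (1 - e)) := by
  obtain ⟨Φ, hΦ⟩ : ∃ Φ : ℝ × (ℕ → ℝ) × (ℕ → ℝ) → ℝ, Φ = fun p =>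
    G p.1 (fun j => p.2.1 j + p.2.2 j) +
      N * (-(∑ j ∈ range k, p.2.1 j) / 2 + pairing k q (fun l => ∑ j ∈ range l, p.2.1 j) +
        η * p.1 - c * ∑ j ∈ range k, (p.2.2 j - u) ^ 2) := ⟨_, rfl⟩
  have hcont : Continuous Φ := by
    rw [hΦ]
    refine Continuous.add (hG.comp (f := fun p : ℝ × (ℕ → ℝ) × (ℕ → ℝ) =>
      (p.1, fun j => p.2.1 j + p.2.2 j)) (by fun_prop)) ?_
    unfold pairing
    fun_prop
  obtain ⟨A, hA⟩ : ∃ A : Set (ℝ × (ℕ → ℝ) × (ℕ → ℝ)), A =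
    Set.Icc (e, fun _ => 0, fun _ => u / 2) (1 - e, fun _ => T, fun _ => 3 * u / 2) ∩
      {p | ∑ j ∈ range k, p.2.1 j ≤ T * p.1} := ⟨_, rfl⟩
  have hmem : ∀ (τ : ℝ) (v z : ℕ → ℝ), (τ, v, z) ∈ A ↔ (e ≤ τ ∧ τ ≤ 1 - e) ∧
      (∀ j, 0 ≤ v j ∧ v j ≤ T) ∧ (∀ j, u / 2 ≤ z j ∧ z j ≤ 3 * u / 2) ∧
      ∑ j ∈ range k, v j ≤ T * τ := by
    intro τ v z
    simp only [hA, Set.mem_inter_iff, Set.mem_Icc, Prod.mk_le_mk, Pi.le_def, Set.mem_setOf_eq,
      forall_and]
    tauto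
  have hcomp : IsCompact A := by
    rw [hA]
    exact isCompact_Icc.inter_right (isClosed_le (by fun_prop) (by fun_prop))
  have hstart : (e, fun _ => (0 : ℝ), fun _ => u) ∈ A := by
    refine (hmem _ _ _).2 ⟨⟨le_rfl, by linarith⟩, fun _ => ⟨le_rfl, hT0⟩,
      fun _ => ⟨by linarith, by linarith⟩, ?_⟩
    rw [Finset.sum_const_zero]; positivity
  obtain ⟨⟨τ, v, z⟩, hp, hmax⟩ := hcomp.exists_isMaxOn ⟨_, hstart⟩ hcont.continuousOn
  obtain ⟨⟨hτ1, hτ2⟩, hv, hz, hvs⟩ := (hmem _ _ _).1 hp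
  have hτ0 : 0 < τ := he.trans_le hτ1
  have hτ3 : τ < 1 := by linarith
  have hτ : τ = 1 - e := by
    by_contra hne
    have hlt : 0 < 1 - e - τ := by have := lt_of_le_of_ne hτ2 hne; linarith
    obtain ⟨ρ, d, hρA, hρk, hρT, h2, hd⟩ := hdir τ hτ0 hτ3 (fun j => v j + z j)
      (fun j => ⟨by linarith [(hv j).1, (hz j).1], by linarith [(hv j).2, (hz j).2]⟩) fun j hj => by
      refine up_int hN hu hc0 hc (fun j => (hv j).1) (fun j => by linarith [(hz j).1])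
        (lip τ hτ0 hτ3) hj fun a ha ha' => ?_
      have h1 : (τ, v, Function.update z j a) ∈ A := by
        refine (hmem _ _ _).2 ⟨⟨hτ1, hτ2⟩, hv, fun i => ?_, hvs⟩
        by_cases hi : i = j
        · rw [hi, Function.update_self]; exact ⟨ha, ha'⟩
        · rw [Function.update_of_ne hi]; exact hz i
      have h2 : Φ (τ, v, Function.update z j a) ≤ Φ (τ, v, z) := hmax h1
      have h3 : (fun i => v i + Function.update z j a i) =
          Function.update (fun j => v j + z j) j (v j + a) := by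
        funext i
        by_cases hi : i = j
        · rw [hi, Function.update_self, Function.update_self]
        · rw [Function.update_of_ne hi, Function.update_of_ne hi]
      simp only [hΦ] at h2
      rw [h3, up_sum_update hj z a (fun w => (w - u) ^ 2)] at h2
      linarith
    have hd0 : ∀ j, 0 ≤ ρ (j + 1) - ρ j := fun j => sub_nonneg.2 (hρA.2 (Nat.le_succ j))
    have h3 := h2.add ((hasDerivAt_id' (0 : ℝ)).mul_const (N * (-ρ k / 2 + pairing k q ρ + η)))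
    have h4 := up_deriv_nonpos h3 hlt fun t ht ht' => by
      have hs : ∀ l, ∑ j ∈ range l, (v j + t * (ρ (j + 1) - ρ j)) =
          ∑ j ∈ range l, v j + t * ρ l := fun l => by
        rw [Finset.sum_add_distrib, ← Finset.mul_sum, up_tel ρ hρA.1]
      have h5 : ∑ j ∈ range k, (v j + t * (ρ (j + 1) - ρ j)) ≤ T * (τ + t) := by
        rw [hs]; linarith [mul_le_mul_of_nonneg_left hρT ht.le]
      have hn : ∀ j, 0 ≤ v j + t * (ρ (j + 1) - ρ j) := fun j =>
        add_nonneg (hv j).1 (mul_nonneg ht.le (hd0 j))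
      have h6 : (τ + t, fun j => v j + t * (ρ (j + 1) - ρ j), z) ∈ A := by
        refine (hmem _ _ _).2 ⟨⟨by linarith, by linarith⟩, fun j => ⟨hn j, ?_⟩, hz, h5⟩
        by_cases hj : j < k
        · exact ((Finset.single_le_sum (f := fun j => v j + t * (ρ (j + 1) - ρ j))
            (fun i _ => hn i) (mem_range.2 hj)).trans h5).trans
            (mul_le_of_le_one_right hT0 (by linarith))
        · rw [hρk j (by omega), sub_self, mul_zero, add_zero]
          exact (hv j).2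
      have h7 : Φ (τ + t, fun j => v j + t * (ρ (j + 1) - ρ j), z) ≤ Φ (τ, v, z) := hmax h6
      have e2 : (fun j => v j + t * (ρ (j + 1) - ρ j) + z j) =
          fun j => v j + z j + t * (ρ (j + 1) - ρ j) := funext fun j => by ring
      simp only [hΦ, hs, up_pairing_add] at h7
      rw [e2] at h7
      simp only [Pi.add_apply, zero_mul, add_zero]
      linarith
    linarith
  have h1 : Φ (e, fun _ => (0 : ℝ), fun _ => u) ≤ Φ (τ, v, z) := hmax hstart
  have h10 : 0 ≤ N * (c * ∑ j ∈ range k, (z j - u) ^ 2) := by positivity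
  have h11 : pairing k q (fun _ => 0) = 0 := by simp [pairing]
  have h12 : ∑ _j ∈ range k, (0 : ℝ) ^ 2 = 0 := by simp
  simp only [hΦ, Finset.sum_const_zero, sub_self, h11, zero_add, h12] at h1
  refine ⟨v, z, fun j => (hv j).1, hz, hvs.trans (mul_le_of_le_one_right hT0 hτ3.le), ?_⟩
  rw [← hτ]
  linarith

section Main

variable {ι κ Cf : Type} [Fintype ι] [Fintype κ] [DecidableEq κ] [MeasurableSpace Cf]
  [Nonempty Cf] {k : ℕ} {ν : Measure Cf} {x : Cf → ι → ℝ} {f f1 f2 : ℝ → ℝ} {K : ℝ}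

theorem up_lip [Nonempty ι] (hx : Spin ν x) (hf : Nice f f1 f2 K) (hk : 0 < k) {q : ℕ → ℝ}
    (hq : AdmQ k q) {s s' t t' : ℝ} {y y' : ℕ → ℝ} (hs : 0 ≤ s) (hs' : 0 ≤ s') (ht : 0 ≤ t)
    (ht' : 0 ≤ t') (hy : ∀ j, 0 ≤ y j) (hy' : ∀ j, 0 ≤ y' j) :
    |YM κ k ν x f f1 f2 s' y' (fun j => t' * (q (j + 1) - q j)) -
      YM κ k ν x f f1 f2 s y (fun j => t * (q (j + 1) - q j))| ≤
      2 * K ^ 2 * (Fintype.card ι * ∑ j ∈ range k, |y' j - y j| +
        Fintype.card κ * (|s' - s| + |t' - t|)) := by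
  have hdq0 : ∀ j, 0 ≤ q (j + 1) - q j := fun j => sub_nonneg.2 (hq.2.1 (Nat.le_succ j))
  have hdq1 : ∑ j ∈ range k, (q (j + 1) - q j) = 1 := by rw [up_tel q hq.1, hq.2.2]
  have h1 := YM_lip (κ := κ) hx hf hk hs hs' (fun j _ => hy j) (fun j _ => hy' j)
    (b := fun j => t * (q (j + 1) - q j)) (b' := fun j => t' * (q (j + 1) - q j))
    (fun j _ => mul_nonneg ht (hdq0 j)) (fun j _ => mul_nonneg ht' (hdq0 j))
  have h2 : ∑ j ∈ range k, |t' * (q (j + 1) - q j) - t * (q (j + 1) - q j)| = |t' - t| := by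
    rw [← mul_one |t' - t|, ← hdq1, Finset.mul_sum]
    exact Finset.sum_congr rfl fun j _ => by rw [← sub_mul, abs_mul, abs_of_nonneg (hdq0 j)]
  rwa [h2] at h1

theorem up_main [Nonempty ι] (hx : Spin ν x) (hf : Nice f f1 f2 K) (hk : 0 < k) {K' : ℝ}
    (hK' : 0 ≤ K') (hM : (Fintype.card κ : ℝ) ≤ K' * Fintype.card ι) {q : ℕ → ℝ} (hq : AdmQ k q)
    {B : ℝ} (hB : ∀ r, AdmR r → r (k - 1) ≤ K' * K ^ 2 + 1 → XN k ν x r + pairing k q r ≤ B)
    {e u c η η' lam : ℝ} (he : 0 < e) (he' : e ≤ 1 / 2) (hu : 0 < u) (hu' : k * u ≤ 1 / 2)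
    (hc : 4 * (2 * K ^ 2) ≤ c * u) (hc' : K' * K ^ 2 + 2 * u ≤ c) (hlam : 0 < lam)
    (hη : lam * (K' * K ^ 2) ^ 2 + η' / (4 * lam) < η) (hη0 : 0 ≤ η)
    (hsync : ∀ (s : ℝ) (y b : ℕ → ℝ), (∀ j < k, u / 2 ≤ y j ∧ y j ≤ c) →
      (∀ j < k, ∃ a : ℝ, IsLocalMax (fun t : ℝ => YM κ k ν x f f1 f2 s
        (Function.update y j (y j + t)) b - a * t - c * Fintype.card ι * t ^ 2) 0) →
      vR κ k ν x f f1 f2 s y b ≤ η') :
    YM κ k ν x f f1 f2 1 0 0 ≤ Fintype.card κ * Psi f k q +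
      Fintype.card ι * (B + η + (1 + 2 * K ^ 2) * (k * u) + 8 * K ^ 2 * K' * e) := by
  have hN0 : (0 : ℝ) < Fintype.card ι := by exact_mod_cast Fintype.card_pos
  have hT0 : 0 ≤ K' * K ^ 2 := by positivity
  have hTM : K ^ 2 * Fintype.card κ / Fintype.card ι ≤ K' * K ^ 2 := by
    rw [div_le_iff₀ hN0]
    linarith [mul_le_mul_of_nonneg_left hM (sq_nonneg K)]
  have hdq0 : ∀ j, 0 ≤ q (j + 1) - q j := fun j => sub_nonneg.2 (hq.2.1 (Nat.le_succ j))
  have hq0 : ∀ l, 0 ≤ q l := fun l => hq.1 ▸ hq.2.1 (Nat.zero_le l)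
  obtain ⟨v, z, hv, hz, hvs, h1⟩ := up_max hk (q := q) (η := η) (G := fun τ y =>
      YM κ k ν x f f1 f2 (1 - τ) y (fun j => τ * (q (j + 1) - q j))) hN0 hu (by linarith) hc hT0 hc'
    he he' ((up_cont hx hf hk).comp (f := fun p : ℝ × (ℕ → ℝ) =>
      (1 - p.1, p.2, fun j => p.1 * (q (j + 1) - q j))) (by fun_prop))
    (fun τ h0 h1 y y' hy hy' => by
      have := up_lip (κ := κ) hx hf hk hq (sub_pos.2 h1).le (sub_pos.2 h1).le h0.le h0.le hy hy'
      rwa [sub_self, sub_self, abs_zero, add_zero, mul_zero, add_zero] at this)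
    (fun τ h0 h1 y hy hl => by
      have hvR := hsync _ _ _ (fun j _ => hy j) hl
      obtain ⟨hρA, hρT⟩ := admR_eQ (κ := κ) hx hf hk (1 - τ) y (fun j => τ * (q (j + 1) - q j))
      obtain ⟨ρ, hρ⟩ : ∃ ρ, ρ = pathR k (eQ κ k ν x f f1 f2 (1 - τ) y
        (fun j => τ * (q (j + 1) - q j))) := ⟨_, rfl⟩
      rw [← hρ] at hρA hρT
      have hρk : ∀ l, k - 1 ≤ l → ρ l = ρ (k - 1) := fun l hl => by
        simp only [hρ, pathR, min_eq_right hl, min_self]
      have h2 := up_dir hx hf hk (1 - τ) y _ hlam hTM hq hρ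
      have h3 := up_hasDeriv (κ := κ) hx hf hk (s' := -1) (y' := fun j => ρ (j + 1) - ρ j)
        (b' := fun j => q (j + 1) - q j) (b := fun j => τ * (q (j + 1) - q j)) (sub_pos.2 h1)
        (fun j => (half_pos hu).trans_le (hy j).1)
        (fun j hj => mul_pos h0 (lt_of_le_of_ne (hdq0 j) (Ne.symm hj)))
      have e1 : ∀ t, 1 - τ + t * -1 = 1 - (τ + t) := fun t => by ring
      simp only [e1, ← add_mul] at h3
      refine ⟨ρ, _, hρA, fun l hl => by rw [hρk l (by omega), hρk (l + 1) (by omega)],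
        by rw [hρk k (by omega)]; exact hρT.trans hTM, h3, lt_of_lt_of_le ?_ h2⟩
      refine mul_lt_mul_of_pos_left ?_ hN0
      linarith [div_le_div_of_nonneg_right hvR (by positivity : 0 ≤ 4 * lam)])
  have hy0 : ∀ j, 0 ≤ v j + z j := fun j => by linarith [hv j, (hz j).1]
  have h2 := (abs_le.1 (up_lip (κ := κ) hx hf hk hq (s' := 1 - e) (y := fun _ => 0)
    (y' := fun _ => u) zero_le_one (by linarith) le_rfl he.le (fun _ => le_rfl) fun _ => hu.le)).1
  have h3 := (abs_le.1 (up_lip (κ := κ) hx hf hk hq (s' := 1 - (1 - e)) (t' := 1 - e) le_rfl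
    (by linarith) zero_le_one (by linarith) hy0 hy0)).2
  have e1 : (fun j => 0 * (q (j + 1) - q j)) = (0 : ℕ → ℝ) := funext fun j => zero_mul _
  have e2 : |1 - e - 1| = e := by rw [sub_sub_cancel_left, abs_neg, abs_of_pos he]
  have e3 : |1 - (1 - e) - 0| = e := by rw [sub_sub_cancel, sub_zero, abs_of_pos he]
  have e4 : ∑ _j ∈ range k, |u - 0| = k * u := by
    rw [sub_zero, abs_of_pos hu, Finset.sum_const, card_range, nsmul_eq_mul]
  rw [e1, e2, e4, sub_zero, abs_of_pos he] at h2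
  simp only [e2, e3, sub_self, abs_zero, Finset.sum_const_zero, one_mul] at h3
  have h4 := YM_split (κ := κ) hx hf hk (y := fun j => v j + z j) (b := fun j => q (j + 1) - q j)
    (fun j _ => hy0 j) (fun j _ => hdq0 j)
  have h5 : (Pt f f1 f2).Yv k (Measure.dirac ()) (fun j _ => q (j + 1) - q j) = Psi f k q :=
    Yv_Pt hf hk q
  rw [Yv_Sp_eq hx hk (fun j _ => hy0 j), h5] at h4
  have h6 : ∑ j ∈ range k, z j ≤ k * (3 * u / 2) := by
    have := Finset.sum_le_card_nsmul (range k) z _ fun j _ => (hz j).2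
    rwa [card_range, nsmul_eq_mul] at this
  have h7 : ∑ j ∈ range k, (v j + z j) = ∑ j ∈ range k, v j + ∑ j ∈ range k, z j :=
    Finset.sum_add_distrib
  have hmono : Monotone fun l => ∑ j ∈ range l, (v j + z j) := fun l l' h =>
    Finset.sum_le_sum_of_subset_of_nonneg (range_mono h) fun j _ _ => hy0 j
  have h8 := hB (fun l => ∑ j ∈ range l, (v j + z j)) ⟨Finset.sum_range_zero _, hmono⟩
    ((hmono (Nat.sub_le k 1)).trans (by simp only [h7]; linarith))
  have h9 : pairing k q (fun l => ∑ j ∈ range l, v j) ≤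
      pairing k q (fun l => ∑ j ∈ range l, (v j + z j)) :=
    up_pairing_mono hq0 fun l => Finset.sum_le_sum fun j _ => by linarith [(hz j).1]
  have h12 := mul_le_mul_of_nonneg_left hM (by positivity : 0 ≤ K ^ 2 * e)
  have h13 : (Fintype.card ι : ℝ) * (-(∑ j ∈ range k, v j) / 2 +
      pairing k q (fun l => ∑ j ∈ range l, v j) + η * (1 - e) +
      (XN k ν x (fun l => ∑ j ∈ range l, (v j + z j)) + (∑ j ∈ range k, (v j + z j)) / 2)) ≤
      Fintype.card ι * (B + η + k * u) := by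
    refine mul_le_mul_of_nonneg_left ?_ hN0.le
    have : 0 ≤ η * e := by positivity
    have : 0 ≤ k * u := by positivity
    linarith
  have h14 : 0 ≤ Fintype.card ι * (η * e) := by positivity
  have e5 : YM κ k ν x f f1 f2 1 (fun _ => 0) 0 = YM κ k ν x f f1 f2 1 0 0 := rfl
  linarith

end Main

theorem upper {f f1 f2 : ℝ → ℝ} {K : ℝ} (hf : Nice f f1 f2 K) {K' η : ℝ} (hK' : 0 ≤ K')
    (hη : 0 < η) : ∃ k0 : ℕ, ∀ k ≥ k0, 0 < k → ∃ N0 : ℕ, ∀ (ι κ Cf : Type) [Fintype ι] [Fintype κ]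
    [DecidableEq κ] [MeasurableSpace Cf] [Nonempty Cf] (ν : Measure Cf) (x : Cf → ι → ℝ)
    (_ : Spin ν x) (_ : N0 ≤ Fintype.card ι) (_ : (Fintype.card κ : ℝ) ≤ K' * Fintype.card ι)
    (q : ℕ → ℝ) (_ : AdmQ k q) (B : ℝ)
    (_ : ∀ r, AdmR r → r (k - 1) ≤ K' * K ^ 2 + 1 → XN k ν x r + pairing k q r ≤ B),
    YM κ k ν x f f1 f2 1 0 0 ≤
      Fintype.card κ * Psi f k q + Fintype.card ι * (B + η) := by
  obtain ⟨lam, hlam, hlam'⟩ : ∃ lam : ℝ, 0 < lam ∧ lam * (K' * K ^ 2) ^ 2 ≤ η / 6 := by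
    refine ⟨η / 6 / ((K' * K ^ 2) ^ 2 + 1), by positivity, ?_⟩
    rw [div_mul_eq_mul_div, div_le_iff₀ (by positivity)]
    nlinarith
  obtain ⟨δ, hδ, hδ1, hδ2⟩ : ∃ δ : ℝ, 0 < δ ∧ δ ≤ 1 / 2 ∧ (1 + 2 * K ^ 2) * δ ≤ η / 3 := by
    refine ⟨min (1 / 2) (η / 3 / (1 + 2 * K ^ 2)), by positivity, min_le_left _ _, ?_⟩
    rw [← le_div_iff₀' (by positivity)]
    exact min_le_right _ _
  obtain ⟨e, he, he1, he2⟩ : ∃ e : ℝ, 0 < e ∧ e ≤ 1 / 2 ∧ 8 * K ^ 2 * K' * e ≤ η / 3 := by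
    refine ⟨min (1 / 2) (η / 3 / (8 * K ^ 2 * K' + 1)), by positivity, min_le_left _ _, ?_⟩
    have h1 := min_le_right (1 / 2) (η / 3 / (8 * K ^ 2 * K' + 1))
    rw [le_div_iff₀' (by positivity)] at h1
    have h2 : 0 < min (1 / 2) (η / 3 / (8 * K ^ 2 * K' + 1)) := by positivity
    linarith
  obtain ⟨k0, hk0⟩ := syncR K K' (lam * η / 3) (by positivity)
  refine ⟨k0, fun k hk hk' => ?_⟩
  have hkR : (0 : ℝ) < k := by exact_mod_cast hk'
  obtain ⟨u, hu, hku⟩ : ∃ u : ℝ, 0 < u ∧ k * u = δ := ⟨δ / k, by positivity, by field_simp⟩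
  obtain ⟨N0, hN0⟩ := hk0 k hk hk' (u / 2) (half_pos hu) (8 * K ^ 2 / u + (K' * K ^ 2 + 2 * u))
  refine ⟨max N0 1, fun ι κ Cf _ _ _ _ _ ν x hx hN hM q hq B hB => ?_⟩
  haveI : Nonempty ι := Fintype.card_pos_iff.1 (lt_of_lt_of_le one_pos (le_of_max_le_right hN))
  have h1 := up_main hx hf hk' hK' hM hq hB (η := η / 3) (η' := lam * η / 3) he he1 hu
    (c := 8 * K ^ 2 / u + (K' * K ^ 2 + 2 * u)) (hku ▸ hδ1)
    (by rw [add_mul, div_mul_cancel₀ _ hu.ne']
        linarith [mul_nonneg (by positivity : 0 ≤ K' * K ^ 2 + 2 * u) hu.le])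
    (le_add_of_nonneg_left (by positivity)) hlam
    (by rw [show lam * η / 3 / (4 * lam) = η / 12 by field_simp; norm_num]; linarith)
    (by positivity) (hN0 ι κ Cf ν x hx f f1 f2 hf (le_of_max_le_left hN) hM)
  refine h1.trans (add_le_add_right (mul_le_mul_of_nonneg_left ?_ (by positivity)) _)
  rw [hku]
  linarith

end Vale.Agent.P157
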