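import Vale.Agent.P157.Approx
import Vale.Agent.P157.Tilt
import Vale.Agent.P157.Upper
import Vale.Agent.P157.Low

namespace Vale.Agent.P157

open MeasureTheory ProbabilityTheory Real Finset Filter Topology
open scoped ENNReal

theorem UL.limit {p : ℕ → ℝ} {Ψ : ℕ → (ℕ → ℝ) → ℝ} {Bd : ℕ → (ℕ → ℝ) → ℝ → Prop}
    (h : UL p Ψ Bd) {C : ℝ} (hC : ∀ N, |p N| ≤ C) {P : ℕ → EReal}
    (h1 : ∀ k, ∀ W : ℝ, P k < W → ∃ q B, AdmQ k q ∧ Bd k q B ∧ Ψ k q + B ≤ W)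
    (h2 : ∀ k q B, AdmQ k q → Bd k q B → P k ≤ ((Ψ k q + B : ℝ) : EReal)) :
    ∃ L : ℝ, Tendsto p atTop (𝓝 L) ∧ Tendsto P atTop (𝓝 (L : EReal)) := by
  have b1 : IsBoundedUnder (· ≤ ·) atTop p := isBoundedUnder_of ⟨C, fun N => (abs_le.1 (hC N)).2⟩
  have b2 : IsBoundedUnder (· ≥ ·) atTop p := isBoundedUnder_of ⟨-C, fun N => (abs_le.1 (hC N)).1⟩
  have hA : ∀ η > 0, ∀ᶠ k in atTop, P k ≤ ((liminf p atTop + 2 * η : ℝ) : EReal) := fun η hη => by
    obtain ⟨k0, hk⟩ := h.2 η hη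
    filter_upwards [eventually_ge_atTop k0] with k hk0
    by_contra hlt
    have h3 := hk k hk0 (liminf p atTop + 2 * η) fun q B hq hB =>
      EReal.coe_le_coe_iff.1 ((not_le.1 hlt).le.trans (h2 k q B hq hB))
    have h4 := le_liminf_of_le b1.isCoboundedUnder_ge h3
    linarith
  have hB : ∀ η > 0, ∀ᶠ k in atTop, ((limsup p atTop - 2 * η : ℝ) : EReal) ≤ P k := fun η hη => by
    obtain ⟨k0, hk⟩ := h.1 η hη
    filter_upwards [eventually_ge_atTop k0] with k hk0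
    by_contra hlt
    obtain ⟨q, B, hq, hB, hW⟩ := h1 k _ (not_le.1 hlt)
    have h4 := limsup_le_of_le b2.isCoboundedUnder_le (hk k hk0 q B hq hB)
    linarith
  have hab : limsup p atTop = liminf p atTop := by
    refine le_antisymm (le_of_forall_pos_le_add fun ε hε => ?_) (liminf_le_limsup b1 b2)
    obtain ⟨k, h3, h4⟩ := ((hA (ε / 4) (by positivity)).and (hB (ε / 4) (by positivity))).exists
    have := EReal.coe_le_coe_iff.1 (h4.trans h3)
    linarith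
  refine ⟨liminf p atTop, tendsto_of_liminf_eq_limsup rfl hab b1 b2,
    tendsto_order.2 ⟨fun c hc => ?_, fun c hc => ?_⟩⟩
  · obtain ⟨y, h3, h4⟩ := EReal.lt_iff_exists_real_btwn.1 hc
    have h5 := EReal.coe_lt_coe_iff.1 h4
    filter_upwards [hB ((liminf p atTop - y) / 2) (by linarith)] with k hk
    refine h3.trans_le (le_trans (EReal.coe_le_coe_iff.2 ?_) hk)
    linarith
  · obtain ⟨y, h3, h4⟩ := EReal.lt_iff_exists_real_btwn.1 hc
    have h5 := EReal.coe_lt_coe_iff.1 h3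
    filter_upwards [hA ((y - liminf p atTop) / 2) (by linarith)] with k hk
    refine (hk.trans (EReal.coe_le_coe_iff.2 ?_)).trans_lt h4
    linarith

theorem UL.approx {p : ℕ → ℝ} {Ψ : ℕ → (ℕ → ℝ) → ℝ} {Bd : ℕ → (ℕ → ℝ) → ℝ → Prop}
    (h : ∀ ε > 0, ∃ p' Ψ', UL p' Ψ' Bd ∧ (∀ᶠ N in atTop, |p' N - p N| ≤ ε) ∧
      ∀ k, 0 < k → ∀ q, AdmQ k q → |Ψ' k q - Ψ k q| ≤ ε) : UL p Ψ Bd := by
  refine ⟨fun η hη => ?_, fun η hη => ?_⟩
  · obtain ⟨p', Ψ', hu, h1, h2⟩ := h (η / 3) (by positivity)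
    obtain ⟨k0, hk⟩ := hu.1 (η / 3) (by positivity)
    refine ⟨k0 + 1, fun k hk0 q B hq hB => ?_⟩
    filter_upwards [hk k (by omega) q B hq hB, h1] with N h3 h4
    have h5 := abs_le.1 (h2 k (by omega) q hq)
    have h6 := abs_le.1 h4
    linarith [h5.2, h6.1]
  · obtain ⟨p', Ψ', hu, h1, h2⟩ := h (η / 3) (by positivity)
    obtain ⟨k0, hk⟩ := hu.2 (η / 3) (by positivity)
    refine ⟨k0 + 1, fun k hk0 V hV => ?_⟩
    filter_upwards [hk k (by omega) (V - η / 3) fun q B hq hB => by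
      have h5 := abs_le.1 (h2 k (by omega) q hq)
      linarith [h5.1, hV q B hq hB], h1] with N h3 h4
    have h6 := abs_le.1 h4
    linarith [h6.2]

theorem FinalAux.meas {f f1 f2 : ℝ → ℝ} {K : ℝ} (hf : Nice f f1 f2 K) : Measurable f :=
  (continuous_iff_continuousAt.2 fun u => (hf.d1 u).continuousAt).measurable

/-- passage from smooth potentials to bounded measurable ones -/
theorem UL.of_nice {α : ℝ} (hα : 0 < α) {μ : (N : ℕ) → Measure (Fin N → ℝ)}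
    {Cf : ℕ → Type} [∀ N, MeasurableSpace (Cf N)] {ν : ∀ N, Measure (Cf N)}
    {x : ∀ N, Cf N → Fin N → ℝ} (hx : ∀ N, 0 < N → Spin (ν N) (x N))
    (hμ : ∀ N, 0 < N → μ N = (ν N).map (x N)) {Bd : ℕ → (ℕ → ℝ) → ℝ → Prop}
    (h : ∀ f f1 f2 K, Nice f f1 f2 K →
      UL (fun N => EL (Fin ⌊α * N⌋₊) (ν N) (x N) f / N) (fun k q => α * Psi f k q) Bd)
    {f : ℝ → ℝ} (hf : Measurable f) {C : ℝ} (hC : ∀ u, |f u| ≤ C) :
    UL (meanPressure α μ f) (fun k q => α * Psi f k q) Bd ∧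
      ∀ N, |meanPressure α μ f N| ≤ α * C := by
  have hC0 : 0 ≤ C := (abs_nonneg _).trans (hC 0)
  have e : ∀ N, 0 < N → meanPressure α μ f N = EL (Fin ⌊α * N⌋₊) (ν N) (x N) f / N := fun N hN => by
    rw [meanPressure_eq, EL_congr (ν := ν N) (x := x N) (hx N hN).meas measurable_id
      (Equiv.refl _) (Measure.map_id.trans (hμ N hN)) hf]
  have hM : ∀ N : ℕ, (⌊α * N⌋₊ : ℝ) ≤ α * N := fun N => Nat.floor_le (by positivity)
  refine ⟨UL.approx fun ε hε => ?_, fun N => ?_⟩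
  · obtain ⟨g, g1, g2, K, hg, hgC, hI⟩ := nice_approx hf hC (η := ε / (α * exp (2 * (C + 1))))
      (by positivity)
    have hC1 : ∀ u, |f u| ≤ C + 1 := fun u => (hC u).trans (by linarith)
    have hI' : α * (exp (2 * (C + 1)) * ∫ u, |g u - f u| ∂gaussianReal 0 1) ≤ ε := by
      rw [le_div_iff₀ (by positivity)] at hI
      linarith
    refine ⟨_, _, h g g1 g2 K hg, ?_, fun k hk q hq => ?_⟩
    · filter_upwards [eventually_gt_atTop 0] with N hN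
      have hN' : (0 : ℝ) < N := Nat.cast_pos.2 hN
      have : Nonempty (Fin N) := ⟨⟨0, hN⟩⟩
      rw [e N hN, ← sub_div, abs_div, abs_of_pos hN', div_le_iff₀ hN']
      refine (EL_lip (hx N hN) hf (FinalAux.meas hg) hC1 hgC).trans ?_
      rw [Fintype.card_fin]
      refine (mul_le_mul_of_nonneg_right (hM N) (mul_nonneg (exp_pos _).le
        (integral_nonneg fun _ => abs_nonneg _))).trans ?_
      nlinarith
    · rw [← mul_sub, abs_mul, abs_of_pos hα]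
      exact (mul_le_mul_of_nonneg_left (Psi_lip hf (FinalAux.meas hg) hC1 hgC hk hq) hα.le).trans hI'
  · rcases Nat.eq_zero_or_pos N with rfl | hN
    · rw [meanPressure_eq, Nat.cast_zero, div_zero, abs_zero]
      positivity
    · have hN' : (0 : ℝ) < N := Nat.cast_pos.2 hN
      rw [e N hN, abs_div, abs_of_pos hN', div_le_iff₀ hN']
      refine (abs_EL_le (hx N hN) hf hC).trans ?_
      rw [Fintype.card_fin]
      nlinarith [hM N]

theorem FinalAux.up {α : ℝ} (hα : 0 < α) {f f1 f2 : ℝ → ℝ} {K : ℝ} (hf : Nice f f1 f2 K) {η : ℝ}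
    (hη : 0 < η) : ∃ k0 : ℕ, ∀ k ≥ k0, 0 < k ∧ ∃ N0 : ℕ, ∀ N ≥ N0, ∀ (ι Cf : Type) [Fintype ι]
    [MeasurableSpace Cf] [Nonempty Cf] (ν : Measure Cf) (x : Cf → ι → ℝ) (_ : Spin ν x)
    (_ : Fintype.card ι = N) (q : ℕ → ℝ) (_ : AdmQ k q) (B : ℝ)
    (_ : ∀ r, AdmR r → r (k - 1) ≤ α * K ^ 2 + 1 → XN k ν x r + pairing k q r ≤ B),
    EL (Fin ⌊α * N⌋₊) ν x f / N ≤ α * Psi f k q + B + η := by
  obtain ⟨k0, hk⟩ := upper hf hα.le (half_pos hη)
  refine ⟨k0 + 1, fun k hk0 => ⟨by omega, ?_⟩⟩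
  have hk1 : 0 < k := by omega
  obtain ⟨N0, hN⟩ := hk k (by omega) hk1
  refine ⟨N0 + ⌈2 * K / η⌉₊ + 1, fun N h1 ι Cf _ _ _ ν x hx hc q hq B hB => ?_⟩
  have hN' : (0 : ℝ) < N := Nat.cast_pos.2 (by omega)
  have h2 : (⌊α * N⌋₊ : ℝ) ≤ α * N := Nat.floor_le (by positivity)
  have h3 := (Nat.lt_floor_add_one (α * N)).le
  have h4 := hN ι (Fin ⌊α * N⌋₊) Cf ν x hx (by omega) (by rw [Fintype.card_fin, hc]; exact h2)
    q hq B hB
  have h5 := EL_le_YM (κ := Fin ⌊α * N⌋₊) hx hf hk1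
  have h6 := abs_le.1 (abs_Psi_le (FinalAux.meas hf) hf.b0 hk1 q)
  have h7 : 2 * K / η ≤ N := (Nat.le_ceil _).trans (Nat.cast_le.2 (by omega))
  rw [div_le_iff₀ hη] at h7
  rw [Fintype.card_fin, hc] at h4
  rw [div_le_iff₀ hN']
  have h8 : (α * N - ⌊α * N⌋₊) * (-K) ≤ (α * N - ⌊α * N⌋₊) * Psi f k q :=
    mul_le_mul_of_nonneg_left h6.1 (by linarith)
  have h9 : (α * N - ⌊α * N⌋₊) * K ≤ 1 * K :=
    mul_le_mul_of_nonneg_right (by linarith) (by linarith [hf.one_le])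
  nlinarith

theorem FinalAux.low {ι Cf : Type} [Fintype ι] [Nonempty ι] [MeasurableSpace Cf] [Nonempty Cf]
    {ν : Measure Cf} {x : Cf → ι → ℝ} {f f1 f2 : ℝ → ℝ} {K : ℝ} (hx : Spin ν x)
    (hrot : RotInv ν x) (hf : Nice f f1 f2 K) {α η : ℝ} (hα : 0 < α) (hη : 0 < η) :
    ∃ k0 : ℕ, ∀ k ≥ k0, ∀ V : ℝ,
    (∀ q B, AdmQ k q → (∀ r, AdmR r → XN k ν x r + pairing k q r ≤ B) → V ≤ α * Psi f k q + B) →
    ∀ᶠ N : ℕ in atTop, (N * Fintype.card ι : ℝ) * (V - η) ≤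
      EL (Fin ⌊α * (N * Fintype.card ι : ℕ)⌋₊) (Measure.pi fun _ : Fin N => ν) (blk (Fin N) x)
        f := by
  obtain ⟨k0, hk⟩ := lower hx hrot hf hα.le (half_pos hη)
  refine ⟨k0 + ⌈4 * K ^ 2 * α / η⌉₊ + 1, fun k hk0 V hV => ?_⟩
  have hk1 : 0 < k := by omega
  have hk2 : (0 : ℝ) < k := Nat.cast_pos.2 hk1
  have h7 : 4 * K ^ 2 * α / η ≤ k := (Nat.le_ceil _).trans (Nat.cast_le.2 (by omega))
  rw [div_le_iff₀ hη] at h7
  filter_upwards [hk k (by omega) V hV] with N h1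
  have h0 : (0 : ℝ) ≤ N * Fintype.card ι := by positivity
  have h2 := YM_le_EL (κ := Fin ⌊α * (N * Fintype.card ι : ℕ)⌋₊) (hx.blk (Fin N)) hf hk1
  have h3 : (⌊α * (N * Fintype.card ι : ℕ)⌋₊ : ℝ) ≤ α * (N * Fintype.card ι : ℕ) :=
    Nat.floor_le (by positivity)
  have h4 : 2 * K ^ 2 * (⌊α * (N * Fintype.card ι : ℕ)⌋₊ : ℝ) / k ≤
      (N * Fintype.card ι : ℝ) * (η / 2) := by
    rw [div_le_iff₀ hk2]
    refine (mul_le_mul_of_nonneg_left h3 (by positivity)).trans ?_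
    push_cast
    nlinarith
  rw [Fintype.card_fin] at h2
  linarith

theorem ul_ising {α : ℝ} (hα : 0 < α) {f f1 f2 : ℝ → ℝ} {K : ℝ} (hf : Nice f f1 f2 K) :
    UL (fun N => EL (Fin ⌊α * N⌋₊) (Measure.pi fun _ : Fin N => νB)
      (fun σ i => xB (σ i) ()) f / N) (fun k q => α * Psi f k q) BdI := by
  have e : ∀ N M : ℕ, EL (Fin M) (Measure.pi fun _ : Fin N => νB) (blk (Fin N) xB) f =
      EL (Fin M) (Measure.pi fun _ : Fin N => νB) (fun σ i => xB (σ i) ()) f := fun N M =>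
    EL_congr (measurable_of_finite _) (measurable_of_finite _) (Equiv.prodPUnit (Fin N)).symm rfl
      (FinalAux.meas hf)
  refine ⟨fun η hη => ?_, fun η hη => ?_⟩
  · obtain ⟨k0, hk⟩ := FinalAux.up hα hf hη
    refine ⟨k0, fun k hk0 q B hq hB => ?_⟩
    obtain ⟨hk1, N0, hN⟩ := hk k hk0
    filter_upwards [eventually_ge_atTop N0, eventually_gt_atTop 0] with N h1 h2
    have : Nonempty (Fin N) := ⟨⟨0, h2⟩⟩
    rw [← e]
    exact hN N h1 _ _ _ _ (spin_B.blk (Fin N)) (by simp) q hq B fun r hr _ => by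
      rw [XN_blk spin_B hk1, XN_B hk1]
      exact hB r hr
  · obtain ⟨k0, hk⟩ := FinalAux.low spin_B rotInv_B hf hα hη
    refine ⟨k0 + 1, fun k hk0 V hV => ?_⟩
    filter_upwards [hk k (by omega) V fun q B hq hB => hV q B hq fun r hr => by
      rw [← XN_B (by omega)]
      exact hB r hr, eventually_gt_atTop 0] with N h3 h2
    rw [Fintype.card_unit, mul_one, e] at h3
    rw [le_div_iff₀ (Nat.cast_pos.2 h2)]
    simpa [mul_comm] using h3

theorem ising {α : ℝ} (hα : 0 < α) {f : ℝ → ℝ} (hf : Measurable f) {C : ℝ}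
    (hC : ∀ u, |f u| ≤ C) : ∃ L : ℝ, Tendsto (meanPressure α isingMeas f) atTop (𝓝 L) ∧
      Tendsto (parisiI α f) atTop (𝓝 (L : EReal)) := by
  have := spin_B.prob
  obtain ⟨h1, h2⟩ := UL.of_nice hα (μ := isingMeas) (Cf := fun N => Fin N → Bool)
    (ν := fun N => Measure.pi fun _ : Fin N => νB) (x := fun N σ i => xB (σ i) ())
    (fun N _ => ⟨inferInstance, measurable_of_finite _, fun σ => by
      rw [sum_congr rfl fun i _ => (show xB (σ i) () ^ 2 = 1 by unfold xB; split_ifs <;> norm_num)]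
      simp⟩)
    (fun N _ => by
      unfold isingMeas νB
      rw [← uniformOn_pi, Set.pi_univ]
      rfl) (fun f f1 f2 K hf => ul_ising hα hf) hf hC
  refine h1.limit h2 (fun k W hW => ?_) fun k q B hq hB => ?_
  · obtain ⟨q, hq⟩ := iInf_lt_iff.1 hW
    refine ⟨q, W - α * Psi f k q, q.2, fun r hr => ?_, by linarith⟩
    have h3 := EReal.coe_lt_coe_iff.1 ((le_iSup (fun r : {r // AdmR r} =>
      ((α * Psi f k q + XI k r + pairing k q r : ℝ) : EReal)) ⟨r, hr⟩).trans_lt hq)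
    linarith
  · refine iInf_le_of_le ⟨q, hq⟩ (iSup_le fun r => EReal.coe_le_coe_iff.2 ?_)
    linarith [hB r r.2]

end Vale.Agent.P157
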