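import Vale.Agent.P157.GI1

namespace Vale.Agent.P157

open MeasureTheory ProbabilityTheory Real Finset Filter Topology
open scoped ENNReal

theorem gi_swap (k : ℕ) (f : ℕ → ℕ → ℝ) :
    ∑ j ∈ range k, ∑ l ∈ Ioo j k, f j l = ∑ l ∈ range k, ∑ j ∈ range l, f j l := by
  refine sum_comm' fun j l => ?_
  simp only [mem_range, mem_Ioo]
  omega

theorem gi_path {w w' : ℝ} (h : w' ≠ 0 → 0 < w) : ∀ᶠ t in 𝓝 (0 : ℝ),
    HasDerivAt (fun t => √(w + t * w')) (w' / (2 * √(w + t * w'))) t ∧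
      |√(w + t * w')| ≤ |√w| + |w' / (2 * √w)| + 1 ∧
      |w' / (2 * √(w + t * w'))| ≤ |√w| + |w' / (2 * √w)| + 1 := by
  by_cases h0 : w' = 0
  · subst h0
    refine Eventually.of_forall fun t => ⟨?_, ?_, ?_⟩
    · simpa using hasDerivAt_const t (√w)
    · simp
    · simp only [zero_div, abs_zero, add_zero]
      positivity
  have hw := h h0
  have hc : Continuous fun t : ℝ => w + t * w' := by fun_prop
  have h1 : ∀ᶠ t in 𝓝 (0 : ℝ), 0 < w + t * w' :=
    hc.continuousAt.eventually (lt_mem_nhds (by simpa using hw))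
  have hc2 : ContinuousAt (fun t : ℝ => |√(w + t * w')|) 0 := by fun_prop
  have hc3 : ContinuousAt (fun t : ℝ => |w' / (2 * √(w + t * w'))|) 0 := by
    refine ContinuousAt.abs (continuousAt_const.div (by fun_prop) ?_)
    have := Real.sqrt_pos.2 hw
    simp only [zero_mul, add_zero]
    positivity
  have h2 := hc2.eventually (gt_mem_nhds (a := |√w| + 1) (by simp))
  have h3 := hc3.eventually (gt_mem_nhds (a := |w' / (2 * √w)| + 1) (by simp))
  filter_upwards [h1, h2, h3] with t h1 h2 h3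
  refine ⟨?_, by linarith [abs_nonneg (w' / (2 * √w))], by linarith [abs_nonneg √w]⟩
  have h4 : HasDerivAt (fun t : ℝ => w + t * w') w' t := by
    simpa using ((hasDerivAt_id t).mul_const w').const_add w
  exact h4.sqrt h1.ne'

namespace Rg

variable {I A Cf : Type} [Fintype I] [Fintype A] [DecidableEq A] [MeasurableSpace Cf]
  {R : Rg I A Cf} {K : ℝ} {k : ℕ} {ν : Measure Cf} [IsProbabilityMeasure ν]

omit [MeasurableSpace Cf] in
theorem sum_F1_U (w d : ℕ → I → ℝ) (s : St I Cf) :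
    ∑ a, R.F1 a (R.U k (fun j i => √(w j i)) a s) * R.U k d a s =
      ∑ j ∈ range k, ∑ i, d j i * (s.2 j i * R.ψ k w i s) := by
  have e : ∀ a, R.F1 a (R.U k (fun j i => √(w j i)) a s) * R.U k d a s =
      ∑ j ∈ range k, ∑ i ∈ univ.filter (fun i => R.own i = a),
        d j i * (s.2 j i * R.ψ k w i s) := by
    intro a
    conv_lhs => rw [show R.U k d a s = ∑ j ∈ range k,
      ∑ i ∈ univ.filter (fun i => R.own i = a), d j i * R.e i s.1 * s.2 j i from rfl]
    rw [mul_sum]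
    refine sum_congr rfl fun j _ => ?_
    rw [mul_sum]
    refine sum_congr rfl fun i hi => ?_
    unfold ψ
    rw [(mem_filter.1 hi).2]
    ring
  rw [sum_congr rfl fun a _ => e a, sum_comm]
  exact sum_congr rfl fun j _ => sum_fiberwise _ _ _

variable [Nonempty Cf]

theorem GI_eq (hR : R.OK K) (hk : 0 < k) (w w' : ℕ → I → ℝ) : R.GI k ν w w' =
    ∑ j ∈ range k, ∑ i, w' j i / 2 * ((∫ s, R.dg k w i s ∂mm k ν (R.Hv k w)) -
      (1 / (k : ℝ)) * ∑ l ∈ Ioo j k,
        ∫ p, R.ψ k w i p.1 * R.ψ k w i p.2 ∂pp k ν (R.Hv k w) l) := by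
  have hY : (GS k I ν).OK := gs_ok hk
  have hH := lin_Hv (ν := ν) hR hk w
  unfold GI
  rw [integral_finsetSum _ fun i _ => (integrable_mm hk hH (ex_dg hR hk w i)).const_mul _]
  have e : ∀ l, ∫ p, ∑ i, (∑ j ∈ range l, w' j i) * (R.ψ k w i p.1 * R.ψ k w i p.2)
      ∂pp k ν (R.Hv k w) l = ∑ j ∈ range l, ∑ i, w' j i *
        ∫ p, R.ψ k w i p.1 * R.ψ k w i p.2 ∂pp k ν (R.Hv k w) l := by
    intro l
    rw [integral_finsetSum _ fun i _ => (integrable_pp hk hH
      (((ex_ψ hR hk w i).fst hY).mul hY ((ex_ψ hR hk w i).snd hY)) l).const_mul _, sum_comm]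
    exact sum_congr rfl fun i _ => by rw [integral_const_mul, sum_mul]
  simp only [e, integral_const_mul]
  rw [← gi_swap]
  simp only [mul_sub, sum_sub_distrib]
  congr 1
  · rw [sum_comm, mul_sum]
    refine sum_congr rfl fun i _ => ?_
    rw [sum_mul, mul_sum]
    exact sum_congr rfl fun j _ => by ring
  · rw [mul_sum]
    refine sum_congr rfl fun j _ => ?_
    rw [sum_comm, mul_sum]
    refine sum_congr rfl fun i _ => ?_
    rw [← mul_sum]
    ring

theorem ibp_ψ (hR : R.OK K) (hk : 0 < k) (w : ℕ → I → ℝ) {j : ℕ} (hj : j < k) (i : I) :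
    ∫ s, s.2 j i * R.ψ k w i s ∂mm k ν (R.Hv k w) =
      √(w j i) * ((∫ s, R.dg k w i s ∂mm k ν (R.Hv k w)) - (1 / (k : ℝ)) * ∑ l ∈ Ioo j k,
        ∫ p, R.ψ k w i p.1 * R.ψ k w i p.2 ∂pp k ν (R.Hv k w) l) := by
  classical
  have hY : (GS k I ν).OK := gs_ok hk
  have hH := lin_Hv (ν := ν) hR hk w
  have hψ := ex_ψ (ν := ν) hR hk w i
  have hdg := ex_dg (ν := ν) hR hk w i
  have dH : DirD j i (R.Hv k w) fun s => √(w j i) * R.ψ k w i s := dirD_H hR _ hj i
  have dψ : DirD j i (R.ψ k w i) fun s => √(w j i) * (R.dg k w i s - R.ψ k w i s ^ 2) := by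
    have h1 := (DirD.config (j := j) (i := i) (R.e i)).mul
      ((dirD_U (R := R) (fun j i => √(w j i)) hj i (R.own i)).comp (hR.d2 (R.own i)))
    refine h1.congr (fun _ => rfl) fun s => ?_
    simp only [dg, if_true]
    ring
  rw [ibp hk hj hH (hψ.const_mul hY _) dH hψ ((hdg.sub hY (hψ.sq hY)).const_mul hY _) dψ,
    integral_const_mul, integral_sub (integrable_mm hk hH hdg) (integrable_mm hk hH (hψ.sq hY))]
  have e1 : ∀ s, R.ψ k w i s * (√(w j i) * R.ψ k w i s) = √(w j i) * R.ψ k w i s ^ 2 :=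
    fun s => by ring
  have e2 : ∀ p : St I Cf × St I Cf, R.ψ k w i p.1 * (√(w j i) * R.ψ k w i p.2) =
      √(w j i) * (R.ψ k w i p.1 * R.ψ k w i p.2) := fun p => by ring
  simp only [e1, e2, integral_const_mul]
  rw [← mul_sum]
  ring

theorem GI_deriv (hR : R.OK K) (hk : 0 < k) {w w' : ℕ → I → ℝ}
    (hw : ∀ j < k, ∀ i, w' j i ≠ 0 → 0 < w j i) :
    HasDerivAt (fun t => R.Yv k ν fun j i => w j i + t * w' j i) (R.GI k ν w w') 0 := by
  have hY : (GS k I ν).OK := gs_ok hk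
  have hH := lin_Hv (ν := ν) hR hk w
  have hev : ∀ᶠ t in 𝓝 (0 : ℝ), ∀ j ∈ range k, ∀ i,
      HasDerivAt (fun t => √(w j i + t * w' j i)) (w' j i / (2 * √(w j i + t * w' j i))) t ∧
      |√(w j i + t * w' j i)| ≤ |√(w j i)| + |w' j i / (2 * √(w j i))| + 1 ∧
      |w' j i / (2 * √(w j i + t * w' j i))| ≤ |√(w j i)| + |w' j i / (2 * √(w j i))| + 1 :=
    (eventually_all_finset _).2 fun j hj => eventually_all.2 fun i =>
      gi_path (hw j (mem_range.1 hj) i)
  obtain ⟨U, hU, hUo, hU0⟩ := eventually_nhds_iff.1 hev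
  have hb : ∀ j < k, ∀ i, |√(w j i)| + |w' j i / (2 * √(w j i))| + 1 ≤
      ∑ j ∈ range k, ∑ i, |(|√(w j i)| + |w' j i / (2 * √(w j i))| + 1)| := fun j hj i =>
    (le_abs_self _).trans
      (le_sum_abs (fun j i => |√(w j i)| + |w' j i / (2 * √(w j i))| + 1) hj i)
  have hF := lfam_H (ν := ν) hR hk (U := U) (lam := fun t j i => √(w j i + t * w' j i))
    (lam' := fun t j i => w' j i / (2 * √(w j i + t * w' j i)))
    (fun t ht j hj i => (hU t ht j (mem_range.2 hj) i).1)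
    (fun t ht j hj i => ⟨(hU t ht j (mem_range.2 hj) i).2.1.trans (hb j hj i),
      (hU t ht j (mem_range.2 hj) i).2.2.trans (hb j hj i)⟩)
  have hD := (Sys.X_fam hY hUo hF (k + 1) 0).der 0 hU0 (s0 I Cf)
  refine hD.congr_deriv (Eq.symm ?_)
  simp only [zero_mul, add_zero]
  show _ = ∫ s, ∑ a, R.F1 a (R.U k (fun j i => √(w j i)) a s) *
    R.U k (fun j i => w' j i / (2 * √(w j i))) a s ∂mm k ν (R.Hv k w)
  simp only [sum_F1_U]
  have hi : ∀ j ∈ range k, ∀ i, Integrable (fun s : St I Cf => w' j i / (2 * √(w j i)) *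
      (s.2 j i * R.ψ k w i s)) (mm k ν (R.Hv k w)) := fun j hj i =>
    (integrable_mm hk hH (((lin_coord hk (mem_range.1 hj) i).ex hY).mul hY
      (ex_ψ hR hk w i))).const_mul _
  rw [integral_finsetSum _ fun j hj => integrable_finsetSum _ fun i _ => hi j hj i, GI_eq hR hk]
  refine sum_congr rfl fun j hj => ?_
  rw [integral_finsetSum _ fun i _ => hi j hj i]
  refine sum_congr rfl fun i _ => ?_
  rw [integral_const_mul, ibp_ψ hR hk w (mem_range.1 hj), ← mul_assoc]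
  congr 1
  by_cases h0 : w' j i = 0
  · simp [h0]
  · have := Real.sqrt_pos.2 (hw j (mem_range.1 hj) i h0)
    field_simp

theorem Yv_cont (hR : R.OK K) (hk : 0 < k) {τ : Type*} {F : Filter τ} {wt : τ → ℕ → I → ℝ}
    {w : ℕ → I → ℝ} (h : ∀ j < k, ∀ i, Tendsto (fun t => wt t j i) F (𝓝 (w j i))) :
    Tendsto (fun t => R.Yv k ν (wt t)) F (𝓝 (R.Yv k ν w)) := by
  have hY : (GS k I ν).OK := gs_ok hk
  obtain ⟨Ce, h0, he⟩ := hR.be'
  have hω : Tendsto (fun t => (∑ _a : A, K * Ce) *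
      ∑ j ∈ range k, ∑ i, |√(wt t j i) - √(w j i)|) F (𝓝 0) := by
    have h1 : Tendsto (fun t => ∑ j ∈ range k, ∑ i, |√(wt t j i) - √(w j i)|) F
        (𝓝 (∑ j ∈ range k, ∑ i, |√(w j i) - √(w j i)|)) :=
      tendsto_finsetSum _ fun j hj => tendsto_finsetSum _ fun i _ =>
        ((h j (mem_range.1 hj) i).sqrt.sub_const _).abs
    simpa using h1.const_mul (∑ _a : A, K * Ce)
  refine Sys.X_tendsto hY gs_mono.2 (lin_Hv hR hk w) hω
    (Eventually.of_forall fun t => ⟨measurable_H hR _, fun s => ?_⟩) (k + 1) 0 (s0 I Cf)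
  have hS : 0 ≤ ∑ j ∈ range k, ∑ i, |√(wt t j i) - √(w j i)| :=
    sum_nonneg fun _ _ => sum_nonneg fun _ _ => abs_nonneg _
  have hν := hY.ν_nonneg s
  unfold Hv H
  rw [← sum_sub_distrib, sum_mul, sum_mul]
  refine (abs_sum_le_sum_abs _ _).trans (sum_le_sum fun a _ => (hR.lipF a _ _).trans ?_)
  have hK : 0 ≤ K := (abs_nonneg _).trans (hR.b1 a 0)
  rw [U_sub]
  have h1 := abs_U_le (ν := ν) h0 he hS
    (fun j hj i => le_sum_abs (fun j i => √(wt t j i) - √(w j i)) hj i) a s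
  have h2 := mul_le_mul_of_nonneg_left h1 hK
  have h3 := mul_nonneg (mul_nonneg hK h0) hS
  nlinarith

theorem GI_mvt (hR : R.OK K) (hk : 0 < k) {w0 w1 : ℕ → I → ℝ} (h0 : ∀ j < k, ∀ i, 0 ≤ w0 j i)
    (h1 : ∀ j < k, ∀ i, 0 ≤ w1 j i) : ∃ t ∈ Set.Ioo (0 : ℝ) 1, R.Yv k ν w1 - R.Yv k ν w0 =
      R.GI k ν (fun j i => w0 j i + t * (w1 j i - w0 j i)) fun j i => w1 j i - w0 j i := by
  have hc : Continuous fun t : ℝ => R.Yv k ν fun j i => w0 j i + t * (w1 j i - w0 j i) :=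
    continuous_iff_continuousAt.2 fun t => Yv_cont hR hk fun j _ i =>
      (by fun_prop : Continuous fun t : ℝ => w0 j i + t * (w1 j i - w0 j i)).continuousAt
  have hd : ∀ t ∈ Set.Ioo (0 : ℝ) 1,
      HasDerivAt (fun t : ℝ => R.Yv k ν fun j i => w0 j i + t * (w1 j i - w0 j i))
        (R.GI k ν (fun j i => w0 j i + t * (w1 j i - w0 j i)) fun j i => w1 j i - w0 j i) t := by
    intro t ht
    have h2 := GI_deriv (ν := ν) hR hk (w := fun j i => w0 j i + t * (w1 j i - w0 j i))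
      (w' := fun j i => w1 j i - w0 j i) fun j hj i hne => by
        have a0 := h0 j hj i
        have a1 := h1 j hj i
        rcases lt_or_gt_of_ne (sub_ne_zero.1 hne) with h | h
        · nlinarith [mul_nonneg ht.1.le a1, mul_pos (sub_pos.2 ht.2) (lt_of_le_of_lt a1 h)]
        · nlinarith [mul_pos ht.1 (sub_pos.2 h)]
    rw [← sub_self t] at h2
    refine (h2.comp_sub_const t t).congr_of_eventuallyEq (Eventually.of_forall fun u => ?_)
    show R.Yv k ν _ = R.Yv k ν _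
    congr 1
    funext j i
    ring
  obtain ⟨t, ht, e⟩ := exists_hasDerivAt_eq_slope _ _ (zero_lt_one' ℝ) hc.continuousOn hd
  refine ⟨t, ht, ?_⟩
  rw [e]
  simp

theorem abs_GI_le (hR : R.OK K) (hK : 1 ≤ K) (hk : 0 < k) (w w' : ℕ → I → ℝ) {B : ℝ}
    (hB : ∀ σ, ∑ i, (∑ j ∈ range k, |w' j i|) * R.e i σ ^ 2 ≤ B) :
    |R.GI k ν w w'| ≤ 2 * K ^ 2 * B := by
  have hH := lin_Hv (ν := ν) hR hk w
  have hB0 : 0 ≤ B := le_trans (sum_nonneg fun i _ => mul_nonneg
    (sum_nonneg fun _ _ => abs_nonneg _) (sq_nonneg _)) (hB (Classical.arbitrary Cf))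
  have hw : ∀ l ≤ k, ∀ i, |∑ j ∈ range l, w' j i| ≤ ∑ j ∈ range k, |w' j i| := fun l hl i =>
    (abs_sum_le_sum_abs _ _).trans (sum_le_sum_of_subset_of_nonneg (range_mono hl)
      fun _ _ _ => abs_nonneg _)
  have hn : ∀ i, 0 ≤ ∑ j ∈ range k, |w' j i| := fun i => sum_nonneg fun _ _ => abs_nonneg _
  have h1 : |∫ s, ∑ i, (∑ j ∈ range k, w' j i) * R.dg k w i s ∂mm k ν (R.Hv k w)| ≤
      (K + K ^ 2) * B := by
    haveI := mm_prob hk hH
    have := norm_integral_le_of_norm_le_const (μ := mm k ν (R.Hv k w)) (C := (K + K ^ 2) * B)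
      (f := fun s => ∑ i, (∑ j ∈ range k, w' j i) * R.dg k w i s) (Eventually.of_forall fun s => ?_)
    · simpa using this
    · refine (abs_sum_le_sum_abs _ _).trans (le_trans ?_
        (mul_le_mul_of_nonneg_left (hB s.1) (by positivity)))
      rw [mul_sum]
      refine sum_le_sum fun i _ => ?_
      rw [abs_mul, mul_left_comm]
      exact mul_le_mul (hw k le_rfl i) (abs_dg_le hR w i s) (abs_nonneg _) (hn i)
  have h2 : ∀ l ∈ range k, |∫ p, ∑ i, (∑ j ∈ range l, w' j i) * (R.ψ k w i p.1 * R.ψ k w i p.2)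
      ∂pp k ν (R.Hv k w) l| ≤ K ^ 2 * B := by
    intro l hl
    haveI := pp_prob hk hH l
    have := norm_integral_le_of_norm_le_const (μ := pp k ν (R.Hv k w) l) (C := K ^ 2 * B)
      (f := fun p => ∑ i, (∑ j ∈ range l, w' j i) * (R.ψ k w i p.1 * R.ψ k w i p.2))
      (Eventually.of_forall fun p => ?_)
    · simpa using this
    · refine (abs_sum_le_sum_abs _ _).trans ?_
      have h3 : ∀ i, |(∑ j ∈ range l, w' j i) * (R.ψ k w i p.1 * R.ψ k w i p.2)| ≤
          K ^ 2 / 2 * ((∑ j ∈ range k, |w' j i|) * R.e i p.1.1 ^ 2) +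
            K ^ 2 / 2 * ((∑ j ∈ range k, |w' j i|) * R.e i p.2.1 ^ 2) := by
        intro i
        have a1 := ψ_sq_le (k := k) hR w i p.1
        have a2 := ψ_sq_le (k := k) hR w i p.2
        have a3 : |R.ψ k w i p.1 * R.ψ k w i p.2| ≤
            K ^ 2 / 2 * R.e i p.1.1 ^ 2 + K ^ 2 / 2 * R.e i p.2.1 ^ 2 := by
          rw [abs_le]
          constructor
          · nlinarith [sq_nonneg (R.ψ k w i p.1 + R.ψ k w i p.2)]
          · nlinarith [sq_nonneg (R.ψ k w i p.1 - R.ψ k w i p.2)]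
        rw [abs_mul]
        refine (mul_le_mul (hw l (mem_range.1 hl).le i) a3 (abs_nonneg _) (hn i)).trans
          (le_of_eq ?_)
        ring
      refine (sum_le_sum fun i _ => h3 i).trans ?_
      rw [sum_add_distrib, ← mul_sum, ← mul_sum]
      have a4 := mul_le_mul_of_nonneg_left (hB p.1.1) (by positivity : 0 ≤ K ^ 2 / 2)
      have a5 := mul_le_mul_of_nonneg_left (hB p.2.1) (by positivity : 0 ≤ K ^ 2 / 2)
      linarith
  have h3 := (abs_sum_le_sum_abs _ _).trans (sum_le_sum h2)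
  rw [sum_const, card_range, nsmul_eq_mul] at h3
  have hk' : (0 : ℝ) < k := Nat.cast_pos.2 hk
  unfold GI
  refine (abs_sub _ _).trans ?_
  rw [abs_mul, abs_mul, abs_of_pos (by norm_num : (0 : ℝ) < 1 / 2),
    abs_of_pos (by positivity : (0 : ℝ) < 1 / (2 * k))]
  have h4 := mul_le_mul_of_nonneg_left h3 (by positivity : (0 : ℝ) ≤ 1 / (2 * k))
  have h5 : 1 / (2 * (k : ℝ)) * (k * (K ^ 2 * B)) = K ^ 2 * B / 2 := by field_simp
  have h6 : K * B ≤ K ^ 2 * B := mul_le_mul_of_nonneg_right (by nlinarith) hB0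
  have h7 : 0 ≤ K ^ 2 * B := by positivity
  linarith

theorem Yv_lip (hR : R.OK K) (hK : 1 ≤ K) (hk : 0 < k) {w0 w1 : ℕ → I → ℝ}
    (h0 : ∀ j < k, ∀ i, 0 ≤ w0 j i) (h1 : ∀ j < k, ∀ i, 0 ≤ w1 j i) {B : ℝ}
    (hB : ∀ σ, ∑ i, (∑ j ∈ range k, |w1 j i - w0 j i|) * R.e i σ ^ 2 ≤ B) :
    |R.Yv k ν w1 - R.Yv k ν w0| ≤ 2 * K ^ 2 * B := by
  obtain ⟨t, -, e⟩ := GI_mvt (ν := ν) hR hk h0 h1
  rw [e]
  exact abs_GI_le hR hK hk _ _ hB

omit [Nonempty Cf] in
theorem OK.ext (hR : R.OK K) {I' : Type} [Fintype I'] (own' : I' → A) {e' : I' → Cf → ℝ}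
    (hm : ∀ i, Measurable (e' i)) {C : ℝ} (hb : ∀ i σ, |e' i σ| ≤ C) : (R.ext own' e').OK K := by
  obtain ⟨C', hC'⟩ := hR.be
  refine ⟨hR.d1, hR.d2, hR.b1, hR.b2, ?_, max C' C, ?_⟩
  · rintro (i | i)
    · exact hR.me i
    · exact hm i
  · rintro (i | i) σ
    · exact (hC' i σ).trans (le_max_left _ _)
    · exact (hb i σ).trans (le_max_right _ _)

omit [Fintype A] [MeasurableSpace Cf] [Nonempty Cf] in
theorem U_pull' {I' A' Cf' : Type} [Fintype I'] [DecidableEq A']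
    {R' : Rg I' A' Cf'} {φ : Cf' → Cf} {c : I → I'} (hc : Function.Injective c) {o : A → A'}
    (ho : Function.Injective o) {w : ℕ → I → ℝ} {w' : ℕ → I' → ℝ}
    (hown : ∀ i, R'.own (c i) = o (R.own i)) (he : ∀ i σ, R'.e (c i) σ = R.e i (φ σ))
    (hw : ∀ j < k, ∀ i, w' j (c i) = w j i) (a : A)
    (h0 : ∀ j < k, ∀ i', R'.own i' = o a → i' ∉ Set.range c → w' j i' = 0) (s : St I' Cf') :
    R'.U k (fun j i => √(w' j i)) (o a) s = R.U k (fun j i => √(w j i)) a (pull φ c s) := by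
  unfold U
  refine sum_congr rfl fun j hj => (sum_of_injOn c hc.injOn ?_ ?_ ?_).symm
  · intro i hi
    simp only [coe_filter, mem_univ, true_and, Set.mem_ofPred_eq] at hi ⊢
    rw [hown, hi]
  · intro i' hi' hn
    have h1 := (mem_filter.1 hi').2
    have h2 : i' ∉ Set.range c := by
      rintro ⟨i, rfl⟩
      refine hn ⟨i, ?_, rfl⟩
      rw [hown] at h1
      simpa using ho h1
    simp [h0 j (mem_range.1 hj) i' h1 h2]
  · intro i _
    simp only [pull, he, hw j (mem_range.1 hj)]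

theorem Yv_ext_eq (hR : R.OK K) (hk : 0 < k) {I' : Type} [Fintype I'] {R' : Rg I' A Cf}
    {c : I → I'} (hc : Function.Injective c) (hF : R'.F = R.F) {w : ℕ → I → ℝ}
    {w' : ℕ → I' → ℝ} (hown : ∀ i, R'.own (c i) = R.own i) (he : ∀ i σ, R'.e (c i) σ = R.e i σ)
    (hw : ∀ j < k, ∀ i, w' j (c i) = w j i)
    (h0 : ∀ j < k, ∀ i', i' ∉ Set.range c → w' j i' = 0) : R'.Yv k ν w' = R.Yv k ν w := by
  unfold Yv
  rw [← YY_pull (ν' := ν) (φ := id) hk (MeasurePreserving.id ν) hc (lin_Hv hR hk w)]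
  congr 1
  funext s
  unfold Hv H
  refine sum_congr rfl fun a _ => ?_
  rw [hF]
  congr 1
  exact U_pull' (o := id) (φ := id) hc Function.injective_id hown he hw a
    (fun j hj i' _ h => h0 j hj i' h) s

/-- coordinates with the same owner and feature can be merged -/
theorem Yv_merge (hR : R.OK K) (hk : 0 < k) {I' : Type} [Fintype I'] [DecidableEq I']
    {R' : Rg I' A Cf} (hR' : R'.OK K) (c : I → I') (hF : R.F = R'.F) {w : ℕ → I → ℝ}
    {w' : ℕ → I' → ℝ} (hw : ∀ j < k, ∀ i, 0 ≤ w j i)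
    (hc : ∀ i, (∃ j < k, w j i ≠ 0) → R.own i = R'.own (c i) ∧ R.e i = R'.e (c i))
    (hs : ∀ j < k, ∀ i', w' j i' = ∑ i ∈ univ.filter (fun i => c i = i'), w j i) :
    R.Yv k ν w = R'.Yv k ν w' := by
  obtain ⟨Ce, hCe⟩ := hR'.be
  let R3 : Rg I A Cf := ⟨fun i => R'.own (c i), R'.F, R'.F1, R'.F2, fun i => R'.e (c i)⟩
  have hR3 : R3.OK K := ⟨hR'.d1, hR'.d2, hR'.b1, hR'.b2, fun i => hR'.me _, Ce, fun i σ => hCe _ σ⟩
  have e3 : R.Hv k w = R3.Hv k w := by
    funext s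
    unfold Hv H U
    refine sum_congr rfl fun a _ => ?_
    rw [hF]
    congr 1
    refine sum_congr rfl fun j hj => ?_
    rw [sum_filter, sum_filter]
    refine sum_congr rfl fun i _ => ?_
    by_cases h : w j i = 0
    · simp [h]
    · obtain ⟨h1, h2⟩ := hc i ⟨j, mem_range.1 hj, h⟩
      simp only [h1, h2, R3]
  have hR2 := hR'.ext (fun i => R'.own (c i)) (e' := fun i => R'.e (c i)) (fun i => hR'.me _)
    (fun i σ => hCe _ σ)
  have e0 : (R'.ext (fun i => R'.own (c i)) fun i => R'.e (c i)).Yv k ν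
      (fun j => Sum.elim (w' j) 0) = R'.Yv k ν w' :=
    Yv_ext_eq hR' hk Sum.inl_injective rfl (fun _ => rfl) (fun _ _ => rfl) (fun _ _ _ => rfl)
      fun j _ i' h => by
        rcases i' with i | i
        · exact absurd ⟨i, rfl⟩ h
        · rfl
  have e1 : (R'.ext (fun i => R'.own (c i)) fun i => R'.e (c i)).Yv k ν
      (fun j => Sum.elim 0 (w j)) = R3.Yv k ν w :=
    Yv_ext_eq hR3 hk Sum.inr_injective rfl (fun _ => rfl) (fun _ _ => rfl) (fun _ _ _ => rfl)
      fun j _ i' h => by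
        rcases i' with i | i
        · rfl
        · exact absurd ⟨i, rfl⟩ h
  obtain ⟨t, -, e⟩ := GI_mvt (ν := ν) hR2 hk (w0 := fun j => Sum.elim (w' j) 0)
    (w1 := fun j => Sum.elim 0 (w j))
    (fun j hj i => by
      rcases i with i | i
      · simp only [Sum.elim_inl, hs j hj]
        exact sum_nonneg fun i _ => hw j hj i
      · exact le_rfl)
    (fun j hj i => by
      rcases i with i | i
      · exact le_rfl
      · exact hw j hj i)
  have hz : ∀ l ≤ k, ∀ G : I' ⊕ I → ℝ, (∀ i, G (.inr i) = G (.inl (c i))) →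
      ∑ i, (∑ j ∈ range l, (Sum.elim (0 : I' → ℝ) (w j) i - Sum.elim (w' j) (0 : I → ℝ) i)) * G i
        = 0 := by
    intro l hl G hG
    simp only [sum_mul]
    rw [sum_comm]
    refine sum_eq_zero fun j hj => ?_
    rw [Fintype.sum_sum_type]
    simp only [Sum.elim_inl, Sum.elim_inr, Pi.zero_apply, zero_sub, sub_zero, hG,
      hs j (lt_of_lt_of_le (mem_range.1 hj) hl), neg_mul, sum_neg_distrib, sum_mul]
    rw [← sum_fiberwise univ c fun i => w j i * G (.inl (c i)), neg_add_eq_zero]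
    exact sum_congr rfl fun i' _ => sum_congr rfl fun i hi => by rw [(mem_filter.1 hi).2]
  have hGI : ∀ W, (R'.ext (fun i => R'.own (c i)) fun i => R'.e (c i)).GI k ν W
      (fun j i => Sum.elim (0 : I' → ℝ) (w j) i - Sum.elim (w' j) (0 : I → ℝ) i) = 0 := by
    intro W
    unfold GI
    rw [sum_eq_zero fun l hl => ?_]
    · rw [integral_eq_zero_of_ae (Eventually.of_forall fun s => hz k le_rfl _ fun i => rfl)]
      simp
    · exact integral_eq_zero_of_ae (Eventually.of_forall fun p =>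
        hz l (mem_range.1 hl).le _ fun i => rfl)
  rw [hGI, e0, e1] at e
  unfold Yv at e ⊢
  rw [e3]
  linarith

/-- a term that only uses the coordinates in the range of `c` is a pull back -/
theorem U_pull {I' A' Cf' : Type} [Fintype I'] [Fintype A'] [DecidableEq A']
    {R' : Rg I' A' Cf'} {φ : Cf' → Cf} {c : I → I'} (hc : Function.Injective c) {o : A → A'}
    (ho : Function.Injective o) {w : ℕ → I → ℝ} {w' : ℕ → I' → ℝ}
    (hown : ∀ i, R'.own (c i) = o (R.own i)) (he : ∀ i σ, R'.e (c i) σ = R.e i (φ σ))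
    (hw : ∀ j < k, ∀ i, w' j (c i) = w j i) (a : A)
    (h0 : ∀ j < k, ∀ i', R'.own i' = o a → i' ∉ Set.range c → w' j i' = 0) (s : St I' Cf') :
    R'.U k (fun j i => √(w' j i)) (o a) s = R.U k (fun j i => √(w j i)) a (pull φ c s) :=
  U_pull' hc ho hown he hw a h0 s

end Rg

end Vale.Agent.P157
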