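import Vale.Agent.P157.Morph

namespace Vale.Agent.P157

open MeasureTheory ProbabilityTheory Real Finset Filter Topology
open scoped ENNReal

variable {I Cf : Type} [Fintype I] [MeasurableSpace Cf] {k : ℕ} {ν : Measure Cf}
  [IsProbabilityMeasure ν] {H g h : St I Cf → ℝ}

theorem Sys.pr_trunk {S Ω : Type*} [MeasurableSpace S] [MeasurableSpace Ω] {Y : Sys S Ω}
    {H g h : S → ℝ} (hY : Y.OK) (hH : Y.Lin H) (hg : Y.Ex g) (hh : Y.Ex h) (l a n : ℕ) (s : S) :
    ∫ s', (∫ p, g p.1 * h p.2 ∂Y.pr a n l H s') ∂Y.m l 0 (Y.X (a + n) l H) s =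
      ∫ p, g p.1 * h p.2 ∂Y.pr (l + a) n 0 H s := by
  simp only [Sys.integral_pr_mul hY hH hg hh, Nat.zero_add]
  rw [Sys.P_add hY (Sys.lin_X hY hH _ _) ((Sys.ex_P hY hH hg _ _).mul hY (Sys.ex_P hY hH hh _ _)),
    Nat.zero_add, Sys.X_add]
  rfl

theorem gsb_int (I : Type) [Fintype I] (C : ℝ) :
    Integrable (fun w : I → ℝ => exp (C * ∑ i, |w i|)) (γ I) := by
  simp only [Finset.mul_sum, exp_sum]
  exact Integrable.fintype_prod (f := fun _ x => exp (C * |x|)) (fun _ =>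
    integrable_exp_mul_abs (X := fun x => x) (integrable_exp_mul_gaussianReal C)
      (integrable_exp_mul_gaussianReal (-C)))

theorem gs_ok (hk : 0 < k) : (GS k I ν).OK := by
  have hk' : (0 : ℝ) < k := by exact_mod_cast hk
  refine ⟨inferInstanceAs (IsProbabilityMeasure (ν.prod (γ I))), fun j => ?_, fun j => ?_, ?_,
    fun s => ?_, fun j => ?_, fun j w => ?_, fun j s w => ?_, fun j C => ?_⟩
  · simp only [GS]
    split_ifs
    · exact measurable_fst.fst.prodMk
        (measurable_update'.comp (measurable_fst.snd.prodMk measurable_snd.snd))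
    · exact measurable_snd.fst.prodMk measurable_fst.snd
    · exact measurable_fst
  · exact lt_min one_pos (by positivity)
  · simp only [GS]
    fun_prop
  · simp only [GS]
    positivity
  · simp only [GS]
    fun_prop
  · simp only [GS]
    positivity
  · have h0 : 0 ≤ ∑ i, |w.2 i| := by positivity
    simp only [GS]
    split_ifs with h1 h2
    · have : ∀ j' ∈ range k, ∑ i, |Function.update s.2 j w.2 j' i| ≤
          ∑ i, |s.2 j' i| + if j' = j then ∑ i, |w.2 i| else 0 := by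
        intro j' _
        by_cases h : j' = j
        · subst h
          have : 0 ≤ ∑ i, |s.2 j' i| := by positivity
          simp only [Function.update_self, if_true]
          linarith
        · simp [h]
      refine (sum_le_sum this).trans ?_
      rw [sum_add_distrib, sum_ite_eq', if_pos (mem_range.2 h1)]
    · linarith
    · linarith
  · exact (gsb_int I C).comp_snd ν

omit [IsProbabilityMeasure ν] in
theorem gs_mono : (GS k I ν).Mono := by
  refine ⟨fun a b hab => ?_, fun j => min_le_left _ _⟩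
  refine min_le_min le_rfl (div_le_div_of_nonneg_right ?_ (Nat.cast_nonneg k))
  have : (a : ℝ) ≤ b := by exact_mod_cast hab
  linarith

omit [IsProbabilityMeasure ν] in
theorem gs_ow : (GS k I ν).Ow := by
  constructor
  · intro j s w w'
    simp only [GS]
    split_ifs <;> simp
  · intro j j' s w w' hne
    simp only [GS]
    split_ifs <;> first | rfl | omega | rw [Function.update_comm hne]

theorem lin_coord (hk : 0 < k) {j : ℕ} (hj : j < k) (i : I) :
    (GS k I ν).Lin fun s => s.2 j i := by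
  have _ := hk
  refine ⟨by fun_prop, 1, fun s => ?_⟩
  have h1 : |s.2 j i| ≤ ∑ i, |s.2 j i| :=
    single_le_sum (f := fun i => |s.2 j i|) (fun _ _ => abs_nonneg _) (mem_univ i)
  have h2 : ∑ i, |s.2 j i| ≤ ∑ j ∈ range k, ∑ i, |s.2 j i| :=
    single_le_sum (f := fun j => ∑ i, |s.2 j i|) (fun _ _ => by positivity) (mem_range.2 hj)
  simp only [GS]
  linarith


variable [Nonempty Cf]

theorem mm_prob (hk : 0 < k) (hH : (GS k I ν).Lin H) : IsProbabilityMeasure (mm k ν H) := by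
  exact Sys.m_prob (gs_ok hk) hH _ _ _

theorem pp_prob (hk : 0 < k) (hH : (GS k I ν).Lin H) (l : ℕ) :
    IsProbabilityMeasure (pp k ν H l) := by
  exact Sys.pr_prob (gs_ok hk) hH _ _ _ _

theorem integrable_mm (hk : 0 < k) (hH : (GS k I ν).Lin H) (hg : (GS k I ν).Ex g) :
    Integrable g (mm k ν H) := by
  exact hg.integrable_m (gs_ok hk) hH _ _ _

theorem integrable_pp (hk : 0 < k) (hH : (GS k I ν).Lin H) {G : St I Cf × St I Cf → ℝ}
    (hG : (GS k I ν).Ex2 G) (l : ℕ) : Integrable G (pp k ν H l) := by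
  exact hG.integrable_pr (gs_ok hk) hH _ _ _ _

theorem pp_map_fst (hk : 0 < k) (hH : (GS k I ν).Lin H) {l : ℕ} (hl : l ≤ k + 1) :
    (pp k ν H l).map Prod.fst = mm k ν H := by
  unfold pp mm
  rw [Sys.pr_map_fst (gs_ok hk) hH, Nat.add_sub_cancel' hl]

theorem pp_map_snd (hk : 0 < k) (hH : (GS k I ν).Lin H) {l : ℕ} (hl : l ≤ k + 1) :
    (pp k ν H l).map Prod.snd = mm k ν H := by
  unfold pp mm
  rw [Sys.pr_map_snd (gs_ok hk) hH, Nat.add_sub_cancel' hl]

theorem pp_map_swap (hk : 0 < k) (hH : (GS k I ν).Lin H) (l : ℕ) :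
    (pp k ν H l).map Prod.swap = pp k ν H l := by
  exact Sys.pr_map_swap (gs_ok hk) hH _ _ _ _

theorem pp_mono (hk : 0 < k) (hH : (GS k I ν).Lin H) (hg : (GS k I ν).Ex g) {l l' : ℕ}
    (hl : l ≤ l') (hl' : l' ≤ k + 1) :
    ∫ p, g p.1 * g p.2 ∂pp k ν H l ≤ ∫ p, g p.1 * g p.2 ∂pp k ν H l' := by
  induction l', hl using Nat.le_induction with
  | base => exact le_rfl
  | succ n _ ih =>
    refine (ih (by omega)).trans ?_
    unfold pp
    rw [show k + 1 - n = k + 1 - (n + 1) + 1 by omega]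
    exact Sys.pr_mono (gs_ok hk) hH hg _ _ _ _

theorem pp_nonneg (hk : 0 < k) (hH : (GS k I ν).Lin H) (hg : (GS k I ν).Ex g) (l : ℕ) :
    0 ≤ ∫ p, g p.1 * g p.2 ∂pp k ν H l := by
  exact Sys.pr_nonneg (gs_ok hk) hH hg _ _ _ _


omit [Nonempty Cf] in
theorem ex_PP (hk : 0 < k) (hH : (GS k I ν).Lin H) (hg : (GS k I ν).Ex g) (l : ℕ) :
    (GS k I ν).Ex (PP k ν H l g) := by
  exact Sys.ex_P (gs_ok hk) hH hg _ _

omit [Nonempty Cf] in
theorem ex_DD (hk : 0 < k) (hH : (GS k I ν).Lin H) (hg : (GS k I ν).Ex g)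
    (hh : (GS k I ν).Ex h) (l : ℕ) : (GS k I ν).Ex (DD k ν H l g h) := by
  exact Sys.ex_D (gs_ok hk) hH hg hh _ _

omit [Nonempty Cf] in
theorem inv_PP (hk : 0 < k) (hH : (GS k I ν).Lin H) (l : ℕ) :
    (GS k I ν).Inv (k + 1 - l) l (PP k ν H l g) := by
  exact Sys.inv_P (gs_ok hk) hH gs_ow _ _

omit [Nonempty Cf] in
theorem inv_DD (hk : 0 < k) (hH : (GS k I ν).Lin H) (hg : (GS k I ν).Ex g)
    (hh : (GS k I ν).Ex h) (l : ℕ) : (GS k I ν).Inv (k + 1 - l) l (DD k ν H l g h) := by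
  exact Sys.inv_D (gs_ok hk) hH gs_ow hg hh _ _

omit [Nonempty Cf] in
theorem abs_PP_le (hk : 0 < k) (hH : (GS k I ν).Lin H) {C : ℝ} (hC : ∀ s, |g s| ≤ C) (l : ℕ)
    (s : St I Cf) : |PP k ν H l g s| ≤ C := by
  have := Sys.m_prob (gs_ok hk) hH (k + 1 - l) l s
  have h1 := norm_integral_le_of_norm_le_const (μ := (GS k I ν).m (k + 1 - l) l H s) (f := g)
    (Eventually.of_forall hC)
  rw [probReal_univ, mul_one] at h1
  exact h1

omit [Nonempty Cf] in
theorem PP_PP (hk : 0 < k) (hH : (GS k I ν).Lin H) (hg : (GS k I ν).Ex g) {l l' : ℕ}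
    (hl : l ≤ l') (hl' : l' ≤ k + 1) : PP k ν H l (PP k ν H l' g) = PP k ν H l g := by
  obtain ⟨a, rfl⟩ := Nat.exists_eq_add_of_le hl
  funext s
  unfold PP
  rw [show k + 1 - l = a + (k + 1 - (l + a)) by omega,
    ← Sys.P_trunk (gs_ok hk) hH (Sys.ex_P (gs_ok hk) hH hg _ _)
      (Sys.inv_P (gs_ok hk) hH gs_ow _ _), Sys.P_add (gs_ok hk) hH hg]


theorem gsb_trunk (hk : 0 < k) (hH : (GS k I ν).Lin H) (hg : (GS k I ν).Ex g) {l : ℕ}
    (hl : l ≤ k + 1) (hi : (GS k I ν).Inv (k + 1 - l) l g) : ∫ s, g s ∂mm k ν H =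
      ∫ s, g s ∂(GS k I ν).m l 0 ((GS k I ν).X (k + 1 - l) l H) (s0 I Cf) := by
  have := Sys.P_trunk (gs_ok hk) hH hg (l := l) (n := k + 1 - l) (j := 0)
    (by rwa [Nat.zero_add]) (s0 I Cf)
  rw [Nat.zero_add, Nat.add_sub_cancel' hl] at this
  exact this.symm

theorem gsb_add (hk : 0 < k) (hH : (GS k I ν).Lin H) (hg : (GS k I ν).Ex g) {l : ℕ}
    (hl : l ≤ k + 1) : ∫ s, g s ∂mm k ν H =
      ∫ s, PP k ν H l g s ∂(GS k I ν).m l 0 ((GS k I ν).X (k + 1 - l) l H) (s0 I Cf) := by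
  have := Sys.P_add (gs_ok hk) hH hg l (k + 1 - l) 0 (s0 I Cf)
  rw [Nat.zero_add, Nat.add_sub_cancel' hl] at this
  exact this

theorem gsb_pp (hk : 0 < k) (hH : (GS k I ν).Lin H) (hg : (GS k I ν).Ex g)
    (hh : (GS k I ν).Ex h) (l : ℕ) : ∫ p, g p.1 * h p.2 ∂pp k ν H l =
      ∫ s, PP k ν H l g s * PP k ν H l h s
        ∂(GS k I ν).m l 0 ((GS k I ν).X (k + 1 - l) l H) (s0 I Cf) := by
  have := Sys.integral_pr_mul (gs_ok hk) hH hg hh l (k + 1 - l) 0 (s0 I Cf)
  rw [Nat.zero_add] at this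
  exact this

theorem gsb_sum (hk : 0 < k) {l : ℕ} (hl : l ≤ k) (F : ℕ → ℝ) :
    ∑ i ∈ range (k - l), (min 1 ((((l + i + 1 : ℕ) : ℝ) + 1) / k) -
      min 1 ((((l + i : ℕ) : ℝ) + 1) / k)) * F (l + (i + 1)) =
      (1 / (k : ℝ)) * ∑ l' ∈ Ioo l k, F l' := by
  have hk' : (0 : ℝ) < k := by exact_mod_cast hk
  have hm : ∀ a : ℕ, a + 1 ≤ k → min 1 (((a : ℝ) + 1) / k) = ((a : ℝ) + 1) / k := by
    intro a ha
    refine min_eq_right ?_
    rw [div_le_one hk']
    exact_mod_cast ha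
  rcases hl.eq_or_lt with rfl | hl
  · simp
  · obtain ⟨m, rfl⟩ := Nat.exists_eq_add_of_lt hl
    have e1 : Ioo l (l + m + 1) = Ico (l + 1) (l + m + 1) := by
      ext x
      simp only [mem_Ioo, mem_Ico]
      omega
    have e2 : min 1 ((((l + m + 1 : ℕ) : ℝ) + 1) / (l + m + 1 : ℕ)) = 1 := by
      refine min_eq_left ?_
      rw [one_le_div hk']
      linarith
    have e3 : (((l + m : ℕ) : ℝ) + 1) / (l + m + 1 : ℕ) = 1 := by
      rw [div_eq_one_iff_eq hk'.ne']
      push_cast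
      ring
    rw [show l + m + 1 - l = m + 1 by omega, sum_range_succ, e2, e3, min_self, sub_self, zero_mul,
      add_zero, e1, sum_Ico_eq_sum_range, show l + m + 1 - (l + 1) = m by omega, mul_sum]
    refine sum_congr rfl (fun i hi => ?_)
    have := mem_range.1 hi
    rw [hm _ (by omega), hm _ (by omega), show l + 1 + i = l + (i + 1) by omega]
    congr 1
    push_cast
    ring

/-- conditioning on the levels below `l` -/
theorem integral_mul_PP (hk : 0 < k) (hH : (GS k I ν).Lin H) (hg : (GS k I ν).Ex g)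
    (hh : (GS k I ν).Ex h) {l : ℕ} (hl : l ≤ k + 1) (hi : (GS k I ν).Inv (k + 1 - l) l g) :
    ∫ s, g s * h s ∂mm k ν H = ∫ s, g s * PP k ν H l h s ∂mm k ν H := by
  have hY : (GS k I ν).OK := gs_ok hk
  rw [gsb_add hk hH (hg.mul hY hh) hl, gsb_trunk hk hH (hg.mul hY (ex_PP hk hH hh l)) hl
    (fun i a b s w => by rw [hi i a b, inv_PP hk hH l i a b])]
  exact integral_congr_ae (Eventually.of_forall (fun s => Sys.P_pull hY hH hg.1 hi h s))

theorem integral_pp_mul (hk : 0 < k) (hH : (GS k I ν).Lin H) (hg : (GS k I ν).Ex g)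
    (hh : (GS k I ν).Ex h) {l : ℕ} (hl : l ≤ k + 1) :
    ∫ p, g p.1 * h p.2 ∂pp k ν H l = ∫ s, PP k ν H l g s * PP k ν H l h s ∂mm k ν H := by
  rw [gsb_pp hk hH hg hh, gsb_trunk hk hH
    ((ex_PP hk hH hg l).mul (gs_ok hk) (ex_PP hk hH hh l)) hl
    (fun i a b s w => by rw [inv_PP hk hH l i a b, inv_PP hk hH l i a b])]

theorem integral_DD (hk : 0 < k) (hH : (GS k I ν).Lin H) (hg : (GS k I ν).Ex g)
    (hh : (GS k I ν).Ex h) {l : ℕ} (hl : l ≤ k) :
    ∫ s, DD k ν H l g h s ∂mm k ν H = (∫ s, g s * h s ∂mm k ν H) -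
      min 1 (((l : ℝ) + 1) / k) * (∫ p, g p.1 * h p.2 ∂pp k ν H l) -
        (1 / (k : ℝ)) * ∑ l' ∈ Ioo l k, ∫ p, g p.1 * h p.2 ∂pp k ν H l' := by
  have hY : (GS k I ν).OK := gs_ok hk
  have hk' : (0 : ℝ) < k := by exact_mod_cast hk
  have hX := Sys.lin_X hY hH (k + 1 - l) l
  have e : k + 1 - l = k - l + 1 := by omega
  have hζ : (GS k I ν).ζ (l + (k - l)) = 1 := by
    rw [Nat.add_sub_cancel' hl]
    refine min_eq_left ?_
    rw [one_le_div hk']
    linarith
  have h1 : ∀ s, DD k ν H l g h s = PP k ν H l (fun s => g s * h s) s -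
      min 1 (((l : ℝ) + 1) / k) * (PP k ν H l g s * PP k ν H l h s) -
      ∑ i ∈ range (k - l), (min 1 ((((l + i + 1 : ℕ) : ℝ) + 1) / k) -
        min 1 ((((l + i : ℕ) : ℝ) + 1) / k)) *
          ∫ p, g p.1 * h p.2 ∂(GS k I ν).pr (i + 1) (k - l - i) l H s := by
    intro s
    have h2 := Sys.D_abel hY hH hg hh (k - l) l s
    rw [hζ, ← e] at h2
    unfold DD PP
    have h3 : (GS k I ν).ζ l = min 1 (((l : ℝ) + 1) / k) := rfl
    have h4 : ∀ i, (GS k I ν).ζ i = min 1 (((i : ℝ) + 1) / k) := fun _ => rfl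
    simp only [h4] at h2
    linarith
  have i1 := (ex_PP hk hH (hg.mul hY hh) l).integrable_m hY hX l 0 (s0 I Cf)
  have i2 := (((ex_PP hk hH hg l).mul hY (ex_PP hk hH hh l)).integrable_m hY hX l 0
    (s0 I Cf)).const_mul (min 1 (((l : ℝ) + 1) / k))
  have i3 := fun i : ℕ => ((Sys.ex_pr hY hH hg hh (i + 1) (k - l - i) l).integrable_m hY hX l 0
    (s0 I Cf)).const_mul (min 1 ((((l + i + 1 : ℕ) : ℝ) + 1) / k) -
      min 1 ((((l + i : ℕ) : ℝ) + 1) / k))
  rw [gsb_trunk hk hH (ex_DD hk hH hg hh l) (by omega) (inv_DD hk hH hg hh l)]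
  simp only [h1]
  rw [integral_sub (i1.sub' i2) (integrable_finsetSum _ (fun i _ => i3 i)), integral_sub i1 i2,
    integral_finsetSum _ (fun i _ => i3 i), integral_const_mul,
    ← gsb_add hk hH (hg.mul hY hh) (by omega), ← gsb_pp hk hH hg hh l,
    ← gsb_sum hk hl (fun l' => ∫ p, g p.1 * h p.2 ∂pp k ν H l')]
  congr 1
  refine sum_congr rfl (fun i hi => ?_)
  have := mem_range.1 hi
  rw [integral_const_mul, show k + 1 - l = i + 1 + (k - l - i) by omega,
    Sys.pr_trunk hY hH hg hh, show k - l - i = k + 1 - (l + (i + 1)) by omega]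
  rfl

theorem D_s0 (hk : 0 < k) (hH : (GS k I ν).Lin H) (hg : (GS k I ν).Ex g)
    (hh : (GS k I ν).Ex h) :
    DD k ν H 0 g h (s0 I Cf) = (∫ s, g s * h s ∂mm k ν H) -
      (1 / (k : ℝ)) * ∑ l ∈ range k, ∫ p, g p.1 * h p.2 ∂pp k ν H l := by
  have hk' : (0 : ℝ) < k := by exact_mod_cast hk
  have h1 := integral_DD hk hH hg hh (Nat.zero_le k)
  rw [gsb_trunk hk hH (ex_DD hk hH hg hh 0) (by omega) (inv_DD hk hH hg hh 0)] at h1
  have h2 := congrFun (Sys.P_zero (Y := GS k I ν) (H := (GS k I ν).X (k + 1 - 0) 0 H)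
    (ex_DD hk hH hg hh 0).1 0) (s0 I Cf)
  have h3 : range k = insert 0 (Ioo 0 k) := by
    ext x
    simp only [mem_range, mem_insert, mem_Ioo]
    omega
  have h4 : min 1 ((((0 : ℕ) : ℝ) + 1) / k) = 1 / k := by
    rw [Nat.cast_zero, zero_add]
    refine min_eq_right ?_
    rw [div_le_one hk']
    exact_mod_cast hk
  rw [h3, sum_insert (by simp), ← h2, mul_add, ← sub_sub, ← h4]
  rw [h4] at h1 ⊢
  exact h1


/-! pull backs -/

section Pull

variable {I' Cf' : Type} [Fintype I'] [MeasurableSpace Cf'] {ν' : Measure Cf'}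
  [IsProbabilityMeasure ν'] {φ : Cf' → Cf} {e : I → I'}

omit [Nonempty Cf] in
theorem measurePreserving_coord (he : Function.Injective e) :
    MeasurePreserving (fun (v : I' → ℝ) i => v (e i)) (γ I') (γ I) := by
  refine ⟨by fun_prop, ?_⟩
  have h1 : iIndepFun (fun (i : I') (v : I' → ℝ) => v i) (γ I') :=
    iIndepFun_pi (X := fun _ => id) (fun _ => aemeasurable_id)
  rw [(h1.precomp he).map_fun_eq_pi_map (fun i => (measurable_pi_apply _).aemeasurable)]
  congr 1
  funext i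
  exact (measurePreserving_eval (fun _ : I' => gaussianReal 0 1) (e i)).map_eq

omit [Nonempty Cf] [Fintype I] [Fintype I'] in
theorem measurable_pull (hφ : Measurable φ) : Measurable (pull φ e : St I' Cf' → St I Cf) := by
  unfold pull
  fun_prop

omit [Nonempty Cf] [IsProbabilityMeasure ν] [IsProbabilityMeasure ν'] in
theorem pull_comm (φ : Cf' → Cf) (e : I → I') (i : ℕ) (s : St I' Cf') (w : Cf' × (I' → ℝ)) :
    pull φ e ((GS k I' ν').a i s w) =
      (GS k I ν).a i (pull φ e s) (φ w.1, fun i => w.2 (e i)) := by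
  simp only [GS, pull]
  split_ifs
  · congr 1
    funext j' i'
    by_cases h : j' = i
    · subst h; simp
    · simp [Function.update_of_ne h]
  · rfl
  · rfl
omit [Nonempty Cf] in
theorem hom_pull (hφ : MeasurePreserving φ ν' ν) (he : Function.Injective e) (n j : ℕ) :
    Sys.Hom (GS k I' ν') (GS k I ν) (fun _ => pull φ e)
      (fun _ w => (φ w.1, fun i => w.2 (e i))) n j := by
  classical
  refine ⟨fun _ => measurable_pull hφ.measurable,
    fun _ _ _ => hφ.prod (measurePreserving_coord he), fun _ _ _ => rfl,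
    fun i _ _ s w => pull_comm φ e i s w, 1, fun _ _ _ s => ?_⟩
  have : ∑ j ∈ range k, ∑ i, |s.2 j (e i)| ≤ ∑ j ∈ range k, ∑ i, |s.2 j i| := by
    refine sum_le_sum (fun j _ => ?_)
    rw [← sum_image (s := univ) (g := e) (f := fun i => |s.2 j i|) (fun _ _ _ _ h => he h)]
    exact sum_le_sum_of_subset_of_nonneg (subset_univ _) (fun _ _ _ => abs_nonneg _)
  simp only [GS, pull]
  linarith

omit [Nonempty Cf] in
theorem lin_pull (hk : 0 < k) (hφ : MeasurePreserving φ ν' ν) (he : Function.Injective e)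
    (hH : (GS k I ν).Lin H) : (GS k I' ν').Lin fun s => H (pull φ e s) := by
  exact (hom_pull hφ he 0 0).lin (gs_ok hk) (gs_ok hk) le_rfl le_rfl hH

omit [Nonempty Cf] in
theorem ex_pull (hk : 0 < k) (hφ : MeasurePreserving φ ν' ν) (he : Function.Injective e)
    (hg : (GS k I ν).Ex g) : (GS k I' ν').Ex fun s => g (pull φ e s) := by
  exact (hom_pull hφ he 0 0).ex (gs_ok hk) le_rfl le_rfl hg


variable [Nonempty Cf']

omit [IsProbabilityMeasure ν] [Fintype I'] [MeasurableSpace Cf'] in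
theorem pull_s0 (φ : Cf' → Cf) (e : I → I') :
    pull φ e (s0 I' Cf') = (GS k I ν).a k (s0 I Cf) (φ (Classical.arbitrary Cf'), 0) := by
  simp only [GS, pull, s0, lt_irrefl, if_false, if_true]
  rfl

omit [IsProbabilityMeasure ν] [Fintype I'] [MeasurableSpace Cf'] in
theorem X_pull_s0 (φ : Cf' → Cf) (e : I → I') :
    (GS k I ν).X (k + 1) 0 H (pull φ e (s0 I' Cf')) = YY k ν H := by
  rw [pull_s0 (k := k) (ν := ν)]
  exact Sys.inv_X gs_ow (k + 1) 0 k (by omega) (by omega) _ _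

omit [Nonempty Cf] in
theorem pr_top (hk : 0 < k) (hH : (GS k I ν).Lin H) {l : ℕ} (hl : l ≤ k) (s : St I Cf)
    (w : Cf × (I → ℝ)) : (GS k I ν).pr l (k + 1 - l) 0 H ((GS k I ν).a k s w) =
      (GS k I ν).pr l (k + 1 - l) 0 H s := by
  have hY : (GS k I ν).OK := gs_ok hk
  have mφ : Measurable (fun s => (GS k I ν).a k s w) :=
    (hY.meas_a k).comp (measurable_id.prodMk measurable_const)
  have hh : Sys.Hom (GS k I ν) (GS k I ν) (fun _ s => (GS k I ν).a k s w) (fun _ => id) l 0 := by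
    refine ⟨fun _ => mφ, fun _ _ _ => MeasurePreserving.id _, fun _ _ _ => rfl,
      fun i _ hi s w' => gs_ow.2 k i s w w' (by omega), 1, fun _ _ _ s => ?_⟩
    simp only [GS, lt_irrefl, if_false, if_true]
    linarith
  have hX := Sys.lin_X hY hH (k + 1 - l) (0 + l)
  have h1 := hh.m_map hY hY hX s
  have h2 : ∀ s, (GS k I ν).X (k + 1 - l) (0 + l) H ((GS k I ν).a k s w) =
      (GS k I ν).X (k + 1 - l) (0 + l) H s := fun s =>
    Sys.inv_X gs_ow _ _ k (by omega) (by omega) s w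
  simp only [h2] at h1
  unfold Sys.pr
  rw [← h1, ← Sys.mo_map_bind (Sys.measurable_mm hY hH _ _) (Sys.measurable_mm hY hH _ _) mφ
    measurable_id (fun a => ?_), Measure.map_id]
  rw [Measure.map_id, Sys.inv_m hY hH gs_ow _ _ k (by omega) (by omega) a w]

theorem YY_pull (hk : 0 < k) (hφ : MeasurePreserving φ ν' ν) (he : Function.Injective e)
    (hH : (GS k I ν).Lin H) : YY k ν' (fun s => H (pull φ e s)) = YY k ν H := by
  rw [← X_pull_s0 φ e]
  exact (hom_pull hφ he (k + 1) 0).X_eq (gs_ok hk) hH _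

theorem mm_pull (hk : 0 < k) (hφ : MeasurePreserving φ ν' ν) (he : Function.Injective e)
    (hH : (GS k I ν).Lin H) :
    (mm k ν' fun s => H (pull φ e s)).map (pull φ e) = mm k ν H := by
  refine ((hom_pull hφ he (k + 1) 0).m_map (gs_ok hk) (gs_ok hk) hH (s0 I' Cf')).trans ?_
  rw [pull_s0 (k := k) (ν := ν)]
  exact Sys.inv_m (gs_ok hk) hH gs_ow (k + 1) 0 k (by omega) (by omega) _ _

theorem pp_pull (hk : 0 < k) (hφ : MeasurePreserving φ ν' ν) (he : Function.Injective e)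
    (hH : (GS k I ν).Lin H) {l : ℕ} (hl : l ≤ k) :
    (pp k ν' (fun s => H (pull φ e s)) l).map (Prod.map (pull φ e) (pull φ e)) = pp k ν H l := by
  refine ((hom_pull hφ he (l + (k + 1 - l)) 0).pr_map (gs_ok hk) (gs_ok hk) hH
    (s0 I' Cf')).trans ?_
  rw [pull_s0 (k := k) (ν := ν)]
  exact pr_top hk hH hl _ _


theorem gsb_curry (β I : Type) [Fintype β] [Fintype I] : MeasurePreserving
    (fun (v : β × I → ℝ) b i => v (b, i)) (γ (β × I)) (Measure.pi fun _ => γ I) := by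
  refine ⟨by fun_prop, ?_⟩
  have := Measure.infinitePi_map_curry (fun (_ : β) (_ : I) => gaussianReal 0 1)
  simp only [Measure.infinitePi_eq_pi] at this
  exact this

theorem gsb_shuffle {A B C D : Type*} [MeasurableSpace A] [MeasurableSpace B] [MeasurableSpace C]
    [MeasurableSpace D] (a : Measure A) (b : Measure B) (c : Measure C) (d : Measure D)
    [SFinite a] [SFinite b] [SFinite c] [SFinite d] :
    MeasurePreserving (fun z : (A × B) × C × D => ((z.1.1, z.2.1), (z.1.2, z.2.2)))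
      ((a.prod b).prod (c.prod d)) ((a.prod c).prod (b.prod d)) := by
  have h1 := measurePreserving_prodAssoc a b (c.prod d)
  have h2 := (measurePreserving_prodAssoc b c d).symm
  have h3 := (Measure.measurePreserving_swap (μ := b) (ν := c)).prod (MeasurePreserving.id d)
  have h4 := measurePreserving_prodAssoc c b d
  have h5 := (measurePreserving_prodAssoc a c (b.prod d)).symm
  exact h5.comp (((MeasurePreserving.id a).prod (h4.comp (h3.comp h2))).comp h1)

theorem YY_sum (hk : 0 < k) {β : Type} [Fintype β] {φ : β → Cf' → Cf} {e : β → I → I'}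
    (hφ : MeasurePreserving (fun σ b => φ b σ) ν' (Measure.pi fun _ => ν))
    (he : Function.Injective fun p : β × I => e p.1 p.2) {H : β → St I Cf → ℝ}
    (hH : ∀ b, (GS k I ν).Lin (H b)) :
    YY k ν' (fun s => ∑ b, H b (pull (φ b) (e b) s)) = ∑ b, YY k ν (H b) := by
  have h1 := (measurePreserving_arrowProdEquivProdArrow Cf (I → ℝ) β (fun _ => ν)
    (fun _ => γ I)).symm.comp
    (hφ.prod ((gsb_curry β I).comp (measurePreserving_coord he)))
  have h2 := Sys.X_sum (Y := GS k I' ν') (Yb := fun _ : β => GS k I ν) (fun _ => gs_ok hk)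
    (gs_ok hk) (fun b => pull (φ b) (e b)) (fun b w => (φ b w.1, fun i => w.2 (e b i))) h1
    (fun _ _ => rfl) (fun b i s w => pull_comm (φ b) (e b) i s w) hH (k + 1) 0 (s0 I' Cf')
  simp only [X_pull_s0] at h2
  exact h2


theorem YY_add2 (hk : 0 < k) {I2 Cf2 : Type} [Fintype I2] [MeasurableSpace Cf2] [Nonempty Cf2]
    {ν2 : Measure Cf2} [IsProbabilityMeasure ν2] {φ2 : Cf' → Cf2} {e2 : I2 → I'}
    (hφ : MeasurePreserving (fun σ => (φ σ, φ2 σ)) ν' (ν.prod ν2))
    (he : Function.Injective (Sum.elim e e2)) {H2 : St I2 Cf2 → ℝ}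
    (hH : (GS k I ν).Lin H) (hH2 : (GS k I2 ν2).Lin H2) :
    YY k ν' (fun s => H (pull φ e s) + H2 (pull φ2 e2 s)) = YY k ν H + YY k ν2 H2 := by
  have h0 := (measurePreserving_sumPiEquivProdPi
    (fun _ : I ⊕ I2 => gaussianReal 0 1)).comp (measurePreserving_coord he)
  have h1 := (gsb_shuffle ν ν2 (γ I) (γ I2)).comp (hφ.prod h0)
  have h2 := Sys.X_add2 (Y := GS k I' ν') (Y1 := GS k I ν) (Y2 := GS k I2 ν2) (gs_ok hk)
    (gs_ok hk) (gs_ok hk) (pull φ e) (pull φ2 e2) (fun w => (φ w.1, fun i => w.2 (e i)))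
    (fun w => (φ2 w.1, fun i => w.2 (e2 i))) h1 (fun _ => rfl) (fun _ => rfl)
    (pull_comm φ e) (pull_comm φ2 e2) hH hH2 (k + 1) 0 (s0 I' Cf')
  simp only [X_pull_s0] at h2
  exact h2


end Pull

end Vale.Agent.P157
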