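import Vale.Agent.P157.GSB
import Vale.Agent.P157.Deriv

namespace Vale.Agent.P157

open MeasureTheory ProbabilityTheory Real Finset Filter Topology
open scoped ENNReal

variable {I Cf : Type} [Fintype I] [DecidableEq I] {j : ℕ} {i : I}
  {H H' g g' h h' : St I Cf → ℝ}

omit [Fintype I] in
theorem ibp_sh_zero (s : St I Cf) : sh j i 0 s = s := by simp [sh]
omit [Fintype I] in
theorem ibp_sh_sh (t t' : ℝ) (s : St I Cf) : sh j i t (sh j i t' s) = sh j i (t' + t) s := by
  refine Prod.ext rfl (funext fun j' => funext fun i' => ?_)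
  simp only [sh]
  split_ifs <;> ring

omit [Fintype I] in
theorem DirD.const (c : ℝ) : DirD j i (fun _ : St I Cf => c) fun _ => 0 :=
  fun _ => hasDerivAt_const _ _
omit [Fintype I] in
theorem DirD.config (u : Cf → ℝ) : DirD j i (fun s : St I Cf => u s.1) fun _ => 0 :=
  fun s => hasDerivAt_const (0 : ℝ) (u s.1)
omit [Fintype I] in
theorem DirD.coord (j' : ℕ) (i' : I) :
    DirD j i (fun s : St I Cf => s.2 j' i') fun _ => if j' = j ∧ i' = i then 1 else 0 := by
  intro s
  simp only [sh]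
  split_ifs
  · exact (hasDerivAt_id' (0 : ℝ)).const_add _
  · exact hasDerivAt_const _ _
omit [Fintype I] in
theorem DirD.congr (hg : DirD j i g g') (e : ∀ s, h s = g s) (e' : ∀ s, h' s = g' s) :
    DirD j i h h' := by
  rw [show h = g from funext e, show h' = g' from funext e']
  exact hg
omit [Fintype I] in
theorem DirD.add (hg : DirD j i g g') (hh : DirD j i h h') :
    DirD j i (fun s => g s + h s) fun s => g' s + h' s :=
  fun s => (hg s).add (hh s)
omit [Fintype I] in
theorem DirD.sub (hg : DirD j i g g') (hh : DirD j i h h') :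
    DirD j i (fun s => g s - h s) fun s => g' s - h' s :=
  fun s => (hg s).sub (hh s)
omit [Fintype I] in
theorem DirD.mul (hg : DirD j i g g') (hh : DirD j i h h') :
    DirD j i (fun s => g s * h s) fun s => g' s * h s + g s * h' s :=
  fun s => ((hg s).mul (hh s)).congr_deriv (by simp only [ibp_sh_zero])
omit [Fintype I] in
theorem DirD.const_mul (hg : DirD j i g g') (c : ℝ) :
    DirD j i (fun s => c * g s) fun s => c * g' s :=
  fun s => (hg s).const_mul c
omit [Fintype I] in
theorem DirD.sum {α : Type*} (A : Finset α) {g g' : α → St I Cf → ℝ}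
    (hg : ∀ a ∈ A, DirD j i (g a) (g' a)) :
    DirD j i (fun s => ∑ a ∈ A, g a s) fun s => ∑ a ∈ A, g' a s :=
  fun s => HasDerivAt.fun_sum fun a ha => hg a ha s
omit [Fintype I] in
theorem DirD.comp (hg : DirD j i g g') {F F1 : ℝ → ℝ} (hF : ∀ u, HasDerivAt F (F1 u) u) :
    DirD j i (fun s => F (g s)) fun s => F1 (g s) * g' s :=
  fun s => ((hF _).comp 0 (hg s)).congr_deriv (by simp only [ibp_sh_zero])

theorem ibp_one {f f' : ℝ → ℝ} (hd : ∀ x, HasDerivAt f (f' x) x)
    (i1 : Integrable f (gaussianReal 0 1)) (i2 : Integrable f' (gaussianReal 0 1))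
    (i3 : Integrable (fun x => x * f x) (gaussianReal 0 1)) :
    ∫ x, x * f x ∂gaussianReal 0 1 = ∫ x, f' x ∂gaussianReal 0 1 := by
  have key : ∀ u : ℝ → ℝ, Integrable u (gaussianReal 0 1) →
      Integrable (fun x => u x * gaussianPDFReal 0 1 x) := fun u hu => by
    rw [gaussianReal_of_var_ne_zero _ one_ne_zero, integrable_withDensity_iff
      (measurable_gaussianPDF _ _) (ae_of_all _ fun _ => gaussianPDF_lt_top)] at hu
    simpa only [toReal_gaussianPDF] using hu
  have dp : ∀ x, HasDerivAt (gaussianPDFReal 0 1) (-(x * gaussianPDFReal 0 1 x)) x := fun x => by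
    have h1 := ((((hasDerivAt_id' x).sub_const 0).pow 2).neg.div_const
      (2 * ((1 : NNReal) : ℝ))).exp.const_mul (√(2 * π * ((1 : NNReal) : ℝ)))⁻¹
    refine h1.congr_deriv ?_
    simp only [gaussianPDFReal, NNReal.coe_one, Pi.neg_apply, Pi.pow_apply]
    norm_num
    ring
  have h := integral_mul_deriv_eq_deriv_mul_of_integrable (u := f) (u' := f')
    (v := gaussianPDFReal 0 1) (v' := fun x => -(x * gaussianPDFReal 0 1 x))
    (fun x _ => hd x) (fun x _ => dp x)
    ((key _ i3).neg.congr (ae_of_all _ fun x => by simp only [Pi.neg_apply, Pi.mul_apply]; ring))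
    (key _ i2) (key _ i1)
  rw [integral_gaussianReal_eq_integral_smul one_ne_zero,
    integral_gaussianReal_eq_integral_smul one_ne_zero]
  simp only [smul_eq_mul, mul_comm (gaussianPDFReal 0 1 _)]
  rw [← neg_inj, ← h, ← integral_neg]
  exact integral_congr_ae (ae_of_all _ fun x => by simp only; ring)

theorem ibp_resample (i : I) : MeasurePreserving
    (fun p : (I → ℝ) × ℝ => Function.update p.1 i p.2) ((γ I).prod (gaussianReal 0 1)) (γ I) := by
  refine ⟨measurable_update', (Measure.pi_eq fun s hs => ?_).symm⟩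
  rw [Measure.map_apply measurable_update' (MeasurableSet.univ_pi hs)]
  have e : (fun p : (I → ℝ) × ℝ => Function.update p.1 i p.2) ⁻¹' Set.univ.pi s =
      (Set.univ.pi (Function.update s i Set.univ)) ×ˢ s i := by
    ext p
    simp only [Set.mem_preimage, Set.mem_pi, Set.mem_univ, forall_const, Set.mem_prod]
    rw [Function.forall_update_iff p.1 (fun i' x => x ∈ s i'),
      Function.forall_update_iff s (fun i' A => p.1 i' ∈ A)]
    simp [and_comm]
  rw [e, Measure.prod_prod, Measure.pi_pi, ← mul_prod_erase _ _ (mem_univ i),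
    ← mul_prod_erase _ _ (mem_univ i), Function.update_self, measure_univ, one_mul, mul_comm]
  congr 1
  exact prod_congr rfl fun i' hi => by rw [Function.update_of_ne (ne_of_mem_erase hi)]

omit [DecidableEq I] in
theorem ibp_int_exp {α : Type*} [MeasurableSpace α] (μ : Measure α) [IsProbabilityMeasure μ]
    (C : ℝ) : Integrable (fun w : α × (I → ℝ) => exp (C * ∑ i, |w.2 i|)) (μ.prod (γ I)) := by
  have h1 : Integrable (fun x : ℝ => exp (C * |x|)) (gaussianReal 0 1) := by
    refine (integrable_exp_abs_mul_abs (X := fun x : ℝ => x)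
      (integrable_exp_mul_gaussianReal (μ := 0) (v := 1) C)
      (integrable_exp_mul_gaussianReal (μ := 0) (v := 1) (-C))).mono' (by fun_prop)
      (ae_of_all _ fun x => ?_)
    rw [Real.norm_eq_abs, abs_exp]
    exact exp_le_exp.2 (mul_le_mul_of_nonneg_right (le_abs_self C) (abs_nonneg x))
  have h2 : Integrable (fun v : I → ℝ => exp (C * ∑ i, |v i|)) (γ I) := by
    simpa only [mul_sum, exp_sum] using
      Integrable.fintype_prod (f := fun (_ : I) (x : ℝ) => exp (C * |x|)) fun _ => h1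
  exact h2.comp_snd μ

/-- Gaussian integration by parts in one coordinate -/
theorem gauss_ibp {α : Type*} [MeasurableSpace α] (μ : Measure α) [IsProbabilityMeasure μ]
    {F F' : α × (I → ℝ) → ℝ} (hF : Measurable F) (hF' : Measurable F') (i : I)
    (hd : ∀ a v, HasDerivAt (fun t => F (a, v + Pi.single i t)) (F' (a, v)) 0) {C : ℝ}
    (hb : ∀ w, |F w| ≤ C * exp (C * ∑ i, |w.2 i|)) (hb' : ∀ w, |F' w| ≤ C * exp (C * ∑ i, |w.2 i|)) :
    ∫ w, w.2 i * F w ∂μ.prod (γ I) = ∫ w, F' w ∂μ.prod (γ I) := by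
  have mp : MeasurePreserving
      (fun p : (α × (I → ℝ)) × ℝ => (p.1.1, Function.update p.1.2 i p.2))
      ((μ.prod (γ I)).prod (gaussianReal 0 1)) (μ.prod (γ I)) :=
    ((MeasurePreserving.id μ).prod (ibp_resample i)).comp (measurePreserving_prodAssoc _ _ _)
  have mG : Measurable fun w : α × (I → ℝ) => w.2 i * F w := by fun_prop
  have i1 : Integrable F (μ.prod (γ I)) :=
    ((ibp_int_exp μ C).const_mul C).mono' hF.aestronglyMeasurable (ae_of_all _ hb)
  have i2 : Integrable F' (μ.prod (γ I)) :=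
    ((ibp_int_exp μ C).const_mul C).mono' hF'.aestronglyMeasurable (ae_of_all _ hb')
  have i3 : Integrable (fun w : α × (I → ℝ) => w.2 i * F w) (μ.prod (γ I)) := by
    refine ((ibp_int_exp μ (1 + C)).const_mul C).mono' mG.aestronglyMeasurable
      (ae_of_all _ fun w => ?_)
    have h1 : |w.2 i| ≤ exp (∑ i, |w.2 i|) :=
      (single_le_sum (f := fun i => |w.2 i|) (fun _ _ => abs_nonneg _) (mem_univ i)).trans
        (by linarith [add_one_le_exp (∑ i, |w.2 i|)])
    rw [Real.norm_eq_abs, abs_mul, add_mul, one_mul, exp_add, mul_left_comm]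
    exact mul_le_mul h1 (hb w) (abs_nonneg _) (exp_pos _).le
  have j1 := (mp.integrable_comp i1.1).2 i1
  have j2 := (mp.integrable_comp i2.1).2 i2
  have j3 := (mp.integrable_comp i3.1).2 i3
  rw [← mp.map_eq, integral_map mp.measurable.aemeasurable mG.aestronglyMeasurable,
    integral_map mp.measurable.aemeasurable hF'.aestronglyMeasurable]
  refine (integral_prod _ j3).trans ((integral_congr_ae ?_).trans (integral_prod _ j2).symm)
  filter_upwards [j1.prod_right_ae, j2.prod_right_ae, j3.prod_right_ae] with w h1 h2 h3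
  simp only [Function.comp_apply, Function.update_self] at h1 h2 h3 ⊢
  refine ibp_one (f := fun x => F (w.1, Function.update w.2 i x)) (fun x => ?_) h1 h2 h3
  have h4 := hd w.1 (Function.update w.2 i x)
  rw [← sub_self x] at h4
  refine h4.comp_sub_const.congr_of_eventuallyEq (Eventually.of_forall fun y => ?_)
  simp only
  congr 2
  funext i'
  by_cases h : i' = i
  · subst h; simp
  · simp [h]

variable [MeasurableSpace Cf] {k : ℕ} {ν : Measure Cf} [IsProbabilityMeasure ν]

omit [Fintype I] in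
theorem ibp_meas_sh (t : ℝ) : Measurable (sh j i t : St I Cf → St I Cf) := by
  unfold sh; fun_prop

omit [IsProbabilityMeasure ν] in
theorem ibp_ν_sh (hj : j < k) (t : ℝ) (s : St I Cf) :
    (GS k I ν).ν (sh j i t s) ≤ (GS k I ν).ν s + |t| := by
  have h1 : |t| = ∑ j' ∈ range k, ∑ i', |if j' = j ∧ i' = i then t else 0| := by
    rw [sum_eq_single j, sum_eq_single i]
    · simp
    · intro b _ hb; simp [hb]
    · simp
    · intro b _ hb; simp [hb]
    · intro h; exact absurd (mem_range.2 hj) h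
  simp only [GS, sh]
  rw [h1, ← sum_add_distrib]
  refine sum_le_sum fun j' _ => ?_
  rw [← sum_add_distrib]
  exact sum_le_sum fun i' _ => abs_add_le _ _

omit [IsProbabilityMeasure ν] in
theorem ibp_hom (hk : 0 < k) (hj : j < k) (t : ℝ) {l : ℕ} (hl : j < l) (n : ℕ) :
    Sys.Hom (GS k I ν) (GS k I ν) (fun _ => sh j i t) (fun _ => id) n l where
  mφ _ := ibp_meas_sh t
  mp _ _ _ := MeasurePreserving.id _
  ζ_eq _ _ _ := rfl
  comm m h1 _ s w := by
    simp only [GS, id]
    split_ifs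
    · refine Prod.ext rfl (funext fun j' => funext fun i' => ?_)
      by_cases h : j' = m
      · subst h
        simp [sh, (show j' ≠ j by omega)]
      · simp [sh, h]
    · rfl
    · rfl
  gauge := ⟨1 + |t|, fun _ _ _ s => (ibp_ν_sh hj t s).trans (by
    have : 0 ≤ (GS k I ν).ν s := by simp only [GS]; positivity
    nlinarith [abs_nonneg t, mul_nonneg (abs_nonneg t) this])⟩

theorem ibp_fam (hk : 0 < k) (hj : j < k) (hg : (GS k I ν).Ex g) (hg' : (GS k I ν).Ex g')
    (dg : DirD j i g g') : (GS k I ν).Fam (Set.Ioo (-1) 1) (fun t s => g (sh j i t s))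
      fun t s => g' (sh j i t s) := by
  have hY := gs_ok (I := I) (ν := ν) hk
  have ub : ∀ g : St I Cf → ℝ, (GS k I ν).Ex g →
      (GS k I ν).UB (Set.Ioo (-1) 1) fun t s => g (sh j i t s) := fun g hg => by
    obtain ⟨C, h0, hC⟩ := hg.bd hY
    refine ⟨C * exp C + C, by positivity, fun t ht s => (hC _).trans ?_⟩
    have h1 := ibp_ν_sh (ν := ν) (i := i) hj t s
    have h2 : |t| ≤ 1 := abs_le.2 ⟨ht.1.le, ht.2.le⟩
    have h3 := hY.ν_nonneg s
    have h4 : exp (C * (GS k I ν).ν (sh j i t s)) ≤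
        exp C * exp ((C * exp C + C) * (GS k I ν).ν s) := by
      rw [← exp_add]
      refine exp_le_exp.2 ?_
      have : 0 ≤ C * exp C * (GS k I ν).ν s := by positivity
      nlinarith
    have h5 : 0 ≤ C * exp ((C * exp C + C) * (GS k I ν).ν s) := by positivity
    nlinarith [mul_le_mul_of_nonneg_left h4 h0]
  refine Sys.Fam.mk' hY (fun t _ => hg.1.comp (ibp_meas_sh t))
    (fun t _ => hg'.1.comp (ibp_meas_sh t)) (fun t _ s => ?_) (ub g hg) (ub g' hg')
  have h4 := dg (sh j i t s)
  rw [← sub_self t] at h4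
  refine h4.comp_sub_const.congr_of_eventuallyEq (Eventually.of_forall fun y => ?_)
  simp only [ibp_sh_sh, add_sub_cancel]

theorem ibp_lfam (hk : 0 < k) (hj : j < k) (hH : (GS k I ν).Lin H) (hH' : (GS k I ν).Ex H')
    (dH : DirD j i H H') : (GS k I ν).LFam (Set.Ioo (-1) 1) (fun t s => H (sh j i t s))
      fun t s => H' (sh j i t s) := by
  have hY := gs_ok (I := I) (ν := ν) hk
  obtain ⟨C, h0, hC⟩ := hH.bd hY
  refine ⟨ibp_fam hk hj (hH.ex hY) hH' dH, 2 * C, fun t ht s => (hC _).trans ?_⟩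
  have h1 := ibp_ν_sh (ν := ν) (i := i) hj t s
  have h2 : |t| ≤ 1 := abs_le.2 ⟨ht.1.le, ht.2.le⟩
  nlinarith [hY.ν_nonneg s, mul_nonneg h0 (hY.ν_nonneg s)]

theorem dirD_X (hk : 0 < k) (hj : j < k) (hH : (GS k I ν).Lin H) (hH' : (GS k I ν).Ex H')
    (dH : DirD j i H H') {l : ℕ} (hl : j < l) (hl' : l ≤ k + 1) :
    DirD j i ((GS k I ν).X (k + 1 - l) l H) (PP k ν H l H') := by
  intro s
  have hY := gs_ok (I := I) (ν := ν) hk
  have h := (Sys.X_fam hY isOpen_Ioo (ibp_lfam hk hj hH hH' dH) (k + 1 - l) l).der 0 (by simp) s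
  simp only [ibp_sh_zero] at h
  exact h.congr_of_eventuallyEq (Eventually.of_forall fun t =>
    ((ibp_hom hk hj t hl (k + 1 - l)).X_eq hY hH s).symm)

theorem dirD_PP (hk : 0 < k) (hj : j < k) (hH : (GS k I ν).Lin H) (hH' : (GS k I ν).Ex H')
    (dH : DirD j i H H') (hg : (GS k I ν).Ex g) (hg' : (GS k I ν).Ex g') (dg : DirD j i g g')
    {l : ℕ} (hl : j < l) (hl' : l ≤ k + 1) :
    DirD j i (PP k ν H l g) fun s => PP k ν H l g' s + DD k ν H l g H' s := by
  intro s
  have hY := gs_ok (I := I) (ν := ν) hk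
  have h := (Sys.P_fam hY isOpen_Ioo (ibp_lfam hk hj hH hH' dH) (ibp_fam hk hj hg hg' dg)
    (k + 1 - l) l).der 0 (by simp) s
  simp only [ibp_sh_zero] at h
  exact h.congr_of_eventuallyEq (Eventually.of_forall fun t =>
    ((ibp_hom hk hj t hl (k + 1 - l)).P_eq hY hY hH hg.1 s).symm)

omit [IsProbabilityMeasure ν] in
theorem ibp_a_sh (hj : j < k) (s : St I Cf) (σ : Cf) (v : I → ℝ) (t : ℝ) :
    (GS k I ν).a j s (σ, v + Pi.single i t) = sh j i t ((GS k I ν).a j s (σ, v)) := by
  simp only [GS, if_pos hj, sh]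
  refine Prod.ext rfl (funext fun j' => funext fun i' => ?_)
  by_cases h : j' = j
  · subst h
    simp [Pi.single_apply]
  · simp [h]

theorem dirD_of_inv (hj : j < k) {l : ℕ} (hl : l ≤ j) (hg : (GS k I ν).Inv (k + 1 - l) l g) :
    DirD j i g fun _ => 0 := by
  intro s
  have e : ∀ t, g (sh j i t s) = g s := fun t => by
    have h1 : (GS k I ν).a j s (s.1, s.2 j) = s := by simp [GS, hj]
    rw [← h1, ← ibp_a_sh hj, hg j hl (by omega), h1]
  simp only [e]
  exact hasDerivAt_const _ _

theorem ibp_step (hk : 0 < k) (hj : j < k) (hH : (GS k I ν).Lin H) (hH' : (GS k I ν).Ex H')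
    (dH : DirD j i H H') (hg : (GS k I ν).Ex g) (hg' : (GS k I ν).Ex g') (dg : DirD j i g g')
    (s : St I Cf) : (GS k I ν).P (k - j + 1) j H (fun s => s.2 j i * g s) s =
      (GS k I ν).P (k - j + 1) j H (fun s => (GS k I ν).ζ j *
        (PP k ν H (j + 1) g s * PP k ν H (j + 1) H' s) +
          (PP k ν H (j + 1) g' s + DD k ν H (j + 1) g H' s)) s := by
  have hY := gs_ok (I := I) (ν := ν) hk
  have e0 : k + 1 - (j + 1) = k - j := by omega
  have hv := (lin_coord (ν := ν) hk hj i).ex hY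
  have x1 := ex_PP hk hH hg (j + 1)
  have x2 := ((x1.mul hY (ex_PP hk hH hH' (j + 1))).const_mul hY ((GS k I ν).ζ j)).add hY
    ((ex_PP hk hH hg' (j + 1)).add hY (ex_DD hk hH hg hH' (j + 1)))
  have hX := Sys.lin_X hY hH (k - j) (j + 1)
  have i1 : (GS k I ν).Inv (k - j) (j + 1) fun s => s.2 j i := fun m h1 _ s w => by
    simp only [GS]
    split_ifs
    · simp only [Function.update_of_ne (show j ≠ m by omega)]
    · rfl
    · rfl
  have i2 : (GS k I ν).Inv (k - j) (j + 1) fun s => (GS k I ν).ζ j *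
      (PP k ν H (j + 1) g s * PP k ν H (j + 1) H' s) +
        (PP k ν H (j + 1) g' s + DD k ν H (j + 1) g H' s) := fun m h1 h2 s w => by
    rw [← e0] at h2
    simp only [inv_PP hk hH (j + 1) m h1 h2, inv_DD hk hH hg hH' (j + 1) m h1 h2]
  have p2 := fun s => Sys.P_pull hY hH x2.1 i2 (fun _ => 1) s
  have p3 : ∀ s, (GS k I ν).P (k - j) (j + 1) H (fun _ => 1) s = 1 := fun s => by
    have := Sys.m_prob hY hH (k - j) (j + 1) s
    simp [Sys.P]
  simp only [mul_one, p3] at p2
  rw [Sys.P_succ hY hH (hv.mul hY hg), Sys.P_succ hY hH x2]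
  simp only [Sys.P_pull hY hH hv.1 i1, p2]
  rw [Sys.integral_stepM hY hX j s (hv.mul hY (Sys.ex_P hY hH hg _ _)).1,
    Sys.integral_stepM hY hX j s x2.1]
  set c := (GS k I ν).T j ((GS k I ν).X (k - j) (j + 1) H) s
  have x0 := ((hX.sub (Sys.Lin.const hY c)).const_mul ((GS k I ν).ζ j)).ex_exp hY
  have dX := dirD_X hk hj hH hH' dH (Nat.lt_succ_self j) (by omega)
  rw [e0] at dX
  have dE := (((dX.sub (DirD.const c)).const_mul ((GS k I ν).ζ j)).comp hasDerivAt_exp).mul
    (dirD_PP hk hj hH hH' dH hg hg' dg (Nat.lt_succ_self j) (by omega))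
  obtain ⟨C1, h1, hC1⟩ := (x0.mul hY x1).bd hY
  obtain ⟨C2, h2, hC2⟩ := (x0.mul hY x2).bd hY
  have bd : ∀ C, 0 ≤ C → C ≤ C1 + C2 → ∀ w : Cf × (I → ℝ),
      C * exp (C * (GS k I ν).ν ((GS k I ν).a j s w)) ≤
        (C1 + C2) * exp ((C1 + C2) * (GS k I ν).ν s) * exp ((C1 + C2) *
          exp ((C1 + C2) * (GS k I ν).ν s) * ∑ i, |w.2 i|) := fun C h3 h4 w => by
    have a1 := hY.ν_a j s w
    have a2 := hY.ν_nonneg s
    have a3 : 0 ≤ ∑ i, |w.2 i| := sum_nonneg fun _ _ => abs_nonneg _
    have a4 : 1 ≤ exp ((C1 + C2) * (GS k I ν).ν s) := one_le_exp (by positivity)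
    rw [mul_assoc, ← exp_add]
    refine mul_le_mul h4 (exp_le_exp.2 ?_) (exp_pos _).le (by positivity)
    have a5 : (GS k I ν).n j w = ∑ i, |w.2 i| := rfl
    rw [a5] at a1
    have a6 := mul_le_mul_of_nonneg_left a4 (mul_nonneg (add_nonneg h1 h2) a3)
    nlinarith [mul_le_mul_of_nonneg_left a1 h3, mul_le_mul_of_nonneg_right h4 a2,
      mul_le_mul_of_nonneg_right h4 a3]
  have key := gauss_ibp ν ((x0.mul hY x1).1.comp (hY.meas_as j s))
    ((x0.mul hY x2).1.comp (hY.meas_as j s)) i (fun σ v => by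
      simp only [Function.comp_apply, ibp_a_sh hj]
      exact (dE _).congr_deriv (by ring))
    (fun w => (hC1 _).trans (bd C1 h1 (by linarith) w))
    (fun w => (hC2 _).trans (bd C2 h2 (by linarith) w))
  refine Eq.trans (integral_congr_ae (ae_of_all _ fun w => ?_)) key
  simp only [Function.comp_apply, PP, e0]
  rw [show ((GS k I ν).a j s w).2 j i = w.2 i by simp [GS, hj]]
  ring

variable [Nonempty Cf]

theorem ibp (hk : 0 < k) (hj : j < k) (hH : (GS k I ν).Lin H) (hH' : (GS k I ν).Ex H')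
    (dH : DirD j i H H') (hg : (GS k I ν).Ex g) (hg' : (GS k I ν).Ex g') (dg : DirD j i g g') :
    ∫ s, s.2 j i * g s ∂mm k ν H = (∫ s, g' s ∂mm k ν H) + (∫ s, g s * H' s ∂mm k ν H) -
      (1 / (k : ℝ)) * ∑ l ∈ Ioo j k, ∫ p, g p.1 * H' p.2 ∂pp k ν H l := by
  have hY := gs_ok (I := I) (ν := ν) hk
  have hv := (lin_coord (ν := ν) hk hj i).ex hY
  have x1 := (ex_PP hk hH hg (j + 1)).mul hY (ex_PP hk hH hH' (j + 1))
  have x2 := ex_PP hk hH hg' (j + 1)
  have x3 := ex_DD hk hH hg hH' (j + 1)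
  have e1 : ∀ G, (GS k I ν).Ex G → ∫ s, G s ∂mm k ν H = (GS k I ν).P j 0
      ((GS k I ν).X (k - j + 1) j H) ((GS k I ν).P (k - j + 1) j H G) (s0 I Cf) := fun G hG => by
    have := Sys.P_add hY hH hG j (k - j + 1) 0 (s0 I Cf)
    rwa [zero_add, show j + (k - j + 1) = k + 1 by omega] at this
  have e2 := integral_mul_PP hk hH (Sys.Ex.const hY 1) hg' (l := j + 1) (by omega)
    fun _ _ _ _ _ => rfl
  simp only [one_mul] at e2
  have i23 : Integrable (fun s => PP k ν H (j + 1) g' s + DD k ν H (j + 1) g H' s) (mm k ν H) :=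
    integrable_mm hk hH (x2.add hY x3)
  rw [e1 _ (hv.mul hY hg), funext (ibp_step hk hj hH hH' dH hg hg' dg),
    ← e1 _ ((x1.const_mul hY _).add hY (x2.add hY x3)),
    integral_add (integrable_mm hk hH (x1.const_mul hY _)) i23,
    integral_add (integrable_mm hk hH x2) (integrable_mm hk hH x3), integral_const_mul,
    ← integral_pp_mul hk hH hg hH' (by omega), ← e2, integral_DD hk hH hg hH' (by omega)]
  have hk' : (0 : ℝ) < k := by exact_mod_cast hk
  have z1 : (GS k I ν).ζ j = (j + 1) / k := min_eq_right (by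
    rw [div_le_one hk']; exact_mod_cast hj)
  rw [z1]
  rcases (Nat.succ_le_of_lt hj).eq_or_lt with h | h
  · have h' : (k : ℝ) = j + 1 := by rw [← h]; push_cast; rfl
    rw [min_eq_left (by rw [one_le_div hk']; push_cast; linarith), ← h', div_self hk'.ne',
      show Ioo j k = ∅ by ext; simp; omega, show Ioo (j + 1) k = ∅ by ext; simp; omega]
    ring
  · rw [min_eq_right (by rw [div_le_one hk']; exact_mod_cast h),
      show Ioo j k = insert (j + 1) (Ioo (j + 1) k) by ext; simp; omega, sum_insert (by simp)]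
    push_cast
    ring

end Vale.Agent.P157
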