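import Vale.Agent.P157.Core2

namespace Vale.Agent.P157

open MeasureTheory ProbabilityTheory Real Finset Filter Topology
open scoped ENNReal

namespace Sys

variable {S Ω S' Ω' : Type*} [MeasurableSpace S] [MeasurableSpace Ω] [MeasurableSpace S']
  [MeasurableSpace Ω'] {Y : Sys S Ω} {Y' : Sys S' Ω'} {φ : ℕ → S → S'} {ψ : ℕ → Ω → Ω'}
  {H g h : S' → ℝ}

theorem Hom.sub {n j n' j' : ℕ} (hh : Hom Y Y' φ ψ n j) (h1 : j ≤ j') (h2 : j' + n' ≤ j + n) :
    Hom Y Y' φ ψ n' j' := by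
  obtain ⟨C, hC⟩ := hh.gauge
  exact ⟨hh.mφ, fun i a b => hh.mp i (by omega) (by omega),
    fun i a b => hh.ζ_eq i (by omega) (by omega), fun i a b => hh.comm i (by omega) (by omega),
    C, fun i a b => hC i (by omega) (by omega)⟩

theorem Hom.gauge' (hY : Y.OK) {n j i : ℕ} (hh : Hom Y Y' φ ψ n j) (h1 : j ≤ i)
    (h2 : i ≤ j + n) : ∃ C, 0 ≤ C ∧ ∀ s, Y'.ν (φ i s) ≤ C * (1 + Y.ν s) := by
  obtain ⟨C, hC⟩ := hh.gauge
  refine ⟨|C|, abs_nonneg _, fun s => (hC i h1 h2 s).trans ?_⟩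
  exact mul_le_mul_of_nonneg_right (le_abs_self C) (by linarith [hY.ν_nonneg s])

theorem Hom.lin (hY : Y.OK) (hY' : Y'.OK) {n j i : ℕ} (hh : Hom Y Y' φ ψ n j) (h1 : j ≤ i)
    (h2 : i ≤ j + n) (hH : Y'.Lin H) : Y.Lin fun s => H (φ i s) := by
  obtain ⟨C, hC0, hC⟩ := hH.bd hY'
  obtain ⟨B, hB0, hB⟩ := hh.gauge' hY h1 h2
  refine ⟨hH.1.comp (hh.mφ i), C * (1 + B), fun s => (hC _).trans ?_⟩
  rw [mul_assoc]
  refine mul_le_mul_of_nonneg_left ?_ hC0
  have := hB s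
  have := hY.ν_nonneg s
  linarith

theorem Hom.ex (hY : Y.OK) {n j i : ℕ} (hh : Hom Y Y' φ ψ n j) (h1 : j ≤ i) (h2 : i ≤ j + n)
    (hg : Y'.Ex g) : Y.Ex fun s => g (φ i s) := by
  obtain ⟨C, hC⟩ := hg.2
  obtain ⟨B, hB0, hB⟩ := hh.gauge' hY h1 h2
  refine ⟨hg.1.comp (hh.mφ i), |C| * exp (|C| * B) + |C| * B, fun s => ?_⟩
  have hC0 : 0 ≤ C := by
    have := (abs_nonneg _).trans (hC (φ i s))
    exact nonneg_of_mul_nonneg_left this (exp_pos _)
  rw [abs_of_nonneg hC0]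
  refine (hC _).trans ?_
  have a1 := hY.ν_nonneg s
  have a2 : 0 ≤ C * exp (C * B) := by positivity
  have a3 : 0 ≤ C * B := by positivity
  have a4 : C * Y'.ν (φ i s) ≤ C * B + (C * exp (C * B) + C * B) * Y.ν s := by
    have := mul_le_mul_of_nonneg_left (hB s) hC0
    have := mul_nonneg a2 a1
    linarith
  calc C * exp (C * Y'.ν (φ i s))
      ≤ C * exp (C * B + (C * exp (C * B) + C * B) * Y.ν s) := by gcongr
    _ = C * exp (C * B) * exp ((C * exp (C * B) + C * B) * Y.ν s) := by rw [exp_add, mul_assoc]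
    _ ≤ _ := mul_le_mul_of_nonneg_right (by linarith) (exp_pos _).le

theorem mo_int {α β : Type*} [MeasurableSpace α] [MeasurableSpace β] {μ : Measure α}
    {ν : Measure β} {f : α → β} (hf : MeasurePreserving f μ ν) {F : β → ℝ} (hF : Measurable F) :
    ∫ w, F (f w) ∂μ = ∫ w, F w ∂ν := by
  rw [← hf.map_eq, integral_map hf.measurable.aemeasurable hF.aestronglyMeasurable]

theorem mo_map_bind {α β α' β' : Type*} [MeasurableSpace α] [MeasurableSpace β]
    [MeasurableSpace α'] [MeasurableSpace β'] {μ : Measure α} {κ : α → Measure β}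
    {κ' : α' → Measure β'} {f : α → α'} {e : β → β'} (hκ : Measurable κ) (hκ' : Measurable κ')
    (hf : Measurable f) (he : Measurable e) (h : ∀ a, (κ a).map e = κ' (f a)) :
    (μ.bind κ).map e = (μ.map f).bind κ' := by
  ext A hA
  rw [Measure.map_apply he hA, Measure.bind_apply (he hA) hκ.aemeasurable,
    Measure.bind_apply hA hκ'.aemeasurable,
    lintegral_map (f := fun a => κ' a A) ((Measure.measurable_coe hA).comp hκ') hf]
  refine lintegral_congr (fun a => ?_)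
  rw [← h, Measure.map_apply he hA]

theorem Hom.T_eq (hY' : Y'.OK) {n j : ℕ} (hh : Hom Y Y' φ ψ (n + 1) j) {Φ : S' → ℝ}
    (hΦ : Measurable Φ) (s : S) :
    Y.T j (fun s => Φ (φ (j + 1) s)) s = Y'.T j Φ (φ j s) := by
  unfold T
  rw [hh.ζ_eq j le_rfl (by omega)]
  simp only [hh.comm j le_rfl (by omega)]
  rw [mo_int (hh.mp j le_rfl (by omega))
    (F := fun w => exp (Y'.ζ j * Φ (Y'.a j (φ j s) w)))
    ((hΦ.comp (hY'.meas_as j _)).const_mul _).exp]

theorem Hom.X_eq' (hY' : Y'.OK) {n j N : ℕ} (hh : Hom Y Y' φ ψ n j) (hN : j + n = N)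
    (hH : Y'.Lin H) : Y.X n j (fun s => H (φ N s)) = fun s => Y'.X n j H (φ j s) := by
  induction n generalizing j with
  | zero => subst hN; rfl
  | succ n ih =>
    funext s
    rw [X, X, ih (hh.sub (Nat.le_succ j) (by omega)) (by omega),
      hh.T_eq hY' (lin_X hY' hH n (j + 1)).1]

theorem Hom.stepM_map (hY : Y.OK) (hY' : Y'.OK) {n j : ℕ} (hh : Hom Y Y' φ ψ (n + 1) j)
    {Φ : S' → ℝ} (hΦ : Y'.Lin Φ) (s : S) :
    (Y.stepM j (fun s => Φ (φ (j + 1) s)) s).map (φ (j + 1)) = Y'.stepM j Φ (φ j s) := by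
  refine Measure.ext_of_lintegral _ (fun f hf => ?_)
  rw [lintegral_map hf (hh.mφ _),
    lintegral_stepM hY (hh.lin hY hY' (i := j + 1) (by omega) (by omega) hΦ) j s
      (g := fun a => f (φ (j + 1) a)) (hf.comp (hh.mφ _)),
    lintegral_stepM hY' hΦ j _ hf, hh.T_eq hY' hΦ.1, hh.ζ_eq j le_rfl (by omega)]
  simp only [hh.comm j le_rfl (by omega)]
  refine (hh.mp j le_rfl (by omega)).lintegral_comp (f := fun w => ENNReal.ofReal
    (exp (Y'.ζ j * (Φ (Y'.a j (φ j s) w) - Y'.T j Φ (φ j s)))) * f (Y'.a j (φ j s) w)) ?_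
  exact (((hΦ.1.comp (hY'.meas_as j _)).sub_const _).const_mul _).exp.ennreal_ofReal.mul
    (hf.comp (hY'.meas_as j _))

theorem Hom.m_map' (hY : Y.OK) (hY' : Y'.OK) {n j N : ℕ} (hh : Hom Y Y' φ ψ n j)
    (hN : j + n = N) (hH : Y'.Lin H) (s : S) :
    (Y.m n j (fun s => H (φ N s)) s).map (φ N) = Y'.m n j H (φ j s) := by
  induction n generalizing j s with
  | zero =>
    subst hN
    exact Measure.map_dirac' (hh.mφ _) s
  | succ n ih =>
    have hs := hh.sub (n' := n) (j' := j + 1) (by omega) (by omega)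
    rw [m, m, hs.X_eq' hY' (by omega) hH, ← hh.stepM_map hY hY' (lin_X hY' hH n (j + 1)) s]
    exact mo_map_bind (measurable_m hY (hh.lin hY hY' (by omega) (by omega) hH) _ _)
      (measurable_m hY' hH _ _) (hh.mφ _) (hh.mφ _) (fun a => ih hs (by omega) a)

theorem Hom.P_eq' (hY : Y.OK) (hY' : Y'.OK) {n j N : ℕ} (hh : Hom Y Y' φ ψ n j)
    (hN : j + n = N) (hH : Y'.Lin H) (hg : Measurable g) (s : S) :
    Y.P n j (fun s => H (φ N s)) (fun s => g (φ N s)) s = Y'.P n j H g (φ j s) := by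
  unfold P
  rw [← hh.m_map' hY hY' hN hH s, integral_map (hh.mφ _).aemeasurable hg.aestronglyMeasurable]

theorem Hom.D_eq' (hY : Y.OK) (hY' : Y'.OK) {n j N : ℕ} (hh : Hom Y Y' φ ψ n j)
    (hN : j + n = N) (hH : Y'.Lin H) (hg : Y'.Ex g) (hh' : Y'.Ex h) (s : S) :
    Y.D n j (fun s => H (φ N s)) (fun s => g (φ N s)) (fun s => h (φ N s)) s =
      Y'.D n j H g h (φ j s) := by
  induction n generalizing j s with
  | zero => rfl
  | succ n ih =>
    have hs := hh.sub (n' := n) (j' := j + 1) (by omega) (by omega)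
    have hN' : j + 1 + n = N := by omega
    rw [D, D, hh.P_eq' hY hY' hN hH hg.1, hh.P_eq' hY hY' hN hH hh'.1, hs.X_eq' hY' hN' hH,
      ← hh.stepM_map hY hY' (lin_X hY' hH n (j + 1)) s, hh.ζ_eq j le_rfl (by omega),
      integral_map (hh.mφ _).aemeasurable (ex_D hY' hH hg hh' _ _).1.aestronglyMeasurable,
      integral_map (hh.mφ _).aemeasurable ((measurable_P hY' hH hg.1 _ _).fun_mul
        (measurable_P hY' hH hh'.1 _ _)).aestronglyMeasurable]
    simp only [ih hs hN', hs.P_eq' hY hY' hN' hH hg.1, hs.P_eq' hY hY' hN' hH hh'.1]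

theorem Hom.X_eq (hY' : Y'.OK) {n j : ℕ} (hh : Hom Y Y' φ ψ n j) (hH : Y'.Lin H) (s : S) :
    Y.X n j (fun s => H (φ (j + n) s)) s = Y'.X n j H (φ j s) := by
  rw [hh.X_eq' hY' rfl hH]

theorem Hom.m_map (hY : Y.OK) (hY' : Y'.OK) {n j : ℕ} (hh : Hom Y Y' φ ψ n j) (hH : Y'.Lin H)
    (s : S) : (Y.m n j (fun s => H (φ (j + n) s)) s).map (φ (j + n)) = Y'.m n j H (φ j s) := by
  exact hh.m_map' hY hY' rfl hH s

theorem Hom.P_eq (hY : Y.OK) (hY' : Y'.OK) {n j : ℕ} (hh : Hom Y Y' φ ψ n j) (hH : Y'.Lin H)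
    (hg : Measurable g) (s : S) :
    Y.P n j (fun s => H (φ (j + n) s)) (fun s => g (φ (j + n) s)) s = Y'.P n j H g (φ j s) := by
  exact hh.P_eq' hY hY' rfl hH hg s

theorem Hom.D_eq (hY : Y.OK) (hY' : Y'.OK) {n j : ℕ} (hh : Hom Y Y' φ ψ n j) (hH : Y'.Lin H)
    (hg : Y'.Ex g) (hh' : Y'.Ex h) (s : S) :
    Y.D n j (fun s => H (φ (j + n) s)) (fun s => g (φ (j + n) s)) (fun s => h (φ (j + n) s)) s =
      Y'.D n j H g h (φ j s) := by
  exact hh.D_eq' hY hY' rfl hH hg hh' s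

theorem Hom.pr_map (hY : Y.OK) (hY' : Y'.OK) {l n j : ℕ} (hh : Hom Y Y' φ ψ (l + n) j)
    (hH : Y'.Lin H) (s : S) :
    (Y.pr l n j (fun s => H (φ (j + (l + n)) s)) s).map
      (Prod.map (φ (j + (l + n))) (φ (j + (l + n)))) = Y'.pr l n j H (φ j s) := by
  have h1 := hh.sub (n' := l) (j' := j) le_rfl (by omega)
  have h2 := hh.sub (n' := n) (j' := j + l) (by omega) (by omega)
  have hN : j + l + n = j + (l + n) := by omega
  have hL := hh.lin hY hY' (i := j + (l + n)) (by omega) le_rfl hH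
  unfold pr
  rw [h2.X_eq' hY' hN hH, ← h1.m_map' hY hY' rfl (lin_X hY' hH n (j + l)) s]
  refine mo_map_bind (measurable_mm hY hL _ _) (measurable_mm hY' hH _ _) (hh.mφ _)
    ((hh.mφ _).prodMap (hh.mφ _)) (fun a => ?_)
  have := m_prob hY hL n (j + l) a
  rw [← Measure.map_prod_map _ _ (hh.mφ _) (hh.mφ _), h2.m_map' hY hY' hN hH a]


/-- additivity over independent parts -/
theorem X_sum {β : Type} [Fintype β] {Sb Ωb : β → Type} [∀ b, MeasurableSpace (Sb b)]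
    [∀ b, MeasurableSpace (Ωb b)] {Yb : ∀ b, Sys (Sb b) (Ωb b)} (hb : ∀ b, (Yb b).OK)
    (hY : Y.OK) (φ : ∀ b, S → Sb b) (ψ : ∀ b, Ω → Ωb b)
    (hmp : MeasurePreserving (fun w b => ψ b w) Y.μ (Measure.pi fun b => (Yb b).μ))
    (hζ : ∀ b i, Y.ζ i = (Yb b).ζ i)
    (hc : ∀ b i s w, φ b (Y.a i s w) = (Yb b).a i (φ b s) (ψ b w))
    {Hb : ∀ b, Sb b → ℝ} (hH : ∀ b, (Yb b).Lin (Hb b)) (n j : ℕ) (s : S) :
    Y.X n j (fun s => ∑ b, Hb b (φ b s)) s = ∑ b, (Yb b).X n j (Hb b) (φ b s) := by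
  induction n generalizing j s with
  | zero => rfl
  | succ n ih =>
    have hX := fun b => lin_X (hb b) (hH b) n (j + 1)
    have := fun b => (hb b).prob
    rw [X, funext (ih (j + 1))]
    simp only [X]
    have h1 : ∫ w, exp (Y.ζ j * ∑ b, (Yb b).X n (j + 1) (Hb b) (φ b (Y.a j s w))) ∂Y.μ =
        exp (Y.ζ j * ∑ b, (Yb b).T j ((Yb b).X n (j + 1) (Hb b)) (φ b s)) := by
      simp only [Finset.mul_sum, exp_sum, hc]
      rw [mo_int hmp (F := fun w => ∏ b,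
        exp (Y.ζ j * (Yb b).X n (j + 1) (Hb b) ((Yb b).a j (φ b s) (w b))))
        (Finset.measurable_prod _ (fun b _ => ((((hX b).1.comp ((hb b).meas_as j _)).comp
          (measurable_pi_apply b)).const_mul _).exp)),
        integral_fintype_prod_eq_prod (fun b w =>
          exp (Y.ζ j * (Yb b).X n (j + 1) (Hb b) ((Yb b).a j (φ b s) w)))]
      refine Finset.prod_congr rfl (fun b _ => ?_)
      rw [hζ b, exp_T (hb b) (hX b)]
    rw [T, h1, log_exp, ← mul_assoc, inv_mul_cancel₀ (hY.ζ_pos j).ne', one_mul]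


theorem X_add2 {S1 Ω1 S2 Ω2 : Type*} [MeasurableSpace S1] [MeasurableSpace Ω1]
    [MeasurableSpace S2] [MeasurableSpace Ω2] {Y1 : Sys S1 Ω1} {Y2 : Sys S2 Ω2} (h1 : Y1.OK)
    (h2 : Y2.OK) (hY : Y.OK) (φ1 : S → S1) (φ2 : S → S2) (ψ1 : Ω → Ω1) (ψ2 : Ω → Ω2)
    (hmp : MeasurePreserving (fun w => (ψ1 w, ψ2 w)) Y.μ (Y1.μ.prod Y2.μ))
    (hζ1 : ∀ i, Y.ζ i = Y1.ζ i) (hζ2 : ∀ i, Y.ζ i = Y2.ζ i)
    (hc1 : ∀ i s w, φ1 (Y.a i s w) = Y1.a i (φ1 s) (ψ1 w))
    (hc2 : ∀ i s w, φ2 (Y.a i s w) = Y2.a i (φ2 s) (ψ2 w))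
    {H1 : S1 → ℝ} {H2 : S2 → ℝ} (hH1 : Y1.Lin H1) (hH2 : Y2.Lin H2) (n j : ℕ) (s : S) :
    Y.X n j (fun s => H1 (φ1 s) + H2 (φ2 s)) s = Y1.X n j H1 (φ1 s) + Y2.X n j H2 (φ2 s) := by
  induction n generalizing j s with
  | zero => rfl
  | succ n ih =>
    have hX1 := lin_X h1 hH1 n (j + 1)
    have hX2 := lin_X h2 hH2 n (j + 1)
    have := h1.prob
    have := h2.prob
    rw [X, funext (ih (j + 1))]
    simp only [X]
    have e : ∫ w, exp (Y.ζ j * (Y1.X n (j + 1) H1 (φ1 (Y.a j s w)) +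
        Y2.X n (j + 1) H2 (φ2 (Y.a j s w)))) ∂Y.μ = exp (Y.ζ j *
        (Y1.T j (Y1.X n (j + 1) H1) (φ1 s) + Y2.T j (Y2.X n (j + 1) H2) (φ2 s))) := by
      simp only [mul_add, exp_add, hc1, hc2]
      rw [mo_int hmp (F := fun w => exp (Y.ζ j * Y1.X n (j + 1) H1 (Y1.a j (φ1 s) w.1)) *
        exp (Y.ζ j * Y2.X n (j + 1) H2 (Y2.a j (φ2 s) w.2)))
        ((((hX1.1.comp (h1.meas_as j _)).comp measurable_fst).const_mul _).exp.mul
          (((hX2.1.comp (h2.meas_as j _)).comp measurable_snd).const_mul _).exp),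
        integral_prod_mul (fun w => exp (Y.ζ j * Y1.X n (j + 1) H1 (Y1.a j (φ1 s) w)))
          (fun w => exp (Y.ζ j * Y2.X n (j + 1) H2 (Y2.a j (φ2 s) w)))]
      congr 1
      · rw [hζ1, exp_T h1 hX1]
      · rw [hζ2, exp_T h2 hX2]
    rw [T, e, log_exp, ← mul_assoc, inv_mul_cancel₀ (hY.ζ_pos j).ne', one_mul]


/-- levels that the Hamiltonian does not see -/
theorem X_of_inv (hY : Y.OK) {H : S → ℝ} {n j : ℕ} (hi : Y.Inv n j H) : Y.X n j H = H := by
  induction n generalizing j with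
  | zero => rfl
  | succ n ih =>
    have := hY.prob
    rw [X, ih (fun i a b => hi i (by omega) (by omega))]
    funext s
    unfold T
    simp only [hi j le_rfl (by omega), integral_const, probReal_univ, one_smul, log_exp]
    rw [← mul_assoc, inv_mul_cancel₀ (hY.ζ_pos j).ne', one_mul]


theorem D_pull (hY : Y.OK) {H g h c : S → ℝ} (hH : Y.Lin H) {n j : ℕ} (hc : Y.Ex c)
    (hi : Y.Inv n j c) (hg : Y.Ex g) (hh : Y.Ex h) (s : S) :
    Y.D n j H (fun s => c s * g s) h s = c s * Y.D n j H g h s := by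
  induction n generalizing j s with
  | zero => simp [D]
  | succ n ih =>
    have hi' : Y.Inv n (j + 1) c := fun i a b => hi i (by omega) (by omega)
    have hX := lin_X hY hH n (j + 1)
    have e : ∀ F : S → ℝ, Measurable F → ∫ s', c s' * F s' ∂Y.stepM j (Y.X n (j + 1) H) s =
        c s * ∫ s', F s' ∂Y.stepM j (Y.X n (j + 1) H) s := by
      intro F hF
      rw [integral_stepM hY hX j s (hc.1.fun_mul hF), integral_stepM hY hX j s hF,
        ← integral_const_mul]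
      refine integral_congr_ae (Eventually.of_forall (fun w => ?_))
      simp only [hi j le_rfl (by omega)]
      ring
    rw [D, D, P_pull hY hH hc.1 hi]
    simp only [ih hi', P_pull hY hH hc.1 hi', mul_assoc]
    rw [e _ (ex_D hY hH hg hh _ _).1,
      e _ ((measurable_P hY hH hg.1 _ _).fun_mul (measurable_P hY hH hh.1 _ _))]
    ring


end Sys

end Vale.Agent.P157
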