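import Vale.Agent.P157.Grad
import Vale.Agent.P157.TiltB

/-! Radial functions and Gaussian integrals on Euclidean spaces. -/

namespace Vale.Agent.P157

open MeasureTheory ProbabilityTheory Real Finset Filter Topology
open scoped ENNReal

section Fold

variable {ι Cf : Type} [Fintype ι] [MeasurableSpace Cf] {ν : Measure Cf} {x : Cf → ι → ℝ}

theorem su_inner (h : EuclideanSpace ℝ ι) (u : ι → ℝ) :
    ∑ i, h i * u i = inner ℝ h (WithLp.toLp 2 u) := by
  simp [PiLp.inner_apply, mul_comm]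

theorem su_meas (hx : Spin ν x) :
    Measurable fun σ => (WithLp.toLp 2 (x σ) : EuclideanSpace ℝ ι) :=
  (WithLp.measurable_toLp 2 _).comp hx.meas

theorem su_norm (hx : Spin ν x) (σ : Cf) :
    ‖(WithLp.toLp 2 (x σ) : EuclideanSpace ℝ ι)‖ = √(Fintype.card ι) := by
  rw [← hx.norm σ, EuclideanSpace.norm_eq]
  simp

theorem su_iso {E : Type*} [NormedAddCommGroup E] [InnerProductSpace ℝ E] [FiniteDimensional ℝ E]
    {h h' : E} (e : ‖h‖ = ‖h'‖) : ∃ L : E ≃ₗᵢ[ℝ] E, L h = h' :=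
  ⟨_, Submodule.reflection_sub e⟩

/-- the Laplace transform of the spin law -/
noncomputable def suZ (ν : Measure Cf) (x : Cf → ι → ℝ) (h : EuclideanSpace ℝ ι) : ℝ :=
  ∫ σ, exp (inner ℝ h (WithLp.toLp 2 (x σ) : EuclideanSpace ℝ ι)) ∂ν

theorem su_Φs (h : EuclideanSpace ℝ ι) : Φs ν x h = log (suZ ν x h) := by
  simp only [Φs, suZ, su_inner]

theorem su_int (hx : Spin ν x) (h : EuclideanSpace ℝ ι) :
    Integrable (fun σ => exp (inner ℝ h (WithLp.toLp 2 (x σ) : EuclideanSpace ℝ ι))) ν := by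
  have := hx.prob
  refine tl_int_exp1 (measurable_const.inner (su_meas hx)) (B := ‖h‖ * √(Fintype.card ι))
    fun σ => ?_
  rw [← su_norm hx σ]
  exact abs_real_inner_le_norm _ _

theorem suZ_pos (hx : Spin ν x) (h : EuclideanSpace ℝ ι) : 0 < suZ ν x h := by
  have := hx.prob
  exact integral_exp_pos (su_int hx h)

theorem exp_Φs (hx : Spin ν x) (h : EuclideanSpace ℝ ι) : exp (Φs ν x h) = suZ ν x h := by
  rw [su_Φs, exp_log (suZ_pos hx h)]

theorem suZ_eq (hx : Spin ν x) (hr : RotInv ν x) {h h' : EuclideanSpace ℝ ι} (e : ‖h‖ = ‖h'‖) :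
    suZ ν x h = suZ ν x h' := by
  obtain ⟨L, rfl⟩ := su_iso e
  have m : Measurable fun y : EuclideanSpace ℝ ι => exp (inner ℝ (L h) y) := by fun_prop
  have h1 := integral_map (μ := ν) (su_meas hx).aemeasurable m.aestronglyMeasurable
  have h2 := integral_map (μ := ν) (L.continuous.measurable.comp (su_meas hx)).aemeasurable
    m.aestronglyMeasurable
  simp only [Function.comp_def] at h2
  rw [hr L, h1] at h2
  simp only [LinearIsometryEquiv.inner_map_map] at h2
  exact h2.symm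

theorem su_radial (hx : Spin ν x) (hr : RotInv ν x) {h h' : EuclideanSpace ℝ ι}
    (hh : ‖h‖ ≤ ‖h'‖) : Φs ν x h ≤ Φs ν x h' := by
  rw [su_Φs, su_Φs]
  refine log_le_log (suZ_pos hx h) ?_
  have hc : ∀ v : EuclideanSpace ℝ ι, suZ ν x v =
      ∫ σ, cosh (inner ℝ v (WithLp.toLp 2 (x σ) : EuclideanSpace ℝ ι)) ∂ν := fun v => by
    have i2 := su_int hx (-v)
    have e := suZ_eq hx hr (norm_neg v)
    simp only [suZ, inner_neg_left] at i2 e
    simp only [cosh_eq, integral_div, integral_add (su_int hx v) i2, e, suZ]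
    ring
  have ic : ∀ v : EuclideanSpace ℝ ι, Integrable
      (fun σ => cosh (inner ℝ v (WithLp.toLp 2 (x σ) : EuclideanSpace ℝ ι))) ν := fun v => by
    have i2 := su_int hx (-v)
    simp only [inner_neg_left] at i2
    simp only [cosh_eq]
    exact ((su_int hx v).add i2).div_const _
  rcases eq_or_lt_of_le (norm_nonneg h') with h0 | h0
  · exact (suZ_eq hx hr (le_antisymm hh (h0 ▸ norm_nonneg h))).le
  have t0 : 0 ≤ ‖h‖ / ‖h'‖ := div_nonneg (norm_nonneg _) h0.le
  have e : ‖h‖ = ‖(‖h‖ / ‖h'‖) • h'‖ := by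
    rw [norm_smul, Real.norm_of_nonneg t0, div_mul_cancel₀ _ h0.ne']
  rw [suZ_eq hx hr e, hc, hc]
  refine integral_mono (ic _) (ic _) fun σ => cosh_le_cosh.2 ?_
  rw [real_inner_smul_left, abs_mul, abs_of_nonneg t0]
  exact mul_le_of_le_one_left (abs_nonneg _) ((div_le_one h0).2 hh)

theorem Φs_radial [Nonempty ι] (hx : Spin ν x) (hr : RotInv ν x) {h h' : EuclideanSpace ℝ ι}
    (hh : ‖h‖ ≤ ‖h'‖) : Φs ν x h ≤ Φs ν x h' := su_radial hx hr hh

/-- radial folding of a Gaussian integral -/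
theorem fold [Nonempty ι] (hx : Spin ν x) (hr : RotInv ν x) {g : ℝ → ℝ≥0∞} (hg : Measurable g)
    (h : EuclideanSpace ℝ ι) :
    ∫⁻ w, g ‖w‖ * ENNReal.ofReal (exp (inner ℝ h w)) ∂stdGaussian (EuclideanSpace ℝ ι) =
      ∫⁻ w, g ‖w‖ * ENNReal.ofReal (exp (Φs ν x ((‖w‖ / √(Fintype.card ι)) • h)))
        ∂stdGaussian (EuclideanSpace ℝ ι) := by
  have := hx.prob
  have hN : (0 : ℝ) < √(Fintype.card ι) := sqrt_pos.2 (by exact_mod_cast Fintype.card_pos)
  set F : EuclideanSpace ℝ ι → ℝ≥0∞ := fun h =>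
    ∫⁻ w, g ‖w‖ * ENNReal.ofReal (exp (inner ℝ h w)) ∂stdGaussian (EuclideanSpace ℝ ι) with hF
  have hrad : ∀ h h' : EuclideanSpace ℝ ι, ‖h‖ = ‖h'‖ → F h = F h' := fun h h' e => by
    obtain ⟨L, rfl⟩ := su_iso e
    simp only [hF]
    conv_rhs => rw [← stdGaussian_map L]
    rw [lintegral_map (by fun_prop) L.continuous.measurable]
    simp only [LinearIsometryEquiv.inner_map_map, LinearIsometryEquiv.norm_map]
  have e1 : F h = ∫⁻ σ, F ((‖h‖ / √(Fintype.card ι)) • WithLp.toLp 2 (x σ)) ∂ν := by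
    rw [lintegral_congr fun σ => hrad _ h (by
      rw [norm_smul, su_norm hx, Real.norm_of_nonneg (by positivity), div_mul_cancel₀ _ hN.ne'])]
    simp
  have mx := hx.meas
  change F h = _
  rw [e1]
  simp only [hF]
  rw [lintegral_lintegral_swap (Measurable.aemeasurable (by fun_prop))]
  refine lintegral_congr fun w => ?_
  rw [lintegral_const_mul _ (by fun_prop), exp_Φs hx,
    suZ_eq hx hr (h' := (‖h‖ / √(Fintype.card ι)) • w) (by
      rw [norm_smul, norm_smul, Real.norm_of_nonneg (by positivity),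
        Real.norm_of_nonneg (by positivity)]; ring), suZ,
    ofReal_integral_eq_lintegral_ofReal (su_int hx _) (ae_of_all _ fun _ => (exp_pos _).le)]
  simp only [real_inner_smul_left, real_inner_smul_right, real_inner_comm w]

theorem su_1d {a : ℝ} (ha : a < 1) (c : ℝ) :
    ∫⁻ u, ENNReal.ofReal (exp (a * u ^ 2 / 2 + c * u)) ∂gaussianReal 0 1 =
      ENNReal.ofReal (exp (c ^ 2 / (2 * (1 - a)) - log (1 - a) / 2)) := by
  have h1 : 0 < 1 - a := by linarith
  set v : NNReal := ⟨(1 - a)⁻¹, by positivity⟩ with hv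
  have hv' : (v : ℝ) = (1 - a)⁻¹ := rfl
  have hv0 : v ≠ 0 := fun h => by
    have : (v : ℝ) = 0 := by rw [h]; rfl
    rw [hv'] at this
    exact (inv_pos.2 h1).ne' this
  have e1 : ∫⁻ u, ENNReal.ofReal (exp (c * u)) ∂gaussianReal 0 v =
      ENNReal.ofReal (exp (c ^ 2 / (2 * (1 - a)))) := by
    rw [← ofReal_integral_eq_lintegral_ofReal (integrable_exp_mul_gaussianReal c)
      (ae_of_all _ fun _ => (exp_pos _).le)]
    have := congrFun (mgf_fun_id_gaussianReal (μ := 0) (v := v)) c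
    rw [mgf] at this
    rw [this, hv']
    congr 2
    field_simp
    ring
  rw [sub_eq_add_neg, exp_add, ENNReal.ofReal_mul (exp_pos _).le, ← e1,
    ← lintegral_mul_const _ (by fun_prop), gaussianReal_of_var_ne_zero _ one_ne_zero,
    gaussianReal_of_var_ne_zero _ hv0,
    lintegral_withDensity_eq_lintegral_mul _ (measurable_gaussianPDF _ _) (by fun_prop),
    lintegral_withDensity_eq_lintegral_mul _ (measurable_gaussianPDF _ _) (by fun_prop)]
  refine lintegral_congr fun u => ?_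
  simp only [Pi.mul_apply, gaussianPDF]
  rw [← ENNReal.ofReal_mul (exp_pos _).le, ← ENNReal.ofReal_mul (gaussianPDFReal_nonneg _ _ _),
    ← ENNReal.ofReal_mul (gaussianPDFReal_nonneg _ _ _)]
  congr 1
  have e2 : exp (-(log (1 - a) / 2)) = √((1 - a)⁻¹) := by
    rw [sqrt_eq_rpow, rpow_def_of_pos (inv_pos.2 h1), log_inv]
    congr 1
    ring
  have e3 : exp (-(u - 0) ^ 2 / (2 * 1)) * exp (a * u ^ 2 / 2 + c * u) =
      exp (-(u - 0) ^ 2 / (2 * (1 - a)⁻¹)) * exp (c * u) := by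
    rw [← exp_add, ← exp_add]
    congr 1
    field_simp
    ring
  have e4 : 0 < √((1 - a)⁻¹) := sqrt_pos.2 (inv_pos.2 h1)
  simp only [gaussianPDFReal, hv', NNReal.coe_one]
  rw [mul_assoc, e3, e2, mul_one, sqrt_mul (by positivity : 0 ≤ 2 * π)]
  field_simp

/-- Gaussian integral of a quadratic exponential -/
theorem lintegral_exp_quad {a : ℝ} (ha : a < 1) (h : EuclideanSpace ℝ ι) :
    ∫⁻ w, ENNReal.ofReal (exp (a * ‖w‖ ^ 2 / 2 + inner ℝ h w)) ∂stdGaussian (EuclideanSpace ℝ ι) =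
      ENNReal.ofReal (exp (‖h‖ ^ 2 / (2 * (1 - a)) - Fintype.card ι * log (1 - a) / 2)) := by
  rw [← map_pi_eq_stdGaussian, lintegral_map (by fun_prop) (WithLp.measurable_toLp 2 _)]
  have e : ∀ u : ι → ℝ, ENNReal.ofReal (exp (a * ‖(WithLp.toLp 2 u : EuclideanSpace ℝ ι)‖ ^ 2 / 2 +
      inner ℝ h (WithLp.toLp 2 u))) = ∏ i, ENNReal.ofReal (exp (a * u i ^ 2 / 2 + h i * u i)) :=
    fun u => by
      rw [← ENNReal.ofReal_prod_of_nonneg fun _ _ => (exp_pos _).le, ← exp_sum, ← su_inner,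
        EuclideanSpace.real_norm_sq_eq, sum_add_distrib, mul_sum, sum_div]
  simp only [e]
  rw [lintegral_prod_eq_prod_lintegral_of_indepFun univ
    (fun i (u : ι → ℝ) => ENNReal.ofReal (exp (a * u i ^ 2 / 2 + h i * u i)))
    (iIndepFun_pi (X := fun i (t : ℝ) => ENNReal.ofReal (exp (a * t ^ 2 / 2 + h i * t)))
      fun i => Measurable.aemeasurable (by fun_prop)) fun i => by fun_prop]
  have e2 : ∀ i, ∫⁻ u : ι → ℝ, ENNReal.ofReal (exp (a * u i ^ 2 / 2 + h i * u i))
      ∂(Measure.pi fun _ => gaussianReal 0 1) =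
      ENNReal.ofReal (exp (h i ^ 2 / (2 * (1 - a)) - log (1 - a) / 2)) := fun i => by
    rw [← su_1d ha]
    exact (measurePreserving_eval (fun _ : ι => gaussianReal 0 1) i).lintegral_comp
      (f := fun t => ENNReal.ofReal (exp (a * t ^ 2 / 2 + h i * t))) (by fun_prop)
  simp only [e2]
  rw [← ENNReal.ofReal_prod_of_nonneg fun _ _ => (exp_pos _).le, ← exp_sum, sum_sub_distrib,
    ← sum_div, EuclideanSpace.real_norm_sq_eq, sum_const, card_univ, nsmul_eq_mul, mul_div_assoc]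

theorem su_ipow (n : ℕ) : Integrable (fun u : ℝ => u ^ n) (gaussianReal 0 1) :=
  integrable_pow_of_mem_interior_integrableExpSet (X := fun u : ℝ => u) (by simp) n

theorem su_m2 : ∫ u : ℝ, u ^ 2 ∂gaussianReal 0 1 = 1 := by
  have h := ibp_one (f := fun u => u) (f' := fun _ => 1) (fun u => hasDerivAt_id' u)
    (by simpa using su_ipow 1) (integrable_const _) (by simpa [pow_two] using su_ipow 2)
  simpa [pow_two] using h

theorem su_m4 : ∫ u : ℝ, (u ^ 2) ^ 2 ∂gaussianReal 0 1 = 3 := by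
  have h := ibp_one (f := fun u => u ^ 3) (f' := fun u => 3 * u ^ 2)
    (fun u => by simpa using hasDerivAt_pow 3 u) (su_ipow 3) ((su_ipow 2).const_mul _)
    ((su_ipow 4).congr (ae_of_all _ fun u => by ring))
  rw [integral_const_mul, su_m2, mul_one] at h
  rw [← h]
  exact integral_congr_ae (ae_of_all _ fun u => by ring)

theorem su_memLp : MemLp (fun u : ℝ => u ^ 2) 2 (gaussianReal 0 1) :=
  (memLp_two_iff_integrable_sq (Measurable.aestronglyMeasurable (by fun_prop))).2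
    ((su_ipow 4).congr (ae_of_all _ fun u => by ring))

theorem su_shell {ε : ℝ} (hε : 0 < ε) :
    (γ ι).real {u | ε * Fintype.card ι ≤ |∑ i, u i ^ 2 - Fintype.card ι|} *
      (ε ^ 2 * Fintype.card ι) ≤ 2 := by
  rcases Nat.eq_zero_or_pos (Fintype.card ι) with h0 | h0
  · simp [h0]
  have hN : (0 : ℝ) < Fintype.card ι := by exact_mod_cast h0
  have hm : ∀ i : ι, MemLp (fun u : ι → ℝ => u i ^ 2) 2 (γ ι) := fun i =>
    su_memLp.comp_measurePreserving (measurePreserving_eval (fun _ : ι => gaussianReal 0 1) i)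
  have h := meas_ge_le_variance_div_sq (memLp_finsetSum' univ fun i _ => hm i)
    (mul_pos hε hN)
  have v1 : Var[fun u : ℝ => u ^ 2; gaussianReal 0 1] = 2 := by
    rw [variance_eq_sub su_memLp, su_m2]
    simp only [Pi.pow_apply, su_m4]
    norm_num
  rw [variance_sum_pi (X := fun _ (t : ℝ) => t ^ 2) fun _ => su_memLp] at h
  have e1 : ∫ u, (∑ i, fun u : ι → ℝ => u i ^ 2) u ∂γ ι = Fintype.card ι := by
    simp only [Finset.sum_apply]
    rw [integral_finsetSum _ fun i _ => (hm i).integrable one_le_two]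
    have : ∀ i : ι, ∫ u : ι → ℝ, u i ^ 2 ∂γ ι = 1 := fun i => by
      rw [← su_m2, ← (measurePreserving_eval (fun _ : ι => gaussianReal 0 1) i).map_eq,
        integral_map (measurable_pi_apply i).aemeasurable (by fun_prop)]
    simp [this]
  rw [e1] at h
  simp only [Finset.sum_apply, v1, sum_const, card_univ, nsmul_eq_mul] at h
  have h2 := ENNReal.toReal_le_of_le_ofReal (by positivity) h
  refine (mul_le_mul_of_nonneg_right h2 (by positivity)).trans (le_of_eq ?_)
  field_simp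

theorem gauss_shell {ε : ℝ} (hε : 0 < ε) :
    (stdGaussian (EuclideanSpace ℝ ι)).real {w | ε * Fintype.card ι ≤ |‖w‖ ^ 2 - Fintype.card ι|} *
      (ε ^ 2 * Fintype.card ι) ≤ 2 := by
  rw [← map_pi_eq_stdGaussian, map_measureReal_apply (WithLp.measurable_toLp 2 _)
    (measurableSet_le measurable_const (by fun_prop))]
  simpa [EuclideanSpace.real_norm_sq_eq] using su_shell (ι := ι) hε

end Fold

end Vale.Agent.P157
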