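import Vale.Agent.P157.SphA

/-! The recursion of the field system for functions with values in the extended half line. -/

namespace Vale.Agent.P157

open MeasureTheory ProbabilityTheory Real Finset Filter Topology
open scoped ENNReal

variable {ι : Type} [Fintype ι] {ζ v : ℕ → ℝ}

/-- exponentiated recursion -/
noncomputable def suW (ι : Type) [Fintype ι] (ζ v : ℕ → ℝ) :
    ℕ → ℕ → (EuclideanSpace ℝ ι → ℝ≥0∞) → EuclideanSpace ℝ ι → ℝ≥0∞
  | 0, _, Z => Z
  | n + 1, j, Z => fun h => (∫⁻ w, suW ι ζ v n (j + 1) Z (h + √(v j) • w) ^ ζ j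
      ∂stdGaussian (EuclideanSpace ℝ ι)) ^ (ζ j)⁻¹

theorem su_rpow (a p : ℝ) : ENNReal.ofReal (exp a) ^ p = ENNReal.ofReal (exp (p * a)) := by
  rw [ENNReal.ofReal_rpow_of_pos (exp_pos a), mul_comm, exp_mul]

theorem suW_meas {Z : EuclideanSpace ℝ ι → ℝ≥0∞} (hZ : Measurable Z) (n j : ℕ) :
    Measurable (suW ι ζ v n j Z) := by
  induction n generalizing j with
  | zero => exact hZ
  | succ n ih =>
    have := ih (j + 1)
    exact (Measurable.lintegral_prod_right' (f := fun p : EuclideanSpace ℝ ι × EuclideanSpace ℝ ι =>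
      suW ι ζ v n (j + 1) Z (p.1 + √(v j) • p.2) ^ ζ j) (by fun_prop)).pow_const _

theorem suW_mono (hζ : ∀ j, 0 < ζ j) {Z Z' : EuclideanSpace ℝ ι → ℝ≥0∞} (hle : ∀ h, Z h ≤ Z' h)
    (n j : ℕ) (h : EuclideanSpace ℝ ι) : suW ι ζ v n j Z h ≤ suW ι ζ v n j Z' h := by
  induction n generalizing j h with
  | zero => exact hle h
  | succ n ih =>
    exact ENNReal.rpow_le_rpow (lintegral_mono fun w => ENNReal.rpow_le_rpow (ih _ _) (hζ j).le)
      (inv_pos.2 (hζ j)).le

theorem suW_X (hζ : ∀ j, 0 < ζ j) {Φ : EuclideanSpace ℝ ι → ℝ} (hΦ : (FS ι ζ v).Lin Φ) (n j : ℕ)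
    (h : EuclideanSpace ℝ ι) : suW ι ζ v n j (fun h => ENNReal.ofReal (exp (Φ h))) h =
      ENNReal.ofReal (exp ((FS ι ζ v).X n j Φ h)) := by
  have hY := fs_ok ι hζ v
  induction n generalizing j h with
  | zero => rfl
  | succ n ih =>
    have h1 := Sys.exp_T hY (Sys.lin_X hY hΦ n (j + 1)) j h
    have h2 := ofReal_integral_eq_lintegral_ofReal
      (Sys.integrable_exp_step hY (Sys.lin_X hY hΦ n (j + 1)) j (ζ j) h)
      (ae_of_all _ fun _ => (exp_pos _).le)
    simp only [suW, ih, su_rpow]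
    refine (congrArg (· ^ (ζ j)⁻¹) (h2.symm.trans (congrArg ENNReal.ofReal h1.symm))).trans ?_
    simp only [su_rpow]
    exact congrArg (fun t => ENNReal.ofReal (exp t)) (inv_mul_cancel_left₀ (hζ j).ne' _)

theorem suW_add (hζ : ∀ j, 0 < ζ j) {p : ℝ} (hp : 0 < p) (hp1 : p ≤ 1) (hpζ : ∀ j, p ≤ ζ j)
    {Z Z' : EuclideanSpace ℝ ι → ℝ≥0∞} (hZ : Measurable Z) (hZ' : Measurable Z') (n j : ℕ)
    (h : EuclideanSpace ℝ ι) : suW ι ζ v n j (fun h => Z h + Z' h) h ^ p ≤
      suW ι ζ v n j Z h ^ p + suW ι ζ v n j Z' h ^ p := by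
  induction n generalizing j h with
  | zero => exact ENNReal.rpow_add_le_add_rpow _ _ hp.le hp1
  | succ n ih =>
    have m1 := suW_meas (ζ := ζ) (v := v) hZ n (j + 1)
    have m2 := suW_meas (ζ := ζ) (v := v) hZ' n (j + 1)
    have h1 := ENNReal.lintegral_Lp_add_le (μ := stdGaussian (EuclideanSpace ℝ ι))
      (f := fun w => suW ι ζ v n (j + 1) Z (h + √(v j) • w) ^ p)
      (g := fun w => suW ι ζ v n (j + 1) Z' (h + √(v j) • w) ^ p) (p := ζ j / p)
      (Measurable.aemeasurable (by fun_prop)) (Measurable.aemeasurable (by fun_prop))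
      ((one_le_div hp).2 (hpζ j))
    have e1 : p * (ζ j / p) = ζ j := by field_simp
    have e2 : (ζ j)⁻¹ * p = 1 / (ζ j / p) := by field_simp
    simp only [← ENNReal.rpow_mul, e1] at h1
    simp only [suW, ← ENNReal.rpow_mul, e2]
    refine le_trans (ENNReal.rpow_le_rpow (lintegral_mono fun w => ?_)
      (one_div_pos.2 (div_pos (hζ j) hp)).le) h1
    rw [← e1, ENNReal.rpow_mul, e1]
    exact ENNReal.rpow_le_rpow (ih _ _) (div_pos (hζ j) hp).le

theorem suW_quad (hζ : ∀ j, 0 < ζ j) (hv : ∀ j, 0 ≤ v j) {d : ℕ → ℝ} (hd : ∀ j, 0 < d j)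
    (hs : ∀ j, d (j + 1) = d j + ζ j * v j) (c : ℝ) (n j : ℕ) (h : EuclideanSpace ℝ ι) :
    suW ι ζ v n j (fun h => ENNReal.ofReal (exp (‖h‖ ^ 2 / (2 * d (j + n)) + c))) h =
      ENNReal.ofReal (exp (‖h‖ ^ 2 / (2 * d j) + (c + Fintype.card ι * ((1 / 2) *
        ∑ i ∈ range n, (ζ (j + i))⁻¹ * log (d (j + i + 1) / d (j + i)))))) := by
  induction n generalizing j h with
  | zero => simp [suW]
  | succ n ih =>
    have e0 : j + (n + 1) = j + 1 + n := by omega
    have p0 := hd j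
    have p1 := hd (j + 1)
    have p2 := hζ j
    have ha : 1 - ζ j * v j / d (j + 1) = d j / d (j + 1) := by
      rw [hs j] at p1 ⊢
      field_simp
      ring
    have ha' : ζ j * v j / d (j + 1) < 1 := by
      have := div_pos p0 p1
      linarith
    simp only [suW, e0, ih, su_rpow]
    set c' := c + Fintype.card ι * ((1 / 2) *
        ∑ i ∈ range n, (ζ (j + 1 + i))⁻¹ * log (d (j + 1 + i + 1) / d (j + 1 + i))) with hc'
    have e1 : ∀ w : EuclideanSpace ℝ ι, ENNReal.ofReal (exp (ζ j *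
        (‖h + √(v j) • w‖ ^ 2 / (2 * d (j + 1)) + c'))) =
        ENNReal.ofReal (exp (ζ j * (‖h‖ ^ 2 / (2 * d (j + 1)) + c'))) *
        ENNReal.ofReal (exp (ζ j * v j / d (j + 1) * ‖w‖ ^ 2 / 2 +
          inner ℝ ((ζ j * √(v j) / d (j + 1)) • h) w)) := fun w => by
      rw [← ENNReal.ofReal_mul (exp_pos _).le, ← exp_add, norm_add_sq_real, norm_smul, mul_pow,
        Real.norm_of_nonneg (sqrt_nonneg _), sq_sqrt (hv j), real_inner_smul_left,
        real_inner_smul_right]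
      congr 2
      field_simp
      ring
    simp only [e1]
    rw [lintegral_const_mul _ (by fun_prop), lintegral_exp_quad ha',
      ← ENNReal.ofReal_mul (exp_pos _).le, ← exp_add, su_rpow, ha, norm_smul, mul_pow,
      Real.norm_eq_abs, sq_abs, div_pow, mul_pow, sq_sqrt (hv j), sum_range_succ', hc',
      log_div p0.ne' p1.ne']
    simp only [add_zero, ← add_assoc, log_div p1.ne' p0.ne', Nat.add_right_comm j 1]
    congr 2
    have e2 : v j = (d (j + 1) - d j) / ζ j := by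
      rw [hs j]
      field_simp
      ring
    rw [e2]
    field_simp
    ring

theorem su_scale (ζ v : ℕ → ℝ) {s : ℝ} (hs : 0 ≤ s) (Φ : EuclideanSpace ℝ ι → ℝ) (n j : ℕ)
    (h : EuclideanSpace ℝ ι) : (FS ι ζ v).X n j (fun h => Φ (√s • h)) h =
      (FS ι ζ fun j => s * v j).X n j Φ (√s • h) := by
  induction n generalizing j h with
  | zero => rfl
  | succ n ih =>
    simp only [Sys.X, Sys.T, ih]
    simp only [FS, smul_add, smul_smul, sqrt_mul hs]

/-! the sequence `dS` -/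

section dS

variable {k : ℕ} {r : ℕ → ℝ}

theorem su_ζ_pos (hk : 0 < k) (j : ℕ) : 0 < min 1 (((j : ℝ) + 1) / k) :=
  lt_min one_pos (by positivity)

theorem su_ζ_eq {j : ℕ} (hj : j < k) : min 1 (((j : ℝ) + 1) / k) = ((j : ℝ) + 1) / k := by
  have h0 : (0 : ℝ) < k := by exact_mod_cast (Nat.zero_le j).trans_lt hj
  exact min_eq_right ((div_le_one h0).2 (by exact_mod_cast hj))

theorem su_v_nonneg (hr : AdmR r) (j : ℕ) : 0 ≤ wS Unit k r j () := by
  unfold wS
  split_ifs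
  · exact sub_nonneg.2 (hr.2 (Nat.le_succ j))
  · exact le_rfl

theorem dS_succ (r : ℕ → ℝ) (b : ℝ) (j : ℕ) :
    dS k r b (j + 1) = dS k r b j + min 1 (((j : ℝ) + 1) / k) * wS Unit k r j () := by
  unfold dS wS
  split_ifs with h
  · rw [sum_eq_sum_Ico_succ_bot (by omega : j < k - 1), su_ζ_eq (by omega)]
    ring
  · rw [Ico_eq_empty (by omega), Ico_eq_empty (by omega)]
    simp

theorem dS_top (r : ℕ → ℝ) (b : ℝ) {j : ℕ} (hj : k - 1 ≤ j) : dS k r b j = b := by
  simp [dS, Ico_eq_empty_of_le hj]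

theorem dS_mono (hk : 0 < k) (hr : AdmR r) (b : ℝ) : Monotone (dS k r b) :=
  monotone_nat_of_le_succ fun j => by
    rw [dS_succ]
    exact le_add_of_nonneg_right (mul_nonneg (su_ζ_pos hk j).le (su_v_nonneg hr j))

theorem dS_pos (hk : 0 < k) (hr : AdmR r) {b : ℝ} (hb : 0 < dS k r b 0) (j : ℕ) :
    0 < dS k r b j := hb.trans_le (dS_mono hk hr b (Nat.zero_le j))

theorem dS_le (hk : 0 < k) (hr : AdmR r) (b : ℝ) (j : ℕ) : dS k r b j ≤ b := by
  conv_rhs => rw [← dS_top (k := k) r b (le_max_left (k - 1) j)]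
  exact dS_mono hk hr b (le_max_right _ _)

/-- the value of the recursion for a quadratic terminal function -/
theorem suW_dS (hk : 0 < k) (hr : AdmR r) {b : ℝ} (hb : 0 < dS k r b 0) (c : ℝ) :
    suW ι (fun j => min 1 (((j : ℝ) + 1) / k)) (fun j => wS Unit k r j ()) k 0
      (fun h => ENNReal.ofReal (exp (‖h‖ ^ 2 / (2 * b) + c))) 0 =
      ENNReal.ofReal (exp (c + Fintype.card ι * ((1 / 2) * ∑ j ∈ range (k - 1),
        (k : ℝ) / (j + 1) * log (dS k r b (j + 1) / dS k r b j)))) := by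
  have h := suW_quad (ι := ι) (su_ζ_pos hk) (su_v_nonneg hr) (dS_pos hk hr hb) (dS_succ r b) c k 0 0
  rw [dS_top r b (by omega : k - 1 ≤ 0 + k)] at h
  rw [h]
  have hb0 : b ≠ 0 := (hb.trans_le (dS_le hk hr b 0)).ne'
  obtain ⟨k, rfl⟩ : ∃ k', k = k' + 1 := ⟨k - 1, by omega⟩
  rw [sum_range_succ]
  simp only [zero_add, norm_zero, dS_top r b (by omega : k + 1 - 1 ≤ k),
    dS_top r b (by omega : k + 1 - 1 ≤ k + 1), div_self hb0, log_one, mul_zero, add_zero,
    Nat.add_sub_cancel]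
  rw [sum_congr rfl fun i hi => by rw [su_ζ_eq (by have := mem_range.1 hi; omega), inv_div]]
  simp

end dS

end Vale.Agent.P157
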