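import Vale.Agent.P157.SphMeas
import Vale.Agent.P157.Approx
import Vale.Agent.P157.Tilt

namespace Vale.Agent.P157

open MeasureTheory ProbabilityTheory Real Finset Filter Topology
open scoped ENNReal

section Geo

variable {E : Type*} [NormedAddCommGroup E] [InnerProductSpace ℝ E]

theorem sb_unit {u y : E} (hu : u ≠ 0) (hy : y ≠ 0) :
    ‖‖u‖⁻¹ • u - ‖y‖⁻¹ • y‖ ≤ 2 * (‖u - y‖ / ‖y‖) := by
  have p := norm_pos_iff.2 hu
  have q := norm_pos_iff.2 hy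
  have e : ‖u‖⁻¹ • u - ‖y‖⁻¹ • y = (‖u‖⁻¹ - ‖y‖⁻¹) • u + ‖y‖⁻¹ • (u - y) := by
    rw [sub_smul, smul_sub]
    abel
  have e2 : ‖u‖⁻¹ - ‖y‖⁻¹ = (‖y‖ - ‖u‖) / (‖u‖ * ‖y‖) := by field_simp
  rw [e]
  refine (norm_add_le _ _).trans ?_
  rw [norm_smul, norm_smul, e2, Real.norm_eq_abs, abs_div, abs_of_pos (mul_pos p q), norm_inv,
    norm_norm]
  have h := abs_norm_sub_norm_le y u
  rw [norm_sub_rev] at h
  have e3 : |‖y‖ - ‖u‖| / (‖u‖ * ‖y‖) * ‖u‖ = |‖y‖ - ‖u‖| / ‖y‖ := by field_simp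
  rw [e3, inv_mul_eq_div, two_mul]
  exact add_le_add (div_le_div_of_nonneg_right h q.le) le_rfl

theorem sb_ov {a a' b b' : E} (ha : ‖a'‖ = 1) (hb : ‖b‖ = 1) :
    |inner ℝ a a' - inner ℝ b b'| ≤ ‖a - b‖ + ‖a' - b'‖ := by
  have e : inner ℝ a a' - inner ℝ b b' = inner ℝ (a - b) a' + inner ℝ b (a' - b') := by
    rw [inner_sub_left, inner_sub_right]
    ring
  rw [e]
  refine (abs_add_le _ _).trans (add_le_add ?_ ?_)
  · simpa [ha] using abs_real_inner_le_norm (a - b) a'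
  · simpa [hb] using abs_real_inner_le_norm b (a' - b')

end Geo

variable {ι β ρ : Type} [Fintype ι] [Fintype β] [Fintype ρ]

theorem sb_band {ε : ℝ} (hε1 : ε < 1) [Nonempty ι] {u : ι → ℝ} (hu : u ∈ band ι ε) :
    u ≠ 0 ∧ ∑ i, (u i - nrm u i) ^ 2 ≤ ε ^ 2 * Fintype.card ι := by
  have hN : (0 : ℝ) < Fintype.card ι := by exact_mod_cast Fintype.card_pos
  have h1 : |∑ i, u i ^ 2 - Fintype.card ι| ≤ ε * Fintype.card ι := hu
  have h0 : u ≠ 0 := by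
    rintro rfl
    simp only [Pi.zero_apply, ne_eq, OfNat.ofNat_ne_zero, not_false_eq_true, zero_pow,
      sum_const_zero, zero_sub, abs_neg, abs_of_pos hN] at h1
    nlinarith
  refine ⟨h0, ?_⟩
  have hS := sm_pos h0
  set s := √(∑ i, u i ^ 2) with hs
  set n := √(Fintype.card ι : ℝ) with hn
  have s0 : 0 < s := sqrt_pos.2 hS
  have n0 : 0 < n := sqrt_pos.2 hN
  have s2 : s ^ 2 = ∑ i, u i ^ 2 := sq_sqrt hS.le
  have n2 : n ^ 2 = Fintype.card ι := sq_sqrt hN.le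
  have e : ∑ i, (u i - nrm u i) ^ 2 = (s - n) ^ 2 := by
    have : ∀ i, (u i - nrm u i) ^ 2 = (1 - n / s) ^ 2 * u i ^ 2 := fun i => by
      simp only [nrm, h0, if_false, ← hs, ← hn]
      ring
    simp only [this, ← mul_sum, ← s2]
    field_simp
  rw [← s2, ← n2, sq_sub_sq, abs_mul, abs_of_pos (by positivity)] at h1
  have h2 : |s - n| ≤ ε * n := by
    refine le_of_mul_le_mul_left ?_ n0
    nlinarith [abs_nonneg (s - n)]
  rw [e, ← n2, ← mul_pow, ← sq_abs]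
  exact pow_le_pow_left₀ (abs_nonneg _) h2 2

/-- the joint vector of the blocks and of the remaining coordinates -/
def sbU (σ : (β → ι → ℝ) × (ρ → ℝ)) : (β × ι) ⊕ ρ → ℝ := Sum.elim (fun p => σ.1 p.1 p.2) σ.2

/-- the good event -/
def sbA (β ι ρ : Type) [Fintype ι] (ε : ℝ) : Set ((β → ι → ℝ) × (ρ → ℝ)) :=
  (Set.univ.pi fun _ => band ι ε) ×ˢ Set.univ.pi fun _ => Set.Icc (-1) 1

theorem sb_meas : Measurable (sbU : (β → ι → ℝ) × (ρ → ℝ) → _) := by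
  refine measurable_pi_lambda _ fun i => ?_
  rcases i with p | j
  · change Measurable fun σ : (β → ι → ℝ) × (ρ → ℝ) => σ.1 p.1 p.2
    fun_prop
  · change Measurable fun σ : (β → ι → ℝ) × (ρ → ℝ) => σ.2 j
    fun_prop

theorem sb_measA (ε : ℝ) : MeasurableSet (sbA β ι ρ ε) :=
  (MeasurableSet.univ_pi fun _ => measurableSet_band ε).prod
    (MeasurableSet.univ_pi fun _ => measurableSet_Icc)

theorem sb_close [Nonempty ι] [Nonempty β] {ε : ℝ} (hε : 0 < ε) (hε1 : ε < 1)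
    (hρ : (Fintype.card ρ : ℝ) ≤ 3 * ε ^ 2 * (Fintype.card β * Fintype.card ι))
    {σ σ' : (β → ι → ℝ) × (ρ → ℝ)} (h : σ ∈ sbA β ι ρ ε) (h' : σ' ∈ sbA β ι ρ ε) :
    |ov (fun σ => nrm (sbU σ)) σ σ' - ov (fun σ : (β → ι → ℝ) × (ρ → ℝ) => blk β nrm σ.1) σ σ'| ≤
      8 * ε := by
  have hD : (0 : ℝ) < Fintype.card (β × ι) := by exact_mod_cast Fintype.card_pos
  have hN : (0 : ℝ) < Fintype.card ((β × ι) ⊕ ρ) := by exact_mod_cast Fintype.card_pos
  let U : (β → ι → ℝ) × (ρ → ℝ) → EuclideanSpace ℝ ((β × ι) ⊕ ρ) := fun σ => WithLp.toLp 2 (sbU σ)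
  let Y : (β → ι → ℝ) × (ρ → ℝ) → EuclideanSpace ℝ ((β × ι) ⊕ ρ) := fun σ =>
    WithLp.toLp 2 (Sum.elim (blk β nrm σ.1) 0)
  have hY : ∀ σ, ‖Y σ‖ = √(Fintype.card (β × ι)) := fun σ => by
    rw [← ((spin_gauss (ι := ι)).blk β).norm σ.1, EuclideanSpace.norm_eq]
    simp [Y, Fintype.sum_sum_type]
  have hY0 : ∀ σ, Y σ ≠ 0 := fun σ => norm_pos_iff.1 (by rw [hY]; exact sqrt_pos.2 hD)
  have hU0 : ∀ σ ∈ sbA β ι ρ ε, sbU σ ≠ 0 := fun σ h e => by
    obtain ⟨b⟩ := ‹Nonempty β›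
    exact (sb_band hε1 (h.1 b trivial)).1 (funext fun i => congrFun e (.inl (b, i)))
  have hU0' : ∀ σ ∈ sbA β ι ρ ε, U σ ≠ 0 := fun σ h => by simpa [U] using hU0 σ h
  have hUY : ∀ σ ∈ sbA β ι ρ ε, ‖‖U σ‖⁻¹ • U σ - ‖Y σ‖⁻¹ • Y σ‖ ≤ 4 * ε := fun σ h => by
    refine (sb_unit (hU0' σ h) (hY0 σ)).trans ?_
    have h1 : ‖U σ - Y σ‖ ≤ 2 * ε * ‖Y σ‖ := by
      refine (pow_le_pow_iff_left₀ (norm_nonneg _) (by positivity) two_ne_zero).1 ?_
      rw [hY, mul_pow, sq_sqrt hD.le, EuclideanSpace.real_norm_sq_eq, Fintype.sum_sum_type,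
        Fintype.sum_prod_type, Fintype.card_prod]
      have a1 : ∑ b, ∑ i, (σ.1 b i - nrm (σ.1 b) i) ^ 2 ≤ ∑ _ : β, ε ^ 2 * Fintype.card ι :=
        sum_le_sum fun b _ => (sb_band hε1 (h.1 b trivial)).2
      have a2 : ∑ j, (σ.2 j - 0) ^ 2 ≤ ∑ _ : ρ, (1 : ℝ) := sum_le_sum fun j _ => by
        rw [sub_zero, sq_le_one_iff_abs_le_one]
        exact abs_le.2 (h.2 j trivial)
      simp only [sum_const, card_univ, nsmul_eq_mul, mul_one] at a1 a2
      refine (add_le_add a1 a2).trans ?_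
      push_cast
      linarith
    have := (div_le_iff₀ (norm_pos_iff.2 (hY0 σ))).2 h1
    linarith
  have e1 : ov (fun σ => nrm (sbU σ)) σ σ' = inner ℝ (‖U σ‖⁻¹ • U σ) (‖U σ'‖⁻¹ • U σ') := by
    have a1 := su_inner (WithLp.toLp 2 (nrm (sbU σ))) (nrm (sbU σ'))
    rw [ov, div_eq_iff hN.ne']
    refine a1.trans ?_
    rw [sm_nrm (hU0 σ h), sm_nrm (hU0 σ' h')]
    simp only [real_inner_smul_left, real_inner_smul_right, U]
    conv_rhs => rw [← mul_self_sqrt hN.le]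
    ring
  have e2 : ov (fun σ : (β → ι → ℝ) × (ρ → ℝ) => blk β nrm σ.1) σ σ' =
      inner ℝ (‖Y σ‖⁻¹ • Y σ) (‖Y σ'‖⁻¹ • Y σ') := by
    have a1 := su_inner (Y σ) (Sum.elim (blk β nrm σ'.1) 0)
    rw [real_inner_smul_left, real_inner_smul_right, hY, hY, ← mul_assoc, ← mul_inv,
      mul_self_sqrt hD.le, ov, inv_mul_eq_div]
    congr 1
    refine Eq.trans ?_ a1
    simp [Y, Fintype.sum_sum_type]
  rw [e1, e2]
  refine (sb_ov (norm_smul_inv_norm (𝕜 := ℝ) (hU0' σ' h'))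
    (norm_smul_inv_norm (𝕜 := ℝ) (hY0 σ))).trans ?_
  exact (add_le_add (hUY σ h) (hUY σ' h')).trans (by linarith)

theorem sb_c : gaussianReal 0 1 (Set.Icc (-1) 1) ≠ 0 := fun h => by
  have := gaussianReal_absolutelyContinuous' 0 one_ne_zero h
  norm_num at this

theorem sb_prob (ε : ℝ) : ((Measure.pi fun _ : β => γ ι).prod (γ ρ)) (sbA β ι ρ ε) =
    γ ι (band ι ε) ^ Fintype.card β * gaussianReal 0 1 (Set.Icc (-1) 1) ^ Fintype.card ρ := by
  rw [sbA, Measure.prod_prod, Measure.pi_pi, Measure.pi_pi, prod_const, prod_const, card_univ,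
    card_univ]

theorem sb_fst {ε : ℝ} (h : γ ι (band ι ε) ≠ 0) : MeasurePreserving Prod.fst
    (((Measure.pi fun _ : β => γ ι).prod (γ ρ))[|sbA β ι ρ ε])
    (Measure.pi fun _ : β => (γ ι)[|band ι ε]) := by
  have := cond_isProbabilityMeasure h
  refine ⟨measurable_fst, (Measure.pi_eq fun t ht => ?_).symm⟩
  have e : sbA β ι ρ ε ∩ Prod.fst ⁻¹' Set.univ.pi t =
      (Set.univ.pi fun b => band ι ε ∩ t b) ×ˢ Set.univ.pi fun _ => Set.Icc (-1) 1 := by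
    ext σ
    simp only [sbA, Set.mem_inter_iff, Set.mem_prod, Set.mem_preimage, Set.mem_univ_pi, forall_and]
    tauto
  have hc := pow_ne_zero (Fintype.card ρ) sb_c
  have hc' := ENNReal.pow_ne_top (n := Fintype.card ρ)
    (measure_ne_top (gaussianReal 0 1) (Set.Icc (-1) 1))
  rw [Measure.map_apply measurable_fst (MeasurableSet.univ_pi ht), cond_apply (sb_measA ε), e,
    sb_prob, Measure.prod_prod, Measure.pi_pi, Measure.pi_pi, ENNReal.mul_inv (Or.inr hc')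
      (Or.inr hc), ENNReal.inv_pow]
  simp only [cond_apply (measurableSet_band ε), prod_mul_distrib, prod_const, card_univ]
  rw [mul_mul_mul_comm, ENNReal.inv_mul_cancel hc hc', mul_one]

theorem sb_EL {κ ι' : Type} [Fintype κ] [Fintype ι'] (E : (β × ι) ⊕ ρ ≃ ι') {f : ℝ → ℝ}
    (hf : Measurable f) : EL κ (γ ι') nrm f =
      EL κ ((Measure.pi fun _ : β => γ ι).prod (γ ρ)) (fun σ => nrm (sbU σ)) f := by
  have h1 := (((tl_mp_curry (gaussianReal 0 1) β ι).prod (MeasurePreserving.id (γ ρ))).comp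
    (measurePreserving_sumPiEquivProdPi fun _ : (β × ι) ⊕ ρ => gaussianReal 0 1)).comp
    (tl_mp_comp (gaussianReal 0 1) E.injective)
  have m : Measurable fun σ : (β → ι → ℝ) × (ρ → ℝ) => nrm (sbU σ) := measurable_nrm.comp sb_meas
  refine EL_congr m measurable_nrm E ?_ hf
  rw [← h1.map_eq, Measure.map_map m h1.measurable]
  congr 1
  funext u
  have e : sbU (β := β) (ι := ι) (ρ := ρ)
      ((fun b i => u (E (.inl (b, i)))), fun j => u (E (.inr j))) = fun i => u (E i) := by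
    funext i
    rcases i with p | j <;> rfl
  change _ = nrm (sbU ((fun b i => u (E (.inl (b, i)))), fun j => u (E (.inr j))))
  rw [e]
  have e2 : (fun i => u (E i)) = 0 ↔ u = 0 :=
    ⟨fun h => funext fun j => by simpa using congrFun h (E.symm j), fun h => by simp [h]; rfl⟩
  funext i
  by_cases hu : u = 0
  · simp only [nrm, if_pos hu, if_pos (e2.2 hu)]
  · simp only [nrm, e2, hu, if_false, Fintype.card_congr E, E.sum_comp fun j => u j ^ 2]

theorem sb_main [Nonempty ι] [Nonempty β] {κ ι' : Type} [Fintype κ] [DecidableEq κ] [Fintype ι']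
    (E : (β × ι) ⊕ ρ ≃ ι') {f f1 f2 : ℝ → ℝ} {K : ℝ} (hf : Nice f f1 f2 K) {ε : ℝ} (hε : 0 < ε)
    (hε1 : ε < 1) (h : γ ι (band ι ε) ≠ 0)
    (hρ : (Fintype.card ρ : ℝ) ≤ 3 * ε ^ 2 * (Fintype.card β * Fintype.card ι)) {k : ℕ}
    (hk : 0 < k) :
    YM κ k (Measure.pi fun _ : β => (γ ι)[|band ι ε]) (blk β nrm) f f1 f2 1 0 0 -
      2 * K ^ 2 * Fintype.card κ / k - K ^ 2 * (8 * ε) * Fintype.card κ +
      (Fintype.card β * log ((γ ι).real (band ι ε)) +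
        Fintype.card ρ * log ((gaussianReal 0 1).real (Set.Icc (-1) 1))) ≤ EL κ (γ ι') nrm f := by
  classical
  have m : Measurable fun σ : (β → ι → ℝ) × (ρ → ℝ) => nrm (sbU σ) := measurable_nrm.comp sb_meas
  have hA := sb_measA (β := β) (ι := ι) (ρ := ρ) ε
  have h0 : ((Measure.pi fun _ : β => γ ι).prod (γ ρ)) (sbA β ι ρ ε) ≠ 0 := by
    rw [sb_prob]
    exact mul_ne_zero (pow_ne_zero _ h) (pow_ne_zero _ sb_c)
  obtain ⟨σ0, hσ0⟩ := nonempty_of_measure_ne_zero h0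
  have hx : Spin ((Measure.pi fun _ : β => γ ι).prod (γ ρ)) fun σ => nrm (sbU σ) :=
    ⟨inferInstance, m, fun σ => nrm_sq _⟩
  have h1 := EL_cond (κ := κ) hx (tl_nice_meas hf) hf.b0 hA h0
  rw [← sb_EL E (tl_nice_meas hf), measureReal_def, sb_prob, ENNReal.toReal_mul,
    ENNReal.toReal_pow, ENNReal.toReal_pow, log_mul
      (pow_ne_zero _ (ENNReal.toReal_pos h (measure_ne_top _ _)).ne')
      (pow_ne_zero _ (ENNReal.toReal_pos sb_c (measure_ne_top _ _)).ne'), log_pow, log_pow] at h1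
  have hF := sb_fst (β := β) (ρ := ρ) h
  have hae := ae_cond_mem (μ := (Measure.pi fun _ : β => γ ι).prod (γ ρ)) hA
  have hP := cond_isProbabilityMeasure h0
  generalize ((Measure.pi fun _ : β => γ ι).prod (γ ρ))[|sbA β ι ρ ε] = ν at h1 hF hae hP
  let R : (β → ι → ℝ) × (ρ → ℝ) → (β → ι → ℝ) × (ρ → ℝ) := (sbA β ι ρ ε).piecewise id fun _ => σ0
  have mR : Measurable R := measurable_id.piecewise hA measurable_const
  have hR : ∀ σ, R σ ∈ sbA β ι ρ ε := fun σ => by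
    by_cases hσ : σ ∈ sbA β ι ρ ε
    · simp [R, hσ]
    · simpa [R, hσ]
  have hmp : MeasurePreserving R ν ν := ⟨mR, by
    rw [Measure.map_congr (g := id) (hae.mono fun σ hσ => by simp [R, hσ]), Measure.map_id]⟩
  have s1 : Spin ν fun σ => nrm (sbU σ) := ⟨hP, m, fun σ => nrm_sq _⟩
  have s2 : Spin ν fun σ => nrm (sbU (R σ)) := ⟨hP, m.comp mR, fun σ => nrm_sq _⟩
  have s3 := (spin_band h).blk β
  have s4 : Spin ν fun σ => blk β nrm (R σ).1 :=
    ⟨hP, s3.meas.comp (measurable_fst.comp mR), fun σ => s3.norm _⟩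
  have h2 := YM_le_EL (κ := κ) s1 hf hk
  have h3 := YM_equiv s1 s2 hf hk (Equiv.refl _) (Equiv.refl κ) hmp (fun _ _ => rfl) 1 0 0
  have h4 := YM_equiv s3 s4 hf hk (Equiv.refl _) (Equiv.refl κ) (hF.comp hmp) (fun _ _ => rfl) 1 0 0
  have h5 := YM_cmp (κ := κ) s2 s4 hf hk fun σ σ' => sb_close hε hε1 hρ (hR σ) (hR σ')
  rw [h3, h4] at h5
  simp only [measureReal_def]
  linarith [(abs_le.1 h5).1]

theorem sb_fin {K α η ε k d N N' r M M' c l y e e' : ℝ} (hK : 0 ≤ K) (hα : 0 ≤ α) (hη : 0 < η)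
    (hε : 0 < ε) (hε2 : ε * (40 * (K ^ 2 * α + 1)) ≤ η) (d3 : 5 ≤ d * η) (k1 : 0 < k)
    (k2 : 10 * (K ^ 2 * α) ≤ k * η) (hc0 : c ≤ 0) (n2 : 5 * (K * (α * d + 1)) ≤ N * η)
    (n3 : 5 * (d * -c) ≤ N * η) (hN' : 0 < N') (hN0 : 0 ≤ N) (eR : N' * d + r = N) (r0 : 0 ≤ r)
    (r1 : r ≤ d) (l2 : -1 ≤ l) (m1 : M' ≤ α * N) (m2 : α * (N' * d) < M' + 1) (m3 : M ≤ α * N)
    (h1 : y - 2 * K ^ 2 * M' / k - K ^ 2 * (8 * ε) * M' + (N' * l + r * c) ≤ e')
    (h2 : |e - e'| ≤ K * (M - M')) : y - η * N ≤ e := by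
  have b1 : K * (M - M') ≤ K * (α * d + 1) := by
    refine mul_le_mul_of_nonneg_left ?_ hK
    have := mul_le_mul_of_nonneg_left r1 hα
    rw [← eR] at m3
    linarith
  have b2 : 2 * K ^ 2 * M' / k ≤ η * N / 5 := by
    rw [div_le_iff₀ k1]
    linarith [mul_le_mul_of_nonneg_left m1 (sq_nonneg K), mul_le_mul_of_nonneg_left k2 hN0]
  have b3 : K ^ 2 * (8 * ε) * M' ≤ η * N / 5 := by
    linarith [mul_le_mul_of_nonneg_left m1 (by positivity : 0 ≤ K ^ 2 * ε),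
      mul_le_mul_of_nonneg_left hε2 hN0, mul_nonneg hε.le hN0]
  have b4 : -(η * N / 5) ≤ N' * l := by
    rw [← eR]
    linarith [mul_le_mul_of_nonneg_left l2 hN'.le, mul_le_mul_of_nonneg_left d3 hN'.le,
      mul_nonneg hη.le r0]
  have b5 : d * c ≤ r * c := mul_le_mul_of_nonpos_right r1 hc0
  linarith [(abs_le.1 h2).1]

/-- the sphere dominates products of smaller spheres -/
theorem sph_blk {f f1 f2 : ℝ → ℝ} {K : ℝ} (hf : Nice f f1 f2 K) {α η : ℝ} (hα : 0 ≤ α)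
    (hη : 0 < η) : ∃ ε > (0 : ℝ), ∃ d0 k0 : ℕ, ∀ d ≥ d0, γ (Fin d) (band (Fin d) ε) ≠ 0 ∧
    ∀ k ≥ k0, ∀ᶠ N : ℕ in atTop,
      YM (Fin ⌊α * (N / d * Fintype.card (Fin d) : ℕ)⌋₊) k
          (Measure.pi fun _ : Fin (N / d) => (γ (Fin d))[|band (Fin d) ε])
          (blk (Fin (N / d)) nrm) f f1 f2 1 0 0 - η * N ≤
        EL (Fin ⌊α * N⌋₊) (γ (Fin N)) nrm f := by
  have hK : 0 ≤ K := zero_le_one.trans hf.one_le
  have hA : 0 < K ^ 2 * α + 1 := by positivity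
  obtain ⟨ε, hε, hε1, hε2⟩ : ∃ ε : ℝ, 0 < ε ∧ ε ≤ 1 / 2 ∧ ε * (40 * (K ^ 2 * α + 1)) ≤ η :=
    ⟨min (1 / 2) (η / (40 * (K ^ 2 * α + 1))), lt_min (by norm_num) (by positivity),
      min_le_left _ _, (le_div_iff₀ (by positivity)).1 (min_le_right _ _)⟩
  obtain ⟨d0, hd0⟩ := exists_nat_ge (max 1 (max (4 / ε ^ 2) (5 / η)))
  obtain ⟨k0, hk0⟩ := exists_nat_ge (max 1 (10 * (K ^ 2 * α) / η))
  refine ⟨ε, hε, d0, k0, fun d hd => ?_⟩
  have hd' : (d0 : ℝ) ≤ d := by exact_mod_cast hd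
  have d1 : (1 : ℝ) ≤ d := ((le_max_left _ _).trans hd0).trans hd'
  have d2 : 4 ≤ ε ^ 2 * d := (div_le_iff₀' (by positivity)).1
    ((((le_max_left _ _).trans (le_max_right _ _)).trans hd0).trans hd')
  have d3 : 5 ≤ d * η := (div_le_iff₀ hη).1
    ((((le_max_right _ _).trans (le_max_right _ _)).trans hd0).trans hd')
  have hdp : 0 < d := by exact_mod_cast one_pos.trans_le d1
  have hb := band_prob (ι := Fin d) hε (by simpa using d2)
  have hb0 : γ (Fin d) (band (Fin d) ε) ≠ 0 := fun h => by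
    rw [measureReal_def, h] at hb
    norm_num at hb
  refine ⟨hb0, fun k hk => ?_⟩
  have hk' : (k0 : ℝ) ≤ k := by exact_mod_cast hk
  have k1 : (0 : ℝ) < k := one_pos.trans_le (((le_max_left _ _).trans hk0).trans hk')
  have k2 : 10 * (K ^ 2 * α) ≤ k * η := (div_le_iff₀ hη).1 (((le_max_right _ _).trans hk0).trans hk')
  set c := log ((gaussianReal 0 1).real (Set.Icc (-1) 1)) with hc
  have hc0 : c ≤ 0 := log_nonpos measureReal_nonneg measureReal_le_one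
  have t1 : Tendsto (fun N : ℕ => ((N / d : ℕ) : ℝ)) atTop atTop :=
    tendsto_natCast_atTop_atTop.comp (Nat.tendsto_div_const_atTop hdp.ne')
  filter_upwards [t1.eventually_ge_atTop (1 / ε ^ 2),
    tendsto_natCast_atTop_atTop.eventually_ge_atTop (5 * (K * (α * d + 1)) / η),
    tendsto_natCast_atTop_atTop.eventually_ge_atTop (5 * (d * -c) / η)] with N n1 n2 n3
  rw [div_le_iff₀ (by positivity)] at n1 n2 n3
  have hN' : (0 : ℝ) < (N / d : ℕ) := by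
    by_contra h
    linarith [mul_le_mul_of_nonneg_right (not_lt.1 h) (sq_nonneg ε)]
  have : Nonempty (Fin d) := ⟨⟨0, hdp⟩⟩
  have : Nonempty (Fin (N / d)) := ⟨⟨0, by exact_mod_cast hN'⟩⟩
  have eN : N / d * d + N % d = N := Nat.div_add_mod' N d
  have eR : ((N / d : ℕ) : ℝ) * d + (N % d : ℕ) = N := by exact_mod_cast eN
  have r0 : (0 : ℝ) ≤ (N % d : ℕ) := Nat.cast_nonneg _
  have r1 : ((N % d : ℕ) : ℝ) ≤ d := by exact_mod_cast (Nat.mod_lt N hdp).le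
  have h1 := sb_main (β := Fin (N / d)) (ι := Fin d) (ρ := Fin (N % d))
    (κ := Fin ⌊α * (N / d * Fintype.card (Fin d) : ℕ)⌋₊) (ι' := Fin N)
    (Fintype.equivFinOfCardEq (by simpa using eN)) hf hε (by linarith) hb0 (by
      simp only [Fintype.card_fin]
      linarith [mul_le_mul_of_nonneg_left n1 (by linarith : (0 : ℝ) ≤ d)]) (k := k)
    (by exact_mod_cast k1)
  have e1 : ((N / d * Fintype.card (Fin d) : ℕ) : ℝ) = (N / d : ℕ) * d := by simp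
  have a1 : α * (N / d * Fintype.card (Fin d) : ℕ) ≤ α * N :=
    mul_le_mul_of_nonneg_left (by linarith) hα
  have h2 := EL_patterns (spin_gauss (ι := Fin N)) (tl_nice_meas hf) hf.b0 (Nat.floor_mono a1)
  have m1 := (Nat.floor_le (show 0 ≤ α * (N / d * Fintype.card (Fin d) : ℕ) by positivity)).trans a1
  have m2 := Nat.lt_floor_add_one (α * (N / d * Fintype.card (Fin d) : ℕ))
  have m3 := Nat.floor_le (show 0 ≤ α * N by positivity)
  rw [Fintype.card_fin ⌊_⌋₊, Fintype.card_fin (N / d), Fintype.card_fin (N % d), ← hc] at h1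
  have l1 := log_le_log (by norm_num) hb
  rw [one_div, log_inv] at l1
  exact sb_fin hK hα hη hε hε2 d3 k1 k2 hc0 n2 n3 hN' (Nat.cast_nonneg _) eR r0 r1
    (by linarith [log_two_lt_d9]) m1 (e1 ▸ m2) m3 h1 h2

end Vale.Agent.P157
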