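import Vale.Agent.P157.SphLow

namespace Vale.Agent.P157

open MeasureTheory ProbabilityTheory Real Finset Filter Topology
open scoped ENNReal

theorem sc_abel (r : ℕ → ℝ) (n : ℕ) :
    ∑ i ∈ range n, ((i : ℝ) + 1) * (r (i + 1) - r i) = n * r n - ∑ l ∈ range n, r l := by
  induction n with
  | zero => simp
  | succ n ih =>
    rw [sum_range_succ, sum_range_succ, ih]
    push_cast
    ring

theorem sc_nonneg {r : ℕ → ℝ} (hr : AdmR r) (l : ℕ) : 0 ≤ r l := hr.1 ▸ hr.2 (Nat.zero_le l)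

theorem XS_large {k : ℕ} (hk : 0 < k) {q r : ℕ → ℝ} {ε : ℝ} (hε : 0 < ε) (hr : AdmR r)
    (hq : ∀ l < k, q l ≤ 1 - ε) (hR : (2 * k / ε) ^ 2 ≤ r (k - 1)) :
    ∃ b, 0 < dS k r b 0 ∧ XS k r b + pairing k q r ≤ 0 := by
  have hkR : (0 : ℝ) < k := by exact_mod_cast hk
  have hR0 := sc_nonneg hr (k - 1)
  set S := ∑ i ∈ Ico 0 (k - 1), ((i : ℝ) + 1) / k * (r (i + 1) - r i) with hS
  set s := √(r (k - 1)) with hs
  have hs0 : 0 ≤ s := sqrt_nonneg _
  have hs2 : s ^ 2 = r (k - 1) := sq_sqrt hR0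
  have hs3 : 2 * k / ε ≤ s := le_sqrt_of_sq_le hR
  have d0 : dS k r (S + s + 1) 0 = s + 1 := by
    rw [dS, ← hS]
    ring
  have hb : 0 < dS k r (S + s + 1) 0 := by rw [d0]; positivity
  refine ⟨S + s + 1, hb, ?_⟩
  have h1 : 0 ≤ log (S + s + 1) :=
    log_nonneg (by linarith [dS_le hk hr (S + s + 1) 0])
  have h2 : ∑ j ∈ range (k - 1), (k : ℝ) / (j + 1) *
      log (dS k r (S + s + 1) (j + 1) / dS k r (S + s + 1) j) ≤
      ∑ j ∈ range (k - 1), (r (j + 1) - r j) / (s + 1) := by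
    refine sum_le_sum fun j hj => ?_
    have hj' : j + 1 < k := by have := mem_range.1 hj; omega
    have p := dS_pos hk hr hb j
    have e := dS_succ (k := k) r (S + s + 1) j
    rw [su_ζ_eq (by omega), wS, if_pos hj'] at e
    have hv : 0 ≤ r (j + 1) - r j := sub_nonneg.2 (hr.2 (Nat.le_succ j))
    refine (mul_le_mul_of_nonneg_left (log_le_sub_one_of_pos (div_pos (dS_pos hk hr hb _) p))
      (by positivity)).trans ?_
    have e2 : (k : ℝ) / (j + 1) * (dS k r (S + s + 1) (j + 1) / dS k r (S + s + 1) j - 1) =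
        (r (j + 1) - r j) / dS k r (S + s + 1) j := by
      rw [e]
      field_simp
      ring
    rw [e2]
    exact div_le_div_of_nonneg_left hv (by positivity)
      (d0 ▸ dS_mono hk hr _ (Nat.zero_le j))
  rw [← sum_div, sum_range_sub, hr.1, sub_zero] at h2
  have h3 : r (k - 1) / (s + 1) ≤ s := (div_le_iff₀ (by positivity)).2 (by nlinarith)
  have h4 : S = r (k - 1) - (∑ l ∈ range k, r l) / k := by
    obtain ⟨k, rfl⟩ : ∃ k', k = k' + 1 := ⟨k - 1, by omega⟩
    rw [hS, Nat.add_sub_cancel, ← range_eq_Ico, sum_range_succ]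
    simp only [div_mul_eq_mul_div, ← sum_div, sc_abel]
    push_cast
    field_simp
    ring
  have h5 : ∑ l ∈ range k, q l * r l ≤ (1 - ε) * ∑ l ∈ range k, r l := by
    rw [mul_sum]
    exact sum_le_sum fun l hl => mul_le_mul_of_nonneg_right (hq l (mem_range.1 hl)) (sc_nonneg hr l)
  have h6 : r (k - 1) ≤ ∑ l ∈ range k, r l :=
    single_le_sum (fun l _ => sc_nonneg hr l) (mem_range.2 (by omega))
  have h7 : pairing k q r ≤ (1 - ε) * ((∑ l ∈ range k, r l) / k) / 2 := by
    refine (mul_le_mul_of_nonneg_left h5 (by positivity)).trans (le_of_eq ?_)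
    field_simp
  have h8 : 2 * s ≤ ε * ((∑ l ∈ range k, r l) / k) := by
    rw [div_le_iff₀ hε] at hs3
    rw [← mul_div_assoc, le_div_iff₀ hkR]
    nlinarith [mul_le_mul_of_nonneg_left hs3 hs0, mul_le_mul_of_nonneg_left h6 hε.le]
  unfold XS
  linarith

theorem sc_block {m : ℕ} (hm : 0 < m) (F : ℕ → ℝ) (k : ℕ) :
    ∑ l ∈ range (m * k), F (l / m) = m * ∑ i ∈ range k, F i := by
  induction k with
  | zero => simp
  | succ k ih =>
    have e : ∑ j ∈ range m, F ((m * k + j) / m) = ∑ j ∈ range m, F k :=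
      sum_congr rfl fun j hj => by
        rw [Nat.mul_add_div hm, Nat.div_eq_of_lt (mem_range.1 hj), add_zero]
    rw [Nat.mul_succ, sum_range_add, ih, sum_range_succ, mul_add, e]
    simp

/-- a lower bound of the spherical functional with `k` levels is a lower bound of the block
functionals with `m * k` levels -/
theorem sph_coarse {f f1 f2 : ℝ → ℝ} {K : ℝ} (hf : Nice f f1 f2 K) {α η : ℝ} (hα : 0 ≤ α)
    (hη : 0 < η) : ∃ k0 : ℕ, ∀ k ≥ k0, ∃ N0 : ℕ, ∀ (ι Cf : Type) [Fintype ι]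
    [MeasurableSpace Cf] [Nonempty Cf] (ν : Measure Cf) (x : Cf → ι → ℝ) (_ : Spin ν x)
    (_ : RotInv ν x) (_ : N0 ≤ Fintype.card ι) (V : ℝ)
    (_ : ∀ q B, AdmQ k q → BdS k q B → V ≤ α * Psi f k q + B) (m : ℕ) (_ : 0 < m) (q : ℕ → ℝ)
    (B : ℝ) (_ : AdmQ (m * k) q)
    (_ : ∀ r, AdmR r → XN (m * k) ν x r + pairing (m * k) q r ≤ B),
    V - η ≤ α * Psi f (m * k) q + B := by
  have hA : 0 < α * K ^ 2 + 1 := by positivity
  set ε := min 1 (η / (α * K ^ 2 + 1) / 2) with hεd
  have hε : 0 < ε := lt_min one_pos (by positivity)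
  have hε1 : ε ≤ 1 := min_le_left _ _
  have hε2 : ε * 2 * (α * K ^ 2 + 1) ≤ η :=
    (le_div_iff₀ hA).1 ((le_div_iff₀ two_pos).1 (min_le_right _ _))
  obtain ⟨k0, hk0⟩ := exists_nat_ge (2 * (α * K ^ 2 + 1) / η)
  refine ⟨max k0 1, fun k hk1 => ?_⟩
  have hk : 0 < k := lt_of_lt_of_le one_pos ((le_max_right _ _).trans hk1)
  have hkR : (0 : ℝ) < k := by exact_mod_cast hk
  have hk2 : 2 * (α * K ^ 2 + 1) ≤ k * η := (div_le_iff₀ hη).1
    (hk0.trans (by exact_mod_cast (le_max_left _ _).trans hk1))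
  obtain ⟨N0, hN0⟩ := sph_low k hk ((2 * k / ε) ^ 2) (η / 2) (half_pos hη)
  refine ⟨max N0 1, fun ι Cf _ _ _ ν x hx hri hN V hV m hm q B hq hB => ?_⟩
  have : Nonempty ι := Fintype.card_pos_iff.1 (lt_of_lt_of_le one_pos ((le_max_right _ _).trans hN))
  have hmR : (0 : ℝ) < m := by exact_mod_cast hm
  have hmk : 0 < m * k := Nat.mul_pos hm hk
  have hqb : AdmQ k fun i => q (m * i) :=
    ⟨hq.1, fun i j h => hq.2.1 (Nat.mul_le_mul_left m h), hq.2.2⟩
  have hq1 : ∀ i ≤ k, q (m * i) ≤ 1 := fun i hi => hq.2.2 ▸ hq.2.1 (Nat.mul_le_mul_left m hi)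
  set q' : ℕ → ℝ := fun i => if i < k then min (q (m * i)) (1 - ε) else 1 with hq'd
  have hq' : AdmQ k q' := by
    refine ⟨by simp [hq'd, hk, hq.1, hε1], fun i j h => ?_, by simp [hq'd]⟩
    simp only [hq'd]
    split_ifs with h1 h2 h2
    · exact min_le_min_right _ (hqb.2.1 h)
    · exact (min_le_right _ _).trans (by linarith)
    · omega
    · exact le_rfl
  have hB0 : 0 ≤ B := by
    have := hB 0 ⟨rfl, monotone_const⟩
    simpa [XN_zero hx hmk, pairing] using this
  have hd : ∀ l, m * (l / m) ≤ l := fun l => Nat.mul_div_le l m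
  have hBd : BdS k q' (B + η / 2) := fun r hr => by
    rcases le_total ((2 * k / ε) ^ 2) (r (k - 1)) with h | h
    · obtain ⟨b, hb, h1⟩ := XS_large hk hε hr (q := q')
        (fun l hl => by simp only [hq'd, if_pos hl]; exact min_le_right _ _) h
      exact ⟨b, hb, by linarith⟩
    · obtain ⟨b, hb, h1⟩ := hN0 ι Cf ν x hx hri ((le_max_left _ _).trans hN) r hr h
      have h2 := hB (fun l => r (l / m)) ⟨by simpa using hr.1,
        fun i j h => hr.2 (Nat.div_le_div_right h)⟩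
      rw [XN_refine hx hk hm] at h2
      have h3 : pairing k q' r ≤ pairing (m * k) q fun l => r (l / m) := by
        have a1 : ∑ l ∈ range (m * k), q' (l / m) * r (l / m) ≤
            ∑ l ∈ range (m * k), q l * r (l / m) := by
          refine sum_le_sum fun l hl => mul_le_mul_of_nonneg_right ?_ (sc_nonneg hr _)
          simp only [hq'd, if_pos (Nat.div_lt_of_lt_mul (mem_range.1 hl))]
          exact (min_le_left _ _).trans (hq.2.1 (hd l))
        rw [sc_block hm fun i => q' i * r i] at a1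
        refine le_trans (le_of_eq ?_) (mul_le_mul_of_nonneg_left a1 (by positivity))
        unfold pairing
        push_cast
        field_simp
      exact ⟨b, hb, by linarith⟩
  have h1 := hV q' _ hq' hBd
  have h2 : Psi f k q' - Psi f k (fun i => q (m * i)) ≤ ε * K ^ 2 / 2 := by
    obtain ⟨ρ, hρ, hρK, e⟩ := Psi_sub hf hk hq' hqb
    rw [e, pairing, pairing, ← mul_sub, ← sum_sub_distrib]
    have a1 : ∑ l ∈ range k, (q (m * l) * ρ l - q' l * ρ l) ≤ ∑ l ∈ range k, ε * K ^ 2 := by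
      refine sum_le_sum fun l hl => ?_
      have hl' := mem_range.1 hl
      rw [← sub_mul]
      refine mul_le_mul ?_ ((hρ.2 (by omega)).trans hρK) (sc_nonneg hρ l) hε.le
      simp only [hq'd, if_pos hl']
      rcases le_total (q (m * l)) (1 - ε) with h | h
      · rw [min_eq_left h]; linarith
      · rw [min_eq_right h]; linarith [hq1 l hl'.le]
    refine (mul_le_mul_of_nonneg_left a1 (by positivity)).trans (le_of_eq ?_)
    rw [sum_const, card_range, nsmul_eq_mul]
    field_simp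
  have h3 : Psi f k (fun i => q (m * i)) - Psi f (m * k) q ≤ K ^ 2 / (2 * k) := by
    have hp : AdmQ (m * k) fun l => q (m * (l / m)) := ⟨by simpa using hq.1,
      fun i j h => hqb.2.1 (Nat.div_le_div_right h),
      by simpa [Nat.mul_div_cancel_left k hm] using hq.2.2⟩
    obtain ⟨ρ, hρ, hρK, e⟩ := Psi_sub hf hmk hp hq
    rw [← Psi_refine f hk hm, e, pairing, pairing, ← mul_sub, ← sum_sub_distrib]
    have a1 : ∑ l ∈ range (m * k), (q l * ρ l - q (m * (l / m)) * ρ l) ≤
        ∑ l ∈ range (m * k), (q (m * (l / m + 1)) - q (m * (l / m))) * K ^ 2 := by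
      refine sum_le_sum fun l hl => ?_
      have hl' := mem_range.1 hl
      rw [← sub_mul]
      exact mul_le_mul (sub_le_sub_right (hq.2.1 (Nat.lt_mul_div_succ l hm).le) _)
        ((hρ.2 (by omega)).trans hρK) (sc_nonneg hρ l)
        (sub_nonneg.2 (hqb.2.1 (Nat.le_succ _)))
    rw [sc_block hm fun i => (q (m * (i + 1)) - q (m * i)) * K ^ 2, ← sum_mul,
      sum_range_sub fun i => q (m * i), hq.2.2, mul_zero, hq.1] at a1
    refine (mul_le_mul_of_nonneg_left a1 (by positivity)).trans (le_of_eq ?_)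
    push_cast
    field_simp
    ring
  have h4 : α * (K ^ 2 / (2 * k)) ≤ η / 4 := by
    rw [← mul_div_assoc, div_le_iff₀ (by positivity)]
    linarith
  nlinarith [mul_le_mul_of_nonneg_left h2 hα, mul_le_mul_of_nonneg_left h3 hα]

end Vale.Agent.P157
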