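import Vale.Agent.P157.Final
import Vale.Agent.P157.SphBlk
import Vale.Agent.P157.SphCoarse

namespace Vale.Agent.P157

open MeasureTheory ProbabilityTheory Real Finset Filter Topology
open scoped ENNReal

theorem ul_sphere {α : ℝ} (hα : 0 < α) {f f1 f2 : ℝ → ℝ} {K : ℝ} (hf : Nice f f1 f2 K) :
    UL (fun N => EL (Fin ⌊α * N⌋₊) (γ (Fin N)) nrm f / N) (fun k q => α * Psi f k q) BdS := by
  refine ⟨fun η hη => ?_, fun η hη => ?_⟩
  · obtain ⟨k0, hk⟩ := FinalAux.up hα hf (half_pos hη)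
    obtain ⟨N1, hN1⟩ := sph_up (α * K ^ 2 + 1) (η / 2) (half_pos hη)
    refine ⟨k0, fun k hk0 q B hq hB => ?_⟩
    obtain ⟨hk1, N0, hN⟩ := hk k hk0
    filter_upwards [eventually_ge_atTop N0, eventually_gt_atTop 0, eventually_ge_atTop N1]
      with N h1 h2 h3
    have : Nonempty (Fin N) := ⟨⟨0, h2⟩⟩
    have h4 := hN N h1 _ _ _ _ (spin_gauss (ι := Fin N)) (by simp) q hq (B + η / 2)
      fun r hr hT => by
        obtain ⟨b, hb, h5⟩ := hB r hr
        have h6 := hN1 (Fin N) _ _ _ spin_gauss rotInv_gauss (by simpa using h3) k hk1 r hr hT b hb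
        linarith
    linarith
  · have hη' : 0 < η / 4 := by positivity
    obtain ⟨ε, -, d0, k1, hb⟩ := sph_blk hf hα.le hη'
    obtain ⟨k0, hc⟩ := sph_coarse hf hα.le hη'
    refine ⟨k0 + 1, fun k hk0 V hV => ?_⟩
    obtain ⟨N0, hN0⟩ := hc k (by omega)
    obtain ⟨d, hd0, hd1, hd2⟩ : ∃ d, d0 ≤ d ∧ N0 ≤ d ∧ 0 < d := ⟨d0 + N0 + 1, by omega⟩
    have : Nonempty (Fin d) := ⟨⟨0, hd2⟩⟩
    obtain ⟨hb1, hb2⟩ := hb d hd0
    obtain ⟨k2, hl⟩ := lower (spin_band hb1) (rotInv_band ε) hf hα.le hη'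
    have hm : k1 + k2 + 1 ≤ (k1 + k2 + 1) * k := Nat.le_mul_of_pos_right _ (by omega)
    have h1 := hl ((k1 + k2 + 1) * k) (by omega) (V - η / 4) fun q B hq hB =>
      hN0 (Fin d) _ _ _ (spin_band hb1) (rotInv_band ε) (by simpa using hd1) V hV _ (by omega) q B
        hq hB
    filter_upwards [(Nat.tendsto_div_const_atTop hd2.ne').eventually h1,
      hb2 ((k1 + k2 + 1) * k) (by omega), eventually_gt_atTop 0,
      tendsto_natCast_atTop_atTop.eventually_ge_atTop (d * |V - η / 4 - η / 4| / (η / 4))]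
      with N h2 h3 h4 h5
    rw [le_div_iff₀ (Nat.cast_pos.2 h4)]
    rw [div_le_iff₀ hη'] at h5
    have h6 : ((N / d : ℕ) : ℝ) * Fintype.card (Fin d) = N - (N % d : ℕ) := by
      rw [Fintype.card_fin, eq_sub_iff_add_eq]
      exact_mod_cast Nat.div_add_mod' N d
    have h7 : ((N % d : ℕ) : ℝ) * (V - η / 4 - η / 4) ≤ d * |V - η / 4 - η / 4| :=
      (mul_le_mul_of_nonneg_left (le_abs_self _) (Nat.cast_nonneg _)).trans
        (mul_le_mul_of_nonneg_right (Nat.cast_le.2 (Nat.mod_lt N hd2).le) (abs_nonneg _))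
    rw [h6] at h2
    nlinarith

theorem sphere {α : ℝ} (hα : 0 < α) {f : ℝ → ℝ} (hf : Measurable f) {C : ℝ}
    (hC : ∀ u, |f u| ≤ C) : ∃ L : ℝ, Tendsto (meanPressure α sphereMeas f) atTop (𝓝 L) ∧
      Tendsto (parisiS α f) atTop (𝓝 (L : EReal)) := by
  obtain ⟨h1, h2⟩ := UL.of_nice hα (μ := sphereMeas) (Cf := fun N => Fin N → ℝ)
    (ν := fun N => γ (Fin N)) (x := fun N => nrm) (fun N _ => spin_gauss)
    (fun N hN => sphereMeas_eq hN) (fun f f1 f2 K hf => ul_sphere hα hf) hf hC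
  refine h1.limit h2 (fun k W hW => ?_) fun k q B hq hB => ?_
  · obtain ⟨q, hq⟩ := iInf_lt_iff.1 hW
    refine ⟨q, W - α * Psi f k q, q.2, fun r hr => ?_, by linarith⟩
    obtain ⟨b, hb⟩ := iInf_lt_iff.1 ((le_iSup (fun r : {r // AdmR r} =>
      ⨅ b : {b : ℝ // 0 < dS k r b 0},
        ((α * Psi f k q + XS k r b + pairing k q r : ℝ) : EReal)) ⟨r, hr⟩).trans_lt hq)
    have h3 := EReal.coe_lt_coe_iff.1 hb
    exact ⟨b, b.2, by linarith⟩
  · refine iInf_le_of_le ⟨q, hq⟩ (iSup_le fun r => ?_)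
    obtain ⟨b, hb, h3⟩ := hB r r.2
    exact iInf_le_of_le ⟨b, hb⟩ (EReal.coe_le_coe_iff.2 (by linarith))

end Vale.Agent.P157
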