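import Vale.Agent.P157.SphUp

namespace Vale.Agent.P157

open MeasureTheory ProbabilityTheory Real Finset Filter Topology
open scoped ENNReal

theorem sl_succ {k j : ℕ} (hj : j ∈ range (k - 1)) (r : ℕ → ℝ) (b : ℝ) :
    dS k r b (j + 1) = dS k r b j + ((j : ℝ) + 1) / k * (r (j + 1) - r j) := by
  have hj' : j + 1 < k := by have := mem_range.1 hj; omega
  rw [dS_succ, su_ζ_eq (by omega), wS, if_pos hj']

theorem sl_le_one {k j : ℕ} (hj : j ∈ range (k - 1)) : ((j : ℝ) + 1) / k ≤ 1 := by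
  rw [← su_ζ_eq (by have := mem_range.1 hj; omega)]
  exact min_le_left _ _

theorem sl_sub (k : ℕ) (r : ℕ → ℝ) (b σ : ℝ) (j : ℕ) : dS k r (b - σ) j = dS k r b j - σ := by
  unfold dS
  ring

/-- the critical multiplier -/
theorem exists_b {k : ℕ} (hk : 0 < k) {r : ℕ → ℝ} (hr : AdmR r) : ∃ b, 1 ≤ dS k r b 0 ∧
    b ≤ 2 * r (k - 1) + 3 ∧
    1 / b + ∑ j ∈ range (k - 1), (r (j + 1) - r j) / (dS k r b j * dS k r b (j + 1)) = 1 := by
  have hv : ∀ j, 0 ≤ r (j + 1) - r j := fun j => sub_nonneg.2 (hr.2 (Nat.le_succ j))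
  have hR : 0 ≤ r (k - 1) := hr.1 ▸ hr.2 (Nat.zero_le _)
  have hsum : ∑ j ∈ range (k - 1), (r (j + 1) - r j) = r (k - 1) := by
    rw [sum_range_sub, hr.1, sub_zero]
  set S := ∑ i ∈ Ico 0 (k - 1), ((i : ℝ) + 1) / k * (r (i + 1) - r i) with hS
  have d0 : ∀ b, dS k r b 0 = b - S := fun b => rfl
  have hSR : S ≤ r (k - 1) := by
    rw [hS, ← hsum, ← range_eq_Ico]
    exact sum_le_sum fun j hj => mul_le_of_le_one_left (hv j) (sl_le_one hj)
  have hp : ∀ b, 1 + S ≤ b → ∀ j, 1 ≤ dS k r b j := fun b hb j =>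
    le_trans (by rw [d0]; linarith) (dS_mono hk hr b (Nat.zero_le j))
  have hc : ContinuousOn (fun b => 1 / b + ∑ j ∈ range (k - 1),
      (r (j + 1) - r j) / (dS k r b j * dS k r b (j + 1))) (Set.Icc (1 + S) (2 * r (k - 1) + 3)) := by
    refine (continuousOn_const.div continuousOn_id fun b hb => ?_).add
      (continuousOn_finsetSum _ fun j _ => continuousOn_const.div
        (Continuous.continuousOn (by unfold dS; fun_prop)) fun b hb => ?_)
    · exact (one_pos.trans_le ((hp b hb.1 0).trans (dS_le hk hr b 0))).ne'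
    · exact (mul_pos (one_pos.trans_le (hp b hb.1 _)) (one_pos.trans_le (hp b hb.1 _))).ne'
  refine (intermediate_value_Icc' (by linarith) hc (show (1 : ℝ) ∈ _ from ⟨?_, ?_⟩)).imp
    fun b hb => ⟨hp b hb.1.1 0, hb.1.2, hb.2⟩
  · have h1 : ∀ j, r (k - 1) + 3 ≤ dS k r (2 * r (k - 1) + 3) j := fun j =>
      le_trans (by rw [d0]; linarith) (dS_mono hk hr _ (Nat.zero_le j))
    have h2 : ∑ j ∈ range (k - 1), (r (j + 1) - r j) /
        (dS k r (2 * r (k - 1) + 3) j * dS k r (2 * r (k - 1) + 3) (j + 1)) ≤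
        ∑ j ∈ range (k - 1), (r (j + 1) - r j) / ((r (k - 1) + 3) * (r (k - 1) + 3)) :=
      sum_le_sum fun j _ => div_le_div_of_nonneg_left (hv j) (by positivity)
        (mul_le_mul (h1 _) (h1 _) (by positivity) (le_trans (by positivity) (h1 _)))
    rw [← sum_div, hsum] at h2
    have h3 : r (k - 1) / ((r (k - 1) + 3) * (r (k - 1) + 3)) ≤ 1 / 2 :=
      (div_le_iff₀ (by positivity)).2 (by nlinarith)
    have h4 : 1 / (2 * r (k - 1) + 3) ≤ 1 / 2 :=
      one_div_le_one_div_of_le two_pos (by linarith)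
    linarith
  · have h1 := hp (1 + S) le_rfl
    have h2 : ∑ j ∈ range (k - 1), (1 / dS k r (1 + S) j - 1 / dS k r (1 + S) (j + 1)) ≤
        ∑ j ∈ range (k - 1), (r (j + 1) - r j) / (dS k r (1 + S) j * dS k r (1 + S) (j + 1)) := by
      refine sum_le_sum fun j hj => ?_
      have p0 := one_pos.trans_le (h1 j)
      have p1 := one_pos.trans_le (h1 (j + 1))
      rw [div_sub_div _ _ p0.ne' p1.ne']
      refine div_le_div_of_nonneg_right ?_ (mul_pos p0 p1).le
      rw [sl_succ hj]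
      linarith [mul_le_of_le_one_left (hv j) (sl_le_one hj)]
    rw [sum_range_sub' fun j => 1 / dS k r (1 + S) j, dS_top r _ le_rfl, d0, add_sub_cancel_right]
      at h2
    linarith

theorem sl_key {k : ℕ} (hk : 0 < k) {r : ℕ → ℝ} (hr : AdmR r) {b σ : ℝ} (hb : 1 ≤ dS k r b 0)
    (hS : 1 / b + ∑ j ∈ range (k - 1), (r (j + 1) - r j) / (dS k r b j * dS k r b (j + 1)) = 1)
    (hσ : σ ≤ 1 / 2) :
    (∑ j ∈ range (k - 1), (k : ℝ) / (j + 1) * log (dS k r (b - σ) (j + 1) / dS k r (b - σ) j)) -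
      log (b - σ) ≤ (∑ j ∈ range (k - 1),
        (k : ℝ) / (j + 1) * log (dS k r b (j + 1) / dS k r b j)) - log b + σ +
        2 * σ ^ 2 * (r (k - 1) + 1) := by
  have hkR : (0 : ℝ) < k := by exact_mod_cast hk
  have h1 : ∀ j, 1 ≤ dS k r b j := fun j => hb.trans (dS_mono hk hr b (Nat.zero_le j))
  have hb1 : 1 ≤ b := hb.trans (dS_le hk hr b 0)
  have key : ∀ {y z : ℝ}, 1 ≤ y → 1 ≤ z → σ / ((y - σ) * z) ≤ σ / (y * z) + 2 * σ ^ 2 := by
    intro y z hy hz
    have p : 0 < y - σ := by linarith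
    have e : σ / ((y - σ) * z) = σ / (y * z) + σ ^ 2 / (y * (y - σ) * z) := by
      field_simp
      ring
    rw [e]
    refine add_le_add le_rfl ((div_le_iff₀ (by positivity)).2 ?_)
    have a1 : 1 / 2 ≤ y * (y - σ) := by nlinarith
    have a2 : 1 / 2 ≤ y * (y - σ) * z := by nlinarith
    nlinarith [sq_nonneg σ]
  have h2 : ∑ j ∈ range (k - 1), (k : ℝ) / (j + 1) *
      log (dS k r (b - σ) (j + 1) / dS k r (b - σ) j) ≤ ∑ j ∈ range (k - 1),
      ((k : ℝ) / (j + 1) * log (dS k r b (j + 1) / dS k r b j) +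
        (σ * ((r (j + 1) - r j) / (dS k r b j * dS k r b (j + 1))) +
          2 * σ ^ 2 * (r (j + 1) - r j))) := by
    refine sum_le_sum fun j hj => ?_
    have hv : 0 ≤ r (j + 1) - r j := sub_nonneg.2 (hr.2 (Nat.le_succ j))
    have a0 := h1 j
    have a1 := h1 (j + 1)
    have p0 : 0 < dS k r b j - σ := by linarith
    have p1 : 0 < dS k r b (j + 1) - σ := by linarith
    have q0 : 0 < dS k r b j := by linarith
    have q1 : 0 < dS k r b (j + 1) := by linarith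
    have a2 := log_le_sub_one_of_pos (div_pos (div_pos p1 p0) (div_pos q1 q0))
    rw [log_div (div_pos p1 p0).ne' (div_pos q1 q0).ne'] at a2
    have a3 := mul_le_mul_of_nonneg_left a2 (by positivity : (0 : ℝ) ≤ k / (j + 1))
    have e : (k : ℝ) / (j + 1) * ((dS k r b (j + 1) - σ) / (dS k r b j - σ) /
        (dS k r b (j + 1) / dS k r b j) - 1) =
        (r (j + 1) - r j) * (σ / ((dS k r b j - σ) * dS k r b (j + 1))) := by
      have e1 : r (j + 1) - r j = k / (j + 1) * (dS k r b (j + 1) - dS k r b j) := by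
        rw [sl_succ hj]
        field_simp
        ring
      rw [e1]
      field_simp
      ring
    rw [e] at a3
    have a4 := mul_le_mul_of_nonneg_left (key a0 a1) hv
    have e2 : (r (j + 1) - r j) * (σ / (dS k r b j * dS k r b (j + 1))) =
        σ * ((r (j + 1) - r j) / (dS k r b j * dS k r b (j + 1))) := by ring
    rw [sl_sub, sl_sub]
    linarith
  rw [sum_add_distrib, sum_add_distrib, ← mul_sum, ← mul_sum, sum_range_sub, hr.1] at h2
  have p : 0 < b - σ := by linarith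
  have h3 := log_le_sub_one_of_pos (div_pos (one_pos.trans_le hb1) p)
  rw [log_div (one_pos.trans_le hb1).ne' p.ne'] at h3
  have h4 := key hb1 le_rfl
  have e : b / (b - σ) - 1 = σ / ((b - σ) * 1) := by
    field_simp
    ring
  have e2 : σ / (b * 1) = σ * (1 / b) := by ring
  have e3 := congrArg (σ * ·) hS
  simp only [mul_add] at e3
  linarith

section

variable {ι Cf : Type} [Fintype ι] [MeasurableSpace Cf] {ν : Measure Cf} {x : Cf → ι → ℝ}

theorem sl_tilt {b σ : ℝ} (hb : 0 < b - σ) (c : ℝ) (h : EuclideanSpace ℝ ι) :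
    ∫⁻ w, ENNReal.ofReal (exp ((1 - b) * ‖w‖ ^ 2 / 2 + inner ℝ h w + (σ * ‖w‖ ^ 2 / 2 + c)))
      ∂stdGaussian (EuclideanSpace ℝ ι) =
      ENNReal.ofReal (exp (‖h‖ ^ 2 / (2 * (b - σ)) + (c - Fintype.card ι * log (b - σ) / 2))) := by
  have e : ∀ w : EuclideanSpace ℝ ι,
      ENNReal.ofReal (exp ((1 - b) * ‖w‖ ^ 2 / 2 + inner ℝ h w + (σ * ‖w‖ ^ 2 / 2 + c))) =
      ENNReal.ofReal (exp c) *
        ENNReal.ofReal (exp ((1 - (b - σ)) * ‖w‖ ^ 2 / 2 + inner ℝ h w)) := fun w => by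
    rw [← ENNReal.ofReal_mul (exp_pos _).le, ← exp_add]
    congr 2
    ring
  simp only [e]
  rw [lintegral_const_mul _ (by fun_prop), lintegral_exp_quad (by linarith),
    ← ENNReal.ofReal_mul (exp_pos _).le, ← exp_add, sub_sub_cancel]
  congr 2
  ring

theorem sl_split [Nonempty ι] (hx : Spin ν x) (hr : RotInv ν x) {b τ e : ℝ} (hτ : 0 ≤ τ)
    (hb : 0 < b - τ) (h : EuclideanSpace ℝ ι) :
    ENNReal.ofReal (exp (‖h‖ ^ 2 / (2 * b) + -(Fintype.card ι * log b / 2))) ≤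
      ENNReal.ofReal (exp (Φs ν x (√(1 + e) • h) +
        Fintype.card ι * ((1 - b) / 2 + |b - 1| * e / 2))) +
      (ENNReal.ofReal (exp (‖h‖ ^ 2 / (2 * (b - τ)) +
        (-(τ * (1 + e) * Fintype.card ι / 2) - Fintype.card ι * log (b - τ) / 2))) +
      ENNReal.ofReal (exp (‖h‖ ^ 2 / (2 * (b - -τ)) +
        (τ * (1 - e) * Fintype.card ι / 2 - Fintype.card ι * log (b - -τ) / 2)))) := by
  have hN : (0 : ℝ) < Fintype.card ι := by exact_mod_cast Fintype.card_pos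
  have h0 := lintegral_exp_quad (a := 1 - b) (by linarith) h
  rw [sub_sub_cancel, sub_eq_add_neg (_ / _)] at h0
  rw [← h0, ← sl_tilt hb, ← sl_tilt (by linarith), ← lintegral_add_left (by fun_prop)]
  set N : ℝ := (Fintype.card ι : ℝ) with hNdef
  have hS : MeasurableSet {t : ℝ | |t ^ 2 - N| ≤ e * N} :=
    measurableSet_le (by fun_prop) measurable_const
  have mg : Measurable (Set.indicator {t : ℝ | |t ^ 2 - N| ≤ e * N}
      fun t => ENNReal.ofReal (exp ((1 - b) * t ^ 2 / 2))) := Measurable.indicator (by fun_prop) hS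
  have h1 := fold hx hr mg h
  have h2 : ∫⁻ w, (Set.indicator {t : ℝ | |t ^ 2 - N| ≤ e * N}
      fun t => ENNReal.ofReal (exp ((1 - b) * t ^ 2 / 2))) ‖w‖ *
        ENNReal.ofReal (exp (inner ℝ h w)) ∂stdGaussian (EuclideanSpace ℝ ι) ≤
      ENNReal.ofReal (exp (Φs ν x (√(1 + e) • h) + N * ((1 - b) / 2 + |b - 1| * e / 2))) := by
    rw [h1]
    refine (lintegral_mono fun w => ?_).trans
      ((lintegral_const _).trans (by rw [measure_univ, mul_one])).le
    by_cases hw : |‖w‖ ^ 2 - N| ≤ e * N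
    · rw [Set.indicator_of_mem (by exact hw), ← ENNReal.ofReal_mul (exp_pos _).le, ← exp_add,
        add_comm]
      refine ENNReal.ofReal_le_ofReal (exp_le_exp.2 (add_le_add (su_radial hx hr ?_) ?_))
      · rw [norm_smul, norm_smul, Real.norm_of_nonneg (sqrt_nonneg _),
          Real.norm_of_nonneg (by positivity)]
        refine mul_le_mul_of_nonneg_right ?_ (norm_nonneg _)
        rw [div_le_iff₀ (sqrt_pos.2 hN), mul_comm, ← sqrt_mul hN.le]
        refine le_sqrt_of_sq_le ?_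
        linarith [(abs_le.1 hw).2]
      · have a1 := neg_abs_le ((b - 1) * (‖w‖ ^ 2 - N))
        rw [abs_mul] at a1
        nlinarith [mul_le_mul_of_nonneg_left hw (abs_nonneg (b - 1))]
    · rw [Set.indicator_of_notMem (by exact hw), zero_mul]
      exact zero_le
  refine le_trans ?_ (add_le_add h2 le_rfl)
  rw [← lintegral_add_left (by fun_prop)]
  refine lintegral_mono fun w => ?_
  by_cases hw : |‖w‖ ^ 2 - N| ≤ e * N
  · rw [Set.indicator_of_mem (by exact hw), ← ENNReal.ofReal_mul (exp_pos _).le, ← exp_add]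
    exact le_self_add
  · refine le_add_left ?_
    rcases lt_abs.1 (not_le.1 hw) with hw | hw
    · refine le_add_right (ENNReal.ofReal_le_ofReal (exp_le_exp.2 (le_add_of_nonneg_right ?_)))
      nlinarith [mul_le_mul_of_nonneg_left hw.le hτ]
    · refine le_add_left (ENNReal.ofReal_le_ofReal (exp_le_exp.2 (le_add_of_nonneg_right ?_)))
      nlinarith [mul_le_mul_of_nonneg_left hw.le hτ]

theorem sl_XN [Nonempty ι] [Nonempty Cf] (hx : Spin ν x) {k : ℕ} (hk : 0 < k) {r : ℕ → ℝ}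
    (hr : AdmR r) {e : ℝ} (he : 0 ≤ e) :
    (FS ι (fun j => min 1 (((j : ℝ) + 1) / k)) fun j => wS Unit k r j ()).X k 0
      (fun h => Φs ν x (√(1 + e) • h)) 0 ≤
      Fintype.card ι * (XN k ν x r + (1 + e) * r (k - 1) / 2) := by
  have hN : (0 : ℝ) < Fintype.card ι := by exact_mod_cast Fintype.card_pos
  have h0 : ∀ l, 0 ≤ r l := fun l => hr.1 ▸ hr.2 (Nat.zero_le l)
  have hr' : AdmR fun l => (1 + e) * r l := ⟨by simp [hr.1],
    fun i j h => mul_le_mul_of_nonneg_left (hr.2 h) (by linarith)⟩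
  obtain ⟨t, -, ht⟩ := XN_mvt hx hk hr hr'
  have h1 : XN k ν x (fun l => (1 + e) * r l) ≤ XN k ν x r := by
    rw [← sub_nonpos, ht, neg_nonpos]
    exact mul_nonneg (by positivity) (sum_nonneg fun l _ => mul_nonneg (pS_nonneg hx hk _ _)
      (by nlinarith [h0 l]))
  have e1 : (fun j => (1 + e) * wS Unit k r j ()) =
      fun j => wS Unit k (fun l => (1 + e) * r l) j () := by
    funext j
    unfold wS
    split_ifs <;> ring
  rw [su_XN hx hk (fun l => (1 + e) * r l), sub_le_iff_le_add, div_le_iff₀' hN] at h1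
  rw [su_scale _ _ (by linarith), smul_zero, e1]
  exact h1

end

theorem sl_fin {k N b R T A e τ η G G1 G2 XX Y l0 l1 l2 : ℝ} (hk : 0 < k) (hN : 1 ≤ N)
    (hb1 : 1 ≤ b) (hbT : b ≤ 2 * R + 3) (hT : R ≤ T) (hAT : T + 1 ≤ A) (he : 0 < e)
    (he2 : e * (4 * A) ≤ η) (hτA : τ * (4 * A) = e) (n2 : 12 * k ≤ N * (τ * e))
    (n3 : 2 * k ≤ N * η) (k1 : G1 - l1 ≤ G - l0 + τ + 2 * τ ^ 2 * (R + 1))
    (k2 : G2 - l2 ≤ G - l0 + -τ + 2 * (-τ) ^ 2 * (R + 1)) (k3 : XX ≤ N * (Y + (1 + e) * R / 2))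
    (h2 : exp (1 / k * (-(N * l0 / 2) + N * (1 / 2 * G))) ≤
      exp (1 / k * (XX + N * ((1 - b) / 2 + |b - 1| * e / 2))) +
      (exp (1 / k * (-(τ * (1 + e) * N / 2) - N * l1 / 2 + N * (1 / 2 * G1))) +
      exp (1 / k * (τ * (1 - e) * N / 2 - N * l2 / 2 + N * (1 / 2 * G2))))) :
    1 / 2 * (b - 1 - l0 + G - R) ≤ Y + η := by
  have hp : 0 < 1 / k := by positivity
  have hN0 : 0 ≤ N := by linarith
  have hq : 2 * τ ^ 2 * (R + 1) ≤ τ * e / 2 := by
    have := mul_le_mul_of_nonneg_left (show R + 1 ≤ A by linarith) (sq_nonneg τ)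
    rw [← hτA]
    linarith
  have h4 : ∀ y, y ≤ -(N * l0 / 2) + N * (1 / 2 * G) - 3 * k →
      exp (1 / k * y) ≤ exp (1 / k * (-(N * l0 / 2) + N * (1 / 2 * G))) / 4 := fun y hy => by
    have a1 : 1 / k * y + 3 ≤ 1 / k * (-(N * l0 / 2) + N * (1 / 2 * G)) := by
      have := mul_le_mul_of_nonneg_left hy hp.le
      rw [mul_sub, mul_left_comm _ 3, one_div_mul_cancel hk.ne'] at this
      linarith
    have a2 := exp_le_exp.2 a1
    rw [exp_add] at a2
    have a3 := mul_le_mul_of_nonneg_left (add_one_le_exp (3 : ℝ)) (exp_pos (1 / k * y)).le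
    linarith
  rw [neg_sq] at k2
  have a1 := mul_le_mul_of_nonneg_left (k1.trans (add_le_add le_rfl hq)) hN0
  have a2 := mul_le_mul_of_nonneg_left (k2.trans (add_le_add le_rfl hq)) hN0
  have h5 := h4 (-(τ * (1 + e) * N / 2) - N * l1 / 2 + N * (1 / 2 * G1)) (by linarith)
  have h6 := h4 (τ * (1 - e) * N / 2 - N * l2 / 2 + N * (1 / 2 * G2)) (by linarith)
  have h7 : exp (1 / k * (-(N * l0 / 2) + N * (1 / 2 * G))) ≤
      exp (1 / k * (XX + N * ((1 - b) / 2 + |b - 1| * e / 2) + k)) := by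
    have a3 := mul_le_mul_of_nonneg_left (add_one_le_exp (1 : ℝ))
      (exp_pos (1 / k * (XX + N * ((1 - b) / 2 + |b - 1| * e / 2)))).le
    rw [mul_add _ _ k, one_div_mul_cancel hk.ne', exp_add]
    linarith
  have h8 := le_of_mul_le_mul_left (exp_le_exp.1 h7) hp
  rw [abs_of_nonneg (by linarith)] at h8
  refine le_of_mul_le_mul_left ?_ (one_pos.trans_le hN)
  have h9 : (b - 1) * e / 2 + e * R / 2 ≤ η / 2 := by
    have a3 := mul_le_mul_of_nonneg_left (show b - 1 + R ≤ 4 * A by linarith) he.le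
    linarith
  have a4 := mul_le_mul_of_nonneg_left h9 hN0
  linarith

theorem sph_low (k : ℕ) (hk : 0 < k) (T η : ℝ) (hη : 0 < η) : ∃ N0 : ℕ, ∀ (ι Cf : Type) [Fintype ι]
    [MeasurableSpace Cf] [Nonempty Cf] (ν : Measure Cf) (x : Cf → ι → ℝ) (_ : Spin ν x)
    (_ : RotInv ν x) (_ : N0 ≤ Fintype.card ι) (r : ℕ → ℝ) (_ : AdmR r) (_ : r (k - 1) ≤ T),
    ∃ b, 0 < dS k r b 0 ∧ XS k r b ≤ XN k ν x r + η := by
  have hkR : (0 : ℝ) < k := by exact_mod_cast hk
  have hk1 : (1 : ℝ) ≤ k := by exact_mod_cast hk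
  obtain ⟨A, hA1, hAT⟩ : ∃ A : ℝ, 1 ≤ A ∧ T + 1 ≤ A := ⟨_, le_max_left _ _, le_max_right _ _⟩
  obtain ⟨e, he, he1, he2⟩ : ∃ e : ℝ, 0 < e ∧ e ≤ 1 ∧ e * (4 * A) ≤ η :=
    ⟨min 1 (η / (4 * A)), lt_min one_pos (by positivity), min_le_left _ _,
      (le_div_iff₀ (by positivity)).1 (min_le_right _ _)⟩
  obtain ⟨τ, hτ, hτA⟩ : ∃ τ : ℝ, 0 < τ ∧ τ * (4 * A) = e := ⟨e / (4 * A), by positivity, by field_simp⟩
  have hτ1 : τ ≤ 1 / 2 := by nlinarith
  obtain ⟨N0, hN0⟩ := exists_nat_ge (max 1 (max (12 * k / (τ * e)) (2 * k / η)))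
  refine ⟨N0, fun ι Cf _ _ _ ν x hx hri hN r hr hT => ?_⟩
  have hN' : (N0 : ℝ) ≤ Fintype.card ι := by exact_mod_cast hN
  have n1 : (1 : ℝ) ≤ Fintype.card ι := ((le_max_left _ _).trans hN0).trans hN'
  have n2 : 12 * k ≤ Fintype.card ι * (τ * e) := (div_le_iff₀ (by positivity)).1
    ((((le_max_left _ _).trans (le_max_right _ _)).trans hN0).trans hN')
  have n3 : 2 * k ≤ Fintype.card ι * η := (div_le_iff₀ hη).1
    ((((le_max_right _ _).trans (le_max_right _ _)).trans hN0).trans hN')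
  have : Nonempty ι := Fintype.card_pos_iff.1 (by exact_mod_cast one_pos.trans_le n1)
  obtain ⟨b, hb, hbT, hS⟩ := exists_b hk hr
  have hb1 : 1 ≤ b := hb.trans (dS_le hk hr b 0)
  have hR : 0 ≤ r (k - 1) := hr.1 ▸ hr.2 (Nat.zero_le _)
  refine ⟨b, one_pos.trans_le hb, ?_⟩
  have hY := fs_ok ι (su_ζ_pos hk) fun j => wS Unit k r j ()
  have hL : (FS ι (fun j => min 1 (((j : ℝ) + 1) / k)) fun j => wS Unit k r j ()).Lin
      fun h => Φs ν x (√(1 + e) • h) := by
    refine ⟨(lin_Φs hx 0 0).1.comp (by fun_prop), √(Fintype.card ι) * √(1 + e), fun h =>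
      (abs_Φs_le hx _).trans ?_⟩
    rw [norm_smul, Real.norm_of_nonneg (sqrt_nonneg _), mul_assoc]
    exact mul_le_mul_of_nonneg_left (mul_le_mul_of_nonneg_left
      (le_add_of_nonneg_left zero_le_one) (sqrt_nonneg _)) (sqrt_nonneg _)
  have hp : (0 : ℝ) < 1 / k := by positivity
  have hp1 : (1 : ℝ) / k ≤ 1 := (div_le_one hkR).2 hk1
  have hpζ : ∀ j : ℕ, (1 : ℝ) / k ≤ min 1 (((j : ℝ) + 1) / k) := fun j =>
    le_min hp1 (div_le_div_of_nonneg_right (le_add_of_nonneg_left (Nat.cast_nonneg j)) hkR.le)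
  have h1 := ENNReal.rpow_le_rpow (suW_mono (v := fun j => wS Unit k r j ()) (su_ζ_pos hk)
    (sl_split hx hri (e := e) hτ.le (show 0 < b - τ by linarith)) k 0 0) hp.le
  have h2 := (h1.trans (suW_add (su_ζ_pos hk) hp hp1 hpζ
    (hL.add (Sys.Lin.const hY _)).1.exp.ennreal_ofReal (by fun_prop) k 0 0)).trans
    (add_le_add le_rfl (suW_add (su_ζ_pos hk) hp hp1 hpζ (by fun_prop) (by fun_prop) k 0 0))
  rw [suW_dS hk hr (one_pos.trans_le hb), suW_dS hk hr (by rw [sl_sub]; linarith),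
    suW_dS hk hr (by rw [sl_sub]; linarith), suW_X (su_ζ_pos hk) (hL.add (Sys.Lin.const hY _)),
    Sys.X_add_const hY hL, su_rpow, su_rpow, su_rpow, su_rpow,
    ← ENNReal.ofReal_add (exp_pos _).le (exp_pos _).le,
    ← ENNReal.ofReal_add (exp_pos _).le (by positivity),
    ENNReal.ofReal_le_ofReal_iff (by positivity)] at h2
  exact sl_fin hkR n1 hb1 hbT hT hAT he he2 hτA n2 n3 (sl_key hk hr hb hS hτ1)
    (sl_key hk hr hb hS (σ := -τ) (by linarith)) (sl_XN hx hk hr he.le) h2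

end Vale.Agent.P157
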