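import Vale.Agent.P157.SphUp

namespace Vale.Agent.P157

open MeasureTheory ProbabilityTheory Real Finset Filter Topology
open scoped ENNReal

/-- radial projection onto the sphere of squared radius `card ι` -/
noncomputable def nrm {ι : Type} [Fintype ι] (u : ι → ℝ) : ι → ℝ :=
  open Classical in
  if u = 0 then fun _ => 1 else fun i => √(Fintype.card ι) / √(∑ i, u i ^ 2) * u i

/-- the band of approximately normalised vectors -/
def band (ι : Type) [Fintype ι] (ε : ℝ) : Set (ι → ℝ) :=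
  {u | |∑ i, u i ^ 2 - Fintype.card ι| ≤ ε * Fintype.card ι}

variable {ι : Type} [Fintype ι]

theorem measurable_nrm : Measurable (nrm : (ι → ℝ) → ι → ℝ) := by
  unfold nrm
  exact Measurable.ite (measurableSet_singleton (0 : ι → ℝ)) measurable_const (by fun_prop)

theorem sm_pos {u : ι → ℝ} (hu : u ≠ 0) : 0 < ∑ i, u i ^ 2 := by
  obtain ⟨i, hi⟩ := Function.ne_iff.1 hu
  exact sum_pos' (fun _ _ => sq_nonneg _) ⟨i, mem_univ _, sq_pos_of_ne_zero hi⟩

theorem nrm_sq (u : ι → ℝ) : ∑ i, nrm u i ^ 2 = Fintype.card ι := by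
  unfold nrm
  split_ifs with hu
  · simp
  · have h := sm_pos hu
    simp only [mul_pow, ← mul_sum, div_pow, sq_sqrt h.le, sq_sqrt (Nat.cast_nonneg _)]
    exact div_mul_cancel₀ _ h.ne'

theorem measurableSet_band (ε : ℝ) : MeasurableSet (band ι ε) :=
  measurableSet_le (by fun_prop) measurable_const

theorem band_prob {ε : ℝ} (hε : 0 < ε) (h : 4 ≤ ε ^ 2 * Fintype.card ι) :
    1 / 2 ≤ (γ ι).real (band ι ε) := by
  have h1 := su_shell (ι := ι) hε
  have h2 := probReal_compl_eq_one_sub (μ := γ ι) (measurableSet_band ε)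
  have h3 : (γ ι).real (band ι ε)ᶜ ≤
      (γ ι).real {u | ε * Fintype.card ι ≤ |∑ i, u i ^ 2 - Fintype.card ι|} :=
    measureReal_mono fun u hu => by
      have h4 : ¬|∑ i, u i ^ 2 - Fintype.card ι| ≤ ε * Fintype.card ι := hu
      exact le_of_not_ge h4
  nlinarith [measureReal_nonneg (μ := γ ι)
    (s := {u | ε * Fintype.card ι ≤ |∑ i, u i ^ 2 - Fintype.card ι|})]

theorem spin_gauss : Spin (γ ι) (nrm : (ι → ℝ) → ι → ℝ) :=
  ⟨inferInstance, measurable_nrm, nrm_sq⟩

theorem sm_sq (u : ι → ℝ) :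
    ∑ i, u i ^ 2 = ‖(WithLp.toLp 2 u : EuclideanSpace ℝ ι)‖ ^ 2 := by
  rw [EuclideanSpace.real_norm_sq_eq]

theorem sm_nrm {u : ι → ℝ} (hu : u ≠ 0) : (WithLp.toLp 2 (nrm u) : EuclideanSpace ℝ ι) =
    (√(Fintype.card ι) / ‖(WithLp.toLp 2 u : EuclideanSpace ℝ ι)‖) • WithLp.toLp 2 u := by
  ext i
  simp [nrm, hu, sm_sq]

theorem sm_mp (L : EuclideanSpace ℝ ι ≃ₗᵢ[ℝ] EuclideanSpace ℝ ι) :
    MeasurePreserving (fun u : ι → ℝ => (L (WithLp.toLp 2 u)).ofLp) (γ ι) (γ ι) := by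
  have h1 : MeasurePreserving (WithLp.toLp 2) (γ ι) (stdGaussian (EuclideanSpace ℝ ι)) :=
    ⟨WithLp.measurable_toLp 2 _, map_pi_eq_stdGaussian⟩
  have h2 : MeasurePreserving L (stdGaussian (EuclideanSpace ℝ ι))
    (stdGaussian (EuclideanSpace ℝ ι)) := ⟨L.continuous.measurable, stdGaussian_map L⟩
  have h3 : MeasurePreserving WithLp.ofLp (stdGaussian (EuclideanSpace ℝ ι)) (γ ι) :=
    MeasurePreserving.symm (MeasurableEquiv.toLp 2 (ι → ℝ)) h1
  exact h3.comp (h2.comp h1)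

theorem sm_rot {μ : Measure (ι → ℝ)} (h0 : μ {0} = 0)
    (h : ∀ L : EuclideanSpace ℝ ι ≃ₗᵢ[ℝ] EuclideanSpace ℝ ι,
      MeasurePreserving (fun u : ι → ℝ => (L (WithLp.toLp 2 u)).ofLp) μ μ) :
    RotInv μ (nrm : (ι → ℝ) → ι → ℝ) := fun L => by
  have m : Measurable fun u : ι → ℝ => (WithLp.toLp 2 (nrm u) : EuclideanSpace ℝ ι) :=
    (WithLp.measurable_toLp 2 _).comp measurable_nrm
  conv_rhs => rw [← (h L).map_eq, Measure.map_map m (h L).measurable]
  refine Measure.map_congr ?_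
  filter_upwards [measure_eq_zero_iff_ae_notMem.1 h0] with u hu
  have hu' : u ≠ 0 := hu
  have h1 : (L (WithLp.toLp 2 u)).ofLp ≠ 0 := by simpa using hu'
  simp only [Function.comp_apply]
  rw [sm_nrm hu', sm_nrm h1, map_smul, WithLp.toLp_ofLp, L.norm_map]

theorem sm_zero [Nonempty ι] : γ ι {0} = 0 := by
  have := nullSingletonClass_gaussianReal (μ := 0) (v := 1) one_ne_zero
  rw [← Set.univ_pi_singleton, Measure.pi_pi]
  simp

theorem rotInv_gauss [Nonempty ι] : RotInv (γ ι) (nrm : (ι → ℝ) → ι → ℝ) :=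
  sm_rot sm_zero sm_mp

theorem spin_band {ε : ℝ} (h : γ ι (band ι ε) ≠ 0) :
    Spin ((γ ι)[|band ι ε]) (nrm : (ι → ℝ) → ι → ℝ) :=
  ⟨cond_isProbabilityMeasure h, measurable_nrm, nrm_sq⟩

theorem rotInv_band [Nonempty ι] (ε : ℝ) :
    RotInv ((γ ι)[|band ι ε]) (nrm : (ι → ℝ) → ι → ℝ) := by
  refine sm_rot (cond_absolutelyContinuous sm_zero) fun L => ?_
  have h := (sm_mp L).restrict_preimage (measurableSet_band ε)
  have e : (fun u : ι → ℝ => (L (WithLp.toLp 2 u)).ofLp) ⁻¹' band ι ε = band ι ε := by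
    ext u
    simp [band, sm_sq]
  rw [e] at h
  exact h.smul_measure _

theorem sm_char [Nonempty ι] {Cf Cf' : Type} [MeasurableSpace Cf] [MeasurableSpace Cf']
    {ν : Measure Cf} {ν' : Measure Cf'} {x : Cf → ι → ℝ} {x' : Cf' → ι → ℝ} (hx : Spin ν x)
    (hx' : Spin ν' x') (hr : RotInv ν x) (t : EuclideanSpace ℝ ι) :
    charFun (ν.map fun σ => (WithLp.toLp 2 (x σ) : EuclideanSpace ℝ ι)) t =
      ∫ σ', ∫ σ, Complex.exp ((‖t‖ / √(Fintype.card ι) *
        inner ℝ (WithLp.toLp 2 (x σ) : EuclideanSpace ℝ ι) (WithLp.toLp 2 (x' σ')) : ℝ) *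
          Complex.I) ∂ν ∂ν' := by
  have := hx'.prob
  have hN : (0 : ℝ) < √(Fintype.card ι) := sqrt_pos.2 (by exact_mod_cast Fintype.card_pos)
  have hrad : ∀ t t' : EuclideanSpace ℝ ι, ‖t‖ = ‖t'‖ →
      charFun (ν.map fun σ => (WithLp.toLp 2 (x σ) : EuclideanSpace ℝ ι)) t' =
      charFun (ν.map fun σ => (WithLp.toLp 2 (x σ) : EuclideanSpace ℝ ι)) t := fun t t' e => by
    obtain ⟨L, rfl⟩ := su_iso e
    conv_lhs => rw [← hr L]
    rw [charFun_apply, charFun_apply, integral_map (su_meas hx).aemeasurable (by fun_prop),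
      integral_map (φ := fun σ => L (WithLp.toLp 2 (x σ)))
        (L.continuous.measurable.comp (su_meas hx)).aemeasurable (by fun_prop)]
    simp only [LinearIsometryEquiv.inner_map_map]
  have e : ∀ σ', ∫ σ, Complex.exp ((‖t‖ / √(Fintype.card ι) *
        inner ℝ (WithLp.toLp 2 (x σ) : EuclideanSpace ℝ ι) (WithLp.toLp 2 (x' σ')) : ℝ) *
          Complex.I) ∂ν =
      charFun (ν.map fun σ => (WithLp.toLp 2 (x σ) : EuclideanSpace ℝ ι)) t := fun σ' => by
    rw [hrad ((‖t‖ / √(Fintype.card ι)) • WithLp.toLp 2 (x' σ')) t (by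
      rw [norm_smul, su_norm hx', Real.norm_of_nonneg (by positivity), div_mul_cancel₀ _ hN.ne']),
      charFun_apply, integral_map (su_meas hx).aemeasurable (by fun_prop)]
    simp only [real_inner_smul_right]
  simp only [e]
  simp

/-- uniqueness of the rotation invariant law -/
theorem rotInv_unique [Nonempty ι] {Cf Cf' : Type} [MeasurableSpace Cf] [MeasurableSpace Cf']
    {ν : Measure Cf} {ν' : Measure Cf'} {x : Cf → ι → ℝ} {x' : Cf' → ι → ℝ} (hx : Spin ν x)
    (hx' : Spin ν' x') (hr : RotInv ν x) (hr' : RotInv ν' x') : ν.map x = ν'.map x' := by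
  have := hx.prob
  have := hx'.prob
  have h : (ν.map fun σ => (WithLp.toLp 2 (x σ) : EuclideanSpace ℝ ι)) =
      ν'.map fun σ => (WithLp.toLp 2 (x' σ) : EuclideanSpace ℝ ι) := by
    refine Measure.ext_of_charFun (funext fun t => ?_)
    have m := hx.meas
    have m' := hx'.meas
    rw [sm_char hx hx' hr, sm_char hx' hx hr', integral_integral_swap]
    · simp only [real_inner_comm]
    · exact (integrable_const (1 : ℝ)).mono' (Measurable.aestronglyMeasurable (by fun_prop))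
        (ae_of_all _ fun p => (Complex.norm_exp_ofReal_mul_I _).le)
  have h2 := congrArg (Measure.map (WithLp.ofLp : EuclideanSpace ℝ ι → ι → ℝ)) h
  rw [Measure.map_map (WithLp.measurable_ofLp 2 _) (su_meas hx),
    Measure.map_map (WithLp.measurable_ofLp 2 _) (su_meas hx')] at h2
  exact h2

open scoped Pointwise in
theorem sm_sphere {E : Type} [NormedAddCommGroup E] [InnerProductSpace ℝ E]
    [FiniteDimensional ℝ E] [MeasurableSpace E] [BorelSpace E] (L : E ≃ₗᵢ[ℝ] E) :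
    MeasurePreserving (fun u : Metric.sphere (0 : E) 1 =>
      (⟨L u.1, by simp⟩ : Metric.sphere (0 : E) 1))
      (volume : Measure E).toSphere (volume : Measure E).toSphere := by
  have m : Measurable fun u : Metric.sphere (0 : E) 1 =>
      (⟨L u.1, by simp⟩ : Metric.sphere (0 : E) 1) :=
    (L.continuous.measurable.comp measurable_subtype_coe).subtype_mk
  refine ⟨m, Measure.ext fun s hs => ?_⟩
  rw [Measure.map_apply m hs, Measure.toSphere_apply' _ hs, Measure.toSphere_apply' _ (m hs),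
    ← L.measurePreserving.measure_preimage_emb L.toHomeomorph.measurableEmbedding
      (Set.Ioo (0 : ℝ) 1 • (Subtype.val '' s))]
  congr 2
  ext z
  simp only [Set.mem_preimage, Set.mem_smul, Set.mem_image]
  constructor
  · rintro ⟨t, ht, _, ⟨u, hu, rfl⟩, rfl⟩
    exact ⟨t, ht, _, ⟨_, hu, rfl⟩, (map_smul L t u.1).symm⟩
  · rintro ⟨t, ht, _, ⟨u, hu, rfl⟩, e⟩
    refine ⟨t, ht, _, ⟨⟨L.symm u.1, by simp⟩, by simpa using hu, rfl⟩, ?_⟩
    rw [← map_smul, e, L.symm_apply_apply]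

theorem sphereMeas_eq {N : ℕ} (hN : 0 < N) : sphereMeas N = (γ (Fin N)).map nrm := by
  have : Nonempty (Fin N) := ⟨⟨0, hN⟩⟩
  have m : Measurable fun (u : Metric.sphere (0 : EuclideanSpace ℝ (Fin N)) 1) (i : Fin N) =>
      √(N : ℝ) * u.1 i := by fun_prop
  refine rotInv_unique ⟨⟨?_⟩, m, fun u => ?_⟩ spin_gauss (fun L => ?_) rotInv_gauss
  · rw [Measure.smul_apply, smul_eq_mul]
    exact ENNReal.inv_mul_cancel (Measure.measure_univ_ne_zero.2 (Measure.toSphere_ne_zero _))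
      (measure_ne_top _ _)
  · have h : ‖u.1‖ = 1 := by simp
    simp only [mul_pow, ← mul_sum, ← EuclideanSpace.real_norm_sq_eq, h]
    simp
  · have h := (sm_sphere L).smul_measure
      ((volume : Measure (EuclideanSpace ℝ (Fin N))).toSphere Set.univ)⁻¹
    have m2 : Measurable fun u : Metric.sphere (0 : EuclideanSpace ℝ (Fin N)) 1 =>
        (WithLp.toLp 2 fun i => √(N : ℝ) * u.1 i : EuclideanSpace ℝ (Fin N)) :=
      (WithLp.measurable_toLp 2 _).comp m
    conv_rhs => rw [← h.map_eq, Measure.map_map m2 h.measurable]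
    congr 1
    funext u
    exact map_smul L (√(N : ℝ)) u.1

end Vale.Agent.P157
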