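import Vale.Agent.P157.Grad
import Vale.Agent.P157.SphB

namespace Vale.Agent.P157

open MeasureTheory ProbabilityTheory Real Finset Filter Topology
open scoped ENNReal

/-- the recursion below a quadratic terminal function -/
theorem X_le_quad {ι : Type} [Fintype ι] {k : ℕ} (hk : 0 < k) {r : ℕ → ℝ} (hr : AdmR r) {b c : ℝ}
    (hb : 0 < dS k r b 0) {Φ : EuclideanSpace ℝ ι → ℝ}
    (hΦ : (FS ι (fun j => min 1 (((j : ℝ) + 1) / k)) fun j => wS Unit k r j ()).Lin Φ)
    (hle : ∀ h, Φ h ≤ ‖h‖ ^ 2 / (2 * b) + c) :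
    (FS ι (fun j => min 1 (((j : ℝ) + 1) / k)) fun j => wS Unit k r j ()).X k 0 Φ 0 ≤
      c + Fintype.card ι * ((1 / 2) * ∑ j ∈ range (k - 1),
        (k : ℝ) / (j + 1) * log (dS k r b (j + 1) / dS k r b j)) := by
  have h := suW_mono (ι := ι) (v := fun j => wS Unit k r j ()) (su_ζ_pos hk)
    (fun h => ENNReal.ofReal_le_ofReal (exp_le_exp.2 (hle h))) k 0 0
  rw [suW_X (su_ζ_pos hk) hΦ, suW_dS hk hr hb] at h
  exact exp_le_exp.1 ((ENNReal.ofReal_le_ofReal_iff (exp_pos _).le).1 h)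

section

variable {ι Cf : Type} [Fintype ι] [MeasurableSpace Cf] {ν : Measure Cf} {x : Cf → ι → ℝ}

theorem su_half {ε : ℝ} (hε : 0 < ε) (h : 4 ≤ ε ^ 2 * Fintype.card ι) : ENNReal.ofReal (1 / 2) ≤
    stdGaussian (EuclideanSpace ℝ ι) {w | |‖w‖ ^ 2 - Fintype.card ι| < ε * Fintype.card ι} := by
  have h1 := gauss_shell (ι := ι) hε
  have hm : MeasurableSet {w : EuclideanSpace ℝ ι |
      ε * Fintype.card ι ≤ |‖w‖ ^ 2 - Fintype.card ι|} :=
    measurableSet_le measurable_const (by fun_prop)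
  have h2 := probReal_compl_eq_one_sub (μ := stdGaussian (EuclideanSpace ℝ ι)) hm
  rw [Set.compl_ofPred] at h2
  simp only [not_le] at h2
  refine ENNReal.ofReal_le_of_le_toReal ?_
  rw [← measureReal_def, h2]
  nlinarith [measureReal_nonneg (μ := stdGaussian (EuclideanSpace ℝ ι))
    (s := {w : EuclideanSpace ℝ ι | ε * Fintype.card ι ≤ |‖w‖ ^ 2 - Fintype.card ι|})]

theorem su_Φs_le [Nonempty ι] (hx : Spin ν x) (hr : RotInv ν x) {ε β : ℝ} (hε : 0 < ε)
    (h4 : 4 ≤ ε ^ 2 * Fintype.card ι) (hβ : 0 < β) (h : EuclideanSpace ℝ ι) :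
    Φs ν x (√(1 - ε) • h) ≤ ‖h‖ ^ 2 / (2 * β) + (Fintype.card ι *
      ((β - 1 - log β) / 2 + |β - 1| * ε / 2) + log 2) := by
  have hN : (0 : ℝ) < Fintype.card ι := by exact_mod_cast Fintype.card_pos
  set N : ℝ := (Fintype.card ι : ℝ) with hNdef
  have hS : MeasurableSet {t : ℝ | |t ^ 2 - N| < ε * N} :=
    measurableSet_lt (by fun_prop) measurable_const
  have hS' : MeasurableSet {w : EuclideanSpace ℝ ι | |‖w‖ ^ 2 - N| < ε * N} :=
    measurableSet_lt (by fun_prop) measurable_const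
  have h1 := fold hx hr (g := Set.indicator {t : ℝ | |t ^ 2 - N| < ε * N}
    fun t => ENNReal.ofReal (exp ((1 - β) * t ^ 2 / 2)))
    (Measurable.indicator (by fun_prop) hS) h
  have h2 := lintegral_exp_quad (a := 1 - β) (by linarith) h
  set A := (1 - β) * N / 2 - |β - 1| * ε * N / 2 + Φs ν x (√(1 - ε) • h) with hA
  have h3 : ENNReal.ofReal (exp A) * ENNReal.ofReal (1 / 2) ≤
      ENNReal.ofReal (exp (‖h‖ ^ 2 / (2 * (1 - (1 - β))) - N * log (1 - (1 - β)) / 2)) := by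
    refine (mul_le_mul_right (su_half hε h4) _).trans ?_
    rw [← h2, ← lintegral_indicator_const hS']
    refine le_trans (lintegral_mono fun w => ?_) (h1.symm.le.trans (lintegral_mono fun w => ?_))
    · by_cases hw : |‖w‖ ^ 2 - N| < ε * N
      · rw [Set.indicator_of_mem (by exact hw), Set.indicator_of_mem (by exact hw),
          ← ENNReal.ofReal_mul (exp_pos _).le, ← exp_add]
        refine ENNReal.ofReal_le_ofReal (exp_le_exp.2 (add_le_add ?_ (su_radial hx hr ?_)))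
        · have a1 := le_abs_self ((β - 1) * (‖w‖ ^ 2 - N))
          rw [abs_mul] at a1
          nlinarith [mul_le_mul_of_nonneg_left hw.le (abs_nonneg (β - 1))]
        · rw [norm_smul, norm_smul, Real.norm_of_nonneg (sqrt_nonneg _),
            Real.norm_of_nonneg (by positivity)]
          refine mul_le_mul_of_nonneg_right ?_ (norm_nonneg _)
          rw [le_div_iff₀ (sqrt_pos.2 hN), mul_comm, ← sqrt_mul hN.le]
          refine sqrt_le_iff.2 ⟨norm_nonneg _, ?_⟩
          linarith [(abs_lt.1 hw).1]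
      · rw [Set.indicator_of_notMem (by exact hw)]
        exact zero_le
    · rw [exp_add, ENNReal.ofReal_mul (exp_pos _).le]
      exact mul_le_mul_left (Set.indicator_le_self _ _ _) _
  rw [← ENNReal.ofReal_mul (exp_pos _).le, ENNReal.ofReal_le_ofReal_iff (exp_pos _).le,
    sub_sub_cancel] at h3
  have h5 := log_le_log (by positivity) h3
  rw [log_mul (exp_pos _).ne' (by norm_num), log_exp, log_exp, one_div, log_inv] at h5
  linarith

theorem su_XN [Nonempty Cf] (hx : Spin ν x) {k : ℕ} (hk : 0 < k) (r : ℕ → ℝ) :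
    XN k ν x r = (FS ι (fun j => min 1 (((j : ℝ) + 1) / k)) fun j => wS Unit k r j ()).X k 0
      (Φs ν x) 0 / Fintype.card ι - r (k - 1) / 2 := by
  rw [XN, ← Yv_Sp hx hk]
  rfl

end

theorem su_G_nonneg {k : ℕ} (hk : 0 < k) {r : ℕ → ℝ} (hr : AdmR r) {b : ℝ}
    (hb : 0 < dS k r b 0) : 0 ≤ ∑ j ∈ range (k - 1),
      (k : ℝ) / (j + 1) * log (dS k r b (j + 1) / dS k r b j) :=
  sum_nonneg fun j _ => mul_nonneg (by positivity)
    (log_nonneg ((one_le_div (dS_pos hk hr hb j)).2 (dS_mono hk hr b (Nat.le_succ j))))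

theorem sph_up (T η : ℝ) (hη : 0 < η) : ∃ N0 : ℕ, ∀ (ι Cf : Type) [Fintype ι] [MeasurableSpace Cf]
    [Nonempty Cf] (ν : Measure Cf) (x : Cf → ι → ℝ) (_ : Spin ν x) (_ : RotInv ν x)
    (_ : N0 ≤ Fintype.card ι) (k : ℕ) (_ : 0 < k) (r : ℕ → ℝ) (_ : AdmR r) (_ : r (k - 1) ≤ T)
    (b : ℝ) (_ : 0 < dS k r b 0), XN k ν x r ≤ XS k r b + η := by
  set B := 2 * (|T| + 1) with hB
  have hB0 : 0 < B := by positivity
  set ε := min (1 / 2) (η / (2 * (2 * B + 1))) with hεd
  have hε : 0 < ε := lt_min (by norm_num) (by positivity)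
  have hε1 : ε ≤ 1 / 2 := min_le_left _ _
  have hε2 : ε * (2 * (2 * B + 1)) ≤ η := (le_div_iff₀ (by positivity)).1 (min_le_right _ _)
  obtain ⟨N0, hN0⟩ := exists_nat_ge (max 1 (max (4 / ε ^ 2) (2 / η)))
  refine ⟨N0, fun ι Cf _ _ _ ν x hx hri hN k hk r hr hT b hb => ?_⟩
  have hN' : (N0 : ℝ) ≤ Fintype.card ι := by exact_mod_cast hN
  have n1 : (1 : ℝ) ≤ Fintype.card ι := ((le_max_left _ _).trans hN0).trans hN'
  have n2 : 4 / ε ^ 2 ≤ Fintype.card ι :=
    (((le_max_left _ _).trans (le_max_right _ _)).trans hN0).trans hN'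
  have n3 : 2 / η ≤ Fintype.card ι :=
    (((le_max_right _ _).trans (le_max_right _ _)).trans hN0).trans hN'
  have : Nonempty ι := Fintype.card_pos_iff.1 (by exact_mod_cast one_pos.trans_le n1)
  have hb0 : 0 < b := hb.trans_le (dS_le hk hr b 0)
  have hG := su_G_nonneg hk hr hb
  rcases le_total B b with hBb | hBb
  · have h1 := XN_nonpos hx hk hr
    have h2 := log_le_sub_one_of_pos (half_pos hb0)
    rw [log_div hb0.ne' two_ne_zero] at h2
    have h3 := log_two_lt_d9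
    have h4 := le_abs_self T
    unfold XS
    linarith
  have h1ε : 0 < 1 - ε := by linarith
  have hβ : 0 < b / (1 - ε) := div_pos hb0 h1ε
  have h1 := X_le_quad hk hr hb (lin_Φs hx _ _) (c := Fintype.card ι *
      ((b / (1 - ε) - 1 - log (b / (1 - ε))) / 2 + |b / (1 - ε) - 1| * ε / 2) + log 2) fun h => by
    have h2 := su_Φs_le hx hri hε (by rwa [div_le_iff₀' (by positivity)] at n2) hβ
      ((√(1 - ε))⁻¹ • h)
    rw [smul_smul, mul_inv_cancel₀ (sqrt_pos.2 h1ε).ne', one_smul, norm_smul, mul_pow,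
      Real.norm_eq_abs, sq_abs, inv_pow, sq_sqrt h1ε.le] at h2
    refine h2.trans (le_of_eq ?_)
    congr 1
    field_simp
  rw [su_XN hx hk, XS]
  have hN0' : (0 : ℝ) < Fintype.card ι := by linarith
  have h2 := div_le_div_of_nonneg_right h1 hN0'.le
  rw [add_div, add_div, mul_div_cancel_left₀ _ hN0'.ne', mul_div_cancel_left₀ _ hN0'.ne'] at h2
  have h3 : log 2 / Fintype.card ι ≤ η / 2 := by
    rw [div_le_iff₀ hη] at n3
    rw [div_le_iff₀ hN0']
    linarith [log_two_lt_d9]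
  have h4 : log b ≤ log (b / (1 - ε)) := log_le_log hb0 ((le_div_iff₀ h1ε).2 (by nlinarith))
  have h5 : b / (1 - ε) ≤ 2 * B := (div_le_iff₀ h1ε).2 (by nlinarith)
  have h6 : b / (1 - ε) - b = ε * (b / (1 - ε)) := by
    field_simp
    ring
  have h7 : |b / (1 - ε) - 1| ≤ 2 * B + 1 := abs_le.2 ⟨by linarith, by linarith⟩
  nlinarith [mul_le_mul_of_nonneg_left h5 hε.le, mul_le_mul_of_nonneg_left h7 hε.le]

end Vale.Agent.P157
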