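import Mathlib

/-! Statement level definitions for the Gaussian perceptron free energy. -/

namespace Vale.Agent.P157

open MeasureTheory ProbabilityTheory Real Finset

noncomputable section

/-- One step of the Parisi recursion: `ζ⁻¹ log E exp (ζ Φ (x + √v z))`, `z` standard Gaussian. -/
def stp (ζ v : ℝ) (Φ : ℝ → ℝ) (x : ℝ) : ℝ :=
  ζ⁻¹ * Real.log (∫ z, Real.exp (ζ * Φ (x + √v * z)) ∂gaussianReal 0 1)

/-- Parisi recursion with terminal function `Φ`: `casc k q Φ n j` applies the levels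
`j, …, j + n - 1`; level `i` has exponent (i + 1) / k and variance `q (i + 1) - q i`. -/
def casc (k : ℕ) (q : ℕ → ℝ) (Φ : ℝ → ℝ) : ℕ → ℕ → ℝ → ℝ
  | 0, _ => Φ
  | n + 1, j => stp (((j : ℝ) + 1) / k) (q (j + 1) - q j) (casc k q Φ n (j + 1))

/-- Pattern functional. -/
def Psi (f : ℝ → ℝ) (k : ℕ) (q : ℕ → ℝ) : ℝ := casc k q f k 0 0

/-- Ising single site functional. -/
def XI (k : ℕ) (r : ℕ → ℝ) : ℝ :=
  casc k r (fun x => Real.log (Real.cosh x)) (k - 1) 0 0 - r (k - 1) / 2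

/-- The coupling term. -/
def pairing (k : ℕ) (q r : ℕ → ℝ) : ℝ := (1 / (2 * (k : ℝ))) * ∑ l ∈ range k, q l * r l

/-- Overlap paths `0 = q 0 ≤ q 1 ≤ ⋯ ≤ q k = 1`. -/
def AdmQ (k : ℕ) (q : ℕ → ℝ) : Prop := q 0 = 0 ∧ Monotone q ∧ q k = 1

/-- Field paths `0 = r 0 ≤ r 1 ≤ ⋯`. -/
def AdmR (r : ℕ → ℝ) : Prop := r 0 = 0 ∧ Monotone r

/-- The `k` level variational value for the Ising cube. -/
def parisiI (α : ℝ) (f : ℝ → ℝ) (k : ℕ) : EReal :=
  ⨅ q : {q // AdmQ k q}, ⨆ r : {r // AdmR r},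
    ((α * Psi f k q + XI k r + pairing k q r : ℝ) : EReal)

/-- `b - ∑_{j ≤ i < k - 1} ((i + 1) / k) (r (i + 1) - r i)`. -/
def dS (k : ℕ) (r : ℕ → ℝ) (b : ℝ) (j : ℕ) : ℝ :=
  b - ∑ i ∈ Ico j (k - 1), ((i : ℝ) + 1) / k * (r (i + 1) - r i)

/-- Spherical single site functional with Lagrange multiplier `b`. -/
def XS (k : ℕ) (r : ℕ → ℝ) (b : ℝ) : ℝ :=
  (1 / 2) * (b - 1 - Real.log b +
    ∑ j ∈ range (k - 1), (k : ℝ) / (j + 1) * Real.log (dS k r b (j + 1) / dS k r b j) - r (k - 1))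

/-- The `k` level variational value for the sphere. -/
def parisiS (α : ℝ) (f : ℝ → ℝ) (k : ℕ) : EReal :=
  ⨅ q : {q // AdmQ k q}, ⨆ r : {r // AdmR r}, ⨅ b : {b : ℝ // 0 < dS k r b 0},
    ((α * Psi f k q + XS k r b + pairing k q r : ℝ) : EReal)

/-- Law of `M` independent standard Gaussian vectors in `ℝ^N`. -/
def gaussMat (M N : ℕ) : Measure (Fin M → Fin N → ℝ) :=
  Measure.pi fun _ => Measure.pi fun _ => gaussianReal 0 1

/-- The pressure `p_N(f)` for the patterns `g` and the prior `μ`. -/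
def pressure (M N : ℕ) (μ : Measure (Fin N → ℝ)) (f : ℝ → ℝ) (g : Fin M → Fin N → ℝ) : ℝ :=
  (1 / (N : ℝ)) * Real.log (∫ x, Real.exp (∑ a, f ((∑ i, g a i * x i) / √(N : ℝ))) ∂μ)

/-- Uniform probability measure on `{-1, 1}^N`. -/
def isingMeas (N : ℕ) : Measure (Fin N → ℝ) :=
  (uniformOn (Set.univ : Set (Fin N → Bool))).map fun σ i => if σ i then 1 else -1

/-- Normalised surface measure on the sphere `‖x‖² = N`. -/
def sphereMeas (N : ℕ) : Measure (Fin N → ℝ) :=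
  (((volume : Measure (EuclideanSpace ℝ (Fin N))).toSphere Set.univ)⁻¹ •
      (volume : Measure (EuclideanSpace ℝ (Fin N))).toSphere).map
    fun (u : Metric.sphere (0 : EuclideanSpace ℝ (Fin N)) 1) (i : Fin N) => √(N : ℝ) * u.1 i

/-- The expected pressure with `M = ⌊α N⌋` patterns. -/
def meanPressure (α : ℝ) (μ : (N : ℕ) → Measure (Fin N → ℝ)) (f : ℝ → ℝ) (N : ℕ) : ℝ :=
  ∫ g, pressure ⌊α * N⌋₊ N (μ N) f g ∂gaussMat ⌊α * N⌋₊ N

end

end Vale.Agent.P157
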