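import Vale.Agent.P157.Core2A

/-! Measure preserving maps between finite products, bounded differences. -/

namespace Vale.Agent.P157

open MeasureTheory ProbabilityTheory Real Finset Filter Topology
open scoped ENNReal

variable {E : Type*} [MeasurableSpace E] (μ : Measure E) [IsProbabilityMeasure μ]

theorem tl_mp_comp {I I' : Type*} [Fintype I] [Fintype I'] {e : I → I'}
    (he : Function.Injective e) : MeasurePreserving (fun (v : I' → E) i => v (e i))
      (Measure.pi fun _ => μ) (Measure.pi fun _ => μ) := by
  refine ⟨by fun_prop, ?_⟩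
  have h := (iIndepFun_pi (μ := fun _ : I' => μ) (X := fun _ => id)
    fun _ => aemeasurable_id).precomp he
  have h2 := h.map_fun_eq_pi_map fun i => (measurable_pi_apply (e i)).aemeasurable
  refine h2.trans ?_
  congr 1
  funext i
  exact (measurePreserving_eval (fun _ : I' => μ) (e i)).map_eq

theorem tl_mp_curry (κ ι : Type*) [Fintype κ] [Fintype ι] :
    MeasurePreserving (fun (v : κ × ι → E) a i => v (a, i))
      (Measure.pi fun _ => μ) (Measure.pi fun _ => Measure.pi fun _ => μ) := by
  refine ⟨by fun_prop, ?_⟩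
  have h := Measure.infinitePi_map_curry (fun (_ : κ) (_ : ι) => μ)
  simp only [Measure.infinitePi_eq_pi] at h
  exact h

theorem tl_mp_update {κ : Type*} [Fintype κ] [DecidableEq κ] (a : κ) :
    MeasurePreserving (fun p : (κ → E) × E => Function.update p.1 a p.2)
      ((Measure.pi fun _ => μ).prod μ) (Measure.pi fun _ => μ) := by
  refine ⟨measurable_update', (Measure.pi_eq fun s hs => ?_).symm⟩
  rw [Measure.map_apply measurable_update' (MeasurableSet.univ_pi hs)]
  have : (fun p : (κ → E) × E => Function.update p.1 a p.2) ⁻¹' Set.univ.pi s =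
      (Set.univ.pi (Function.update s a Set.univ)) ×ˢ s a := by
    ext ⟨g, e⟩
    simp only [Set.mem_preimage, Set.mem_pi, Set.mem_univ, true_imp_iff, Set.mem_prod]
    constructor
    · intro h
      refine ⟨fun i => ?_, by simpa using h a⟩
      by_cases hi : i = a
      · subst hi; simp
      · simpa [Function.update_of_ne hi] using h i
    · rintro ⟨h1, h2⟩ i
      by_cases hi : i = a
      · subst hi; simpa using h2
      · simpa [Function.update_of_ne hi] using h1 i
  rw [this, Measure.prod_prod, Measure.pi_pi, ← Finset.prod_erase_mul _ _ (mem_univ a),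
    ← Finset.prod_erase_mul _ (fun i => μ (s i)) (mem_univ a)]
  simp only [Function.update_self, measure_univ, mul_one]
  congr 1
  exact Finset.prod_congr rfl fun i hi => by rw [Function.update_of_ne (ne_of_mem_erase hi)]

omit [MeasurableSpace E] in
theorem tl_bdd {κ : Type*} [Fintype κ] [DecidableEq κ] {Z : (κ → E) → ℝ} {c : κ → ℝ}
    (h : ∀ g a e, |Z (Function.update g a e) - Z g| ≤ c a) (g g' : κ → E) :
    |Z g - Z g'| ≤ ∑ a, c a := by
  have key : ∀ s : Finset κ, ∀ g : κ → E, (∀ a ∉ s, g a = g' a) → |Z g - Z g'| ≤ ∑ a ∈ s, c a := by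
    intro s
    induction s using Finset.induction_on with
    | empty =>
      intro g hg
      have : g = g' := funext fun a => hg a (by simp)
      simp [this]
    | insert a s ha ih =>
      intro g hg
      have h1 := ih (Function.update g a (g' a)) fun b hb => by
        by_cases hba : b = a
        · subst hba; simp
        · rw [Function.update_of_ne hba]; exact hg b (by simp [hba, hb])
      have h2 := h g a (g' a)
      rw [sum_insert ha]
      have h3 := abs_sub_le (Z g) (Z (Function.update g a (g' a))) (Z g')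
      rw [abs_sub_comm] at h2
      linarith
  exact key univ g fun a ha => absurd (mem_univ a) ha

theorem tl_hoeffding {X : E → ℝ} (hX : Measurable X) {c : ℝ} (h : ∀ e e', |X e - X e'| ≤ c)
    (t : ℝ) : ∫ e, exp (t * X e) ∂μ ≤ exp (t * (∫ e, X e ∂μ) + t ^ 2 * c ^ 2 / 2) := by
  obtain ⟨e0⟩ := nonempty_of_isProbabilityMeasure μ
  have hc : 0 ≤ c := (abs_nonneg _).trans (h e0 e0)
  have h1 := (hasSubgaussianMGF_of_mem_Icc (μ := μ) (a := X e0 - c) (b := X e0 + c)
    hX.aemeasurable (ae_of_all _ fun e => by
      have := abs_le.1 (h e e0); constructor <;> linarith [this.1, this.2])).mgf_le t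
  have e1 : (((‖X e0 + c - (X e0 - c)‖₊ / 2) ^ 2 : NNReal) : ℝ) = c ^ 2 := by
    have : X e0 + c - (X e0 - c) = 2 * c := by ring
    rw [this]
    push_cast
    rw [Real.norm_eq_abs, abs_of_nonneg (by positivity)]
    ring
  rw [e1, mgf] at h1
  have e2 : ∫ e, exp (t * X e) ∂μ =
      exp (t * ∫ e, X e ∂μ) * ∫ e, exp (t * (X e - ∫ e, X e ∂μ)) ∂μ := by
    rw [← integral_const_mul]
    refine integral_congr_ae (ae_of_all _ fun e => ?_)
    simp only [← exp_add]
    congr 1
    ring
  rw [e2, exp_add]
  refine mul_le_mul_of_nonneg_left (h1.trans (le_of_eq ?_)) (exp_pos _).le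
  congr 1
  ring

theorem tl_int_bdd {α : Type*} [MeasurableSpace α] {ρ : Measure α} [IsFiniteMeasure ρ]
    {Z : α → ℝ} (hZ : Measurable Z) {B : ℝ} (h : ∀ g, |Z g| ≤ B) : Integrable Z ρ :=
  (integrable_const B).mono' hZ.aestronglyMeasurable (ae_of_all _ h)

theorem tl_int_exp {α : Type*} [MeasurableSpace α] {ρ : Measure α} [IsFiniteMeasure ρ]
    {Z : α → ℝ} (hZ : Measurable Z) {B : ℝ} (h : ∀ g, |Z g| ≤ B) (t : ℝ) :
    Integrable (fun g => exp (t * Z g)) ρ :=
  tl_int_bdd (hZ.const_mul t).exp (B := exp (|t| * B)) fun g => by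
    rw [abs_of_pos (exp_pos _)]
    refine exp_le_exp.2 ((le_abs_self _).trans ?_)
    rw [abs_mul]
    exact mul_le_mul_of_nonneg_left (h g) (abs_nonneg t)

theorem tl_abs_int_le {α : Type*} [MeasurableSpace α] {ρ : Measure α} [IsProbabilityMeasure ρ]
    {Z : α → ℝ} {B : ℝ} (h : ∀ g, |Z g| ≤ B) : |∫ g, Z g ∂ρ| ≤ B := by
  simpa using norm_integral_le_of_norm_le_const (μ := ρ) (f := Z) (C := B) (ae_of_all _ h)

theorem tl_mcd {κ : Type*} [Fintype κ] [DecidableEq κ] (c t : ℝ) (s : Finset κ) :
    ∀ Z : (κ → E) → ℝ, Measurable Z →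
      (∀ g a e, |Z (Function.update g a e) - Z g| ≤ if a ∈ s then c else 0) →
      ∫ g, exp (t * Z g) ∂(Measure.pi fun _ : κ => μ) ≤
        exp (t * (∫ g, Z g ∂(Measure.pi fun _ : κ => μ)) + t ^ 2 * c ^ 2 * s.card / 2) := by
  obtain ⟨e0⟩ := nonempty_of_isProbabilityMeasure μ
  induction s using Finset.induction_on with
  | empty =>
    intro Z hZ h
    have h1 : Z = fun _ => Z fun _ => e0 := funext fun g => by
      have := tl_bdd h g fun _ => e0
      simp only [notMem_empty, if_false, sum_const_zero, abs_nonpos_iff] at this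
      linarith
    rw [h1]
    simp
  | insert a s ha ih =>
    intro Z hZ h
    obtain ⟨B, hB⟩ : ∃ B, ∀ g, |Z g| ≤ B := by
      refine ⟨|Z fun _ => e0| + ∑ b, if b ∈ insert a s then c else 0, fun g => ?_⟩
      have h1 := tl_bdd h g fun _ => e0
      have h2 := abs_add_le (Z g - Z fun _ => e0) (Z fun _ => e0)
      rw [sub_add_cancel] at h2
      linarith
    have hmp := tl_mp_update μ a
    have hZu : Measurable fun p : (κ → E) × E => Z (Function.update p.1 a p.2) :=
      hZ.comp measurable_update'
    set Z' : (κ → E) → ℝ := fun g => ∫ e, Z (Function.update g a e) ∂μ with hZ'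
    have mZ' : Measurable Z' := hZu.stronglyMeasurable.integral_prod_right'.measurable
    have hi : ∀ g, Integrable (fun e => Z (Function.update g a e)) μ := fun g =>
      tl_int_bdd (hZ.comp (measurable_update g)) fun e => hB _
    have h' : ∀ g b e, |Z' (Function.update g b e) - Z' g| ≤ if b ∈ s then c else 0 := by
      intro g b e
      by_cases hb : b = a
      · subst hb
        simp [hZ', ha]
      · simp only [hZ']
        rw [← integral_sub (hi _) (hi _)]
        refine tl_abs_int_le fun e' => ?_
        rw [Function.update_comm hb]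
        simpa [hb] using h (Function.update g a e') b e
    have e1 : ∫ g, Z g ∂(Measure.pi fun _ : κ => μ) = ∫ g, Z' g ∂(Measure.pi fun _ : κ => μ) := by
      rw [← hmp.map_eq, integral_map hmp.measurable.aemeasurable hZ.aestronglyMeasurable,
        integral_prod _ (tl_int_bdd hZu fun p => hB _), hmp.map_eq]
    have hB' : ∀ g, |Z' g| ≤ B := fun g => tl_abs_int_le fun e => hB _
    calc ∫ g, exp (t * Z g) ∂(Measure.pi fun _ : κ => μ)
        = ∫ g, ∫ e, exp (t * Z (Function.update g a e)) ∂μ ∂(Measure.pi fun _ : κ => μ) := by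
          conv_lhs => rw [← hmp.map_eq]
          rw [integral_map hmp.measurable.aemeasurable
            (hZ.const_mul t).exp.aestronglyMeasurable,
            integral_prod _ (tl_int_exp hZu (fun p => hB _) t)]
      _ ≤ ∫ g, exp (t * Z' g) * exp (t ^ 2 * c ^ 2 / 2) ∂(Measure.pi fun _ : κ => μ) := by
          refine integral_mono_of_nonneg (ae_of_all _ fun g => integral_nonneg fun e =>
            (exp_pos _).le) ((tl_int_exp mZ' hB' t).mul_const _) (ae_of_all _ fun g => ?_)
          simp only [← exp_add]
          refine tl_hoeffding μ (hZ.comp (measurable_update g)) (fun e e' => ?_) t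
          simpa using h (Function.update g a e') a e
      _ ≤ _ := by
          rw [integral_mul_const, e1, card_insert_of_notMem ha]
          refine (mul_le_mul_of_nonneg_right (ih Z' mZ' h') (exp_pos _).le).trans (le_of_eq ?_)
          rw [← exp_add]
          congr 1
          push_cast
          ring

end Vale.Agent.P157
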